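import Mathlib

/-!
# Alternating sums over permutations (rows A1 - A4)
-/

namespace Vale.Agent.P184.PN

open scoped BigOperators

variable {X : Type*}

/-- the alternating sum of `Φ` over all reorderings of `f` -/
noncomputable def AS {n : ℕ} (Φ : (Fin n → X) → ℝ) (f : Fin n → X) : ℝ :=
  ∑ σ : Equiv.Perm (Fin n), ((Equiv.Perm.sign σ : ℤ) : ℝ) * Φ (f ∘ σ)

/-- (A1) -/
lemma AS_add {n : ℕ} (Φ Ψ : (Fin n → X) → ℝ) (f : Fin n → X) :
    AS (fun q => Φ q + Ψ q) f = AS Φ f + AS Ψ f := by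
  unfold AS
  rw [← Finset.sum_add_distrib]
  exact Finset.sum_congr rfl fun σ _ => mul_add _ _ _

/-- (A1) -/
lemma AS_smul {n : ℕ} (c : ℝ) (Φ : (Fin n → X) → ℝ) (f : Fin n → X) :
    AS (fun q => c * Φ q) f = c * AS Φ f := by
  unfold AS
  rw [Finset.mul_sum]
  exact Finset.sum_congr rfl fun σ _ => mul_left_comm _ _ _

/-- (A1) -/
lemma AS_sum {n : ℕ} {κ : Type*} (s : Finset κ) (Φ : κ → (Fin n → X) → ℝ) (f : Fin n → X) :
    AS (fun q => ∑ i ∈ s, Φ i q) f = ∑ i ∈ s, AS (Φ i) f := by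
  unfold AS
  rw [Finset.sum_comm]
  exact Finset.sum_congr rfl fun σ _ => Finset.mul_sum _ _ _

private lemma sign_sq_real {n : ℕ} (ρ : Equiv.Perm (Fin n)) :
    ((Equiv.Perm.sign ρ : ℤ) : ℝ) * ((Equiv.Perm.sign ρ : ℤ) : ℝ) = 1 := by
  rcases Int.units_eq_one_or (Equiv.Perm.sign ρ) with h | h <;> simp [h]

/-- (A1) reindexing: substitute `σ ↦ σ * ρ⁻¹` (`Equiv.sum_comp (Equiv.mulRight ρ)`,
`Equiv.Perm.sign_mul`) -/
lemma AS_reindex {n : ℕ} (Φ : (Fin n → X) → ℝ) (ρ : Equiv.Perm (Fin n)) (f : Fin n → X) :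
    AS (fun q => Φ (q ∘ ρ)) f = ((Equiv.Perm.sign ρ : ℤ) : ℝ) * AS Φ f := by
  unfold AS
  rw [Finset.mul_sum]
  conv_rhs => rw [← Equiv.sum_comp (Equiv.mulRight ρ)]
  refine Finset.sum_congr rfl fun σ _ => ?_
  beta_reduce
  have h1 : (f ∘ σ) ∘ ρ = f ∘ ⇑((Equiv.mulRight ρ) σ) := by
    funext c
    simp
  rw [h1]
  have h2 : ((Equiv.Perm.sign ((Equiv.mulRight ρ) σ) : ℤ) : ℝ) =
      ((Equiv.Perm.sign σ : ℤ) : ℝ) * ((Equiv.Perm.sign ρ : ℤ) : ℝ) := by
    simp [Equiv.Perm.sign_mul]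
  rw [h2]
  have h3 := sign_sq_real ρ
  linear_combination (-(((Equiv.Perm.sign σ : ℤ) : ℝ) * Φ (f ∘ ⇑((Equiv.mulRight ρ) σ)))) * h3

/-- (A1) if `Φ` does not change under the exchange of two coordinates then `AS Φ = 0`
(`AS_reindex` with `ρ = Equiv.swap a b`, `Equiv.Perm.sign_swap`) -/
lemma AS_kill {n : ℕ} (Φ : (Fin n → X) → ℝ) (a b : Fin n) (hab : a ≠ b)
    (h : ∀ q, Φ (q ∘ Equiv.swap a b) = Φ q) (f : Fin n → X) : AS Φ f = 0 := by
  have h1 := AS_reindex Φ (Equiv.swap a b) f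
  have h2 : (fun q : Fin n → X => Φ (q ∘ Equiv.swap a b)) = Φ := funext h
  rw [h2, Equiv.Perm.sign_swap hab] at h1
  simp only [Units.val_neg, Units.val_one, Int.cast_neg, Int.cast_one] at h1
  linarith

/-- (A1) two equal entries: substitute `σ ↦ Equiv.swap a b * σ`; `f ∘ Equiv.swap a b = f` -/
lemma AS_eq_entries {n : ℕ} (Φ : (Fin n → X) → ℝ) (f : Fin n → X) (a b : Fin n) (hab : a ≠ b)
    (h : f a = f b) : AS Φ f = 0 := by
  have hf : f ∘ Equiv.swap a b = f := by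
    funext c
    simp only [Function.comp_apply]
    rcases eq_or_ne c a with rfl | hca
    · rw [Equiv.swap_apply_left, h]
    · rcases eq_or_ne c b with rfl | hcb
      · rw [Equiv.swap_apply_right, h]
      · rw [Equiv.swap_apply_of_ne_of_ne hca hcb]
  have key : AS Φ f = - AS Φ f := by
    unfold AS
    rw [← Finset.sum_neg_distrib, ← Equiv.sum_comp (Equiv.mulLeft (Equiv.swap a b))]
    refine Finset.sum_congr rfl fun σ _ => ?_
    have h1 : f ∘ ⇑((Equiv.mulLeft (Equiv.swap a b)) σ) = f ∘ σ := by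
      conv_rhs => rw [← hf]
      funext c
      simp
    rw [h1]
    have h2 : ((Equiv.Perm.sign ((Equiv.mulLeft (Equiv.swap a b)) σ) : ℤ) : ℝ) =
        - ((Equiv.Perm.sign σ : ℤ) : ℝ) := by
      simp [Equiv.Perm.sign_mul, Equiv.Perm.sign_swap hab]
    rw [h2]
    ring
  linarith

/-- (A1) -/
lemma AS_comp {n : ℕ} {Z : Type*} (Φ : (Fin n → X) → ℝ) (g : Z → X) (f : Fin n → Z) :
    AS Φ (g ∘ f) = AS (fun q : Fin n → Z => Φ (g ∘ q)) f := by
  rfl

private def succPerm {n : ℕ} (p : Fin (n + 1) × Equiv.Perm (Fin n)) : Equiv.Perm (Fin (n + 1)) :=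
  p.1.cycleRange.symm * Equiv.Perm.decomposeFin.symm (0, p.2)

private lemma succPerm_zero {n : ℕ} (p : Fin (n + 1) × Equiv.Perm (Fin n)) :
    succPerm p 0 = p.1 := by
  simp [succPerm, Fin.cycleRange_symm_zero]

private lemma succPerm_succ {n : ℕ} (p : Fin (n + 1) × Equiv.Perm (Fin n)) (c : Fin n) :
    succPerm p c.succ = p.1.succAbove (p.2 c) := by
  simp [succPerm, Fin.cycleRange_symm_succ]

private lemma succPerm_sign {n : ℕ} (p : Fin (n + 1) × Equiv.Perm (Fin n)) :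
    ((Equiv.Perm.sign (succPerm p) : ℤ) : ℝ) =
      (-1 : ℝ) ^ (p.1 : ℕ) * ((Equiv.Perm.sign p.2 : ℤ) : ℝ) := by
  simp [succPerm, Equiv.Perm.sign_mul, Equiv.Perm.sign_symm, Fin.sign_cycleRange,
    Equiv.Perm.decomposeFin.symm_sign]

private lemma succPerm_bij {n : ℕ} :
    Function.Bijective (succPerm : Fin (n + 1) × Equiv.Perm (Fin n) → Equiv.Perm (Fin (n + 1))) := by
  rw [Fintype.bijective_iff_injective_and_card]
  constructor
  · rintro ⟨l, τ⟩ ⟨l', τ'⟩ h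
    have h0 : l = l' := by
      have := congrArg (fun σ : Equiv.Perm (Fin (n + 1)) => σ 0) h
      simpa [succPerm_zero] using this
    subst h0
    have h1 : τ = τ' := by
      ext c
      have := congrArg (fun σ : Equiv.Perm (Fin (n + 1)) => σ c.succ) h
      simp only [succPerm_succ] at this
      exact congrArg Fin.val (Fin.succAbove_right_injective this)
    rw [h1]
  · simp [Fintype.card_perm, Nat.factorial_succ]

/-- (A2) Decomposition of the permutations `σ` of `Fin (n+1)` according to `l = σ 0`.  The map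
` (l, τ) ↦ σ = l.cycleRange.symm * Equiv.Perm.decomposeFin.symm (0, τ)` is a bijection
`Fin (n+1) × Perm (Fin n) ≃ Perm (Fin (n+1))`, with `σ 0 = l`, `σ c.succ = l.succAbove (τ c)`
(`Fin.cycleRange_symm_zero`, `Fin.cycleRange_symm_succ`), and sign ` (-1)^l * sign τ`
(`Fin.sign_cycleRange`, `Equiv.Perm.decomposeFin.symm_sign`).
Alternatively: by `AS_comp` one may assume `X = Fin (n+1)`, `f = id`; write
`Φ q = ∑ w, Φ w * ∏ c, if q c = w c then 1 else 0`; for such products both sides are determinants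
(`Matrix.det_apply'`) and the claim is `Matrix.det_succ_column_zero` for the matrix with first column
`1` and the other columns `if r = w c then 1 else 0`. -/
lemma AS_succ {n : ℕ} (Φ : (Fin n → X) → ℝ) (f : Fin (n + 1) → X) :
    AS (fun q : Fin (n + 1) → X => Φ (q ∘ Fin.succ)) f =
      ∑ l : Fin (n + 1), (-1 : ℝ) ^ (l : ℕ) * AS Φ (f ∘ l.succAbove) := by
  unfold AS
  rw [← Function.Bijective.sum_comp succPerm_bij, Fintype.sum_prod_type]
  refine Finset.sum_congr rfl fun l _ => ?_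
  rw [Finset.mul_sum]
  refine Finset.sum_congr rfl fun τ _ => ?_
  rw [succPerm_sign]
  beta_reduce
  have h1 : (f ∘ ⇑(succPerm (l, τ))) ∘ Fin.succ = (f ∘ l.succAbove) ∘ τ := by
    funext c
    simp only [Function.comp_apply, succPerm_succ]
  rw [h1]
  ring

/-- (A3) `q ∘ i.succAbove = (q ∘ i.cycleRange.symm) ∘ Fin.succ` (`Fin.cycleRange_symm_succ`);
`AS_reindex`, `Fin.sign_cycleRange`, `Equiv.Perm.sign_symm`. -/
lemma AS_face {n : ℕ} (Φ : (Fin n → X) → ℝ) (i : Fin (n + 1)) (f : Fin (n + 1) → X) :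
    AS (fun q : Fin (n + 1) → X => Φ (q ∘ i.succAbove)) f =
      (-1 : ℝ) ^ (i : ℕ) * AS (fun q : Fin (n + 1) → X => Φ (q ∘ Fin.succ)) f := by
  have h1 : ∀ q : Fin (n + 1) → X, q ∘ i.succAbove = (q ∘ i.cycleRange.symm) ∘ Fin.succ := by
    intro q
    funext c
    simp only [Function.comp_apply, Fin.cycleRange_symm_succ]
  have h2 : (fun q : Fin (n + 1) → X => Φ (q ∘ i.succAbove)) =
      fun q => (fun q' : Fin (n + 1) → X => Φ (q' ∘ Fin.succ)) (q ∘ i.cycleRange.symm) := by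
    funext q
    rw [h1]
  rw [h2, AS_reindex (fun q' : Fin (n + 1) → X => Φ (q' ∘ Fin.succ)) i.cycleRange.symm f,
    Equiv.Perm.sign_symm, Fin.sign_cycleRange]
  push_cast
  rfl

/-- (A4) `AS_sum`, `AS_smul`, `AS_face`, `AS_succ`; ` (-1)^i * (-1)^i = 1`. -/
theorem AS_delta {n : ℕ} (Φ : (Fin n → X) → ℝ) (f : Fin (n + 1) → X) :
    AS (fun q : Fin (n + 1) → X => ∑ i : Fin (n + 1), (-1 : ℝ) ^ (i : ℕ) * Φ (q ∘ i.succAbove)) f =
      (n + 1) * ∑ l : Fin (n + 1), (-1 : ℝ) ^ (l : ℕ) * AS Φ (f ∘ l.succAbove) := by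
  rw [AS_sum]
  have hterm : ∀ i ∈ (Finset.univ : Finset (Fin (n + 1))),
      AS (fun q : Fin (n + 1) → X => (-1 : ℝ) ^ (i : ℕ) * Φ (q ∘ i.succAbove)) f =
        ∑ l : Fin (n + 1), (-1 : ℝ) ^ (l : ℕ) * AS Φ (f ∘ l.succAbove) := by
    intro i _
    rw [AS_smul, AS_face, AS_succ, ← mul_assoc, ← pow_add, ← two_mul, pow_mul]
    norm_num
  rw [Finset.sum_congr rfl hterm, Finset.sum_const, Finset.card_univ, Fintype.card_fin,
    nsmul_eq_mul]
  push_cast
  ring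

end Vale.Agent.P184.PN
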