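import Vale.Agent.P184.PN.Alt

/-!
# The alternating sum of the cup power of a coboundary `e = δ α` (rows B1 - B5)
-/

namespace Vale.Agent.P184.PN

open scoped BigOperators

variable {X : Type*} (α : X → X → ℝ)

/-- `e = δ α` -/
def eu (p q r : X) : ℝ := α q r - α p r + α p q

/-- `∏_{r < b} e (q_{h+2r}, q_{h+2r+1}, q_{h+2r+2})` -/
noncomputable def chainE (n : ℕ) [NeZero n] (h b : ℕ) (q : Fin n → X) : ℝ :=
  ∏ r ∈ Finset.range b, eu α (q (Fin.ofNat n (h + 2 * r))) (q (Fin.ofNat n (h + 2 * r + 1)))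
    (q (Fin.ofNat n (h + 2 * r + 2)))

/-- `∏_{r < b} α (q_{h+2r+1}, q_{h+2r+2})` -/
noncomputable def chainA (n : ℕ) [NeZero n] (h b : ℕ) (q : Fin n → X) : ℝ :=
  ∏ r ∈ Finset.range b, α (q (Fin.ofNat n (h + 2 * r + 1))) (q (Fin.ofNat n (h + 2 * r + 2)))

/-- `∏_{r < a} α (q_{2r}, q_{2r+1})` -/
noncomputable def chainP (n : ℕ) [NeZero n] (a : ℕ) (q : Fin n → X) : ℝ :=
  ∏ r ∈ Finset.range a, α (q (Fin.ofNat n (2 * r))) (q (Fin.ofNat n (2 * r + 1)))

variable {α}

/-- (B1) `Finset.prod_range_succ'` -/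
lemma chainE_succ (n : ℕ) [NeZero n] (h b : ℕ) (q : Fin n → X) :
    chainE α n h (b + 1) q = eu α (q (Fin.ofNat n h)) (q (Fin.ofNat n (h + 1)))
      (q (Fin.ofNat n (h + 2))) * chainE α n (h + 2) b q := by
  unfold chainE
  rw [Finset.prod_range_succ', mul_comm]
  congr 1
  apply Finset.prod_congr rfl
  intro r _
  have e1 : h + 2 * (r + 1) = h + 2 + 2 * r := by ring
  rw [e1]

/-- (B1) -/
lemma chainA_succ (n : ℕ) [NeZero n] (h b : ℕ) (q : Fin n → X) :
    chainA α n h (b + 1) q = α (q (Fin.ofNat n (h + 1))) (q (Fin.ofNat n (h + 2))) *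
      chainA α n (h + 2) b q := by
  unfold chainA
  rw [Finset.prod_range_succ', mul_comm]
  congr 1
  apply Finset.prod_congr rfl
  intro r _
  have e1 : h + 2 * (r + 1) = h + 2 + 2 * r := by ring
  rw [e1]

/-- `Fin.ofNat n` separates numbers below `n` -/
lemma ofNat_ne_of_lt (n : ℕ) [NeZero n] {a c : ℕ} (hac : c < a) (ha : a < n) :
    Fin.ofNat n a ≠ Fin.ofNat n c := by
  intro h
  have := congrArg Fin.val h
  simp only [Fin.val_ofNat] at this
  rw [Nat.mod_eq_of_lt ha, Nat.mod_eq_of_lt (lt_trans hac ha)] at this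
  omega

lemma swap_ofNat_apply (n : ℕ) [NeZero n] {a c c' : ℕ} (hc : c < a) (hc' : c' < a) (ha : a < n)
    (q : Fin n → X) :
    (q ∘ Equiv.swap (Fin.ofNat n c) (Fin.ofNat n c')) (Fin.ofNat n a) = q (Fin.ofNat n a) := by
  rw [Function.comp_apply, Equiv.swap_apply_of_ne_of_ne (ofNat_ne_of_lt n hc ha)
    (ofNat_ne_of_lt n hc' ha)]

/-- (B1) an exchange of two coordinates outside of `[h, h + 2 b]` does not change `chainE`
(`Equiv.swap_apply_of_ne_of_ne`; `Fin.ofNat n` is injective on the numbers `< n`) -/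
lemma chainE_swap (n : ℕ) [NeZero n] (h b : ℕ) (hn : h + 2 * b < n) (c c' : ℕ) (hc : c < h)
    (hc' : c' < h) (q : Fin n → X) :
    chainE α n h b (q ∘ Equiv.swap (Fin.ofNat n c) (Fin.ofNat n c')) = chainE α n h b q := by
  unfold chainE
  apply Finset.prod_congr rfl
  intro r hr
  have hr' := Finset.mem_range.mp hr
  rw [swap_ofNat_apply n (by omega) (by omega) (by omega),
    swap_ofNat_apply n (by omega) (by omega) (by omega),
    swap_ofNat_apply n (by omega) (by omega) (by omega)]

/-- (B1) the same for `chainA`, which only involves the coordinates in `[h + 1, h + 2 b]` -/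
lemma chainA_swap (n : ℕ) [NeZero n] (h b : ℕ) (hn : h + 2 * b < n) (c c' : ℕ) (hc : c ≤ h)
    (hc' : c' ≤ h) (q : Fin n → X) :
    chainA α n h b (q ∘ Equiv.swap (Fin.ofNat n c) (Fin.ofNat n c')) = chainA α n h b q := by
  unfold chainA
  apply Finset.prod_congr rfl
  intro r hr
  have hr' := Finset.mem_range.mp hr
  rw [swap_ofNat_apply n (by omega) (by omega) (by omega),
    swap_ofNat_apply n (by omega) (by omega) (by omega)]

/-- (B2) A free coordinate `f` and a chain whose head carries no weight.  Induction on `b`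
generalizing `h`, `Φ`.  `b = 0`: `Φ` is invariant under the exchange of `f` and `h`: `AS_kill`.
`b + 1`: by `chainE_succ` and the definition of `eu` the function is the sum of
`T1 = Φ q * α (q (h+1)) (q (h+2)) * chainE (h+2) b q`, invariant under the exchange of `f`, `h`;
`T2 = - Φ q * α (q h) (q (h+2)) * chainE (h+2) b q`, invariant under the exchange of `f`, `h+1`
(both killed by `AS_kill`; `chainE_swap`);
`T3 = (Φ q * α (q h) (q (h+1))) * chainE (h+2) b q`: the induction hypothesis for `h + 2`. -/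
lemma AS_chain_free (n : ℕ) [NeZero n] (b h f : ℕ) (hn : h + 2 * b + 1 = n) (hf : f < h)
    (Φ : (Fin n → X) → ℝ)
    (hΦ : ∀ c, h ≤ c → c < n → ∀ q, Φ (q ∘ Equiv.swap (Fin.ofNat n f) (Fin.ofNat n c)) = Φ q)
    (p : Fin n → X) : AS (fun q => Φ q * chainE α n h b q) p = 0 := by
  have hne : ∀ a c : ℕ, a < n → c < n → a ≠ c → Fin.ofNat n a ≠ Fin.ofNat n c := by
    intro a c ha hc hac h'
    have := congrArg Fin.val h'
    simp only [Fin.val_ofNat, Nat.mod_eq_of_lt ha, Nat.mod_eq_of_lt hc] at this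
    exact hac this
  have hsw : ∀ (a c e : ℕ), a < n → c < n → e < n → e ≠ a → e ≠ c → ∀ q : Fin n → X,
      (q ∘ Equiv.swap (Fin.ofNat n a) (Fin.ofNat n c)) (Fin.ofNat n e) = q (Fin.ofNat n e) := by
    intro a c e ha hc he hea hec q
    rw [Function.comp_apply, Equiv.swap_apply_of_ne_of_ne (hne e a he ha hea) (hne e c he hc hec)]
  induction b generalizing h Φ with
  | zero =>
    refine AS_kill _ (Fin.ofNat n f) (Fin.ofNat n h)
      (hne f h (by omega) (by omega) (by omega)) ?_ p
    intro q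
    show Φ _ * _ = _
    rw [hΦ h le_rfl (by omega) q]
    simp [chainE]
  | succ b ih =>
    have e0 : (fun q => Φ q * chainE α n h (b + 1) q) = fun q =>
        ((Φ q * α (q (Fin.ofNat n (h + 1))) (q (Fin.ofNat n (h + 2)))) * chainE α n (h + 2) b q +
          (-1) * ((Φ q * α (q (Fin.ofNat n h)) (q (Fin.ofNat n (h + 2)))) *
            chainE α n (h + 2) b q)) +
          (Φ q * α (q (Fin.ofNat n h)) (q (Fin.ofNat n (h + 1)))) * chainE α n (h + 2) b q := by
      funext q
      rw [chainE_succ, eu]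
      ring
    have t1 : AS (fun q => (Φ q * α (q (Fin.ofNat n (h + 1))) (q (Fin.ofNat n (h + 2)))) *
        chainE α n (h + 2) b q) p = 0 := by
      refine AS_kill _ (Fin.ofNat n f) (Fin.ofNat n h)
        (hne f h (by omega) (by omega) (by omega)) ?_ p
      intro q
      show (Φ _ * α _ _) * _ = _
      rw [hΦ h le_rfl (by omega) q,
        hsw f h (h + 1) (by omega) (by omega) (by omega) (by omega) (by omega) q,
        hsw f h (h + 2) (by omega) (by omega) (by omega) (by omega) (by omega) q,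
        chainE_swap n (h + 2) b (by omega) f h (by omega) (by omega) q]
    have t2 : AS (fun q => (Φ q * α (q (Fin.ofNat n h)) (q (Fin.ofNat n (h + 2)))) *
        chainE α n (h + 2) b q) p = 0 := by
      refine AS_kill _ (Fin.ofNat n f) (Fin.ofNat n (h + 1))
        (hne f (h + 1) (by omega) (by omega) (by omega)) ?_ p
      intro q
      show (Φ _ * α _ _) * _ = _
      rw [hΦ (h + 1) (by omega) (by omega) q,
        hsw f (h + 1) h (by omega) (by omega) (by omega) (by omega) (by omega) q,
        hsw f (h + 1) (h + 2) (by omega) (by omega) (by omega) (by omega) (by omega) q,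
        chainE_swap n (h + 2) b (by omega) f (h + 1) (by omega) (by omega) q]
    have t3 := ih (h + 2) (by omega) (by omega)
      (fun q => Φ q * α (q (Fin.ofNat n h)) (q (Fin.ofNat n (h + 1)))) (by
        intro c hc hcn q
        show Φ _ * α _ _ = _
        rw [hΦ c (by omega) hcn q,
          hsw f c h (by omega) hcn (by omega) (by omega) (by omega) q,
          hsw f c (h + 1) (by omega) hcn (by omega) (by omega) (by omega) q])
    rw [e0, AS_add, AS_add, AS_smul, t1, t2, t3]
    ring

/-- (B3) A free coordinate `f` and a chain whose head may carry a weight.  Induction on `b`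
generalizing `h`, `Φ`.  In the step, with the terms as in `AS_chain_free`:
`T1 = (Φ q * α (q (h+1)) (q (h+2))) * chainE (h+2) b q`: the induction hypothesis for `h + 2`, and
`chainA_succ`; `T2` is invariant under the exchange of `f`, `h+1`: `AS_kill`;
`T3 = (Φ q * α (q h) (q (h+1))) * chainE (h+2) b q` vanishes by `AS_chain_free`. -/
lemma AS_chain_weight (n : ℕ) [NeZero n] (b h f : ℕ) (hn : h + 2 * b + 1 = n) (hf : f < h)
    (Φ : (Fin n → X) → ℝ)
    (hΦ : ∀ c, h < c → c < n → ∀ q, Φ (q ∘ Equiv.swap (Fin.ofNat n f) (Fin.ofNat n c)) = Φ q)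
    (p : Fin n → X) :
    AS (fun q => Φ q * chainE α n h b q) p = AS (fun q => Φ q * chainA α n h b q) p := by
  have hne : ∀ a c : ℕ, a < n → c < n → a ≠ c → Fin.ofNat n a ≠ Fin.ofNat n c := by
    intro a c ha hc hac h'
    have := congrArg Fin.val h'
    simp only [Fin.val_ofNat, Nat.mod_eq_of_lt ha, Nat.mod_eq_of_lt hc] at this
    exact hac this
  have hsw : ∀ (a c e : ℕ), a < n → c < n → e < n → e ≠ a → e ≠ c → ∀ q : Fin n → X,
      (q ∘ Equiv.swap (Fin.ofNat n a) (Fin.ofNat n c)) (Fin.ofNat n e) = q (Fin.ofNat n e) := by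
    intro a c e ha hc he hea hec q
    rw [Function.comp_apply, Equiv.swap_apply_of_ne_of_ne (hne e a he ha hea) (hne e c he hc hec)]
  induction b generalizing h Φ with
  | zero => simp [chainE, chainA]
  | succ b ih =>
    have e0 : (fun q => Φ q * chainE α n h (b + 1) q) = fun q =>
        ((Φ q * α (q (Fin.ofNat n (h + 1))) (q (Fin.ofNat n (h + 2)))) * chainE α n (h + 2) b q +
          (-1) * ((Φ q * α (q (Fin.ofNat n h)) (q (Fin.ofNat n (h + 2)))) *
            chainE α n (h + 2) b q)) +
          (Φ q * α (q (Fin.ofNat n h)) (q (Fin.ofNat n (h + 1)))) * chainE α n (h + 2) b q := by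
      funext q
      rw [chainE_succ, eu]
      ring
    have e1 : (fun q => Φ q * chainA α n h (b + 1) q) = fun q =>
        (Φ q * α (q (Fin.ofNat n (h + 1))) (q (Fin.ofNat n (h + 2)))) * chainA α n (h + 2) b q := by
      funext q
      rw [chainA_succ]
      ring
    have t1 := ih (h + 2) (by omega) (by omega)
      (fun q => Φ q * α (q (Fin.ofNat n (h + 1))) (q (Fin.ofNat n (h + 2)))) (by
        intro c hc hcn q
        show Φ _ * α _ _ = _
        rw [hΦ c (by omega) hcn q,
          hsw f c (h + 1) (by omega) hcn (by omega) (by omega) (by omega) q,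
          hsw f c (h + 2) (by omega) hcn (by omega) (by omega) (by omega) q])
    have t2 : AS (fun q => (Φ q * α (q (Fin.ofNat n h)) (q (Fin.ofNat n (h + 2)))) *
        chainE α n (h + 2) b q) p = 0 := by
      refine AS_kill _ (Fin.ofNat n f) (Fin.ofNat n (h + 1))
        (hne f (h + 1) (by omega) (by omega) (by omega)) ?_ p
      intro q
      show (Φ _ * α _ _) * _ = _
      rw [hΦ (h + 1) (by omega) (by omega) q,
        hsw f (h + 1) h (by omega) (by omega) (by omega) (by omega) (by omega) q,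
        hsw f (h + 1) (h + 2) (by omega) (by omega) (by omega) (by omega) (by omega) q,
        chainE_swap n (h + 2) b (by omega) f (h + 1) (by omega) (by omega) q]
    have t3 : AS (fun q => (Φ q * α (q (Fin.ofNat n h)) (q (Fin.ofNat n (h + 1)))) *
        chainE α n (h + 2) b q) p = 0 := by
      refine AS_chain_free n b (h + 2) f (by omega) (by omega)
        (fun q => Φ q * α (q (Fin.ofNat n h)) (q (Fin.ofNat n (h + 1)))) ?_ p
      intro c hc hcn q
      show Φ _ * α _ _ = _
      rw [hΦ c (by omega) hcn q,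
        hsw f c h (by omega) hcn (by omega) (by omega) (by omega) q,
        hsw f c (h + 1) (by omega) hcn (by omega) (by omega) (by omega) q]
    rw [e0, e1, AS_add, AS_add, AS_smul, t2, t3, t1]
    ring

lemma ofNat_ne_B4 (n : ℕ) [NeZero n] {x y : ℕ} (hx : x < n) (hy : y < n) (h : x ≠ y) :
    Fin.ofNat n x ≠ Fin.ofNat n y := by
  intro e
  have h1 := congrArg Fin.val e
  simp only [Fin.ofNat, Nat.mod_eq_of_lt hx, Nat.mod_eq_of_lt hy] at h1
  exact h h1

lemma chainP_swap_B4 (n : ℕ) [NeZero n] (a c c' : ℕ) (hc : 2 * a ≤ c) (hc' : 2 * a ≤ c')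
    (hcn : c < n) (hcn' : c' < n) (q : Fin n → X) :
    chainP α n a (q ∘ Equiv.swap (Fin.ofNat n c) (Fin.ofNat n c')) = chainP α n a q := by
  unfold chainP
  refine Finset.prod_congr rfl fun r hr => ?_
  rw [Finset.mem_range] at hr
  simp only [Function.comp_apply]
  rw [Equiv.swap_apply_of_ne_of_ne (ofNat_ne_B4 n (by omega) hcn (by omega))
      (ofNat_ne_B4 n (by omega) hcn' (by omega)),
    Equiv.swap_apply_of_ne_of_ne (ofNat_ne_B4 n (by omega) hcn (by omega))
      (ofNat_ne_B4 n (by omega) hcn' (by omega))]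

lemma chainP_succ_B4 (n : ℕ) [NeZero n] (a : ℕ) (q : Fin n → X) :
    chainP α n (a + 1) q = chainP α n a q *
      α (q (Fin.ofNat n (2 * a))) (q (Fin.ofNat n (2 * a + 1))) := by
  unfold chainP
  rw [Finset.prod_range_succ]

lemma AS_chain_step_B4 (n : ℕ) [NeZero n] (a b : ℕ) (hn : 2 * a + 2 * b + 3 = n)
    (p : Fin n → X) :
    AS (fun q => chainP α n a q * chainE α n (2 * a) (b + 1) q) p =
      AS (fun q => chainP α n (a + 1) q * chainE α n (2 * a + 2) b q) p +
      2 * AS (fun q => chainP α n a q * chainA α n (2 * a) (b + 1) q) p := by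
  set i0 := Fin.ofNat n (2 * a) with hi0
  set i1 := Fin.ofNat n (2 * a + 1) with hi1
  set i2 := Fin.ofNat n (2 * a + 2) with hi2
  have h01 : i0 ≠ i1 := ofNat_ne_B4 n (by omega) (by omega) (by omega)
  have h02 : i0 ≠ i2 := ofNat_ne_B4 n (by omega) (by omega) (by omega)
  have h12 : i1 ≠ i2 := ofNat_ne_B4 n (by omega) (by omega) (by omega)
  -- the three terms
  set T1 : (Fin n → X) → ℝ := fun q =>
    (chainP α n a q * α (q i1) (q i2)) * chainE α n (2 * a + 2) b q with hT1
  have hsplit : (fun q => chainP α n a q * chainE α n (2 * a) (b + 1) q) =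
      fun q => (chainP α n (a + 1) q * chainE α n (2 * a + 2) b q + T1 q) +
        (-1 : ℝ) * T1 (q ∘ Equiv.swap i0 i1) := by
    funext q
    rw [chainE_succ, chainP_succ_B4, hT1]
    simp only [Function.comp_apply]
    rw [chainP_swap_B4 n a (2 * a) (2 * a + 1) (by omega) (by omega) (by omega) (by omega),
      chainE_swap n (2 * a + 2) b (by omega) (2 * a) (2 * a + 1) (by omega) (by omega),
      Equiv.swap_apply_right, Equiv.swap_apply_of_ne_of_ne h02.symm h12.symm]
    unfold eu
    ring
  have hA1 : AS T1 p = AS (fun q => chainP α n a q * chainA α n (2 * a) (b + 1) q) p := by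
    rw [hT1, AS_chain_weight n b (2 * a + 2) (2 * a) (by omega) (by omega)]
    · congr 1
      funext q
      rw [chainA_succ]
      ring
    · intro c hc hcn q
      simp only [Function.comp_apply]
      rw [chainP_swap_B4 n a (2 * a) c (by omega) (by omega) (by omega) hcn,
        Equiv.swap_apply_of_ne_of_ne h01.symm (ofNat_ne_B4 n (by omega) hcn (by omega)),
        Equiv.swap_apply_of_ne_of_ne h02.symm (ofNat_ne_B4 n (by omega) hcn (by omega))]
  rw [hsplit, AS_add, AS_add, AS_smul, AS_reindex T1, Equiv.Perm.sign_swap h01, hA1]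
  push_cast
  ring

/-- (B4) One step.  Here `n = 2 k + 1`, `a + b + 1 = k`, `h = 2 a`.  By `chainE_succ`:
`T3 = chainP (a+1) q * chainE (2a+2) b q`;
`T1 = (chainP a q * α (q (2a+1)) (q (2a+2))) * chainE (2a+2) b q`, to which `AS_chain_weight` applies
with `f = 2 a`, `h = 2 a + 2`, giving `chainP a q * chainA (2a) (b+1) q` (`chainA_succ`);
`T2 = - chainP a q * α (q (2a)) (q (2a+2)) * chainE (2a+2) b q` is obtained from `- T1` by the exchange
of the coordinates `2a`, `2a+1`, so `AS T2 = AS T1` (`AS_reindex`, `Equiv.Perm.sign_swap`). -/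
lemma AS_chain_step (k a b : ℕ) (hk : a + b + 1 = k) (p : Fin (2 * k + 1) → X) :
    AS (fun q => chainP α (2 * k + 1) a q * chainE α (2 * k + 1) (2 * a) (b + 1) q) p =
      AS (fun q => chainP α (2 * k + 1) (a + 1) q * chainE α (2 * k + 1) (2 * a + 2) b q) p +
      2 * AS (fun q => chainP α (2 * k + 1) a q * chainA α (2 * k + 1) (2 * a) (b + 1) q) p := by
  exact AS_chain_step_B4 (2 * k + 1) a b (by omega) p

lemma AS_chain_move_B4 (n : ℕ) [NeZero n] (a b : ℕ) (hn : 2 * a + 2 * b + 3 = n)
    (p : Fin n → X) :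
    AS (fun q => chainP α n (a + 1) q * chainA α n (2 * a + 2) b q) p =
      AS (fun q => chainP α n a q * chainA α n (2 * a) (b + 1) q) p := by
  set i0 := Fin.ofNat n (2 * a) with hi0
  set i1 := Fin.ofNat n (2 * a + 1) with hi1
  set i2 := Fin.ofNat n (2 * a + 2) with hi2
  have h01 : i0 ≠ i1 := ofNat_ne_B4 n (by omega) (by omega) (by omega)
  have h02 : i0 ≠ i2 := ofNat_ne_B4 n (by omega) (by omega) (by omega)
  have h12 : i1 ≠ i2 := ofNat_ne_B4 n (by omega) (by omega) (by omega)
  set F : (Fin n → X) → ℝ := fun q => chainP α n (a + 1) q * chainA α n (2 * a + 2) b q with hF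
  have h2 : (fun q => chainP α n a q * chainA α n (2 * a) (b + 1) q) =
      fun q => (fun q' => F (q' ∘ Equiv.swap i1 i2)) (q ∘ Equiv.swap i0 i1) := by
    funext q
    simp only [hF]
    rw [chainP_succ_B4, chainA_succ,
      chainP_swap_B4 n a (2 * a + 1) (2 * a + 2) (by omega) (by omega) (by omega) (by omega),
      chainP_swap_B4 n a (2 * a) (2 * a + 1) (by omega) (by omega) (by omega) (by omega),
      chainA_swap n (2 * a + 2) b (by omega) (2 * a + 1) (2 * a + 2) (by omega) (by omega),
      chainA_swap n (2 * a + 2) b (by omega) (2 * a) (2 * a + 1) (by omega) (by omega)]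
    simp only [Function.comp_apply]
    rw [Equiv.swap_apply_of_ne_of_ne h01 h02, Equiv.swap_apply_left, Equiv.swap_apply_left,
      Equiv.swap_apply_of_ne_of_ne h02.symm h12.symm]
    ring
  rw [h2, AS_reindex (fun q' => F (q' ∘ Equiv.swap i1 i2)), AS_reindex F,
    Equiv.Perm.sign_swap h01, Equiv.Perm.sign_swap h12]
  push_cast
  ring

/-- (B4) Moving the free coordinate.  With `ρ = swap (2a) (2a+1) * swap (2a+1) (2a+2)` (of sign `1`;
adjust the order so that ` (q ∘ ρ) (2a) = q (2a+1)`, ` (q ∘ ρ) (2a+1) = q (2a+2)`), the second function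
is the first one composed with `· ∘ ρ`: `AS_reindex`. -/
lemma AS_chain_move (k a b : ℕ) (hk : a + b + 1 = k) (p : Fin (2 * k + 1) → X) :
    AS (fun q => chainP α (2 * k + 1) (a + 1) q * chainA α (2 * k + 1) (2 * a + 2) b q) p =
      AS (fun q => chainP α (2 * k + 1) a q * chainA α (2 * k + 1) (2 * a) (b + 1) q) p := by
  exact AS_chain_move_B4 (2 * k + 1) a b (by omega) p

lemma AS_cup_aux_B5 (k : ℕ) (p : Fin (2 * k + 1) → X) (b : ℕ) : ∀ a, a + b = k →
    AS (fun q => chainP α (2 * k + 1) a q * chainE α (2 * k + 1) (2 * a) b q) p =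
      (2 * b + 1) * AS (fun q => chainP α (2 * k + 1) a q * chainA α (2 * k + 1) (2 * a) b q) p := by
  induction b with
  | zero =>
    intro a _
    simp [chainE, chainA]
  | succ b ih =>
    intro a hk
    have h1 := ih (a + 1) (by omega)
    have e : 2 * (a + 1) = 2 * a + 2 := by ring
    rw [e] at h1
    rw [AS_chain_step k a b (by omega), h1, AS_chain_move k a b (by omega)]
    push_cast
    ring

/-- (B5) By induction on `b` (with `a + b = k`):
`AS (chainP a * chainE (2a) b) = (2 b + 1) * AS (chainP a * chainA (2a) b)`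
(`AS_chain_step`, `AS_chain_move`); take `a = 0`, `b = k`. -/
theorem AS_cup (k : ℕ) (p : Fin (2 * k + 1) → X) :
    AS (chainE α (2 * k + 1) 0 k) p = (2 * k + 1) * AS (chainA α (2 * k + 1) 0 k) p := by
  have h := AS_cup_aux_B5 (α := α) k p k 0 (by omega)
  simpa [chainP] using h

end Vale.Agent.P184.PN
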