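import Vale.Agent.P184.PN.Pull

/-!
# Consequences of the pull back: conjugation, homomorphisms (row AC)
-/

namespace Vale.Agent.P184

open PN

/-- the conditions only involve the predicate `IsConj g ·` -/
theorem PolyNil.of_isConj {G : Type*} [Group G] {a b : G} (h : IsConj a b) (H : PolyNil a) :
    PolyNil b := by
  obtain ⟨v, hv, K, d, k, ψ, h1, h2, h3, h4, h5⟩ := H
  have hab : ∀ x : G, IsConj b x → IsConj a x := fun x hx => h.trans hx
  exact ⟨v, hv, K, d, k, ψ, fun l hl => h1 l (hab _ hl), fun x l hl hm => h2 x l (hab _ hl) hm,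
    h3, fun x hx => h4 x (hab _ hx), fun l hl2 hl => h5 l hl2 (hab _ hl)⟩

/-- `PolyNilW.pull` with `A s x = π x`, `vG = vΛ ∘ π`. -/
theorem PolyNil.comap {G Λ : Type*} [Group G] [Group Λ] (π : G →* Λ) {γ : G}
    (H : PolyNil (π γ)) : PolyNil γ := by
  obtain ⟨vΛ, hvΛ, HW⟩ := H
  have hvG : Gauge (fun x : G => vΛ (π x)) := by
    obtain ⟨h1, K, hK⟩ := hvΛ
    refine ⟨fun x => h1 (π x), K, fun x y => ?_⟩
    show vΛ (π (x * y)) ≤ K * (vΛ (π x) + vΛ (π y))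
    rw [map_mul]
    exact hK _ _
  refine ⟨fun x : G => vΛ (π x), hvG, ?_⟩
  refine PolyNilW.pull (a := γ) (lam := π γ) hvΛ hvG (fun _ x => π x) ?_ ?_ ?_ HW
  · intro s _ x y
    exact map_mul π x y
  · intro s hs
    exact π.map_isConj hs
  · refine ⟨1, 1, fun s _ x => ?_⟩
    have h1 : 1 ≤ vΛ (π s) := hvΛ.1 _
    have h2 : 1 ≤ vΛ (π x) := hvΛ.1 _
    show vΛ (π x) ≤ 1 * (vΛ (π s) * vΛ (π x)) ^ 1
    nlinarith

end Vale.Agent.P184
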