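import Vale.Agent.P184.PN.Apps
import Vale.Agent.P184.RH.Height

/-!
# The real line, and height functions (rows BR, BH)
-/

namespace Vale.Agent.P184

open PN

lemma gauge_real : Gauge (fun x : Multiplicative ℝ => 1 + |Multiplicative.toAdd x|) := by
  refine ⟨fun x => ?_, 1, fun x y => ?_⟩
  · have := abs_nonneg (Multiplicative.toAdd x)
    linarith
  · have h1 := abs_add_le (Multiplicative.toAdd x) (Multiplicative.toAdd y)
    have h2 : Multiplicative.toAdd (x * y) = Multiplicative.toAdd x + Multiplicative.toAdd y := rfl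
    simp only [h2]
    linarith

/-- the cochain of `polyNilW_real` -/
noncomputable def psiReal (t : ℝ) : List (Multiplicative ℝ) → ℂ
  | [_, x₁] => ((Multiplicative.toAdd x₁ / t : ℝ) : ℂ)
  | _ => 0

lemma psiReal_of_length (t : ℝ) (l : List (Multiplicative ℝ)) (h : l.length ≠ 2) :
    psiReal t l = 0 := by
  match l with
  | [] => rfl
  | [_] => rfl
  | [_, _] => simp at h
  | _ :: _ :: _ :: _ => rfl

/-- (BR) `k = 3`, `ψ [x₀, x₁] = toAdd x₁ / t` and `ψ l = 0` for `l.length ≠ 2`.  The class of
`ofAdd t` is a point.  Degree zero: `ψ [1, ofAdd t] = 1`.  For `l = [x₀, x₁, x₂]`: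
`hb ψ l = (x₂ - (x₁ + x₂) + x₁) / t = 0`, `cB ψ l = 0`; for the other lengths all terms vanish. -/
theorem polyNilW_real (t : ℝ) (ht : t ≠ 0) :
    PolyNilW (fun x : Multiplicative ℝ => 1 + |Multiplicative.toAdd x|)
      (Multiplicative.ofAdd t) := by
  have hv : ∀ x : Multiplicative ℝ, 1 ≤ 1 + |Multiplicative.toAdd x| := gauge_real.1
  refine ⟨1 / |t|, 1, 3, psiReal t, ?_, ?_, ?_, ?_, ?_⟩
  · intro l _
    have htp : 0 < |t| := abs_pos.mpr ht
    by_cases h : l.length = 2
    · match l, h with
      | [x₀, x₁], _ =>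
        simp only [psiReal, List.map_cons, List.map_nil, List.prod_cons, List.prod_nil, pow_one,
          mul_one, Complex.norm_real, Real.norm_eq_abs, abs_div]
        rw [div_eq_mul_inv, mul_comm, one_div]
        refine mul_le_mul_of_nonneg_left ?_ (inv_nonneg.mpr htp.le)
        have h0 := abs_nonneg (Multiplicative.toAdd x₀)
        have h1 := abs_nonneg (Multiplicative.toAdd x₁)
        nlinarith
    · rw [psiReal_of_length t l h, norm_zero]
      refine mul_nonneg (by positivity) (List.prod_nonneg ?_)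
      intro a ha
      obtain ⟨x, _, rfl⟩ := List.mem_map.mp ha
      have := hv x
      positivity
  · intro x l _ h1
    by_cases h : (x :: l).length = 2
    · match l, h with
      | [y], _ =>
        have : y = 1 := by simpa [eq_comm] using h1
        subst this
        simp [psiReal]
    · exact psiReal_of_length t _ h
  · intro l hl
    exact psiReal_of_length t l (by omega)
  · intro x hx
    have : x = Multiplicative.ofAdd t := by
      rw [isConj_iff_eq] at hx
      exact hx.symm
    rw [this]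
    simp only [psiReal, toAdd_ofAdd]
    rw [div_self ht]
    simp
  · intro l hl _
    have hcB : cB (psiReal t) l = 0 := by
      unfold cB
      refine Finset.sum_eq_zero fun i _ => ?_
      rw [psiReal_of_length t _ (by simp; omega), mul_zero]
    rw [hcB, add_zero]
    match l, hl with
    | [x₀, x₁], _ =>
      simp [hb, mrg, psiReal]
    | [x₀, x₁, x₂], _ =>
      have hr : [x₀, x₁, x₂].rotate 2 = [x₂, x₀, x₁] := rfl
      simp only [hb, List.length_cons, List.length_nil, zero_add, Nat.reduceAdd, Nat.add_one_sub_one,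
        Finset.sum_range_succ, Finset.sum_range_zero, hr, mrg, psiReal]
      have h2 : Multiplicative.toAdd (x₁ * x₂) = Multiplicative.toAdd x₁ + Multiplicative.toAdd x₂ :=
        rfl
      rw [h2]
      push_cast
      ring
    | x₀ :: x₁ :: x₂ :: x₃ :: l, _ =>
      unfold hb
      rw [Finset.sum_eq_zero, zero_add, psiReal_of_length, mul_zero]
      · rw [length_mrg _ _ (by simp)]
        simp
      · intro i hi
        rw [Finset.mem_range] at hi
        rw [psiReal_of_length, mul_zero]
        rw [length_mrg _ _ (by omega)]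
        simp

/-- (BH) `PolyNilW.pull` with `Λ = Multiplicative ℝ`, `lam = ofAdd 1`.  As in the proof of
`height_criterion` (file `Height`): `U c` a conjugator, `κ c x = (h (U c) - h (x⁻¹ * U c)) / lam₀`,
`lam₀ = h g - h 1`, `A c x = ofAdd (κ c x)`; the cocycle identity and `κ c c = 1` are proved there.
Gauge on `G`: `vG x = 1 + (⨆ u, |h (x⁻¹ * u) - h u|) / |lam₀|` (bounded by `hb`, subadditive). -/
theorem HasHeight.polyNil {G : Type*} [Group G] {g : G} (H : HasHeight g) : PolyNil g := by
  classical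
  obtain ⟨h, hb, hz, hg⟩ := H
  set lam : ℝ := h g - h 1 with hlam
  have hlam0 : lam ≠ 0 := sub_ne_zero.mpr hg
  have hlamp : 0 < |lam| := abs_pos.mpr hlam0
  have hmem : ∀ c, IsConj g c ↔ ∃ u, u * g * u⁻¹ = c := fun c => isConj_iff
  let U : G → G := fun c => if hc : ∃ u, u * g * u⁻¹ = c then Classical.choose hc else 1
  have hU : ∀ c, IsConj g c → U c * g * (U c)⁻¹ = c := by
    intro c hc
    have hc' := (hmem c).mp hc
    simp only [U, dif_pos hc']
    exact Classical.choose_spec hc'
  have key : ∀ c u x, IsConj g c → u * g * u⁻¹ = c →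
      h u - h (x * u) = h (U c) - h (x * U c) := by
    intro c u x hc hu
    have h1 := hU c hc
    obtain ⟨z, hzdef⟩ : ∃ z, z = (U c)⁻¹ * u := ⟨_, rfl⟩
    have hzc : z * g = g * z := by
      have h2 : U c * g * (U c)⁻¹ = u * g * u⁻¹ := h1.trans hu.symm
      have h3 : g * ((U c)⁻¹ * u) = (U c)⁻¹ * u * g := by
        have h4 : (U c)⁻¹ * (U c * g * (U c)⁻¹) * u = (U c)⁻¹ * (u * g * u⁻¹) * u := by rw [h2]
        simpa [mul_assoc] using h4
      rw [hzdef]
      exact h3.symm
    have huz : u = U c * z := by simp [hzdef]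
    have h5 := hz z hzc (U c) (x * U c)
    have e1 : h u = h (U c * z) := by rw [← huz]
    have e2 : h (x * u) = h (x * U c * z) := by rw [huz, mul_assoc]
    rw [e1, e2]
    linarith
  let κ : G → G → ℝ := fun c x => (h (U c) - h (x⁻¹ * U c)) / lam
  let S : G → ℝ := fun x => ⨆ u, |h (x⁻¹ * u) - h u|
  have hbdd : ∀ x, BddAbove (Set.range fun u => |h (x⁻¹ * u) - h u|) := by
    intro x
    obtain ⟨M, hM⟩ := hb x⁻¹
    exact ⟨M, by rintro _ ⟨u, rfl⟩; exact hM u⟩
  have hSle : ∀ x u, |h (x⁻¹ * u) - h u| ≤ S x := fun x u => le_ciSup (hbdd x) u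
  have hS0 : ∀ x, 0 ≤ S x := fun x => (abs_nonneg _).trans (hSle x 1)
  have hSmul : ∀ x y, S (x * y) ≤ S x + S y := by
    intro x y
    refine ciSup_le fun u => ?_
    have h1 := hSle y (x⁻¹ * u)
    have h2 := hSle x u
    have h3 : (x * y)⁻¹ * u = y⁻¹ * (x⁻¹ * u) := by group
    rw [h3]
    have h4 : h (y⁻¹ * (x⁻¹ * u)) - h u =
        (h (y⁻¹ * (x⁻¹ * u)) - h (x⁻¹ * u)) + (h (x⁻¹ * u) - h u) := by ring
    rw [h4]
    exact (abs_add_le _ _).trans (by linarith)
  let vG : G → ℝ := fun x => 1 + S x / |lam|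
  have hvG1 : ∀ x, 1 ≤ vG x := by
    intro x
    have := div_nonneg (hS0 x) hlamp.le
    simp only [vG]
    linarith
  have hvG : Gauge vG := by
    refine ⟨hvG1, 1, fun x y => ?_⟩
    have h1 : S (x * y) / |lam| ≤ S x / |lam| + S y / |lam| := by
      rw [← add_div]
      exact div_le_div_of_nonneg_right (hSmul x y) hlamp.le
    simp only [vG]
    linarith
  refine ⟨vG, hvG, ?_⟩
  refine PolyNilW.pull (Λ := Multiplicative ℝ) (lam := Multiplicative.ofAdd 1) gauge_real hvG
    (fun c x => Multiplicative.ofAdd (κ c x)) ?_ ?_ ?_ (polyNilW_real 1 one_ne_zero)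
  · intro c hc x y
    have hconj : x⁻¹ * U c * g * (x⁻¹ * U c)⁻¹ = x⁻¹ * c * x := by
      have := hU c hc
      calc x⁻¹ * U c * g * (x⁻¹ * U c)⁻¹ = x⁻¹ * (U c * g * (U c)⁻¹) * x := by group
        _ = x⁻¹ * c * x := by rw [this]
    have hc2 : IsConj g (x⁻¹ * c * x) := (hmem _).mpr ⟨x⁻¹ * U c, hconj⟩
    have h6 := key (x⁻¹ * c * x) (x⁻¹ * U c) y⁻¹ hc2 hconj
    rw [← ofAdd_add]
    congr 1
    simp only [κ]
    rw [← add_div]
    congr 1
    rw [← h6, mul_inv_rev, mul_assoc]
    ring
  · intro c hc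
    have : κ c c = 1 := by
      simp only [κ]
      have h1 := hU c hc
      have h2 : c⁻¹ * U c = U c * g⁻¹ := by
        calc c⁻¹ * U c = (U c * g * (U c)⁻¹)⁻¹ * U c := by rw [h1]
          _ = U c * g⁻¹ := by group
      rw [h2]
      have h3 := hz g rfl (U c * g⁻¹) 1
      rw [inv_mul_cancel_right, one_mul] at h3
      rw [h3]
      exact div_self hlam0
    simp only [this]
    exact IsConj.refl _
  · refine ⟨1, 1, fun c _ x => ?_⟩
    simp only [toAdd_ofAdd, pow_one, one_mul]
    have h1 : |κ c x| ≤ S x / |lam| := by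
      simp only [κ]
      rw [abs_div]
      refine div_le_div_of_nonneg_right ?_ hlamp.le
      rw [abs_sub_comm]
      exact hSle x _
    have h2 : vG x ≤ vG c * vG x := by
      have := hvG1 c
      have := hvG1 x
      nlinarith
    refine le_trans ?_ h2
    simp only [vG]
    linarith

theorem AllHeight.allPolyNil {G : Type*} [Group G] (h : AllHeight G) : AllPolyNil G :=
  fun g hg => (h g hg).polyNil

end Vale.Agent.P184
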