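import Vale.Agent.P184.PN.DefsEuler

namespace Vale.Agent.P184

/-- `x` has a polynomial conjugacy bound with respect to a gauge `v` (every conjugate `s` of `x` is
conjugate to `x` by an element `U s` with `v (U s) ≤ K v(s)^r`), and the Euler class of
`⟨x⟩ → Z(x) → Z(x) / ⟨x⟩`, `Z(x)` the centralizer of `x`, is nilpotent in the cohomology of
polynomial growth. -/
def ConjEuler {G : Type*} [Group G] (x : G) : Prop :=
  ∃ (v : G → ℝ) (U : G → G) (K : ℝ) (r : ℕ), Gauge v ∧ (∀ y, v y⁻¹ ≤ K * v y ^ r) ∧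
    (∀ s, IsConj x s → U s * x * (U s)⁻¹ = s ∧ v (U s) ≤ K * v s ^ r) ∧
    ∀ x' : Subgroup.centralizer ({x} : Set G), (x' : G) = x →
      EulerNil (fun z : Subgroup.centralizer ({x} : Set G) => v z) x'

/-- Every element of infinite order of `P` satisfies `ConjEuler`, or `P` is finitely generated and
all its commutators are central. -/
def Tame (P : Type*) [Group P] : Prop :=
  (∀ x : P, ¬ IsOfFinOrder x → ConjEuler x) ∨
    (Group.FG P ∧ ∀ x y z : P, (x * y * x⁻¹ * y⁻¹) * z = z * (x * y * x⁻¹ * y⁻¹))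

end Vale.Agent.P184
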