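import Vale.Agent.P184.PN.Pull

/-!
# Reduction to the centralizer under a polynomial conjugacy bound (row AP)
-/

namespace Vale.Agent.P184

open PN

private lemma pcb_alg {G : Type*} [Group G] {x s y u w : G} (h1 : u * x * u⁻¹ = s)
    (h2 : w * x * w⁻¹ = y⁻¹ * s * y) : x * (u⁻¹ * y * w) = u⁻¹ * y * w * x := by
  have e2 : w * x = y⁻¹ * s * y * w := mul_inv_eq_iff_eq_mul.mp h2
  subst h1
  calc x * (u⁻¹ * y * w) = u⁻¹ * y * (y⁻¹ * (u * x * u⁻¹) * y * w) := by group
    _ = u⁻¹ * y * (w * x) := by rw [e2]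
    _ = u⁻¹ * y * w * x := by group

/-- the element `(U s)⁻¹ y U (y⁻¹ s y)` commutes with `x` -/
private lemma pcb_comm {G : Type*} [Group G] {x : G} (U : G → G)
    (hU : ∀ s, IsConj x s → U s * x * (U s)⁻¹ = s) {s : G} (hs : IsConj x s) (y : G) :
    (U s)⁻¹ * y * U (y⁻¹ * s * y) ∈ Subgroup.centralizer ({x} : Set G) := by
  have hs' : IsConj x (y⁻¹ * s * y) := (isConj_conj_iff x s y).2 hs
  rw [Subgroup.mem_centralizer_singleton_iff]
  first
    | exact pcb_alg (hU s hs) (hU _ hs')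
    | exact (pcb_alg (hU s hs) (hU _ hs')).symm

/-- the growth estimate -/
private lemma pcb_growth {G : Type*} [Group G] {x : G} {v : G → ℝ} (hv : Gauge v)
    (U : G → G) (K : ℝ) (r : ℕ) (hinv : ∀ y, v y⁻¹ ≤ K * v y ^ r)
    (hU : ∀ s, IsConj x s → v (U s) ≤ K * v s ^ r) :
    ∃ (K' : ℝ) (r' : ℕ), ∀ s, IsConj x s → ∀ y,
      v ((U s)⁻¹ * y * U (y⁻¹ * s * y)) ≤ K' * (v s * v y) ^ r' := by
  obtain ⟨h1, K0, hK0⟩ := hv
  set C : ℝ := 2 * max K0 1 with hC
  have hC1 : 1 ≤ C := by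
    have : (1 : ℝ) ≤ max K0 1 := le_max_right _ _
    rw [hC]; linarith
  have hC0 : 0 ≤ C := by linarith
  have hmul : ∀ a b, v (a * b) ≤ C * (v a * v b) := by
    intro a b
    have ha := h1 a
    have hb := h1 b
    have h2 : v a + v b ≤ 2 * (v a * v b) := by nlinarith
    calc v (a * b) ≤ K0 * (v a + v b) := hK0 a b
      _ ≤ max K0 1 * (v a + v b) :=
          mul_le_mul_of_nonneg_right (le_max_left _ _) (by linarith)
      _ ≤ max K0 1 * (2 * (v a * v b)) :=
          mul_le_mul_of_nonneg_left h2 (le_trans zero_le_one (le_max_right _ _))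
      _ = C * (v a * v b) := by rw [hC]; ring
  set K1 : ℝ := max K 1 with hK1
  have hK10 : 0 ≤ K1 := le_trans zero_le_one (le_max_right _ _)
  have hinv' : ∀ y, v y⁻¹ ≤ K1 * v y ^ r := fun y =>
    (hinv y).trans (mul_le_mul_of_nonneg_right (le_max_left _ _)
      (pow_nonneg (le_trans zero_le_one (h1 y)) r))
  have hU' : ∀ s, IsConj x s → v (U s) ≤ K1 * v s ^ r := fun s hs =>
    (hU s hs).trans (mul_le_mul_of_nonneg_right (le_max_left _ _)
      (pow_nonneg (le_trans zero_le_one (h1 s)) r))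
  have hv0 : ∀ a, 0 ≤ v a := fun a => le_trans zero_le_one (h1 a)
  refine ⟨C * C * K1 * K1 ^ r * K1 * (C * C * K1) ^ r, r * r + 1 + (r + 2) * r, ?_⟩
  intro s hs y
  have hs' : IsConj x (y⁻¹ * s * y) := (isConj_conj_iff x s y).2 hs
  set P : ℝ := v s * v y with hP
  have hsP : v s ≤ P := by
    have := h1 s; have := h1 y; rw [hP]; nlinarith
  have hyP : v y ≤ P := by
    have := h1 s; have := h1 y; rw [hP]; nlinarith
  have hP0 : 0 ≤ P := le_trans (hv0 s) hsP
  have b3 : v y⁻¹ ≤ K1 * P ^ r := (hinv' y).trans (by gcongr; exact hv0 y)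
  have b4 : v (y⁻¹ * s * y) ≤ C * (C * (K1 * P ^ r * P) * P) := by
    calc v (y⁻¹ * s * y) ≤ C * (v (y⁻¹ * s) * v y) := hmul _ _
      _ ≤ C * (C * (v y⁻¹ * v s) * v y) := by
          gcongr
          all_goals first | exact hv0 _ | exact hmul _ _ | assumption
      _ ≤ C * (C * (K1 * P ^ r * P) * P) := by
          gcongr
          all_goals first | exact hv0 _ | exact hmul _ _ | assumption
  have b5 : v (U (y⁻¹ * s * y)) ≤ K1 * (C * (C * (K1 * P ^ r * P) * P)) ^ r :=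
    (hU' _ hs').trans (by gcongr; exact hv0 _)
  have b6 : v (U s) ≤ K1 * P ^ r := (hU' s hs).trans (by gcongr; exact hv0 s)
  have b6' : v (U s)⁻¹ ≤ K1 * (K1 * P ^ r) ^ r := (hinv' _).trans (by gcongr; exact hv0 _)
  calc v ((U s)⁻¹ * y * U (y⁻¹ * s * y))
      ≤ C * (v ((U s)⁻¹ * y) * v (U (y⁻¹ * s * y))) := hmul _ _
    _ ≤ C * (C * (v (U s)⁻¹ * v y) * v (U (y⁻¹ * s * y))) := by
        gcongr
        all_goals first | exact hv0 _ | exact hmul _ _ | assumption
    _ ≤ C * (C * (K1 * (K1 * P ^ r) ^ r * P) *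
          (K1 * (C * (C * (K1 * P ^ r * P) * P)) ^ r)) := by
        gcongr
        all_goals first | exact hv0 _ | exact hmul _ _ | assumption
    _ = C * C * K1 * K1 ^ r * K1 * (C * C * K1) ^ r * P ^ (r * r + 1 + (r + 2) * r) := by
        ring

open Classical in
/-- `PolyNilW.pull` with `Λ` the centralizer of `x`, `vΛ` the restriction of `v`, and, for `s`
conjugate to `x`, `A s y = (U s)⁻¹ * y * U (y⁻¹ * s * y)` (an element commuting with `x`; put
`A s y = 1` for the other `s`).  `A s s = (U s)⁻¹ s U s = x`.  Growth: `v (a b c) ≤ (2K)² v a v b v c`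
and `v (y⁻¹ s y)` is not needed: bound `v (U (y⁻¹ s y)) ≤ K v (y⁻¹ s y) ^ r` requires a bound of
`v (y⁻¹ s y)`; this is the reason for the hypothesis `hinv` (`v y⁻¹ ≤ K v y ^ r`). -/
theorem PolyNilW.of_centralizer {G : Type*} [Group G] {x : G} {v : G → ℝ} (hv : Gauge v)
    (U : G → G) (K : ℝ) (r : ℕ) (hinv : ∀ y, v y⁻¹ ≤ K * v y ^ r)
    (hU : ∀ s, IsConj x s → U s * x * (U s)⁻¹ = s ∧ v (U s) ≤ K * v s ^ r)
    (H : PolyNilW (fun z : Subgroup.centralizer ({x} : Set G) => v z)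
      (⟨x, Subgroup.mem_centralizer_singleton_iff.mpr rfl⟩ : Subgroup.centralizer ({x} : Set G))) :
    PolyNilW v x := by
  have hU1 : ∀ s, IsConj x s → U s * x * (U s)⁻¹ = s := fun s hs => (hU s hs).1
  have hU2 : ∀ s, IsConj x s → v (U s) ≤ K * v s ^ r := fun s hs => (hU s hs).2
  set A : G → G → Subgroup.centralizer ({x} : Set G) := fun s y =>
    if hs : IsConj x s then ⟨(U s)⁻¹ * y * U (y⁻¹ * s * y), pcb_comm U hU1 hs y⟩ else 1 with hA
  have hAval : ∀ s, IsConj x s → ∀ y, ((A s y : Subgroup.centralizer ({x} : Set G)) : G)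
      = (U s)⁻¹ * y * U (y⁻¹ * s * y) := by
    intro s hs y
    simp only [hA, dif_pos hs]
  have hvΛ : Gauge (fun z : Subgroup.centralizer ({x} : Set G) => v z) := by
    obtain ⟨h1, K0, hK0⟩ := hv
    exact ⟨fun z => h1 z, K0, fun a b => by simpa using hK0 (a : G) (b : G)⟩
  refine PolyNilW.pull hvΛ hv A ?_ ?_ ?_ H
  · intro s hs y z
    have hs' : IsConj x (y⁻¹ * s * y) := (isConj_conj_iff x s y).2 hs
    apply Subtype.ext
    rw [Subgroup.coe_mul, hAval s hs, hAval s hs, hAval _ hs']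
    have e : (y * z)⁻¹ * s * (y * z) = z⁻¹ * (y⁻¹ * s * y) * z := by group
    rw [e]
    group
  · intro s hs
    have e : A s s = (⟨x, Subgroup.mem_centralizer_singleton_iff.mpr rfl⟩ :
        Subgroup.centralizer ({x} : Set G)) := by
      apply Subtype.ext
      rw [hAval s hs]
      have e1 : s⁻¹ * s * s = s := by group
      rw [e1]
      have h := hU1 s hs
      calc (U s)⁻¹ * s * U s = (U s)⁻¹ * (U s * x * (U s)⁻¹) * U s := by rw [h]
        _ = x := by group
    rw [e]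
  · obtain ⟨K', r', h⟩ := pcb_growth hv U K r hinv hU2
    refine ⟨K', r', fun s hs y => ?_⟩
    show v (A s y : G) ≤ _
    rw [hAval s hs]
    exact h s hs y

end Vale.Agent.P184
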