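import Vale.Agent.P184.PN.EulerBest
import Vale.Agent.P184.PN.DefsConjEuler
import Vale.Agent.P184.PN.Pcb

namespace Vale.Agent.P184

open PN

theorem ConjEuler.polyNil {G : Type*} [Group G] {x : G} (h : ConjEuler x) : PolyNil x := by
  obtain ⟨v, U, K, r, hv, hinv, hU, hE⟩ := h
  refine ⟨v, hv, ?_⟩
  have hx : x ∈ Subgroup.centralizer ({x} : Set G) := Subgroup.mem_centralizer_singleton_iff.mpr rfl
  have hvC : Gauge (fun z : Subgroup.centralizer ({x} : Set G) => v z) := by
    obtain ⟨h1, K', hK'⟩ := hv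
    exact ⟨fun z => h1 z, K', fun y z => hK' y z⟩
  have hW : PolyNilW (fun z : Subgroup.centralizer ({x} : Set G) => v z) ⟨x, hx⟩ := by
    refine polyNilW_of_eulerNil hvC K r (fun y => hinv y) ⟨x, hx⟩ ?_ (hE ⟨x, hx⟩ rfl)
    intro y
    apply Subtype.ext
    have := Subgroup.mem_centralizer_singleton_iff.mp y.2
    simpa using this
  exact PolyNilW.of_centralizer hv U K r hinv hU hW

end Vale.Agent.P184
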