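import Vale.Agent.P184.RH.DefsAll

namespace Vale.Agent.P184

/-- Multiply the entries number `i` and `i + 1` of a finite sequence. -/
def mrg {G : Type*} [Mul G] : ℕ → List G → List G
  | _, [] => []
  | _, [x] => [x]
  | 0, x :: y :: l => (x * y) :: l
  | (i + 1), x :: y :: l => x :: mrg i (y :: l)

/-- The Hochschild coboundary of a function on finite sequences:
`(bψ)(g₀,…,gₙ₊₁) = ∑_{i ≤ n} (-1)^i ψ(…,gᵢgᵢ₊₁,…) + (-1)^(n+1) ψ(gₙ₊₁g₀,g₁,…,gₙ)`. -/
def hb {G : Type*} [Mul G] (ψ : List G → ℂ) (l : List G) : ℂ :=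
  ∑ i ∈ Finset.range (l.length - 1), (-1) ^ i * ψ (mrg i l) +
    (-1) ^ (l.length - 1) * ψ (mrg 0 (l.rotate (l.length - 1)))

/-- The operator `B` of Connes on normalized cochains:
`(Bψ)(g₀,…,gₙ) = ∑_{i ≤ n} (-1)^(n i) ψ(1,gᵢ,…,gₙ,g₀,…,gᵢ₋₁)`. -/
def cB {G : Type*} [One G] (ψ : List G → ℂ) (l : List G) : ℂ :=
  ∑ i ∈ Finset.range l.length, (-1) ^ ((l.length - 1) * i) * ψ (1 :: l.rotate i)

/-- A gauge: `v ≥ 1` and `v (x y) ≤ K (v x + v y)`; for instance `v = 1 + L` for a length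
function `L`. -/
def Gauge {G : Type*} [Mul G] (v : G → ℝ) : Prop :=
  (∀ x, 1 ≤ v x) ∧ ∃ K : ℝ, ∀ x y, v (x * y) ≤ K * (v x + v y)

/-- On the part of the cyclic bar construction of `G` lying over the conjugacy class of `g`, the
trace `τ` at that class is the total `(b, B)` coboundary of a normalized cochain `ψ` with finitely
many components, all of polynomial growth with respect to `v`. -/
def PolyNilW {G : Type*} [Group G] (v : G → ℝ) (g : G) : Prop :=
  ∃ (K : ℝ) (d k : ℕ) (ψ : List G → ℂ),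
    (∀ l, IsConj g l.prod → ‖ψ l‖ ≤ K * (l.map fun x => v x ^ d).prod) ∧
    (∀ x l, IsConj g (x :: l).prod → (1 : G) ∈ l → ψ (x :: l) = 0) ∧
    (∀ l, k ≤ l.length → ψ l = 0) ∧
    (∀ x, IsConj g x → ψ [1, x] = 1) ∧
    (∀ l, 2 ≤ l.length → IsConj g l.prod → hb ψ l + cB ψ l = 0)

/-- `PolyNilW` for some gauge. -/
def PolyNil {G : Type*} [Group G] (g : G) : Prop := ∃ v : G → ℝ, Gauge v ∧ PolyNilW v g

/-- `PolyNil` at all elements of infinite order. -/
def AllPolyNil (G : Type*) [Group G] : Prop := ∀ g : G, ¬ IsOfFinOrder g → PolyNil g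

end Vale.Agent.P184
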