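import Vale.Agent.P184.PN.Defs

namespace Vale.Agent.P184

/-- The homogeneous `2`-cocycle `e = δ α`, `α (p, q) = θ (p⁻¹ q)`.  If `θ (x h) = θ h + 1` for a
central element `x`, it does not change when `p`, `q` or `r` is multiplied by `x`, and it is the
Euler cocycle of the central extension `⟨x⟩ → C → C / ⟨x⟩`. -/
def eul {C : Type*} [Group C] (θ : C → ℝ) (p q r : C) : ℝ :=
  θ (q⁻¹ * r) - θ (p⁻¹ * r) + θ (p⁻¹ * q)

/-- The `k`-th cup power: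
` (e ∪ … ∪ e) (p₀, …, p_{2k}) = ∏_{r < k} e (p_{2r}, p_{2r+1}, p_{2r+2})`. -/
def cupPow {C : Type*} [Group C] (θ : C → ℝ) (k : ℕ) (pts : List C) : ℝ :=
  ∏ r ∈ Finset.range k,
    eul θ (pts.getD (2 * r) 1) (pts.getD (2 * r + 1) 1) (pts.getD (2 * r + 2) 1)

/-- The coboundary of a homogeneous cochain: ` (δ φ) (p₀, …, pₙ) = ∑ (-1)^i φ (…, p̂ᵢ, …)`. -/
def dl {C : Type*} (φ : List C → ℝ) (pts : List C) : ℝ :=
  ∑ i ∈ Finset.range pts.length, (-1) ^ i * φ (pts.eraseIdx i)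

/-- `cum a [y₁, y₂, …] = [a, a y₁, a y₁ y₂, …]`. -/
def cum {C : Type*} [Mul C] : C → List C → List C
  | a, [] => [a]
  | a, y :: l => a :: cum (a * y) l

/-- The Euler class of `⟨x⟩ → C → C / ⟨x⟩` is nilpotent in the cohomology of polynomial growth of
`C / ⟨x⟩`: for a function `θ` of polynomial growth with `θ (x h) = θ h + 1`, `θ (h⁻¹) = - θ h`, some
cup power of the Euler cocycle is the coboundary of a homogeneous cochain `φ` of `C / ⟨x⟩` of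
polynomial growth. -/
def EulerNil {C : Type*} [Group C] (v : C → ℝ) (x : C) : Prop :=
  ∃ (θ : C → ℝ) (φ : List C → ℝ) (K : ℝ) (d k : ℕ), 1 ≤ k ∧
    (∀ h, θ (x * h) = θ h + 1) ∧ (∀ h, θ h⁻¹ = - θ h) ∧ (∀ h, |θ h| ≤ K * v h ^ d) ∧
    (∀ g pts, φ (pts.map fun p => g * p) = φ pts) ∧
    (∀ l₁ p l₂, φ (l₁ ++ (x * p) :: l₂) = φ (l₁ ++ p :: l₂)) ∧
    (∀ l, |φ (cum 1 l)| ≤ K * (l.map fun y => v y ^ d).prod) ∧
    (∀ pts, pts.length = 2 * k + 1 → dl φ pts = cupPow θ k pts)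

end Vale.Agent.P184
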