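import Vale.Agent.P184.PN.DefsUni

namespace Vale.Agent.P184

/-- Some power `g ^ m` lies in a subgroup `H` of finite index of `G` and is not in the kernel of some
homomorphism `ρ` of `H` to a group of real upper unitriangular matrices. -/
def VUniAt {G : Type*} [Group G] (g : G) : Prop :=
  ∃ (H : Subgroup G) (n m : ℕ) (ρ : H →* Matrix (Fin n) (Fin n) ℝ) (hm : g ^ m ∈ H),
    H.FiniteIndex ∧ (∀ h i j, j < i → ρ h i j = 0) ∧ (∀ h i, ρ h i i = 1) ∧ ρ ⟨g ^ m, hm⟩ ≠ 1

/-- `VUniAt` at every element of infinite order. -/
def VUniDet (P : Type*) [Group P] : Prop := ∀ x : P, ¬ IsOfFinOrder x → VUniAt x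

/-- `P` has a subgroup of finite index all of whose nontrivial elements are detected by real
unitriangular representations of that subgroup. -/
def VirtResUni (P : Type*) [Group P] : Prop := ∃ H : Subgroup P, H.FiniteIndex ∧ ResUni H

end Vale.Agent.P184
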