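import Vale.Agent.P184.PN.DefsConjEuler
import Vale.Agent.P184.PN.DefsVUni

namespace Vale.Agent.P184

/-- Every element of infinite order of `P` satisfies `ConjEuler` or `VUniAt`. -/
def Tame2 (P : Type*) [Group P] : Prop :=
  ∀ x : P, ¬ IsOfFinOrder x → ConjEuler x ∨ VUniAt x

end Vale.Agent.P184
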