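import Vale.Agent.P184.PN.Defs

namespace Vale.Agent.P184

/-- `g` is not in the kernel of some homomorphism `ρ` of `G` to a group of real upper unitriangular
matrices (zeros below the diagonal, ones on the diagonal). -/
def UniAt {G : Type*} [Group G] (g : G) : Prop :=
  ∃ (n : ℕ) (ρ : G →* Matrix (Fin n) (Fin n) ℝ),
    (∀ h i j, j < i → ρ h i j = 0) ∧ (∀ h i, ρ h i i = 1) ∧ ρ g ≠ 1

/-- Every element of infinite order of `P` is detected by a real unitriangular representation. -/
def UniDet (P : Type*) [Group P] : Prop := ∀ x : P, ¬ IsOfFinOrder x → UniAt x

/-- Every nontrivial element of `P` is detected by a real unitriangular representation; for instance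
`P` is isomorphic to a group of real upper unitriangular matrices. -/
def ResUni (P : Type*) [Group P] : Prop := ∀ x : P, x ≠ 1 → UniAt x

end Vale.Agent.P184
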