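import Vale.Agent.P184.PN.ListFacts

/-!
# Running products (rows R1 - R3)
-/

namespace Vale.Agent.P184.PN

variable {Λ : Type*} [Group Λ]

/-- the running products `[1, g₁, g₁ g₂, …]` of `[g₁, g₂, …]` -/
def run (l : List Λ) : List Λ := l.scanl (· * ·) 1

@[simp] lemma run_nil : run ([] : List Λ) = [1] := rfl

/-- (R1) -/
lemma run_length (l : List Λ) : (run l).length = l.length + 1 := by
  simp [run]

lemma scanl_mul_eq (a : Λ) (l : List Λ) :
    l.scanl (· * ·) a = (l.scanl (· * ·) 1).map (a * ·) := by
  induction l generalizing a with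
  | nil => simp
  | cons y l ih =>
    simp only [List.scanl_cons, List.map_cons, mul_one, one_mul]
    rw [ih (a * y), ih y]
    simp [List.map_map, Function.comp_def, mul_assoc]

/-- (R1) -/
lemma run_cons (x : Λ) (l : List Λ) : run (x :: l) = 1 :: (run l).map (x * ·) := by
  unfold run
  rw [List.scanl_cons, one_mul, scanl_mul_eq x l]

lemma run_ne_nil (l : List Λ) : run l ≠ [] := by
  intro h
  have := run_length l
  rw [h] at this
  simp at this

/-- (R1) -/
lemma run_append (l₁ l₂ : List Λ) :
    run (l₁ ++ l₂) = run l₁ ++ ((run l₂).map (l₁.prod * ·)).tail := by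
  induction l₁ with
  | nil =>
    cases l₂ with
    | nil => simp
    | cons y l => simp [run_cons]
  | cons x l ih =>
    rw [List.cons_append, run_cons, ih, run_cons]
    simp [List.map_map, Function.comp_def, mul_assoc, List.map_tail]

/-- (R1) if `1 ∈ l` then two consecutive running products coincide -/
lemma run_one_mem {l : List Λ} (h : (1 : Λ) ∈ l) :
    ∃ (l₁ l₂ : List Λ) (p : Λ), run l = l₁ ++ p :: p :: l₂ := by
  induction l with
  | nil => simp at h
  | cons x l ih =>
    rcases List.mem_cons.1 h with h1 | h1
    · subst h1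
      cases l with
      | nil => exact ⟨[], [], 1, by simp [run_cons]⟩
      | cons y l =>
        refine ⟨[], (run l).map (y * ·), 1, ?_⟩
        rw [run_cons, run_cons]
        simp
    · obtain ⟨l₁, l₂, p, hp⟩ := ih h1
      refine ⟨1 :: l₁.map (x * ·), l₂.map (x * ·), x * p, ?_⟩
      rw [run_cons, hp]
      simp

/-- (R2) merging the entries `i`, `i+1` removes the running product number `i + 1` -/
lemma run_mrg (i : ℕ) (l : List Λ) (h : i + 2 ≤ l.length) :
    run (mrg i l) = (run l).eraseIdx (i + 1) := by
  induction i generalizing l with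
  | zero =>
    match l with
    | [] => simp at h
    | [x] => simp at h
    | x :: y :: l =>
      simp only [mrg]
      rw [run_cons, run_cons, run_cons]
      simp [List.map_map, Function.comp_def, mul_assoc]
  | succ i ih =>
    match l with
    | [] => simp at h
    | [x] => simp at h
    | x :: y :: l =>
      have h' : i + 2 ≤ (y :: l).length := by
        simp only [List.length_cons] at h ⊢
        omega
      have := ih (y :: l) h'
      simp only [mrg]
      rw [run_cons, this, run_cons x]
      simp [List.eraseIdx_cons_succ, List.eraseIdx_map]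

/-- (R2) the first face, up to a left translation -/
lemma run_tail (x : Λ) (l : List Λ) : (run l).map (x * ·) = (run (x :: l)).eraseIdx 0 := by
  rw [run_cons]
  simp

/-- (R2) the last face -/
lemma run_dropLast (l : List Λ) (h : l ≠ []) : run l.dropLast = (run l).eraseIdx l.length := by
  obtain ⟨m, a, rfl⟩ : ∃ m a, l = m ++ [a] :=
    ⟨l.dropLast, l.getLast h, (List.dropLast_append_getLast h).symm⟩
  rw [List.dropLast_concat, run_append]
  have h1 : ((run [a]).map (m.prod * ·)).tail = [m.prod * a] := by
    simp [run_cons]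
  rw [h1]
  have h2 : (m ++ [a]).length = (run m).length := by
    simp [run_length]
  rw [h2, List.eraseIdx_append_of_length_le (le_refl _)]
  simp

lemma run_ne_nil_R3 (l : List Λ) : run l ≠ [] := by
  intro h
  have := run_length l
  rw [h] at this
  simp at this

/-- a second form of `run_append` -/
lemma run_append_R3 (l₁ l₂ : List Λ) :
    run (l₁ ++ l₂) = (run l₁).dropLast ++ (run l₂).map (l₁.prod * ·) := by
  induction l₁ with
  | nil => simp
  | cons x l₁ ih =>
    rw [List.cons_append, run_cons, ih, run_cons]
    have hne : (run l₁).map (x * ·) ≠ [] := by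
      simpa using run_ne_nil_R3 l₁
    rw [List.dropLast_cons_of_ne_nil hne]
    simp [List.map_dropLast, mul_assoc, Function.comp_def]

/-- (R3) The prisms.  `l = g₀ :: l'` with `l.prod = z` central, `P = run l' = [h₀, …, hₙ]`.  For
`k ≤ n` the running products of `l.rotate (k+1)` (of `l` itself for `k = n`) are, up to a left
translation, `[h_k, …, hₙ, z h₀, …, z h_k]`.  Indeed for `k < n`,
`l.rotate (k+1) = [g_{k+1}, …, gₙ, g₀, …, g_k]`, and `h_k` times its running products are
`h_k, h_{k+1}, …, hₙ, hₙ g₀ = z, z g₁ = z h₁, …, z h_k`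
(`hₙ g₀ = g₀⁻¹ (g₀ hₙ) g₀ = g₀⁻¹ z g₀ = z`).  For `k = n`: `run l = [1, g₀, g₀ h₁, …]` and
`z g₀⁻¹ = hₙ`, so that `(z g₀⁻¹) * run l = [hₙ, z h₀, …, z hₙ]`. -/
lemma run_rotate (g₀ : Λ) (l' : List Λ) (z : Λ) (hz : ∀ x, x * z = z * x)
    (hprod : (g₀ :: l').prod = z) (k : ℕ) (hk : k ≤ l'.length) :
    ∃ γ : Λ, (run ((g₀ :: l').rotate ((k + 1) % (l'.length + 1)))).map (γ * ·) =
      (run l').drop k ++ ((run l').take (k + 1)).map (z * ·) := by
  obtain ⟨u, v, rfl, hu⟩ : ∃ u v : List Λ, l' = u ++ v ∧ u.length = k :=
    ⟨l'.take k, l'.drop k, (List.take_append_drop k l').symm, by simp [hk]⟩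
  refine ⟨u.prod, ?_⟩
  have h1 : (g₀ :: (u ++ v)).rotate ((k + 1) % ((u ++ v).length + 1)) = v ++ g₀ :: u := by
    have hl : (u ++ v).length + 1 = (g₀ :: (u ++ v)).length := by simp
    rw [hl, List.rotate_mod]
    have : g₀ :: (u ++ v) = (g₀ :: u) ++ v := rfl
    rw [this]
    have hk' : k + 1 = (g₀ :: u).length := by simp [hu]
    rw [hk', List.rotate_append_length_eq]
  have hz' : u.prod * (v.prod * g₀) = z := by
    have : g₀ * (u.prod * v.prod) = z := by simpa using hprod
    have h2 : u.prod * v.prod = g₀⁻¹ * z := by rw [← this]; group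
    rw [← mul_assoc, h2, mul_assoc, ← hz g₀]
    group
  rw [h1, run_append, run_cons]
  have e1 : (run (u ++ v)).drop k = (run v).map (u.prod * ·) := by
    rw [run_append_R3]
    have : (run u).dropLast.length = k := by simp [run_length, hu]
    rw [← this, List.drop_left]
  have e2 : (run (u ++ v)).take (k + 1) = run u := by
    rw [run_append]
    have : (run u).length = k + 1 := by simp [run_length, hu]
    rw [← this, List.take_left]
  rw [e1, e2]
  simp only [List.map_cons, List.tail_cons, List.map_append, List.map_map]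
  congr 1
  apply List.map_congr_left
  intro x _
  simp only [Function.comp]
  rw [← hz']
  group

end Vale.Agent.P184.PN
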