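import Vale.Agent.P184.PN.HeisY
import Vale.Agent.P184.PN.Run
import Vale.Agent.P184.PN.Base

/-!
# `PolyNil` for the central elements of the Heisenberg groups (rows Z1 - Z6)
-/

namespace Vale.Agent.P184.PN.HeisM

open scoped BigOperators

variable {m : ℕ}

/-- the gauge -/
noncomputable def gv (x : HeisM m) : ℝ := 1 + ∑ i, (x.a i ^ 2 + x.b i ^ 2) + |x.c|

/-- the constants -/
noncomputable def kap (t : ℝ) (j : ℕ) : ℝ := (-1) ^ j / ((2 * j + 1).factorial * t ^ (j + 1))

/-- the cochain: `ψ (g₀, g₁, …, g_{2j+1}) = kap t j * Y j [1, g₁, g₁ g₂, …]` -/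
noncomputable def psiM (t : ℝ) : List (HeisM m) → ℂ
  | [] => 0
  | _ :: l' => if Odd l'.length then ((kap t (l'.length / 2) * Y (l'.length / 2) (run l') : ℝ) : ℂ)
      else 0

/-- (Z1) `gv (x y) ≤ 3 (gv x + gv y)` -/
lemma gauge_gv : Gauge (gv : HeisM m → ℝ) := by
  refine ⟨fun x => ?_, 3, fun x y => ?_⟩
  · have h1 : 0 ≤ ∑ i, (x.a i ^ 2 + x.b i ^ 2) :=
      Finset.sum_nonneg (fun i _ => by positivity)
    have h2 := abs_nonneg x.c
    unfold gv
    linarith
  · have hx : 0 ≤ ∑ i, (x.a i ^ 2 + x.b i ^ 2) :=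
      Finset.sum_nonneg (fun i _ => by positivity)
    have hy : 0 ≤ ∑ i, (y.a i ^ 2 + y.b i ^ 2) :=
      Finset.sum_nonneg (fun i _ => by positivity)
    have h1 : ∑ i, ((x * y).a i ^ 2 + (x * y).b i ^ 2) ≤
        2 * ∑ i, (x.a i ^ 2 + x.b i ^ 2) + 2 * ∑ i, (y.a i ^ 2 + y.b i ^ 2) := by
      rw [Finset.mul_sum, Finset.mul_sum, ← Finset.sum_add_distrib]
      refine Finset.sum_le_sum (fun i _ => ?_)
      simp only [mul_a, mul_b, Pi.add_apply]
      nlinarith [sq_nonneg (x.a i - y.a i), sq_nonneg (x.b i - y.b i)]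
    have h2 : |∑ i, x.a i * y.b i| ≤
        ∑ i, (x.a i ^ 2 + x.b i ^ 2) + ∑ i, (y.a i ^ 2 + y.b i ^ 2) := by
      rw [← Finset.sum_add_distrib]
      refine (Finset.abs_sum_le_sum_abs _ _).trans (Finset.sum_le_sum (fun i _ => ?_))
      rw [abs_le]
      constructor
      · nlinarith [sq_nonneg (x.a i + y.b i), sq_nonneg (x.b i), sq_nonneg (y.a i)]
      · nlinarith [sq_nonneg (x.a i - y.b i), sq_nonneg (x.b i), sq_nonneg (y.a i)]
    have h3 : |(x * y).c| ≤ |x.c| + |y.c| + |∑ i, x.a i * y.b i| := by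
      rw [mul_c]
      exact (abs_add_le _ _).trans (add_le_add_left (abs_add_le _ _) _)
    have h4 := abs_nonneg x.c
    have h5 := abs_nonneg y.c
    unfold gv
    linarith

/-- (Z1) -/
lemma isConj_zc_iff (t : ℝ) (s : HeisM m) : IsConj (zc m t) s ↔ s = zc m t := by
  have hc : ∀ x : HeisM m, x * zc m t = zc m t * x := by
    intro x
    ext <;> simp [zc, add_comm]
  constructor
  · intro h
    obtain ⟨c, hc'⟩ := isConj_iff.1 h
    rw [← hc', hc c, mul_assoc, mul_inv_cancel, mul_one]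
  · rintro rfl
    exact IsConj.refl _

/-- (Z1) -/
lemma zc_central (t : ℝ) (x : HeisM m) : x * zc m t = zc m t * x := by
  ext <;> simp [zc, add_comm]

private lemma mem_run_aux {Λ : Type*} [Group Λ] {p : Λ} : ∀ l : List Λ, p ∈ run l →
    ∃ l₁ l₂ : List Λ, l = l₁ ++ l₂ ∧ p = l₁.prod := by
  intro l
  induction l generalizing p with
  | nil =>
    intro h
    refine ⟨[], [], rfl, ?_⟩
    simpa using h
  | cons x l ih =>
    intro h
    rw [run_cons, List.mem_cons] at h
    rcases h with h | h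
    · exact ⟨[], x :: l, rfl, by simpa using h⟩
    · obtain ⟨q, hq, rfl⟩ := List.mem_map.1 h
      obtain ⟨l₁, l₂, rfl, rfl⟩ := ih hq
      exact ⟨x :: l₁, l₂, rfl, by simp⟩

private lemma sq_le_sum_aux (p : HeisM m) (i : Fin m) :
    p.a i ^ 2 + p.b i ^ 2 ≤ ∑ i, (p.a i ^ 2 + p.b i ^ 2) :=
  Finset.single_le_sum (f := fun i => p.a i ^ 2 + p.b i ^ 2)
    (fun i _ => by positivity) (Finset.mem_univ i)

private lemma abs_A_le_gv (i : Fin m) (p : HeisM m) : |A i p| ≤ gv p := by
  have h := sq_le_sum_aux p i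
  have h2 : |p.a i| ≤ 1 + p.a i ^ 2 := by
    rw [abs_le]; constructor <;> nlinarith [sq_nonneg (p.a i + 1), sq_nonneg (p.a i - 1)]
  have h3 := sq_nonneg (p.b i)
  have h4 := abs_nonneg p.c
  simp only [A, gv]
  linarith

private lemma abs_B_le_gv (i : Fin m) (p : HeisM m) : |B i p| ≤ gv p := by
  have h := sq_le_sum_aux p i
  have h2 : |p.b i| ≤ 1 + p.b i ^ 2 := by
    rw [abs_le]; constructor <;> nlinarith [sq_nonneg (p.b i + 1), sq_nonneg (p.b i - 1)]
  have h3 := sq_nonneg (p.a i)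
  have h4 := abs_nonneg p.c
  simp only [B, gv]
  linarith

private lemma abs_ct_le_gv (p : HeisM m) : |ct p| ≤ gv p := by
  have h1 : |∑ i, p.a i * p.b i| ≤ ∑ i, (p.a i ^ 2 + p.b i ^ 2) := by
    refine (Finset.abs_sum_le_sum_abs _ _).trans (Finset.sum_le_sum fun i _ => ?_)
    rw [abs_le]; constructor <;> nlinarith [sq_nonneg (p.a i + p.b i), sq_nonneg (p.a i - p.b i)]
  have h0 : 0 ≤ ∑ i, (p.a i ^ 2 + p.b i ^ 2) := Finset.sum_nonneg fun i _ => by positivity
  have h2 : |ct p| ≤ |p.c| + |∑ i, p.a i * p.b i| / 2 := by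
    simp only [ct]
    refine (abs_sub _ _).trans ?_
    rw [abs_div]
    simp
  simp only [gv]
  linarith [abs_nonneg (∑ i, p.a i * p.b i)]

/-- (Z2) Growth.  `|A i p|, |B i p|, |ct p| ≤ gv p`; every `p ∈ run l'` is the product of an initial
segment of `l'`, so `gv p ≤ C ^ (l'.length + 1) * (l'.map gv).prod` (`exists_gauge_prod_le` in `Pull`,
and `1 ≤ gv`).  For `l.length ≥ 2 m + 4` the cochain vanishes (`Y_eq_zero`), so the lengths are
bounded and `abs_Y_le` gives the bound with `d = 2 m + 5`. -/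
lemma psiM_growth (t : ℝ) : ∃ K : ℝ, ∀ l : List (HeisM m),
    ‖psiM t l‖ ≤ K * (l.map fun x => gv x ^ (2 * m + 5)).prod := by
  obtain ⟨C, hC1, hC⟩ := exists_gauge_prod_le (gauge_gv (m := m))
  have hg1 : ∀ x : HeisM m, 1 ≤ gv x := (gauge_gv (m := m)).1
  set F : ℕ → ℝ := fun j => |kap t j| * ((1 + m) * ((m : ℝ) ^ j * ((2 * j + 2).factorial *
    (C ^ (2 * j + 2)) ^ (2 * j + 3)))) with hF
  have hF0 : ∀ j, 0 ≤ F j := fun j => by
    simp only [hF]; positivity
  refine ⟨∑ j ∈ Finset.range (m + 1), F j, ?_⟩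
  have hK0 : 0 ≤ ∑ j ∈ Finset.range (m + 1), F j := Finset.sum_nonneg fun j _ => hF0 j
  intro l
  have hR0 : 0 ≤ (∑ j ∈ Finset.range (m + 1), F j) *
      (l.map fun x => gv x ^ (2 * m + 5)).prod := by
    refine mul_nonneg hK0 (le_trans zero_le_one (one_le_prod_map (fun x => ?_) l))
    exact one_le_pow₀ (hg1 x)
  rcases l with _ | ⟨g₀, l'⟩
  · simpa [psiM] using hR0
  by_cases hodd : Odd l'.length
  swap
  · simpa [psiM, hodd] using hR0
  obtain ⟨j, hj⟩ := hodd
  have hj2 : l'.length / 2 = j := by omega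
  by_cases hmj : m < j
  · have : psiM t (g₀ :: l') = 0 := by
      simp [psiM, hj2, Y_eq_zero j hmj]
    rw [this]; simpa using hR0
  push Not at hmj
  set W : ℝ := (l'.map gv).prod with hW
  have hW1 : 1 ≤ W := one_le_prod_map hg1 l'
  set M : ℝ := C ^ (2 * j + 2) * W with hM
  have hM1 : 1 ≤ M := one_le_mul_of_one_le_of_one_le (one_le_pow₀ hC1) hW1
  have hmem : ∀ p ∈ run l', gv p ≤ M := by
    intro p hp
    obtain ⟨l₁, l₂, hl, rfl⟩ := mem_run_aux l' hp
    refine (hC l₁).trans ?_
    have hlen : l₁.length + 1 ≤ 2 * j + 2 := by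
      have : l'.length = l₁.length + l₂.length := by rw [hl, List.length_append]
      omega
    have h1 : (l₁.map gv).prod ≤ W := by
      rw [hW, hl, List.map_append, List.prod_append]
      have := one_le_prod_map hg1 l₂
      have h0 := one_le_prod_map hg1 l₁
      nlinarith
    exact mul_le_mul (pow_le_pow_right₀ hC1 hlen) h1
      (le_trans zero_le_one (one_le_prod_map hg1 l₁)) (by positivity)
  have hY := abs_Y_le j (run l') M hM1
    (fun i p hp => (abs_A_le_gv i p).trans (hmem p hp))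
    (fun i p hp => (abs_B_le_gv i p).trans (hmem p hp))
    (fun p hp => (abs_ct_le_gv p).trans (hmem p hp))
  rw [run_length, hj] at hY
  have hval : ‖psiM t (g₀ :: l')‖ = |kap t j| * |Y j (run l')| := by
    have ho : Odd l'.length := ⟨j, hj⟩
    simp only [psiM, if_pos ho, hj2]
    rw [Complex.norm_real, Real.norm_eq_abs, abs_mul]
  rw [hval]
  have hprod : (List.map (fun x => gv x ^ (2 * m + 5)) (g₀ :: l')).prod =
      gv g₀ ^ (2 * m + 5) * W ^ (2 * m + 5) := by
    rw [List.map_cons, List.prod_cons, prod_map_pow_eq]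
  rw [hprod]
  have h1 : |kap t j| * |Y j (run l')| ≤ F j * W ^ (2 * j + 3) := by
    calc |kap t j| * |Y j (run l')| ≤ |kap t j| * ((1 + m) * ((m : ℝ) ^ j *
          ((2 * j + 1 + 1).factorial * M ^ (2 * j + 1 + 1 + 1)))) :=
          mul_le_mul_of_nonneg_left hY (abs_nonneg _)
      _ = F j * W ^ (2 * j + 3) := by
          simp only [hF, hM, mul_pow]
          ring
  have h2 : F j ≤ ∑ j ∈ Finset.range (m + 1), F j :=
    Finset.single_le_sum (fun i _ => hF0 i) (Finset.mem_range.2 (by omega))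
  have h3 : W ^ (2 * j + 3) ≤ gv g₀ ^ (2 * m + 5) * W ^ (2 * m + 5) := by
    have h4 : W ^ (2 * j + 3) ≤ W ^ (2 * m + 5) := pow_le_pow_right₀ hW1 (by omega)
    have h5 : 1 ≤ gv g₀ ^ (2 * m + 5) := one_le_pow₀ (hg1 g₀)
    have h6 : 0 ≤ W ^ (2 * m + 5) := by positivity
    nlinarith
  exact h1.trans (mul_le_mul h2 h3 (by positivity) hK0)

/-- (Z3) `run_one_mem`, `Y_dup` -/
lemma psiM_norm (t : ℝ) (x : HeisM m) (l : List (HeisM m)) (h : (1 : HeisM m) ∈ l) :
    psiM t (x :: l) = 0 := by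
  obtain ⟨l₁, l₂, p, hp⟩ := run_one_mem h
  simp only [psiM]
  split_ifs
  · rw [hp, Y_dup]
    simp
  · rfl

/-- (Z3) `Y_eq_zero` -/
lemma psiM_fin (t : ℝ) (l : List (HeisM m)) (h : 2 * m + 4 ≤ l.length) : psiM t l = 0 := by
  cases l with
  | nil => rfl
  | cons x l' =>
    simp only [psiM]
    split_ifs
    · have h' : m < l'.length / 2 := by
        simp only [List.length_cons] at h
        omega
      rw [Y_eq_zero _ h']
      simp
    · rfl

/-- (Z3) `Y_zero_pair` -/
lemma psiM_deg0 (t : ℝ) (ht : t ≠ 0) : psiM t [1, zc m t] = 1 := by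
  have hr : run [zc m t] = [1, zc m t] := by
    simp [run]
  simp only [psiM, List.length_singleton, Nat.odd_iff, if_true]
  rw [hr]
  norm_num [kap, Y_zero_pair]
  exact inv_mul_cancel₀ (by exact_mod_cast ht)

/-- (Z4) `hb` in terms of the points `P = run l.tail`, for `l = g₀ :: g₁ :: l''` of length
`2 j + 3`: `mrg 0 l = (g₀ g₁) :: l''` and `run l''` is a left translate of `P.eraseIdx 0`
(`run_tail`, `Y_translate`); `mrg (i+1) l = g₀ :: mrg i l.tail` and `run_mrg`; the last face is
`(g_last g₀) :: l.tail.dropLast` and `run_dropLast`. -/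
lemma hb_psiM (t : ℝ) (j : ℕ) (l : List (HeisM m)) (h : l.length = 2 * j + 3) :
    hb (psiM t) l = ((kap t j * ∑ i ∈ Finset.range (2 * j + 3),
      (-1 : ℝ) ^ i * Y j ((run l.tail).eraseIdx i) : ℝ) : ℂ) := by
  obtain ⟨g₀, g₁, l'', rfl⟩ : ∃ g₀ g₁ l'', l = g₀ :: g₁ :: l'' := by
    match l, h with
    | [], h => simp at h
    | [x], h => simp at h
    | x :: y :: l'', _ => exact ⟨x, y, l'', rfl⟩
  have hl'' : l''.length = 2 * j + 1 := by
    simp only [List.length_cons] at h
    omega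
  have hps : ∀ (x : HeisM m) (l' : List (HeisM m)), l'.length = 2 * j + 1 →
      psiM t (x :: l') = ((kap t j * Y j (run l') : ℝ) : ℂ) := by
    intro x l' hl'
    have hodd : Odd l'.length := by
      rw [hl']
      exact ⟨j, rfl⟩
    have hdiv : l'.length / 2 = j := by
      rw [hl']
      omega
    show (if Odd l'.length then _ else _) = _
    rw [if_pos hodd, hdiv]
  -- the first face
  have h0 : psiM t (mrg 0 (g₀ :: g₁ :: l'')) =
      ((kap t j * Y j ((run (g₁ :: l'')).eraseIdx 0) : ℝ) : ℂ) := by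
    show psiM t ((g₀ * g₁) :: l'') = _
    rw [hps _ _ hl'', ← run_tail g₁ l'', Y_translate]
  -- the middle faces
  have hmid : ∀ i ∈ Finset.range (2 * j + 1),
      (-1 : ℂ) ^ (i + 1) * psiM t (mrg (i + 1) (g₀ :: g₁ :: l'')) =
        (((-1 : ℝ) ^ (i + 1) * (kap t j * Y j ((run (g₁ :: l'')).eraseIdx (i + 1))) : ℝ) : ℂ) := by
    intro i hi
    rw [Finset.mem_range] at hi
    have hle : i + 2 ≤ (g₁ :: l'').length := by
      simp only [List.length_cons]
      omega
    have hlen : (mrg i (g₁ :: l'')).length = 2 * j + 1 := by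
      rw [length_mrg i _ hle]
      simp only [List.length_cons]
      omega
    rw [mrg_succ_cons i g₀ (g₁ :: l'') (by simp), hps _ _ hlen, run_mrg i _ hle]
    push_cast
    ring
  -- the last face
  have hlast : psiM t (mrg 0 ((g₀ :: g₁ :: l'').rotate ((g₀ :: g₁ :: l'').length - 1))) =
      ((kap t j * Y j ((run (g₁ :: l'')).eraseIdx (2 * j + 2)) : ℝ) : ℂ) := by
    have hne : (g₁ :: l'') ≠ [] := by simp
    obtain ⟨q, a, hq⟩ : ∃ q a, g₁ :: l'' = q ++ [a] :=
      ⟨(g₁ :: l'').dropLast, (g₁ :: l'').getLast hne, (List.dropLast_append_getLast hne).symm⟩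
    have hqlen : q.length = 2 * j + 1 := by
      have := congrArg List.length hq
      simp only [List.length_cons, List.length_append, List.length_nil] at this
      omega
    have hdl : (g₁ :: l'').dropLast = q := by
      rw [hq]
      simp
    have hrot : (g₀ :: g₁ :: l'').rotate ((g₀ :: g₁ :: l'').length - 1) = a :: g₀ :: q := by
      rw [hq]
      have e1 : g₀ :: (q ++ [a]) = (g₀ :: q) ++ [a] := rfl
      have e2 : (g₀ :: (q ++ [a])).length - 1 = (g₀ :: q).length := by simp
      rw [e2, e1, List.rotate_append_length_eq]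
      rfl
    rw [hrot]
    show psiM t ((a * g₀) :: q) = _
    rw [hps _ _ hqlen, ← hdl, run_dropLast _ hne]
    have : (g₁ :: l'').length = 2 * j + 2 := by
      simp only [List.length_cons]
      omega
    rw [this]
  unfold hb
  have hlen1 : (g₀ :: g₁ :: l'').length - 1 = 2 * j + 1 + 1 := by
    rw [h]
    omega
  have hsum : ∑ i ∈ Finset.range (2 * j + 3),
      (-1 : ℝ) ^ i * Y j ((run (g₁ :: l'')).eraseIdx i) =
      (∑ i ∈ Finset.range (2 * j + 1),
        (-1 : ℝ) ^ (i + 1) * Y j ((run (g₁ :: l'')).eraseIdx (i + 1)) +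
        Y j ((run (g₁ :: l'')).eraseIdx 0)) +
        (-1 : ℝ) ^ (2 * j + 2) * Y j ((run (g₁ :: l'')).eraseIdx (2 * j + 2)) := by
    rw [Finset.sum_range_succ, Finset.sum_range_succ']
    simp
  rw [hlast, hlen1, Finset.sum_range_succ', Finset.sum_congr rfl hmid, h0]
  simp only [List.tail_cons]
  rw [hsum, ← Complex.ofReal_sum]
  have hcomm : ∑ i ∈ Finset.range (2 * j + 1),
      (-1 : ℝ) ^ (i + 1) * (kap t j * Y j ((run (g₁ :: l'')).eraseIdx (i + 1))) =
      kap t j * ∑ i ∈ Finset.range (2 * j + 1),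
        (-1 : ℝ) ^ (i + 1) * Y j ((run (g₁ :: l'')).eraseIdx (i + 1)) := by
    rw [Finset.mul_sum]
    refine Finset.sum_congr rfl fun i _ => ?_
    ring
  rw [hcomm]
  push_cast
  ring

/-- (Z5) `cB` for `l` of length `2 j + 1` with product `zc m t`: the signs are `1`; the map
`k ↦ (k + 1) % (2 j + 1)` permutes `Finset.range (2 j + 1)`; `run_rotate`, `Y_translate`,
`Y_prism`. -/
lemma cB_psiM (t : ℝ) (j : ℕ) (l : List (HeisM m)) (h : l.length = 2 * j + 1)
    (hp : l.prod = zc m t) :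
    cB (psiM t) l = ((kap t j * ((2 * j + 1) * ((-1) ^ j * t * Om j [] (run l.tail))) : ℝ) : ℂ) := by
  obtain ⟨g₀, l', rfl⟩ : ∃ g₀ l', l = g₀ :: l' := by
    cases l with
    | nil => simp at h
    | cons a b => exact ⟨a, b, rfl⟩
  have hl' : l'.length = 2 * j := by simpa using h
  have key : ∀ k, k ≤ l'.length →
      Y j (run ((g₀ :: l').rotate ((k + 1) % (l'.length + 1)))) =
        (-1) ^ j * t * Om j [] (run l') := by
    intro k hk
    obtain ⟨γ, hγ⟩ := run_rotate g₀ l' (zc m t) (fun x => zc_central t x) hp k hk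
    rw [← Y_translate j γ, hγ]
    exact Y_prism j t (run l') (by rw [run_length, hl']) k (by rw [run_length]; omega)
  have key2 : ∀ i, i < 2 * j + 1 →
      Y j (run ((g₀ :: l').rotate i)) = (-1) ^ j * t * Om j [] (run l') := by
    intro i hi
    rcases Nat.eq_zero_or_pos i with rfl | hpos
    · have h1 := key (2 * j) (by omega)
      rw [hl'] at h1
      simpa using h1
    · have h1 := key (i - 1) (by omega)
      rw [hl'] at h1
      have e : (i - 1 + 1) % (2 * j + 1) = i := by
        rw [Nat.sub_add_cancel hpos]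
        exact Nat.mod_eq_of_lt hi
      rwa [e] at h1
  have term : ∀ i ∈ Finset.range (g₀ :: l').length,
      (-1 : ℂ) ^ (((g₀ :: l').length - 1) * i) * psiM t (1 :: (g₀ :: l').rotate i) =
        ((kap t j * ((-1) ^ j * t * Om j [] (run l')) : ℝ) : ℂ) := by
    intro i hi
    rw [Finset.mem_range, h] at hi
    have hs : (-1 : ℂ) ^ (((g₀ :: l').length - 1) * i) = 1 := by
      rw [h]
      have : 2 * j + 1 - 1 = 2 * j := by omega
      rw [this, mul_assoc, pow_mul]
      simp
    have hlen : ((g₀ :: l').rotate i).length = 2 * j + 1 := by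
      rw [List.length_rotate, h]
    have hodd : Odd ((g₀ :: l').rotate i).length := by
      rw [hlen]
      exact ⟨j, rfl⟩
    have hdiv : ((g₀ :: l').rotate i).length / 2 = j := by
      rw [hlen]
      omega
    rw [hs, one_mul]
    show (if Odd ((g₀ :: l').rotate i).length then _ else _) = _
    rw [if_pos hodd, hdiv, key2 i hi]
  unfold cB
  rw [Finset.sum_congr rfl term, Finset.sum_const, Finset.card_range, h]
  simp only [List.tail_cons, nsmul_eq_mul]
  push_cast
  ring

/-- (Z6) for lists of even length all terms vanish -/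
lemma hb_cB_psiM_even (t : ℝ) (l : List (HeisM m)) (h : Even l.length) :
    hb (psiM t) l = 0 ∧ cB (psiM t) l = 0 := by
  have key : ∀ l' : List (HeisM m), Odd l'.length → psiM t l' = 0 := by
    intro l' hl'
    match l' with
    | [] => rfl
    | x :: l'' =>
      have h2 : ¬ Odd l''.length := by
        rw [List.length_cons] at hl'
        intro h3
        exact (Nat.not_even_iff_odd.mpr hl') (h3.add_one)
      simp only [psiM, if_neg h2]
  constructor
  · match l, h with
    | [], _ => simp [hb, mrg, psiM]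
    | [x], h => simp at h
    | x :: y :: l'', h =>
      have hodd : Odd ((x :: y :: l'').length - 1) := by
        simp only [List.length_cons] at h ⊢
        obtain ⟨r, hr⟩ := h
        exact ⟨r - 1, by omega⟩
      unfold hb
      rw [Finset.sum_eq_zero, zero_add, key, mul_zero]
      · rw [length_mrg 0 _ (by rw [List.length_rotate]; simp), List.length_rotate]
        exact hodd
      · intro i hi
        rw [Finset.mem_range] at hi
        rw [key, mul_zero]
        rw [length_mrg i _ (by omega)]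
        exact hodd
  · unfold cB
    refine Finset.sum_eq_zero fun i _ => ?_
    rw [key, mul_zero]
    rw [List.length_cons, List.length_rotate]
    exact h.add_one

/-- (Z6) `k = 2 m + 4`, `d = 2 m + 5`.  For `l` of length `2 j + 3` with product `zc m t`:
`hb_psiM`, `Y_delta`, `cB_psiM` (with `j + 1`), and
`kap t j / (2 j + 2) = kap t (j+1) * (2 j + 3) * (-1) * t * (-1) ...`, that is
`- kap t j * (-1)^j / (2j+2) + kap t (j+1) * (2j+3) * (-1)^(j+1) * t = 0`. -/
theorem polyNilW_zc (t : ℝ) (ht : t ≠ 0) : PolyNilW (gv : HeisM m → ℝ) (zc m t) := by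
  obtain ⟨K, hK⟩ := psiM_growth (m := m) t
  refine ⟨K, 2 * m + 5, 2 * m + 4, psiM t, fun l _ => hK l, fun x l _ h => psiM_norm t x l h,
    fun l h => psiM_fin t l h, ?_, ?_⟩
  · intro x hx
    rw [(isConj_zc_iff t x).mp hx]
    exact psiM_deg0 t ht
  · intro l hl hc
    have hp : l.prod = zc m t := (isConj_zc_iff t _).mp hc
    rcases Nat.even_or_odd l.length with he | ho
    · obtain ⟨h1, h2⟩ := hb_cB_psiM_even t l he
      rw [h1, h2, add_zero]
    · obtain ⟨r, hr⟩ := ho
      obtain ⟨j, rfl⟩ : ∃ j, r = j + 1 := ⟨r - 1, by omega⟩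
      have hlen : l.length = 2 * j + 3 := by omega
      have hrun : (run l.tail).length = 2 * j + 3 := by
        rw [run_length, List.length_tail]
        omega
      have hd := Y_delta j (run l.tail) hrun
      rw [hrun] at hd
      rw [hb_psiM t j l hlen, cB_psiM t (j + 1) l hr hp, hd, ← Complex.ofReal_add]
      rw [← Complex.ofReal_zero]
      congr 1
      have hf : ((2 * (j + 1) + 1).factorial : ℝ) =
          (2 * (j : ℝ) + 3) * ((2 * (j : ℝ) + 2) * ((2 * j + 1).factorial : ℝ)) := by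
        have e : 2 * (j + 1) + 1 = (2 * j + 1) + 1 + 1 := by ring
        rw [e, Nat.factorial_succ, Nat.factorial_succ]
        push_cast
        ring
      have hf0 : ((2 * j + 1).factorial : ℝ) ≠ 0 := by positivity
      have h2 : (2 * (j : ℝ) + 2) ≠ 0 := by positivity
      have h3 : (2 * (j : ℝ) + 3) ≠ 0 := by positivity
      unfold kap
      rw [hf]
      push_cast
      field_simp
      ring

end Vale.Agent.P184.PN.HeisM

namespace Vale.Agent.P184

open PN

/-- (Z7) Heisenberg coordinates of any rank.  If some `a i p ≠ 0` or `b i p ≠ 0` use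
`PolyNil.comap` with the homomorphism to `Multiplicative ℝ`, `polyNilW_real`, `gauge_real`.
Otherwise `x ↦ ⟨fun i => a i x, fun i => b i x, c x⟩` is a homomorphism to `HeisM m` sending `p` to
`zc m (c p)`. -/
theorem polyNil_of_heisM_coords {P : Type*} [Group P] (m : ℕ) (a b : Fin m → P → ℝ) (c : P → ℝ)
    (ha : ∀ i x y, a i (x * y) = a i x + a i y) (hb : ∀ i x y, b i (x * y) = b i x + b i y)
    (hc : ∀ x y, c (x * y) = c x + c y + ∑ i, a i x * b i y) (p : P)
    (hp : (∃ i, a i p ≠ 0) ∨ (∃ i, b i p ≠ 0) ∨ c p ≠ 0) : PolyNil p := by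
  have key : ∀ f : P → ℝ, (∀ x y, f (x * y) = f x + f y) → f p ≠ 0 → PolyNil p := by
    intro f hf hfp
    let π : P →* Multiplicative ℝ :=
      MonoidHom.mk' (fun x => Multiplicative.ofAdd (f x)) (by
        intro x y
        rw [hf, ofAdd_add])
    refine PolyNil.comap π ?_
    exact ⟨_, gauge_real, polyNilW_real (f p) hfp⟩
  by_cases h1 : ∃ i, a i p ≠ 0
  · obtain ⟨i, hi⟩ := h1
    exact key (a i) (ha i) hi
  by_cases h2 : ∃ i, b i p ≠ 0
  · obtain ⟨i, hi⟩ := h2
    exact key (b i) (hb i) hi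
  simp only [ne_eq, not_exists, not_not] at h1 h2
  have h3 : c p ≠ 0 := by
    rcases hp with ⟨i, h⟩ | ⟨i, h⟩ | h
    · exact absurd (h1 i) h
    · exact absurd (h2 i) h
    · exact h
  let π : P →* HeisM m :=
    MonoidHom.mk' (fun x => (⟨fun i => a i x, fun i => b i x, c x⟩ : HeisM m)) (by
      intro x y
      ext <;> simp [ha, hb, hc])
  refine PolyNil.comap π ?_
  have hπ : π p = HeisM.zc m (c p) := by
    change (⟨fun i => a i p, fun i => b i p, c p⟩ : HeisM m) = _
    ext <;> simp [HeisM.zc, h1, h2]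
  rw [hπ]
  exact ⟨_, HeisM.gauge_gv, HeisM.polyNilW_zc (c p) h3⟩

end Vale.Agent.P184
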