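import Vale.Agent.P184.PN.PsiC
import Vale.Agent.P184.PN.HeisMain

/-!
# The Euler class criterion (rows E1 - E9)

`x` is a central element of `C`, `θ : C → ℝ` is odd with `θ (x h) = θ h + 1`, `α p q = θ (p⁻¹ q)`.
-/

namespace Vale.Agent.P184.PN

open scoped BigOperators

section hom

variable {Λ : Type*} [Group Λ]

/-- the cochain attached to a function of the running products -/
noncomputable def homC (F : List Λ → ℝ) : List Λ → ℂ
  | [] => 0
  | _ :: l' => ((F (run l') : ℝ) : ℂ)

/-- (E1) As `HeisM.hb_psiM`.  Let `l = g₀ :: g₁ :: l''`, `P = run l.tail`.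
`mrg 0 l = (g₀ g₁) :: l''` and `run l''` is a left translate of `P.eraseIdx 0` (`run_tail`, `hF`);
`mrg (i+1) l = g₀ :: mrg i l.tail` and `run_mrg`; the last face is
` (g_last g₀) :: l.tail.dropLast` and `run_dropLast`. -/
lemma hb_homC (F : List Λ → ℝ) (hF : ∀ g pts, F (pts.map (g * ·)) = F pts) (l : List Λ)
    (h : 2 ≤ l.length) :
    hb (homC F) l = ((∑ i ∈ Finset.range l.length,
      (-1 : ℝ) ^ i * F ((run l.tail).eraseIdx i) : ℝ) : ℂ) := by
  obtain ⟨g₀, g₁, l'', rfl⟩ : ∃ g₀ g₁ l'', l = g₀ :: g₁ :: l'' := by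
    match l, h with
    | [], h => simp at h
    | [x], h => simp at h
    | x :: y :: l'', _ => exact ⟨x, y, l'', rfl⟩
  set n := l''.length with hn
  -- the first face
  have h0 : homC F (mrg 0 (g₀ :: g₁ :: l'')) =
      ((F ((run (g₁ :: l'')).eraseIdx 0) : ℝ) : ℂ) := by
    show ((F (run l'') : ℝ) : ℂ) = _
    rw [← run_tail g₁ l'', hF]
  -- the middle faces
  have hmid : ∀ i ∈ Finset.range n,
      (-1 : ℂ) ^ (i + 1) * homC F (mrg (i + 1) (g₀ :: g₁ :: l'')) =
        (((-1 : ℝ) ^ (i + 1) * F ((run (g₁ :: l'')).eraseIdx (i + 1)) : ℝ) : ℂ) := by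
    intro i hi
    rw [Finset.mem_range] at hi
    have hle : i + 2 ≤ (g₁ :: l'').length := by
      simp only [List.length_cons]
      omega
    rw [mrg_succ_cons i g₀ (g₁ :: l'') (by simp)]
    show (-1 : ℂ) ^ (i + 1) * ((F (run (mrg i (g₁ :: l''))) : ℝ) : ℂ) = _
    rw [run_mrg i _ hle]
    push_cast
    ring
  -- the last face
  have hlast : homC F (mrg 0 ((g₀ :: g₁ :: l'').rotate ((g₀ :: g₁ :: l'').length - 1))) =
      ((F ((run (g₁ :: l'')).eraseIdx (n + 1)) : ℝ) : ℂ) := by
    have hne : (g₁ :: l'') ≠ [] := by simp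
    obtain ⟨q, a, hq⟩ : ∃ q a, g₁ :: l'' = q ++ [a] :=
      ⟨(g₁ :: l'').dropLast, (g₁ :: l'').getLast hne, (List.dropLast_append_getLast hne).symm⟩
    have hdl : (g₁ :: l'').dropLast = q := by
      rw [hq]
      simp
    have hrot : (g₀ :: g₁ :: l'').rotate ((g₀ :: g₁ :: l'').length - 1) = a :: g₀ :: q := by
      rw [hq]
      have e1 : g₀ :: (q ++ [a]) = (g₀ :: q) ++ [a] := rfl
      have e2 : (g₀ :: (q ++ [a])).length - 1 = (g₀ :: q).length := by simp
      rw [e2, e1, List.rotate_append_length_eq]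
      rfl
    rw [hrot]
    show ((F (run q) : ℝ) : ℂ) = _
    rw [← hdl, run_dropLast _ hne]
    have : (g₁ :: l'').length = n + 1 := by
      simp only [List.length_cons]
      omega
    rw [this]
  unfold hb
  have hlen1 : (g₀ :: g₁ :: l'').length - 1 = n + 1 := by
    simp only [List.length_cons]
    omega
  have hlen2 : (g₀ :: g₁ :: l'').length = n + 2 := by
    simp only [List.length_cons]
    omega
  have hsum : ∑ i ∈ Finset.range (n + 2),
      (-1 : ℝ) ^ i * F ((run (g₁ :: l'')).eraseIdx i) =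
      (∑ i ∈ Finset.range n,
        (-1 : ℝ) ^ (i + 1) * F ((run (g₁ :: l'')).eraseIdx (i + 1)) +
        F ((run (g₁ :: l'')).eraseIdx 0)) +
        (-1 : ℝ) ^ (n + 1) * F ((run (g₁ :: l'')).eraseIdx (n + 1)) := by
    rw [Finset.sum_range_succ, Finset.sum_range_succ']
    simp
  rw [hlast, hlen1, hlen2, Finset.sum_range_succ', Finset.sum_congr rfl hmid, h0]
  simp only [List.tail_cons]
  rw [hsum, ← Complex.ofReal_sum]
  push_cast
  ring

/-- (E2) As `HeisM.cB_psiM`: the signs are `1`; the map `k ↦ (k + 1) % l.length` permutes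
`Finset.range l.length`; `run_rotate`, `hF`. -/
lemma cB_homC (F : List Λ → ℝ) (hF : ∀ g pts, F (pts.map (g * ·)) = F pts) (z : Λ)
    (hz : ∀ y, y * z = z * y) (l : List Λ) (hodd : Odd l.length) (hp : l.prod = z) :
    cB (homC F) l = ((∑ k ∈ Finset.range l.length,
      F ((run l.tail).drop k ++ ((run l.tail).take (k + 1)).map (z * ·)) : ℝ) : ℂ) := by
  obtain ⟨g₀, l', rfl⟩ : ∃ g₀ l', l = g₀ :: l' := by
    cases l with
    | nil => simp at hodd
    | cons a b => exact ⟨a, b, rfl⟩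
  have reidx : ∀ (f : ℕ → ℝ) (m : ℕ),
      ∑ i ∈ Finset.range (m + 1), f i = ∑ k ∈ Finset.range (m + 1), f ((k + 1) % (m + 1)) := by
    intro f m
    rw [Finset.sum_range_succ', Finset.sum_range_succ]
    congr 1
    · refine Finset.sum_congr rfl fun k hk => ?_
      rw [Nat.mod_eq_of_lt (by have := Finset.mem_range.1 hk; omega)]
    · simp
  have term : ∀ i ∈ Finset.range (g₀ :: l').length,
      (-1 : ℂ) ^ (((g₀ :: l').length - 1) * i) * homC F (1 :: (g₀ :: l').rotate i) =
        ((F (run ((g₀ :: l').rotate i)) : ℝ) : ℂ) := by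
    intro i _
    have hs : (-1 : ℂ) ^ (((g₀ :: l').length - 1) * i) = 1 := by
      obtain ⟨r, hr⟩ := hodd
      have : (g₀ :: l').length - 1 = 2 * r := by omega
      rw [this, mul_assoc, pow_mul]
      simp
    rw [hs, one_mul]
    rfl
  unfold cB
  rw [Finset.sum_congr rfl term, ← Complex.ofReal_sum]
  congr 1
  rw [List.length_cons, reidx]
  refine Finset.sum_congr rfl fun k hk => ?_
  obtain ⟨γ, hγ⟩ := run_rotate g₀ l' z hz hp k (by have := Finset.mem_range.1 hk; omega)
  rw [List.tail_cons, ← hγ, hF]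

/-- (E3) if `F` vanishes on the lists of odd length then all terms vanish for `l` of even length
(`run_length`) -/
lemma hb_cB_homC_even (F : List Λ → ℝ) (hF : ∀ pts, Odd pts.length → F pts = 0) (l : List Λ)
    (h : Even l.length) : hb (homC F) l = 0 ∧ cB (homC F) l = 0 := by
  have key : ∀ l' : List Λ, Odd l'.length → homC F l' = 0 := by
    intro l' hl'
    match l' with
    | [] => rfl
    | x :: l'' =>
      have h2 : F (run l'') = 0 := by
        apply hF
        rw [run_length]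
        simpa using hl'
      simp only [homC, h2, Complex.ofReal_zero]
  constructor
  · match l, h with
    | [], _ => simp [hb, mrg, homC]
    | [x], h => simp at h
    | x :: y :: l'', h =>
      have hodd : Odd ((x :: y :: l'').length - 1) := by
        simp only [List.length_cons] at h ⊢
        obtain ⟨r, hr⟩ := h
        exact ⟨r - 1, by omega⟩
      unfold hb
      rw [Finset.sum_eq_zero, zero_add, key, mul_zero]
      · rw [length_mrg 0 _ (by rw [List.length_rotate]; simp), List.length_rotate]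
        exact hodd
      · intro i hi
        rw [Finset.mem_range] at hi
        rw [key, mul_zero]
        rw [length_mrg i _ (by omega)]
        exact hodd
  · unfold cB
    refine Finset.sum_eq_zero fun i _ => ?_
    rw [key, mul_zero]
    rw [List.length_cons, List.length_rotate]
    exact h.add_one

lemma mem_run_split {l : List Λ} {p : Λ} (hp : p ∈ run l) :
    ∃ a b : List Λ, l = a ++ b ∧ p = a.prod := by
  induction l generalizing p with
  | nil =>
    refine ⟨[], [], rfl, ?_⟩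
    simpa using hp
  | cons x l ih =>
    rw [run_cons, List.mem_cons] at hp
    rcases hp with rfl | hp
    · exact ⟨[], x :: l, rfl, by simp⟩
    · obtain ⟨p', hp', rfl⟩ := List.mem_map.1 hp
      obtain ⟨a, b, rfl, rfl⟩ := ih hp'
      exact ⟨x :: a, b, rfl, by simp⟩

/-- (E3) for `p q ∈ run l` one of `p⁻¹ q`, `q⁻¹ p` is the product of a segment of `l`
(`p = l₁.prod`, `q = l₁'.prod` for two initial segments, one of which is an initial segment of the
other) -/
lemma run_mem_mem {l : List Λ} {p q : Λ} (hp : p ∈ run l) (hq : q ∈ run l) :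
    ∃ l₁ s l₂ : List Λ, l = l₁ ++ s ++ l₂ ∧ (p⁻¹ * q = s.prod ∨ q⁻¹ * p = s.prod) := by
  obtain ⟨a, b, hab, rfl⟩ := mem_run_split hp
  obtain ⟨a', b', hab', rfl⟩ := mem_run_split hq
  rw [hab] at hab'
  rcases List.append_eq_append_iff.1 hab' with ⟨c, rfl, rfl⟩ | ⟨c, rfl, rfl⟩
  · exact ⟨a, c, b', by rw [hab]; simp, Or.inl (by simp)⟩
  · exact ⟨a', c, b, by rw [hab], Or.inr (by simp)⟩

end hom

section euler

variable {C : Type*} [Group C] (θ : C → ℝ)

/-- `α p q = θ (p⁻¹ q)` -/
def alph (p q : C) : ℝ := θ (p⁻¹ * q)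

/-- (E4) -/
lemma alph_anti (hodd : ∀ h, θ h⁻¹ = - θ h) (p q : C) : alph θ q p = - alph θ p q := by
  have h : q⁻¹ * p = (p⁻¹ * q)⁻¹ := by group
  rw [alph, alph, h, hodd]

/-- (E4) -/
lemma alph_mul (g p q : C) : alph θ (g * p) (g * q) = alph θ p q := by
  have h : (g * p)⁻¹ * (g * q) = p⁻¹ * q := by group
  rw [alph, alph, h]

/-- (E4) -/
lemma alph_shift (x : C) (hx : ∀ y, y * x = x * y) (hθ : ∀ h, θ (x * h) = θ h + 1) (p q : C) :
    alph θ p (x * q) = alph θ p q + 1 := by
  have h : p⁻¹ * (x * q) = x * (p⁻¹ * q) := by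
    rw [← mul_assoc, hx p⁻¹, mul_assoc]
  rw [alph, alph, h, hθ]

/-- the function of the points -/
noncomputable def FE (k : ℕ) (φ : List C → ℝ) (pts : List C) : ℝ :=
  ∑ j ∈ Finset.range k, HeisM.kap 1 j * PsiC (alph θ) j pts +
    (if pts.length = 2 * k then φ pts else 0) / (2 * k).factorial

/-- (E4) `Finset.sum_eq_single`, `PsiC_length` -/
lemma FE_eq (k : ℕ) (φ : List C → ℝ) (j : ℕ) (hj : j < k) (pts : List C)
    (h : pts.length = 2 * j + 2) :
    FE θ k φ pts = HeisM.kap 1 j * PsiC (alph θ) j pts +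
      (if j + 1 = k then φ pts else 0) / (2 * k).factorial := by
  have h1 : ∑ i ∈ Finset.range k, HeisM.kap 1 i * PsiC (alph θ) i pts =
      HeisM.kap 1 j * PsiC (alph θ) j pts := by
    refine Finset.sum_eq_single j ?_ ?_
    · intro i _ hij
      rw [PsiC_length i pts (by omega), mul_zero]
    · intro hj'
      exact absurd (Finset.mem_range.2 hj) hj'
  have h2 : (pts.length = 2 * k) ↔ (j + 1 = k) := by omega
  rw [FE, h1]
  simp only [h2]

/-- (E4) -/
lemma FE_zero (k : ℕ) (φ : List C → ℝ) (pts : List C) (h0 : pts ≠ [])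
    (h : ∀ j < k, pts.length ≠ 2 * j + 2) : FE θ k φ pts = 0 := by
  have h1 : ∑ i ∈ Finset.range k, HeisM.kap 1 i * PsiC (alph θ) i pts = 0 := by
    refine Finset.sum_eq_zero ?_
    intro i hi
    rw [PsiC_length i pts (h i (Finset.mem_range.1 hi)), mul_zero]
  have h2 : ¬ pts.length = 2 * k := by
    intro hk
    rcases Nat.eq_zero_or_pos k with h3 | h3
    · apply h0
      apply List.eq_nil_of_length_eq_zero
      omega
    · exact h (k - 1) (by omega) (by omega)
  rw [FE, h1, if_neg h2, zero_div, add_zero]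

/-- (E4) `PsiC_map`, `alph_mul` -/
lemma FE_translate (hodd : ∀ h, θ h⁻¹ = - θ h) (k : ℕ) (φ : List C → ℝ)
    (hφ : ∀ g pts, φ (pts.map (g * ·)) = φ pts) (g : C) (pts : List C) :
    FE θ k φ (pts.map (g * ·)) = FE θ k φ pts := by
  have h1 : ∀ j, PsiC (alph θ) j (pts.map (g * ·)) = PsiC (alph θ) j pts := fun j =>
    PsiC_map (fun p q => alph_anti θ hodd p q) (g * ·) (fun p q => alph_mul θ g p q) j pts
  rw [FE, FE]
  simp only [h1, List.length_map, hφ]

/-- (E5) By induction on `l₂` (generalizing `l₁`), `φ (l₁ ++ l₂.map (x * ·)) = φ (l₁ ++ l₂)`; the list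
`P.drop i ++ P.take (i + 1)` contains `P[i]` twice. -/
lemma phi_prism (x : C) (φ : List C → ℝ)
    (hφx : ∀ l₁ p l₂, φ (l₁ ++ (x * p) :: l₂) = φ (l₁ ++ p :: l₂))
    (hφd : ∀ pts, ¬ pts.Nodup → φ pts = 0) (P : List C) (i : ℕ) (hi : i < P.length) :
    φ (P.drop i ++ (P.take (i + 1)).map (x * ·)) = 0 := by
  have key : ∀ (l₂ l₁ : List C), φ (l₁ ++ l₂.map (x * ·)) = φ (l₁ ++ l₂) := by
    intro l₂
    induction l₂ with
    | nil => intro l₁; rfl
    | cons p l₂ ih =>
      intro l₁
      rw [List.map_cons, hφx]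
      have e1 : l₁ ++ p :: l₂.map (x * ·) = (l₁ ++ [p]) ++ l₂.map (x * ·) := by simp
      have e2 : l₁ ++ p :: l₂ = (l₁ ++ [p]) ++ l₂ := by simp
      rw [e1, e2, ih]
  rw [key]
  apply hφd
  intro hnd
  have h1 : P[i] ∈ P.drop i := by
    rw [List.drop_eq_getElem_cons hi]
    exact List.mem_cons_self
  have h2 : P[i] ∈ P.take (i + 1) := by
    rw [List.take_succ_eq_append_getElem hi]
    exact List.mem_append_right _ (List.mem_singleton.2 rfl)
  exact (List.disjoint_of_nodup_append hnd) h1 h2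

/-- (E6) The main identity.  The faces have `2 j + 2` points, the prisms `2 (j + 1) + 2`.
If `k < j + 1` all terms vanish (`FE_zero`).
If `j + 1 = k`: the prisms give `0` (`FE_zero`); by `FE_eq`, `PsiC_delta`, `hδ` the faces give
`kap 1 j * (-((-1)^j * Wc (j+1) P) / (2 j + 2)) + Wc k P / (2 k)! = 0`, since
`kap 1 j = (-1)^j / (2 j + 1)!`.
If `j + 1 < k`: the faces give `kap 1 j * (-((-1)^j * Wc (j+1) P) / (2 j + 2))` (`FE_eq`, `PsiC_delta`),
each prism gives `kap 1 (j+1) * ((-1)^(j+1) * Wc (j+1) P)` (`FE_eq`, `PsiC_prism`, `phi_prism`),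
and there are `2 j + 3` of them. -/
lemma FE_main (x : C) (hx : ∀ y, y * x = x * y) (hθ : ∀ h, θ (x * h) = θ h + 1)
    (hodd : ∀ h, θ h⁻¹ = - θ h) (k : ℕ) (φ : List C → ℝ)
    (hφx : ∀ l₁ p l₂, φ (l₁ ++ (x * p) :: l₂) = φ (l₁ ++ p :: l₂))
    (hφd : ∀ pts, ¬ pts.Nodup → φ pts = 0)
    (hδ : ∀ pts : List C, pts.length = 2 * k + 1 →
      ∑ l ∈ Finset.range pts.length, (-1 : ℝ) ^ l * φ (pts.eraseIdx l) = Wc (alph θ) k pts)
    (j : ℕ) (P : List C) (hP : P.length = 2 * j + 3) :
    ∑ i ∈ Finset.range P.length, (-1 : ℝ) ^ i * FE θ k φ (P.eraseIdx i) +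
      ∑ i ∈ Finset.range P.length, FE θ k φ (P.drop i ++ (P.take (i + 1)).map (x * ·)) = 0 := by
  have hα : ∀ p q, alph θ q p = - alph θ p q := alph_anti θ hodd
  have hxα : ∀ p q, alph θ p (x * q) = alph θ p q + 1 := alph_shift θ x hx hθ
  have hface : ∀ i ∈ Finset.range P.length, (P.eraseIdx i).length = 2 * j + 2 := by
    intro i hi
    rw [List.length_eraseIdx_of_lt (Finset.mem_range.1 hi)]
    omega
  have hprism : ∀ i ∈ Finset.range P.length,
      (P.drop i ++ (P.take (i + 1)).map (x * ·)).length = 2 * (j + 1) + 2 := by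
    intro i hi
    have := Finset.mem_range.1 hi
    simp only [List.length_append, List.length_drop, List.length_map, List.length_take]
    omega
  have hne : ∀ l : List C, ∀ n : ℕ, l.length = n + 2 → l ≠ [] := by
    intro l n hl h0
    rw [h0] at hl
    simp at hl
  have hs : ((-1 : ℝ) ^ j) * ((-1 : ℝ) ^ j) = 1 := by
    rw [← mul_pow]; norm_num
  have hf1 : ((2 * j + 1).factorial : ℝ) ≠ 0 := by positivity
  have hfact : ((2 * j + 2).factorial : ℝ) = (2 * j + 2) * (2 * j + 1).factorial := by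
    rw [Nat.factorial_succ]; push_cast; ring
  have hfact3 : ((2 * (j + 1) + 1).factorial : ℝ) = (2 * j + 3) * ((2 * j + 2) * (2 * j + 1).factorial) := by
    rw [show 2 * (j + 1) + 1 = (2 * j + 2) + 1 by ring, Nat.factorial_succ, Nat.cast_mul, hfact]
    push_cast; ring
  have hdelta := PsiC_delta hα j P hP
  -- the faces without the phi term
  have hfaces0 : ∑ i ∈ Finset.range P.length,
      (-1 : ℝ) ^ i * (HeisM.kap 1 j * PsiC (alph θ) j (P.eraseIdx i)) =
      - Wc (alph θ) (j + 1) P / (2 * j + 2).factorial := by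
    have : ∑ i ∈ Finset.range P.length,
        (-1 : ℝ) ^ i * (HeisM.kap 1 j * PsiC (alph θ) j (P.eraseIdx i)) =
        HeisM.kap 1 j * ∑ i ∈ Finset.range P.length,
          (-1 : ℝ) ^ i * PsiC (alph θ) j (P.eraseIdx i) := by
      rw [Finset.mul_sum]
      refine Finset.sum_congr rfl fun i _ => ?_
      ring
    rw [this, hdelta, hfact]
    unfold HeisM.kap
    have h2 : (2 * (j : ℝ) + 2) ≠ 0 := by positivity
    rw [one_pow, mul_one]
    field_simp
    linear_combination (- Wc (alph θ) (j + 1) P) * hs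
  rcases lt_trichotomy (j + 1) k with hk | hk | hk
  · -- j + 1 < k
    have h1 : ∑ i ∈ Finset.range P.length, (-1 : ℝ) ^ i * FE θ k φ (P.eraseIdx i) =
        - Wc (alph θ) (j + 1) P / (2 * j + 2).factorial := by
      rw [← hfaces0]
      refine Finset.sum_congr rfl fun i hi => ?_
      rw [FE_eq θ k φ j (by omega) _ (hface i hi), if_neg (by omega)]
      simp
    have h2 : ∑ i ∈ Finset.range P.length,
        FE θ k φ (P.drop i ++ (P.take (i + 1)).map (x * ·)) =
        Wc (alph θ) (j + 1) P / (2 * j + 2).factorial := by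
      have : ∀ i ∈ Finset.range P.length,
          FE θ k φ (P.drop i ++ (P.take (i + 1)).map (x * ·)) =
          HeisM.kap 1 (j + 1) * ((-1) ^ (j + 1) * Wc (alph θ) (j + 1) P) := by
        intro i hi
        rw [FE_eq θ k φ (j + 1) hk _ (hprism i hi),
          phi_prism x φ hφx hφd P i (Finset.mem_range.1 hi),
          PsiC_prism hα (x * ·) hxα (j + 1) P (by omega) i (Finset.mem_range.1 hi)]
        simp
      rw [Finset.sum_congr rfl this, Finset.sum_const, Finset.card_range, hP, nsmul_eq_mul, hfact]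
      unfold HeisM.kap
      rw [one_pow, mul_one, hfact3]
      have h2 : (2 * (j : ℝ) + 2) ≠ 0 := by positivity
      have h3 : (2 * (j : ℝ) + 3) ≠ 0 := by positivity
      push_cast
      field_simp
      rw [pow_succ]
      linear_combination (Wc (alph θ) (j + 1) P) * hs
    rw [h1, h2]
    ring
  · -- j + 1 = k
    subst hk
    have h2 : ∑ i ∈ Finset.range P.length,
        FE θ (j + 1) φ (P.drop i ++ (P.take (i + 1)).map (x * ·)) = 0 := by
      refine Finset.sum_eq_zero fun i hi => ?_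
      refine FE_zero θ (j + 1) φ _ (hne _ _ (hprism i hi)) ?_
      intro j' hj'
      rw [hprism i hi]
      omega
    have h1 : ∑ i ∈ Finset.range P.length, (-1 : ℝ) ^ i * FE θ (j + 1) φ (P.eraseIdx i) =
        - Wc (alph θ) (j + 1) P / (2 * j + 2).factorial +
          Wc (alph θ) (j + 1) P / (2 * (j + 1)).factorial := by
      rw [← hfaces0, ← hδ P (by omega), Finset.sum_div, ← Finset.sum_add_distrib]
      refine Finset.sum_congr rfl fun i hi => ?_
      rw [FE_eq θ (j + 1) φ j (by omega) _ (hface i hi), if_pos rfl]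
      ring
    rw [h1, h2, show 2 * (j + 1) = 2 * j + 2 by ring]
    ring
  · -- k < j + 1
    have h1 : ∑ i ∈ Finset.range P.length, (-1 : ℝ) ^ i * FE θ k φ (P.eraseIdx i) = 0 := by
      refine Finset.sum_eq_zero fun i hi => ?_
      rw [FE_zero θ k φ _ (hne _ _ (hface i hi)) ?_, mul_zero]
      intro j' hj'
      rw [hface i hi]
      omega
    have h2 : ∑ i ∈ Finset.range P.length,
        FE θ k φ (P.drop i ++ (P.take (i + 1)).map (x * ·)) = 0 := by
      refine Finset.sum_eq_zero fun i hi => ?_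
      refine FE_zero θ k φ _ (hne _ _ (hprism i hi)) ?_
      intro j' hj'
      rw [hprism i hi]
      omega
    rw [h1, h2, add_zero]

/-- (E7) Growth.  As `HeisM.psiM_growth`.  Let `l = g₀ :: l'`, `W = (l'.map v).prod ≥ 1`.  If
`2 k ≤ l'.length` the cochain vanishes (`FE_zero`, `run_length`).  Otherwise, by `run_mem_mem`,
`hodd`, `hθv` and `exists_gauge_prod_le`, `|alph θ p q| ≤ K * (Cg ^ (2 k) * W) ^ d` for
`p q ∈ run l'`; use `abs_PsiC_le` (the number of points is at most `2 k`) and `hφv`. -/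
lemma FE_growth {v : C → ℝ} (hv : Gauge v) (hodd : ∀ h, θ h⁻¹ = - θ h) (K : ℝ) (d : ℕ)
    (hθv : ∀ h, |θ h| ≤ K * v h ^ d) (k : ℕ) (φ : List C → ℝ)
    (hφv : ∀ l : List C, |φ (run l)| ≤ K * (l.map fun y => v y ^ d).prod) :
    ∃ (K' : ℝ) (d' : ℕ), ∀ l : List C,
      ‖homC (FE θ k φ) l‖ ≤ K' * (l.map fun y => v y ^ d').prod := by
  obtain ⟨Cg, hC1, hC⟩ := exists_gauge_prod_le hv
  have hv1 : ∀ y : C, 1 ≤ v y := hv.1
  set K₁ : ℝ := max K 1 with hK₁
  have hK₁1 : 1 ≤ K₁ := le_max_right _ _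
  have hKK₁ : K ≤ K₁ := le_max_left _ _
  set D : ℕ := d * (2 * k + 1) with hD
  set G : ℝ := (1 + 2 * k) * (((2 * k : ℕ) : ℝ) ^ k * ((2 * k).factorial *
    (K₁ * (Cg ^ (2 * k)) ^ d) ^ (2 * k + 1))) with hG
  have hG0 : 0 ≤ G := by simp only [hG]; positivity
  set K' : ℝ := (∑ j ∈ Finset.range k, |HeisM.kap 1 j|) * G + K₁ / (2 * k).factorial with hK'
  have hS0 : 0 ≤ ∑ j ∈ Finset.range k, |HeisM.kap 1 j| := Finset.sum_nonneg fun j _ => abs_nonneg _
  have hK'0 : 0 ≤ K' := by simp only [hK']; positivity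
  refine ⟨K', D, ?_⟩
  intro l
  have hR0 : 0 ≤ K' * (l.map fun y => v y ^ D).prod := by
    refine mul_nonneg hK'0 (le_trans zero_le_one (one_le_prod_map (fun y => ?_) l))
    exact one_le_pow₀ (hv1 y)
  rcases l with _ | ⟨g₀, l'⟩
  · simpa [homC] using hR0
  have hval : ‖homC (FE θ k φ) (g₀ :: l')‖ = |FE θ k φ (run l')| := by
    simp only [homC]
    rw [Complex.norm_real, Real.norm_eq_abs]
  rw [hval]
  have hrl : (run l').length = l'.length + 1 := run_length l'
  have hrne : run l' ≠ [] := by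
    intro h0
    rw [h0] at hrl
    simp at hrl
  by_cases hlen : 2 * k ≤ l'.length
  · rw [FE_zero θ k φ _ hrne (by intro j hj; rw [hrl]; omega)]
    simpa using hR0
  push Not at hlen
  set W : ℝ := (l'.map v).prod with hW
  have hW1 : 1 ≤ W := one_le_prod_map hv1 l'
  set M : ℝ := K₁ * (Cg ^ (2 * k) * W) ^ d with hM
  have hCW1 : 1 ≤ Cg ^ (2 * k) * W := one_le_mul_of_one_le_of_one_le (one_le_pow₀ hC1) hW1
  have hM1 : 1 ≤ M := one_le_mul_of_one_le_of_one_le hK₁1 (one_le_pow₀ hCW1)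
  -- segments
  have hseg : ∀ l₁ s l₂ : List C, l' = l₁ ++ s ++ l₂ → |θ s.prod| ≤ M := by
    intro l₁ s l₂ hl
    refine (hθv _).trans ?_
    have hvs : v s.prod ≤ Cg ^ (2 * k) * W := by
      refine (hC s).trans ?_
      have hlen' : s.length + 1 ≤ 2 * k := by
        have : l'.length = l₁.length + s.length + l₂.length := by
          rw [hl, List.length_append, List.length_append]
        omega
      have h1 : (s.map v).prod ≤ W := by
        rw [hW, hl, List.map_append, List.map_append, List.prod_append, List.prod_append]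
        have a1 := one_le_prod_map hv1 l₁
        have a2 := one_le_prod_map hv1 l₂
        have a3 := one_le_prod_map hv1 s
        have : (s.map v).prod ≤ (l₁.map v).prod * (s.map v).prod := by nlinarith
        have b : 0 ≤ (l₁.map v).prod * (s.map v).prod := by positivity
        nlinarith
      exact mul_le_mul (pow_le_pow_right₀ hC1 hlen') h1
        (le_trans zero_le_one (one_le_prod_map hv1 s)) (by positivity)
    have hv0 : 0 ≤ v s.prod := le_trans zero_le_one (hv1 _)
    have h2 : v s.prod ^ d ≤ (Cg ^ (2 * k) * W) ^ d := pow_le_pow_left₀ hv0 hvs d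
    have h3 : 0 ≤ v s.prod ^ d := by positivity
    calc K * v s.prod ^ d ≤ K₁ * v s.prod ^ d := mul_le_mul_of_nonneg_right hKK₁ h3
      _ ≤ K₁ * (Cg ^ (2 * k) * W) ^ d := mul_le_mul_of_nonneg_left h2 (by positivity)
  have hal : ∀ p ∈ run l', ∀ q ∈ run l', |alph θ p q| ≤ M := by
    intro p hp q hq
    obtain ⟨l₁, s, l₂, hl, h | h⟩ := run_mem_mem hp hq
    · simp only [alph]
      rw [h]
      exact hseg l₁ s l₂ hl
    · have : p⁻¹ * q = (q⁻¹ * p)⁻¹ := by group
      simp only [alph]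
      rw [this, hodd, abs_neg, h]
      exact hseg l₁ s l₂ hl
  have hn : ((run l').length : ℝ) ≤ ((2 * k : ℕ) : ℝ) := by
    rw [hrl]
    exact_mod_cast hlen
  have hnN : (run l').length ≤ 2 * k := by rw [hrl]; omega
  have hk1 : 1 ≤ 2 * k := by omega
  have hk1R : (1 : ℝ) ≤ ((2 * k : ℕ) : ℝ) := by exact_mod_cast hk1
  have hMW : M ^ (2 * k + 1) = (K₁ * (Cg ^ (2 * k)) ^ d) ^ (2 * k + 1) * W ^ D := by
    simp only [hM, hD, mul_pow, pow_mul]
    ring
  have hPsi : ∀ j ∈ Finset.range k, |PsiC (alph θ) j (run l')| ≤ G * W ^ D := by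
    intro j hj
    have hj' := Finset.mem_range.1 hj
    refine (abs_PsiC_le j (run l') M hM1 hal).trans ?_
    have e1 : (1 + ((run l').length : ℝ)) ≤ 1 + 2 * k := by
      have : ((2 * k : ℕ) : ℝ) = 2 * k := by push_cast; ring
      linarith
    have e2 : ((run l').length : ℝ) ^ j ≤ ((2 * k : ℕ) : ℝ) ^ k :=
      (pow_le_pow_left₀ (by positivity) hn j).trans (pow_le_pow_right₀ hk1R hj'.le)
    have e3 : (((run l').length).factorial : ℝ) ≤ ((2 * k).factorial : ℝ) := by
      exact_mod_cast Nat.factorial_le hnN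
    have e4 : M ^ ((run l').length + 1) ≤ M ^ (2 * k + 1) :=
      pow_le_pow_right₀ hM1 (by omega)
    have hM0 : 0 ≤ M := by linarith
    calc (1 + ((run l').length : ℝ)) * (((run l').length : ℝ) ^ j *
          ((((run l').length).factorial : ℝ) * M ^ ((run l').length + 1)))
        ≤ (1 + 2 * k) * (((2 * k : ℕ) : ℝ) ^ k * (((2 * k).factorial : ℝ) * M ^ (2 * k + 1))) := by
          gcongr
      _ = G * W ^ D := by
          rw [hMW, hG]
          ring
  have hWD0 : 0 ≤ W ^ D := by positivity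
  have hphi : |(if (run l').length = 2 * k then φ (run l') else 0) / ((2 * k).factorial : ℝ)| ≤
      K₁ / (2 * k).factorial * W ^ D := by
    have hf : (0 : ℝ) < (2 * k).factorial := by positivity
    rw [abs_div, abs_of_pos hf, div_mul_eq_mul_div]
    refine div_le_div_of_nonneg_right ?_ hf.le
    have hb : |φ (run l')| ≤ K₁ * W ^ D := by
      refine (hφv l').trans ?_
      rw [prod_map_pow_eq]
      have h1 : W ^ d ≤ W ^ D := pow_le_pow_right₀ hW1 (by
        rw [hD]
        exact Nat.le_mul_of_pos_right d (by omega))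
      have h0 : 0 ≤ W ^ d := by positivity
      calc K * W ^ d ≤ K₁ * W ^ d := mul_le_mul_of_nonneg_right hKK₁ h0
        _ ≤ K₁ * W ^ D := mul_le_mul_of_nonneg_left h1 (by positivity)
    split_ifs
    · exact hb
    · rw [abs_zero]; positivity
  have hmain : |FE θ k φ (run l')| ≤ K' * W ^ D := by
    unfold FE
    refine (abs_add_le _ _).trans ?_
    have h1 : |∑ j ∈ Finset.range k, HeisM.kap 1 j * PsiC (alph θ) j (run l')| ≤
        (∑ j ∈ Finset.range k, |HeisM.kap 1 j|) * G * W ^ D := by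
      refine (Finset.abs_sum_le_sum_abs _ _).trans ?_
      rw [mul_assoc, Finset.sum_mul]
      refine Finset.sum_le_sum fun j hj => ?_
      rw [abs_mul]
      exact mul_le_mul_of_nonneg_left (hPsi j hj) (abs_nonneg _)
    calc _ ≤ (∑ j ∈ Finset.range k, |HeisM.kap 1 j|) * G * W ^ D +
          K₁ / (2 * k).factorial * W ^ D := add_le_add h1 hphi
      _ = K' * W ^ D := by rw [hK']; ring
  refine hmain.trans ?_
  have hprod : (List.map (fun y => v y ^ D) (g₀ :: l')).prod = v g₀ ^ D * W ^ D := by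
    rw [List.map_cons, List.prod_cons, prod_map_pow_eq]
  rw [hprod]
  have h5 : 1 ≤ v g₀ ^ D := one_le_pow₀ (hv1 g₀)
  have : W ^ D ≤ v g₀ ^ D * W ^ D := by nlinarith
  exact mul_le_mul_of_nonneg_left this hK'0

/-- (E8) `run_one_mem`, `PsiC_dup`, `hφd` -/
lemma FE_norm (hodd : ∀ h, θ h⁻¹ = - θ h) (k : ℕ) (φ : List C → ℝ)
    (hφd : ∀ pts, ¬ pts.Nodup → φ pts = 0) (y : C) (l : List C) (h : (1 : C) ∈ l) :
    homC (FE θ k φ) (y :: l) = 0 := by
  obtain ⟨l₁, l₂, p, hrun⟩ := run_one_mem h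
  have hα : ∀ p q, alph θ q p = - alph θ p q := alph_anti θ hodd
  have hnd : ¬ (l₁ ++ p :: p :: l₂).Nodup := by
    intro hn
    have h1 := (List.nodup_append.1 hn).2.1
    exact (List.nodup_cons.1 h1).1 List.mem_cons_self
  show ((FE θ k φ (run l) : ℝ) : ℂ) = 0
  rw [hrun]
  unfold FE
  simp only [PsiC_dup hα, hφd _ hnd, mul_zero, Finset.sum_const_zero, ite_self, zero_div, add_zero,
    Complex.ofReal_zero]

/-- (E8) `run [x] = [1, x]`, `FE_eq` with `j = 0`, `PsiC_zero_pair`, `alph θ 1 x = θ x = 1`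
(`θ 1 = 0` by `hodd`); if `k = 1` then `φ [1, x] = φ [1, 1] = 0` by `hφx`, `hφd`. -/
lemma FE_deg0 (x : C) (hθ : ∀ h, θ (x * h) = θ h + 1) (hodd : ∀ h, θ h⁻¹ = - θ h) (k : ℕ)
    (hk : 1 ≤ k) (φ : List C → ℝ)
    (hφx : ∀ l₁ p l₂, φ (l₁ ++ (x * p) :: l₂) = φ (l₁ ++ p :: l₂))
    (hφd : ∀ pts, ¬ pts.Nodup → φ pts = 0) : homC (FE θ k φ) [1, x] = 1 := by
  have hα : ∀ p q, alph θ q p = - alph θ p q := alph_anti θ hodd
  have hrun : run [x] = [1, x] := by simp [run]
  have hθ1 : θ 1 = 0 := by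
    have := hodd 1
    rw [inv_one] at this
    linarith
  have hθx : θ x = 1 := by
    have := hθ 1
    rw [mul_one, hθ1] at this
    linarith
  have hφ0 : φ [1, x] = 0 := by
    have h1 := hφx [1] 1 []
    rw [mul_one] at h1
    simp only [List.cons_append, List.nil_append] at h1
    rw [h1]
    exact hφd _ (by simp)
  show ((FE θ k φ (run [x]) : ℝ) : ℂ) = 1
  rw [hrun, FE_eq θ k φ 0 (by omega) [1, x] (by simp), PsiC_zero_pair hα, hφ0]
  simp [HeisM.kap, alph, hθx]

/-- (E9) The criterion.  `ψ = homC (FE θ k φ)`; it vanishes on the lists of length `≥ 2 k + 1`.  The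
conjugacy class of `x` is `{x}`.  For `l` of even length `hb_cB_homC_even` (`FE_zero`); for `l` of
length `2 j + 3` with product `x`: `hb_homC`, `cB_homC`, `FE_translate`, `FE_main` with
`P = run l.tail`. -/
theorem polyNilW_of_Wc {v : C → ℝ} (hv : Gauge v) (x : C) (hx : ∀ y, y * x = x * y)
    (hθ : ∀ h, θ (x * h) = θ h + 1) (hodd : ∀ h, θ h⁻¹ = - θ h) (K : ℝ) (d : ℕ)
    (hθv : ∀ h, |θ h| ≤ K * v h ^ d) (k : ℕ) (hk : 1 ≤ k) (φ : List C → ℝ)
    (hφ : ∀ g pts, φ (pts.map (g * ·)) = φ pts)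
    (hφx : ∀ l₁ p l₂, φ (l₁ ++ (x * p) :: l₂) = φ (l₁ ++ p :: l₂))
    (hφd : ∀ pts, ¬ pts.Nodup → φ pts = 0)
    (hφv : ∀ l : List C, |φ (run l)| ≤ K * (l.map fun y => v y ^ d).prod)
    (hδ : ∀ pts : List C, pts.length = 2 * k + 1 →
      ∑ l ∈ Finset.range pts.length, (-1 : ℝ) ^ l * φ (pts.eraseIdx l) = Wc (alph θ) k pts) :
    PolyNilW v x := by
  obtain ⟨K', d', hgr⟩ := FE_growth θ hv hodd K d hθv k φ hφv
  have hconj : ∀ y, IsConj x y → y = x := by
    intro y hy
    obtain ⟨c, hc⟩ := isConj_iff.1 hy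
    rw [← hc, hx c, mul_assoc, mul_inv_cancel, mul_one]
  have htr : ∀ g pts, FE θ k φ (pts.map (g * ·)) = FE θ k φ pts := FE_translate θ hodd k φ hφ
  refine ⟨K', d', 2 * k + 1, homC (FE θ k φ), fun l _ => hgr l,
    fun y l _ h => FE_norm θ hodd k φ hφd y l h, ?_, ?_, ?_⟩
  · intro l hl
    cases l with
    | nil => rfl
    | cons g₀ l' =>
      show ((FE θ k φ (run l') : ℝ) : ℂ) = 0
      have hlen : (run l').length = l'.length + 1 := run_length l'
      rw [FE_zero θ k φ (run l') (by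
        intro h0
        rw [h0] at hlen
        simp at hlen) (by
        intro j hj
        rw [hlen]
        simp only [List.length_cons] at hl
        omega)]
      simp
  · intro y hy
    rw [hconj y hy]
    exact FE_deg0 θ x hθ hodd k hk φ hφx hφd
  · intro l hl hc
    have hp : l.prod = x := hconj _ hc
    rcases Nat.even_or_odd l.length with he | ho
    · obtain ⟨h1, h2⟩ := hb_cB_homC_even (FE θ k φ) (by
        intro pts hpts
        refine FE_zero θ k φ pts ?_ ?_
        · intro h0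
          rw [h0] at hpts
          simp at hpts
        · intro j _ h2
          rw [h2] at hpts
          exact (Nat.not_odd_iff_even.2 ⟨j + 1, by ring⟩) hpts) l he
      rw [h1, h2, add_zero]
    · obtain ⟨r, hr⟩ := ho
      obtain ⟨j, rfl⟩ : ∃ j, r = j + 1 := ⟨r - 1, by omega⟩
      have hrun : (run l.tail).length = l.length := by
        rw [run_length, List.length_tail]
        omega
      have hP : (run l.tail).length = 2 * j + 3 := by omega
      have hm := FE_main θ x hx hθ hodd k φ hφx hφd hδ j (run l.tail) hP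
      rw [hrun] at hm
      rw [hb_homC (FE θ k φ) htr l hl, cB_homC (FE θ k φ) htr x hx l ⟨j + 1, hr⟩ hp,
        ← Complex.ofReal_add, hm, Complex.ofReal_zero]

/-- (E9) finite rank: `polyNilW_of_Wc` with `k = m + 1`, `φ = 0`, `Wc_eq_zero_of_rank`
(by `hodd`, `alph θ p q = (alph θ p q - alph θ q p) / 2`). -/
theorem polyNilW_of_rank {v : C → ℝ} (hv : Gauge v) (x : C) (hx : ∀ y, y * x = x * y)
    (hθ : ∀ h, θ (x * h) = θ h + 1) (hodd : ∀ h, θ h⁻¹ = - θ h) (K : ℝ) (d : ℕ)
    (hθv : ∀ h, |θ h| ≤ K * v h ^ d) (m : ℕ) (a b : Fin m → C → ℝ)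
    (hab : ∀ p q, θ (p⁻¹ * q) = ∑ i, a i p * b i q) : PolyNilW v x := by
  have hK : 0 ≤ K := by
    have h1 := hθv 1
    have h2 : 0 < v 1 ^ d := pow_pos (lt_of_lt_of_le one_pos (hv.1 1)) d
    by_contra hneg
    push Not at hneg
    have : K * v 1 ^ d < 0 := mul_neg_of_neg_of_pos hneg h2
    linarith [abs_nonneg (θ 1)]
  have hα : ∀ p q, alph θ q p = - alph θ p q := alph_anti θ hodd
  refine polyNilW_of_Wc θ hv x hx hθ hodd K d hθv (m + 1) (by omega) (fun _ => 0)
    (fun _ _ => rfl) (fun _ _ _ => rfl) (fun _ _ => rfl) ?_ ?_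
  · intro l
    rw [abs_zero]
    refine mul_nonneg hK (List.prod_nonneg ?_)
    intro z hz
    obtain ⟨y, _, rfl⟩ := List.mem_map.1 hz
    exact pow_nonneg (le_trans zero_le_one (hv.1 y)) d
  · intro pts _
    rw [Wc_eq_zero_of_rank (α := alph θ) a b (by
      intro p q
      rw [Finset.sum_sub_distrib, ← hab p q, ← hab q p]
      have := hα p q
      unfold alph at this ⊢
      linarith) (m + 1) (by simp) pts]
    simp

end euler

end Vale.Agent.P184.PN
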