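import Vale.Agent.P184.PN.PsiC
import Vale.Agent.P184.PN.AltCup

/-!
# `Wc` as an alternating sum over permutations (rows L1 - L5)
-/

namespace Vale.Agent.P184.PN

open scoped BigOperators

variable {X : Type*} {ι : Type*} [Fintype ι] (A B : ι → X → ℝ)

/-- (L1) exchange of two adjacent columns.  With `z = a + b` the list `L ++ z :: z :: R` has a
repetition (`OmX_dup`); expand by `OmX_col_add` (twice) into four terms, two of which vanish. -/
lemma OmX_adj_swap (j : ℕ) (L R : List (X → ℝ)) (a b : X → ℝ) (pts : List X) :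
    OmX A B j (L ++ a :: b :: R) pts = - OmX A B j (L ++ b :: a :: R) pts := by
  have hdup : ∀ z : X → ℝ, OmX A B j (L ++ z :: z :: R) pts = 0 := by
    intro z
    apply OmX_dup
    intro h
    have h1 := (List.nodup_append.1 h).2.1
    simp at h1
  have h0 := hdup (fun p => a p + 1 * b p)
  rw [OmX_col_add A B j L ((fun p => a p + 1 * b p) :: R) a b 1 pts] at h0
  have e1 := OmX_col_add A B j (L ++ [a]) R a b 1 pts
  have e2 := OmX_col_add A B j (L ++ [b]) R a b 1 pts
  simp only [List.append_assoc, List.singleton_append] at e1 e2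
  rw [e1, e2, hdup a, hdup b] at h0
  linarith

/-- (L1) induction on `M` (generalizing `L`): `L ++ (c :: M ++ [y]) = (L ++ [c]) ++ (M ++ [y])`, the
induction hypothesis, and `OmX_adj_swap`. -/
lemma OmX_move (j : ℕ) (L M : List (X → ℝ)) (y : X → ℝ) (pts : List X) :
    OmX A B j (L ++ (M ++ [y])) pts = (-1) ^ M.length * OmX A B j (L ++ y :: M) pts := by
  induction M generalizing L with
  | nil => simp
  | cons c M ih =>
    have h1 : L ++ (c :: M ++ [y]) = (L ++ [c]) ++ (M ++ [y]) := by simp
    have h2 : (L ++ [c]) ++ y :: M = L ++ c :: y :: M := by simp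
    rw [h1, ih (L ++ [c]), h2, OmX_adj_swap A B j L M c y pts, List.length_cons, pow_succ]
    ring

/-- the same sums with the columns in the order `A_{s_j}, B_{s_j}, …, A_{s_1}, B_{s_1}, mid` -/
noncomputable def OmC : ℕ → List (X → ℝ) → List X → ℝ
  | 0, mid, pts => LDet mid pts
  | (j + 1), mid, pts => ∑ i, OmC j (A i :: B i :: mid) pts

/-- (L2) induction on `j` generalizing `mid`; `OmX_move` with `L = [A i]`, `M = mid`. -/
lemma OmX_eq_OmC (j : ℕ) (mid : List (X → ℝ)) (h : Even mid.length) (pts : List X) :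
    OmX A B j mid pts = OmC A B j mid pts := by
  induction j generalizing mid with
  | zero => rfl
  | succ j ih =>
    simp only [OmX, OmC]
    refine Finset.sum_congr rfl fun i _ => ?_
    have h1 := OmX_move A B j [A i] mid (B i) pts
    simp only [List.cons_append, List.nil_append] at h1
    rw [h1, h.neg_one_pow, one_mul]
    refine ih (A i :: B i :: mid) ?_
    simp only [List.length_cons]
    obtain ⟨r, hr⟩ := h
    exact ⟨r + 1, by omega⟩

/-- (L3) the Leibniz formula (`Matrix.det_apply'`; the factor of the column `0` is `1`;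
`Fin.prod_univ_eq_prod_range`, `Finset.prod_range_succ'`) -/
lemma LDet_leibniz (n : ℕ) [NeZero n] (cols : List (Fin n → ℝ)) (h : n = cols.length + 1) :
    LDet cols (List.finRange n) = ∑ σ : Equiv.Perm (Fin n), ((Equiv.Perm.sign σ : ℤ) : ℝ) *
      ∏ c ∈ Finset.range cols.length, (cols.getD c fun _ => 0) (σ (Fin.ofNat n (c + 1))) := by
  have hl : (List.finRange n).length = n := List.length_finRange
  unfold LDet
  rw [if_pos (hl.trans h)]
  have hM : LMat cols (List.finRange n) = (Matrix.of fun (k c : Fin n) =>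
      (((fun _ => (1 : ℝ)) :: cols).getD (c : ℕ) (fun _ => 0)) k).submatrix
        (finCongr hl) (finCongr hl) := by
    ext k c
    simp [LMat]
  rw [hM, Matrix.det_submatrix_equiv_self, Matrix.det_apply']
  refine Finset.sum_congr rfl fun σ _ => ?_
  congr 1
  simp only [Matrix.of_apply]
  have h1 : ∏ i : Fin n, (((fun _ => (1 : ℝ)) :: cols).getD (i : ℕ) (fun _ => 0)) (σ i)
      = ∏ i ∈ Finset.range n,
          (((fun _ => (1 : ℝ)) :: cols).getD i (fun _ => 0)) (σ (Fin.ofNat n i)) := by
    rw [← Fin.prod_univ_eq_prod_range]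
    refine Finset.prod_congr rfl fun i _ => ?_
    simp
  rw [h1]
  have h2 : Finset.range n = Finset.range (cols.length + 1) := congrArg _ h
  rw [h2, Finset.prod_range_succ']
  simp

/-- (L4) induction on `j` generalizing `mid`; in the step the columns `A i`, `B i` are evaluated at
`σ (2 j + 1)`, `σ (2 j + 2)`; `Finset.sum_comm`, `Finset.mul_sum`, `Finset.prod_range_succ`,
`Finset.prod_range_succ'`. -/
lemma OmC_leibniz (n : ℕ) [NeZero n] (A B : ι → Fin n → ℝ) (j : ℕ) (mid : List (Fin n → ℝ))
    (h : n = 2 * j + mid.length + 1) :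
    OmC A B j mid (List.finRange n) = ∑ σ : Equiv.Perm (Fin n), ((Equiv.Perm.sign σ : ℤ) : ℝ) *
      ((∏ r ∈ Finset.range j,
          ∑ i, A i (σ (Fin.ofNat n (2 * r + 1))) * B i (σ (Fin.ofNat n (2 * r + 2)))) *
        ∏ c ∈ Finset.range mid.length,
          (mid.getD c fun _ => 0) (σ (Fin.ofNat n (2 * j + 1 + c)))) := by
  induction j generalizing mid with
  | zero =>
    rw [OmC, LDet_leibniz n mid (by omega)]
    refine Finset.sum_congr rfl fun σ _ => ?_
    congr 1
    rw [Finset.prod_range_zero, one_mul]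
    refine Finset.prod_congr rfl fun c _ => ?_
    rw [show 2 * 0 + 1 + c = c + 1 by omega]
  | succ j ih =>
    rw [OmC]
    have step : ∀ i, OmC A B j (A i :: B i :: mid) (List.finRange n)
        = ∑ σ : Equiv.Perm (Fin n), ((Equiv.Perm.sign σ : ℤ) : ℝ) *
      ((∏ r ∈ Finset.range j,
          ∑ i, A i (σ (Fin.ofNat n (2 * r + 1))) * B i (σ (Fin.ofNat n (2 * r + 2)))) *
        ((A i (σ (Fin.ofNat n (2 * j + 1))) * B i (σ (Fin.ofNat n (2 * j + 2)))) *
        ∏ c ∈ Finset.range mid.length,
          (mid.getD c fun _ => 0) (σ (Fin.ofNat n (2 * (j + 1) + 1 + c))))) := by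
      intro i
      rw [ih (A i :: B i :: mid) (by simp only [List.length_cons]; omega)]
      refine Finset.sum_congr rfl fun σ _ => ?_
      congr 2
      simp only [List.length_cons]
      rw [Finset.prod_range_succ', Finset.prod_range_succ']
      simp only [List.getD_cons_succ, List.getD_cons_zero]
      rw [show 2 * j + 1 + 0 = 2 * j + 1 by omega, show 2 * j + 1 + (0 + 1) = 2 * j + 2 by omega]
      have : ∀ c, 2 * j + 1 + (c + 1 + 1) = 2 * (j + 1) + 1 + c := by intro c; omega
      simp only [this]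
      ring
    simp only [step]
    rw [Finset.sum_comm]
    refine Finset.sum_congr rfl fun σ _ => ?_
    rw [← Finset.mul_sum, ← Finset.mul_sum, ← Finset.sum_mul, Finset.prod_range_succ]
    ring

/-- (L5) `Wc_ofFn`, `OmX_eq_OmC`, `OmC_leibniz` with `mid = []`;
`∑ u, (- α (f p) (f u)) * canB n u q = - α (f p) (f q)`; `Finset.prod_neg` or
`Finset.prod_mul_distrib`. -/
theorem Wc_leibniz (α : X → X → ℝ) (k : ℕ) (f : Fin (2 * k + 1) → X) :
    Wc α k ((List.finRange (2 * k + 1)).map f) =
      (-1) ^ k * AS (chainA α (2 * k + 1) 0 k) f := by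
  rw [Wc_ofFn, OmX_eq_OmC _ _ _ _ (by simp), OmC_leibniz (2 * k + 1) _ _ k [] (by simp)]
  unfold AS chainA
  rw [Finset.mul_sum]
  refine Finset.sum_congr rfl fun σ _ => ?_
  have h1 : ∀ r : ℕ, (∑ i : Fin (2 * k + 1),
      (- α (f (σ (Fin.ofNat (2 * k + 1) (2 * r + 1)))) (f i)) *
        canB (2 * k + 1) i (σ (Fin.ofNat (2 * k + 1) (2 * r + 2)))) =
      - α (f (σ (Fin.ofNat (2 * k + 1) (2 * r + 1)))) (f (σ (Fin.ofNat (2 * k + 1) (2 * r + 2)))) := by
    intro r
    unfold canB
    simp
  simp only [h1, List.length_nil, Finset.range_zero, Finset.prod_empty, mul_one, Function.comp,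
    zero_add]
  rw [Finset.prod_neg]
  simp only [Finset.card_range]
  ring

end Vale.Agent.P184.PN
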