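import Vale.Agent.P184.PN.Euler
import Vale.Agent.P184.PN.Leib
import Vale.Agent.P184.PN.DefsEuler

/-!
# The Euler class criterion, final form (rows F1 - F8)
-/

namespace Vale.Agent.P184.PN

open scoped BigOperators

section general

variable {X : Type*}

/-- (F1) -/
lemma eraseIdx_ofFn {n : ℕ} (f : Fin (n + 1) → X) (i : Fin (n + 1)) :
    (List.ofFn f).eraseIdx i = List.ofFn (f ∘ i.succAbove) := by
  apply List.ext_getElem
  · rw [List.length_eraseIdx_of_lt (by simp [i.2])]
    simp
  · intro j h1 h2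
    rw [List.getElem_eraseIdx]
    simp only [List.getElem_ofFn, Function.comp]
    have hj : j < n := by simpa using h2
    split_ifs with h
    · congr 1
      apply Fin.ext
      have : (⟨j, hj⟩ : Fin n).castSucc < i := by
        simpa [Fin.lt_def] using h
      rw [Fin.succAbove_of_castSucc_lt _ _ this]
      simp
    · congr 1
      apply Fin.ext
      have : i ≤ (⟨j, hj⟩ : Fin n).castSucc := by
        simpa [Fin.le_def] using h
      rw [Fin.succAbove_of_le_castSucc _ _ this]
      simp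

/-- (F1) `Finset.sum_range`, `List.length_ofFn`, `eraseIdx_ofFn` -/
lemma dl_ofFn {n : ℕ} (φ : List X → ℝ) (q : Fin (n + 1) → X) :
    dl φ (List.ofFn q) = ∑ i : Fin (n + 1), (-1 : ℝ) ^ (i : ℕ) * φ (List.ofFn (q ∘ i.succAbove)) := by
  unfold dl
  rw [List.length_ofFn, Finset.sum_range]
  apply Finset.sum_congr rfl
  intro i _
  rw [eraseIdx_ofFn]

/-- the alternating sum of `φ` over the reorderings of a list -/
noncomputable def phiA (φ : List X → ℝ) (pts : List X) : ℝ :=
  AS (fun q => φ (List.ofFn q)) pts.get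

/-- (F2) First show, for `pts` and `hn : pts.length = n`, by `subst hn; rfl`, that
`phiA φ pts = AS (fun q => φ (List.ofFn q)) (fun i : Fin n => pts.get (i.cast hn.symm))`. -/
lemma phiA_ofFn (φ : List X → ℝ) {n : ℕ} (f : Fin n → X) :
    phiA φ (List.ofFn f) = AS (fun q => φ (List.ofFn q)) f := by
  have hcast : ∀ (pts : List X) {m : ℕ} (hm : pts.length = m),
      phiA φ pts = AS (fun q => φ (List.ofFn q)) (fun i : Fin m => pts.get (i.cast hm.symm)) := by
    intro pts m hm
    subst hm; rfl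
  rw [hcast (List.ofFn f) (List.length_ofFn)]
  congr 1
  funext i
  simp

/-- (F2) `pts = List.ofFn pts.get`, `AS_eq_entries` -/
lemma phiA_dup (φ : List X → ℝ) (pts : List X) (h : ¬ pts.Nodup) : phiA φ pts = 0 := by
  rw [List.nodup_iff_injective_get] at h
  simp only [Function.Injective, not_forall] at h
  obtain ⟨a, b, hab, hne⟩ := h
  exact AS_eq_entries _ _ a b hne hab

/-- (F2) `pts.map g = List.ofFn (g ∘ pts.get)`, `phiA_ofFn`, `AS_comp`, `List.map_ofFn` -/
lemma phiA_map (φ : List X → ℝ) (g : X → X) (hφ : ∀ pts, φ (pts.map g) = φ pts) (pts : List X) :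
    phiA φ (pts.map g) = phiA φ pts := by
  have h1 : pts.map g = List.ofFn (g ∘ pts.get) := by
    rw [← List.map_ofFn, List.ofFn_get]
  rw [h1, phiA_ofFn, AS_comp]
  unfold phiA
  congr 1
  funext q
  rw [← List.map_ofFn, hφ]

private lemma ofFn_update_eq {n : ℕ} (q : Fin n → X) (b : Fin n) (y : X) :
    List.ofFn (Function.update q b y) =
      (List.ofFn q).take b ++ y :: (List.ofFn q).drop (b + 1) := by
  have h1 : List.ofFn (Function.update q b y) = (List.ofFn q).set b y := by
    apply List.ext_getElem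
    · simp
    · intro i h1 h2
      rw [List.getElem_set, List.getElem_ofFn, Function.update_apply]
      by_cases hb : (b : ℕ) = i
      · have : (⟨i, by simpa using h1⟩ : Fin n) = b := Fin.ext hb.symm
        simp [hb, this]
      · have : (⟨i, by simpa using h1⟩ : Fin n) ≠ b := fun h => hb (by rw [← h])
        simp [hb, this]
  rw [h1, List.set_eq_take_append_cons_drop]
  simp

private lemma phi_ofFn_update (φ : List X → ℝ) (g : X → X)
    (hφ : ∀ l₁ p l₂, φ (l₁ ++ g p :: l₂) = φ (l₁ ++ p :: l₂)) {n : ℕ} (q : Fin n → X) (b : Fin n) :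
    φ (List.ofFn (Function.update q b (g (q b)))) = φ (List.ofFn q) := by
  rw [ofFn_update_eq, hφ, ← ofFn_update_eq, Function.update_eq_self]

/-- (F3) Change of one entry.  Let `f = (l₁ ++ p :: l₂).get`, `a` the position `l₁.length`; then
`l₁ ++ g p :: l₂ = List.ofFn (Function.update f a (g p))`, and
`Function.update f a y ∘ σ = Function.update (f ∘ σ) (σ.symm a) y` (`Function.update_comp_equiv`).
For every `q : Fin n → X` and `b`, `List.ofFn (Function.update q b (g (q b)))` and `List.ofFn q` are of the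
form `l₁' ++ g p' :: l₂'`, `l₁' ++ p' :: l₂'`. -/
lemma phiA_entry (φ : List X → ℝ) (g : X → X)
    (hφ : ∀ l₁ p l₂, φ (l₁ ++ g p :: l₂) = φ (l₁ ++ p :: l₂)) (l₁ : List X) (p : X) (l₂ : List X) :
    phiA φ (l₁ ++ g p :: l₂) = phiA φ (l₁ ++ p :: l₂) := by
  set L := l₁ ++ p :: l₂ with hL
  have ha : l₁.length < L.length := by simp [hL]
  set a : Fin L.length := ⟨l₁.length, ha⟩ with haa
  have hfa : L.get a = p := by simp [hL, haa]
  have e1 : L = List.ofFn L.get := (List.ofFn_get L).symm
  have e2 : l₁ ++ g p :: l₂ = List.ofFn (Function.update L.get a (g p)) := by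
    rw [ofFn_update_eq, List.ofFn_get]
    simp [hL, haa]
  rw [e2, phiA_ofFn]
  conv_rhs => rw [e1, phiA_ofFn]
  unfold AS
  refine Finset.sum_congr rfl fun σ _ => ?_
  congr 1
  rw [Function.update_comp_equiv]
  have : g p = g ((L.get ∘ σ) (σ.symm a)) := by
    rw [Function.comp_apply, Equiv.apply_symm_apply, hfa]
  rw [this]
  exact phi_ofFn_update φ g hφ _ _

end general

section group

variable {C : Type*} [Group C]

lemma cum_eq_run_map (a : C) (l : List C) : cum a l = (run l).map (a * ·) := by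
  induction l generalizing a with
  | nil => simp [cum]
  | cons y l ih =>
    rw [cum, ih (a * y), run_cons]
    simp [List.map_map, Function.comp_def, mul_assoc]

/-- (F4) more generally `cum a l = (run l).map (a * ·)` (`run_cons`) -/
lemma cum_eq_run (l : List C) : cum 1 l = run l := by
  rw [cum_eq_run_map]
  simp

/-- the quotients of consecutive entries -/
def unrun : List C → List C
  | [] => []
  | [_] => []
  | p :: q :: l => (p⁻¹ * q) :: unrun (q :: l)

/-- (F4) induction on `l` generalizing `p` (`run_cons`) -/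
lemma run_unrun (p : C) (l : List C) : (run (unrun (p :: l))).map (p * ·) = p :: l := by
  induction l generalizing p with
  | nil => simp [unrun]
  | cons q l ih =>
    rw [unrun, run_cons]
    simp only [List.map_cons, mul_one, List.map_map]
    congr 1
    refine Eq.trans ?_ (ih q)
    apply List.map_congr_left
    intro x _
    simp [mul_assoc]

/-- (F4) -/
lemma mem_unrun {l : List C} {y : C} (h : y ∈ unrun l) : ∃ p ∈ l, ∃ q ∈ l, y = p⁻¹ * q := by
  induction l with
  | nil => simp [unrun] at h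
  | cons p l ih =>
    cases l with
    | nil => simp [unrun] at h
    | cons q l =>
      rw [unrun, List.mem_cons] at h
      rcases h with h | h
      · exact ⟨p, by simp, q, by simp, h⟩
      · obtain ⟨p', hp', q', hq', e⟩ := ih h
        exact ⟨p', List.mem_cons_of_mem _ hp', q', List.mem_cons_of_mem _ hq', e⟩

/-- (F4) -/
lemma unrun_length (l : List C) : (unrun l).length = l.length - 1 := by
  induction l with
  | nil => simp [unrun]
  | cons p l ih =>
    cases l with
    | nil => simp [unrun]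
    | cons q l =>
      rw [unrun, List.length_cons, ih]
      simp

/-- (F5) `List.getD_eq_getElem`, `List.getElem_ofFn`; `eu (alph θ) p q r = eul θ p q r` by `rfl` -/
lemma cupPow_ofFn (θ : C → ℝ) (k : ℕ) (q : Fin (2 * k + 1) → C) :
    cupPow θ k (List.ofFn q) = chainE (alph θ) (2 * k + 1) 0 k q := by
  have key : ∀ i, i < 2 * k + 1 → (List.ofFn q).getD i 1 = q (Fin.ofNat (2 * k + 1) i) := by
    intro i hi
    rw [List.getD_eq_getElem _ _ (by rw [List.length_ofFn]; exact hi), List.getElem_ofFn]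
    congr 1
    apply Fin.ext
    simp [Fin.ofNat, Nat.mod_eq_of_lt hi]
  unfold cupPow chainE
  refine Finset.prod_congr rfl fun r hr => ?_
  have hr' := Finset.mem_range.1 hr
  rw [key (2 * r) (by omega), key (2 * r + 1) (by omega), key (2 * r + 2) (by omega)]
  simp only [zero_add]
  rfl

/-- (F6) Let `pts = List.ofFn f`, `f : Fin (2 k + 1) → C`, `Φ q = φ (List.ofFn q)`.  The left side is
`∑ l, (-1)^l * AS Φ (f ∘ l.succAbove)` (`eraseIdx_ofFn`, `phiA_ofFn`).  By `AS_delta`
` (2 k + 1)` times this sum is `AS (fun q => dl φ (List.ofFn q)) f` (`dl_ofFn`)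
`= AS (chainE (alph θ) (2 k + 1) 0 k) f` (`hδ`, `cupPow_ofFn`)
`= (2 k + 1) * AS (chainA (alph θ) (2 k + 1) 0 k) f` (`AS_cup`), and `Wc_leibniz`
(`List.ofFn_eq_map`). -/
lemma phiA_delta (θ : C → ℝ) (k : ℕ) (φ : List C → ℝ)
    (hδ : ∀ pts : List C, pts.length = 2 * k + 1 → dl φ pts = cupPow θ k pts) (pts : List C)
    (h : pts.length = 2 * k + 1) :
    ∑ l ∈ Finset.range pts.length, (-1 : ℝ) ^ l * phiA φ (pts.eraseIdx l) =
      (-1) ^ k * Wc (alph θ) k pts := by
  have key : ∀ (n : ℕ) (pts : List C), pts.length = n → ∃ f : Fin n → C, pts = List.ofFn f := by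
    intro n pts hn
    subst hn
    exact ⟨pts.get, (List.ofFn_get pts).symm⟩
  obtain ⟨f, rfl⟩ := key _ pts h
  rw [List.length_ofFn, Finset.sum_range]
  have h1 : ∀ l : Fin (2 * k + 1), phiA φ ((List.ofFn f).eraseIdx l) =
      AS (fun q => φ (List.ofFn q)) (f ∘ l.succAbove) := by
    intro l
    rw [eraseIdx_ofFn, phiA_ofFn]
  simp only [h1]
  have h2 := AS_delta (fun q : Fin (2 * k) → C => φ (List.ofFn q)) f
  have h3 : (fun q : Fin (2 * k + 1) → C => ∑ i : Fin (2 * k + 1),
      (-1 : ℝ) ^ (i : ℕ) * φ (List.ofFn (q ∘ i.succAbove))) = chainE (alph θ) (2 * k + 1) 0 k := by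
    funext q
    rw [← dl_ofFn, hδ _ (List.length_ofFn), cupPow_ofFn]
  rw [h3, AS_cup] at h2
  have h4 : ((2 * k : ℕ) : ℝ) + 1 = 2 * (k : ℝ) + 1 := by push_cast; ring
  rw [h4] at h2
  have h5 : (2 * (k : ℝ) + 1) ≠ 0 := by positivity
  have h6 := mul_left_cancel₀ h5 h2
  rw [← h6, List.ofFn_eq_map, Wc_leibniz, ← mul_assoc, ← pow_add, ← two_mul, pow_mul]
  norm_num

/-- (F7) Growth.  Let `W = (l.map v).prod ≥ 1`, `M₀ = Cg ^ (2 k) * W` (`exists_gauge_prod_le`).  For
`p q ∈ run l`, by `run_mem_mem`, `p⁻¹ q` is `s.prod` or ` (s.prod)⁻¹` for a segment `s` of `l`, so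
`v (p⁻¹ q) ≤ M₁ := (1 + |Ki|) * M₀ ^ (r + 1)`.  Every reordering `pts'` of `run l` is a left translate of
`run (unrun pts')` (`run_unrun`), so by `hφ`, `hφv`, `mem_unrun`, `unrun_length`
`|φ pts'| ≤ K * M₁ ^ (d * (2 k))`.  There are ` (2 k)!` reorderings. -/
lemma phiA_growth {v : C → ℝ} (hv : Gauge v) (Ki : ℝ) (r : ℕ) (hinv : ∀ y, v y⁻¹ ≤ Ki * v y ^ r)
    (φ : List C → ℝ) (hφ : ∀ g pts, φ (pts.map (g * ·)) = φ pts) (K : ℝ) (d : ℕ)
    (hφv : ∀ l : List C, |φ (run l)| ≤ K * (l.map fun y => v y ^ d).prod) (k : ℕ) :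
    ∃ (K' : ℝ) (d' : ℕ), ∀ l : List C, l.length + 1 = 2 * k →
      |phiA φ (run l)| ≤ K' * (l.map fun y => v y ^ d').prod := by
  obtain ⟨Cg, hC1, hC⟩ := exists_gauge_prod_le hv
  have hv1 : ∀ y : C, 1 ≤ v y := hv.1
  set K₁ : ℝ := max K 1 with hK₁
  have hK₁1 : 1 ≤ K₁ := le_max_right _ _
  have hKK₁ : K ≤ K₁ := le_max_left _ _
  set A : ℝ := 1 + |Ki| with hA
  have hA1 : 1 ≤ A := by
    have := abs_nonneg Ki
    linarith
  set D : ℕ := (r + 1) * (d * (2 * k)) with hD
  refine ⟨(2 * k).factorial * (K₁ * (A * (Cg ^ (2 * k)) ^ (r + 1)) ^ (d * (2 * k))), D, ?_⟩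
  intro l hl
  set W : ℝ := (l.map v).prod with hW
  have hW1 : 1 ≤ W := one_le_prod_map hv1 l
  set M₀ : ℝ := Cg ^ (2 * k) * W with hM₀
  have hM₀1 : 1 ≤ M₀ := one_le_mul_of_one_le_of_one_le (one_le_pow₀ hC1) hW1
  set M₁ : ℝ := A * M₀ ^ (r + 1) with hM₁
  have hM₁1 : 1 ≤ M₁ := one_le_mul_of_one_le_of_one_le hA1 (one_le_pow₀ hM₀1)
  have hseg : ∀ l₁ s l₂ : List C, l = l₁ ++ s ++ l₂ → v s.prod ≤ M₀ := by
    intro l₁ s l₂ hl'
    refine (hC s).trans ?_
    have hlen' : s.length + 1 ≤ 2 * k := by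
      have : l.length = l₁.length + s.length + l₂.length := by
        rw [hl', List.length_append, List.length_append]
      omega
    have h1 : (s.map v).prod ≤ W := by
      rw [hW, hl', List.map_append, List.map_append, List.prod_append, List.prod_append]
      have a1 := one_le_prod_map hv1 l₁
      have a2 := one_le_prod_map hv1 l₂
      have a3 := one_le_prod_map hv1 s
      have : (s.map v).prod ≤ (l₁.map v).prod * (s.map v).prod := by nlinarith
      have b : 0 ≤ (l₁.map v).prod * (s.map v).prod := by positivity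
      nlinarith
    exact mul_le_mul (pow_le_pow_right₀ hC1 hlen') h1
      (le_trans zero_le_one (one_le_prod_map hv1 s)) (by positivity)
  have hM₀0 : 0 ≤ M₀ := by linarith
  have hA0 : 0 ≤ A := by linarith
  have hM₀M₁ : M₀ ≤ M₁ := by
    calc M₀ = M₀ ^ 1 := (pow_one _).symm
      _ ≤ M₀ ^ (r + 1) := pow_le_pow_right₀ hM₀1 (by omega)
      _ ≤ A * M₀ ^ (r + 1) := le_mul_of_one_le_left (by positivity) hA1
  have hinvM : ∀ y, v y ≤ M₀ → v y⁻¹ ≤ M₁ := by
    intro y hy
    have h0 : 0 ≤ v y := le_trans zero_le_one (hv1 y)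
    have hKA : Ki ≤ A := by
      have := le_abs_self Ki
      linarith
    calc v y⁻¹ ≤ Ki * v y ^ r := hinv y
      _ ≤ A * v y ^ r := mul_le_mul_of_nonneg_right hKA (by positivity)
      _ ≤ A * M₀ ^ r := mul_le_mul_of_nonneg_left (pow_le_pow_left₀ h0 hy r) hA0
      _ ≤ A * M₀ ^ (r + 1) :=
          mul_le_mul_of_nonneg_left (pow_le_pow_right₀ hM₀1 (by omega)) hA0
  have hpq : ∀ p ∈ run l, ∀ q ∈ run l, v (p⁻¹ * q) ≤ M₁ := by
    intro p hp q hq
    obtain ⟨l₁, s, l₂, hl', h | h⟩ := run_mem_mem hp hq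
    · rw [h]
      exact (hseg l₁ s l₂ hl').trans hM₀M₁
    · have e : p⁻¹ * q = (q⁻¹ * p)⁻¹ := by group
      rw [e]
      refine hinvM _ ?_
      rw [h]
      exact hseg l₁ s l₂ hl'
  have hterm : ∀ pts' : List C, pts'.length = 2 * k → (∀ y ∈ pts', y ∈ run l) →
      |φ pts'| ≤ K₁ * M₁ ^ (d * (2 * k)) := by
    intro pts' hlen hmem
    rcases pts' with _ | ⟨p, t⟩
    · simp only [List.length_nil] at hlen
      omega
    have e := run_unrun p t
    have e2 : φ (p :: t) = φ (run (unrun (p :: t))) := by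
      conv_lhs => rw [← e]
      exact hφ _ _
    rw [e2]
    refine (hφv _).trans ?_
    have hb : ((unrun (p :: t)).map fun y => v y ^ d).prod ≤ (M₁ ^ d) ^ (2 * k) := by
      refine prod_map_le_pow (one_le_pow₀ hM₁1) _ _ ?_ ?_
      · intro y hy
        obtain ⟨a, ha, b, hb, rfl⟩ := mem_unrun hy
        have h0 : 0 ≤ v (a⁻¹ * b) := le_trans zero_le_one (hv1 _)
        exact ⟨by positivity, pow_le_pow_left₀ h0 (hpq a (hmem a ha) b (hmem b hb)) d⟩
      · rw [unrun_length, hlen]
        omega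
    have h0 : 0 ≤ ((unrun (p :: t)).map fun y => v y ^ d).prod :=
      le_trans zero_le_one (one_le_prod_map (fun y => one_le_pow₀ (hv1 y)) _)
    calc K * ((unrun (p :: t)).map fun y => v y ^ d).prod
        ≤ K₁ * ((unrun (p :: t)).map fun y => v y ^ d).prod :=
          mul_le_mul_of_nonneg_right hKK₁ h0
      _ ≤ K₁ * (M₁ ^ d) ^ (2 * k) := mul_le_mul_of_nonneg_left hb (by positivity)
      _ = K₁ * M₁ ^ (d * (2 * k)) := by rw [← pow_mul]
  have hrl : (run l).length = 2 * k := by
    rw [run_length]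
    exact hl
  have hsum : |phiA φ (run l)| ≤ (2 * k).factorial * (K₁ * M₁ ^ (d * (2 * k))) := by
    unfold phiA AS
    refine (Finset.abs_sum_le_sum_abs _ _).trans ?_
    have hall : ∀ σ ∈ (Finset.univ : Finset (Equiv.Perm (Fin (run l).length))),
        |((Equiv.Perm.sign σ : ℤ) : ℝ) * φ (List.ofFn ((run l).get ∘ σ))| ≤
          K₁ * M₁ ^ (d * (2 * k)) := by
      intro σ _
      rw [abs_mul]
      have hs : |((Equiv.Perm.sign σ : ℤ) : ℝ)| = 1 := by
        rcases Int.units_eq_one_or (Equiv.Perm.sign σ) with h | h <;> simp [h]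
      rw [hs, one_mul]
      refine hterm _ (by simp [hrl]) ?_
      intro y hy
      rw [List.mem_ofFn] at hy
      obtain ⟨i, rfl⟩ := hy
      exact List.get_mem _ _
    refine (Finset.sum_le_card_nsmul _ _ _ hall).trans ?_
    rw [Finset.card_univ, Fintype.card_perm, Fintype.card_fin, hrl, nsmul_eq_mul]
  refine hsum.trans (le_of_eq ?_)
  rw [prod_map_pow_eq, ← hW]
  simp only [hM₁, hM₀, hD, mul_pow, pow_mul]
  ring

end group

end Vale.Agent.P184.PN

namespace Vale.Agent.P184

open PN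

/-- (F8) The criterion.  Apply `polyNilW_of_Wc` to
`φ' pts = if pts.length = 2 * k then (-1) ^ k * phiA φ pts else 0`: `phiA_map`, `phiA_entry`, `phiA_dup`,
`phiA_growth`, `phiA_delta`, `cum_eq_run`.  (For the two bounds take the maximum of the constants and of the
exponents; `1 ≤ v`.) -/
theorem polyNilW_of_eulerNil {C : Type*} [Group C] {v : C → ℝ} (hv : Gauge v) (Ki : ℝ) (r : ℕ)
    (hinv : ∀ y, v y⁻¹ ≤ Ki * v y ^ r) (x : C) (hx : ∀ y, y * x = x * y) (h : EulerNil v x) :
    PolyNilW v x := by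
  obtain ⟨θ, φ, K, d, k, hk, hθ, hodd, hθv, hφ, hφx, hφv, hδ⟩ := h
  have hφv' : ∀ l : List C, |φ (run l)| ≤ K * (l.map fun y => v y ^ d).prod := by
    intro l
    rw [← cum_eq_run]
    exact hφv l
  obtain ⟨K', d', hgr⟩ := phiA_growth hv Ki r hinv φ hφ K d hφv' k
  have hK : 0 ≤ K := by
    have h1 := hθv 1
    have h2 : 0 < v 1 ^ d := pow_pos (lt_of_lt_of_le one_pos (hv.1 1)) d
    by_contra hneg
    push Not at hneg
    have : K * v 1 ^ d < 0 := mul_neg_of_neg_of_pos hneg h2
    linarith [abs_nonneg (θ 1)]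
  have hK'' : 0 ≤ max K K' := le_trans hK (le_max_left _ _)
  have hpow : ∀ (a b : ℕ), a ≤ b → ∀ y, v y ^ a ≤ v y ^ b := fun a b hab y =>
    pow_le_pow_right₀ (hv.1 y) hab
  have hprod0 : ∀ (a : ℕ) (l : List C), 0 ≤ (l.map fun y => v y ^ a).prod := by
    intro a l
    refine List.prod_nonneg ?_
    intro z hz
    obtain ⟨y, _, rfl⟩ := List.mem_map.1 hz
    exact pow_nonneg (le_trans zero_le_one (hv.1 y)) a
  have hprod : ∀ (a b : ℕ), a ≤ b → ∀ l : List C,
      (l.map fun y => v y ^ a).prod ≤ (l.map fun y => v y ^ b).prod := by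
    intro a b hab l
    induction l with
    | nil => simp
    | cons y l ih =>
      simp only [List.map_cons, List.prod_cons]
      exact mul_le_mul (hpow a b hab y) ih (hprod0 a l)
        (pow_nonneg (le_trans zero_le_one (hv.1 y)) b)
  have hsq : ((-1 : ℝ) ^ k) * (-1) ^ k = 1 := by
    rw [← mul_pow]; simp
  refine polyNilW_of_Wc θ hv x hx hθ hodd (max K K') (max d d') ?_ k hk
    (fun pts => if pts.length = 2 * k then (-1) ^ k * phiA φ pts else 0) ?_ ?_ ?_ ?_ ?_
  · intro g
    refine le_trans (hθv g) ?_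
    exact mul_le_mul (le_max_left _ _) (hpow _ _ (le_max_left _ _) g)
      (pow_nonneg (le_trans zero_le_one (hv.1 g)) d) hK''
  · intro g pts
    simp only [List.length_map]
    rw [phiA_map φ (g * ·) (hφ g) pts]
  · intro l₁ p l₂
    have hl : (l₁ ++ (x * p) :: l₂).length = (l₁ ++ p :: l₂).length := by simp
    simp only [hl]
    rw [phiA_entry φ (x * ·) hφx l₁ p l₂]
  · intro pts hpts
    simp only [phiA_dup φ pts hpts, mul_zero, ite_self]
  · intro l
    by_cases hl : (run l).length = 2 * k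
    · simp only [hl, if_true]
      rw [abs_mul, abs_pow, abs_neg, abs_one, one_pow, one_mul]
      have hl' : l.length + 1 = 2 * k := by rw [← run_length]; exact hl
      refine le_trans (hgr l hl') ?_
      refine le_trans (mul_le_mul_of_nonneg_right (le_max_right K K') (hprod0 d' l)) ?_
      exact mul_le_mul_of_nonneg_left (hprod _ _ (le_max_right _ _) l) hK''
    · simp only [hl, if_false, abs_zero]
      exact mul_nonneg hK'' (hprod0 _ l)
  · intro pts hpts
    have h1 := phiA_delta θ k φ hδ pts hpts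
    have h2 : ∑ l ∈ Finset.range pts.length, (-1 : ℝ) ^ l *
        (if (pts.eraseIdx l).length = 2 * k then (-1) ^ k * phiA φ (pts.eraseIdx l) else 0) =
        (-1) ^ k * ∑ l ∈ Finset.range pts.length, (-1 : ℝ) ^ l * phiA φ (pts.eraseIdx l) := by
      rw [Finset.mul_sum]
      refine Finset.sum_congr rfl fun l hl => ?_
      have hl' : l < pts.length := Finset.mem_range.1 hl
      have hlen : (pts.eraseIdx l).length = 2 * k := by
        rw [List.length_eraseIdx_of_lt hl']
        omega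
      rw [if_pos hlen]
      ring
    rw [h2, h1, ← mul_assoc, hsq, one_mul]

end Vale.Agent.P184
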