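import Vale.Agent.P184.PN.Base

/-!
# The Heisenberg group (rows HG, HC, HX)
-/

namespace Vale.Agent.P184.PN

/-- the real Heisenberg group, `(a,b,c)(a',b',c') = (a+a', b+b', c+c'+a b')` -/
@[ext] structure Heis where
  a : ℝ
  b : ℝ
  c : ℝ

namespace Heis

instance : Mul Heis := ⟨fun x y => ⟨x.a + y.a, x.b + y.b, x.c + y.c + x.a * y.b⟩⟩
instance : One Heis := ⟨⟨0, 0, 0⟩⟩
instance : Inv Heis := ⟨fun x => ⟨-x.a, -x.b, -x.c + x.a * x.b⟩⟩

@[simp] lemma mul_a (x y : Heis) : (x * y).a = x.a + y.a := rfl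
@[simp] lemma mul_b (x y : Heis) : (x * y).b = x.b + y.b := rfl
@[simp] lemma mul_c (x y : Heis) : (x * y).c = x.c + y.c + x.a * y.b := rfl
@[simp] lemma one_a : (1 : Heis).a = 0 := rfl
@[simp] lemma one_b : (1 : Heis).b = 0 := rfl
@[simp] lemma one_c : (1 : Heis).c = 0 := rfl
@[simp] lemma inv_a (x : Heis) : (x⁻¹).a = -x.a := rfl
@[simp] lemma inv_b (x : Heis) : (x⁻¹).b = -x.b := rfl
@[simp] lemma inv_c (x : Heis) : (x⁻¹).c = -x.c + x.a * x.b := rfl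

instance : Group Heis :=
  Group.ofLeftAxioms (fun x y z => by ext <;> simp <;> ring) (fun x => by ext <;> simp)
    (fun x => by ext <;> simp)

/-- the symmetric central coordinate -/
noncomputable def ct (x : Heis) : ℝ := x.c - x.a * x.b / 2

/-- the gauge -/
noncomputable def gv (x : Heis) : ℝ := 1 + x.a ^ 2 + x.b ^ 2 + |x.c|

/-- the determinant of the three points `h₁, h₂, h₃` in the coordinates `(ct, a, b)` -/
noncomputable def det3 (h₁ h₂ h₃ : Heis) : ℝ :=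
  ct h₁ * (h₂.a * h₃.b - h₂.b * h₃.a) - h₁.a * (ct h₂ * h₃.b - h₂.b * ct h₃) +
    h₁.b * (ct h₂ * h₃.a - h₂.a * ct h₃)

/-- the cochain -/
noncomputable def psi (t : ℝ) : List Heis → ℂ
  | [_, g₁] => ((ct g₁ / t : ℝ) : ℂ)
  | [_, g₁, g₂, g₃] => ((det3 g₁ (g₁ * g₂) (g₁ * g₂ * g₃) / (6 * t ^ 2) : ℝ) : ℂ)
  | _ => 0

lemma one_le_gv (x : Heis) : 1 ≤ gv x := by
  unfold gv
  have h1 := sq_nonneg x.a
  have h2 := sq_nonneg x.b
  have h3 := abs_nonneg x.c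
  linarith

lemma gv_mul_le (x y : Heis) : gv (x * y) ≤ 3 * (gv x + gv y) := by
  unfold gv
  simp only [mul_a, mul_b, mul_c]
  have h1 : |x.c + y.c + x.a * y.b| ≤ |x.c| + |y.c| + |x.a * y.b| := abs_add_three _ _ _
  have h2 : |x.a * y.b| ≤ (x.a ^ 2 + y.b ^ 2) / 2 := by
    rw [abs_le]
    constructor
    · nlinarith [sq_nonneg (x.a + y.b)]
    · nlinarith [sq_nonneg (x.a - y.b)]
  have h3 := abs_nonneg x.c
  have h4 := abs_nonneg y.c
  nlinarith [sq_nonneg (x.a - y.a), sq_nonneg (x.b - y.b), sq_nonneg x.a, sq_nonneg x.b,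
    sq_nonneg y.a, sq_nonneg y.b]

/-- (HG) `gv (x y) ≤ 3 (gv x + gv y)`: `(a+a')² ≤ 2a² + 2a'²`, `|a b'| ≤ (a² + b'²)/2`. -/
lemma gauge_gv : Gauge gv := ⟨one_le_gv, 3, gv_mul_le⟩

lemma isConj_central_iff (t : ℝ) (s : Heis) : IsConj (⟨0, 0, t⟩ : Heis) s ↔ s = ⟨0, 0, t⟩ := by
  rw [isConj_iff]
  constructor
  · rintro ⟨c, rfl⟩
    ext <;> simp
    ring
  · rintro rfl
    exact ⟨1, by simp⟩

lemma abs_a_le (x : Heis) : |x.a| ≤ gv x := by
  unfold gv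
  have h2 := sq_nonneg x.b
  have h3 := abs_nonneg x.c
  rw [abs_le]
  constructor
  · nlinarith [sq_nonneg (x.a + 1)]
  · nlinarith [sq_nonneg (x.a - 1)]

lemma abs_b_le (x : Heis) : |x.b| ≤ gv x := by
  unfold gv
  have h2 := sq_nonneg x.a
  have h3 := abs_nonneg x.c
  rw [abs_le]
  constructor
  · nlinarith [sq_nonneg (x.b + 1)]
  · nlinarith [sq_nonneg (x.b - 1)]

lemma abs_ct_le (x : Heis) : |ct x| ≤ gv x := by
  unfold gv ct
  have h1 : |x.c - x.a * x.b / 2| ≤ |x.c| + |x.a * x.b / 2| := abs_sub _ _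
  have h2 : |x.a * x.b / 2| ≤ (x.a ^ 2 + x.b ^ 2) / 2 := by
    rw [abs_le]
    constructor
    · nlinarith [sq_nonneg (x.a + x.b), sq_nonneg x.a, sq_nonneg x.b]
    · nlinarith [sq_nonneg (x.a - x.b), sq_nonneg x.a, sq_nonneg x.b]
  nlinarith [sq_nonneg x.a, sq_nonneg x.b]

lemma gv_mul_le' (x y : Heis) : gv (x * y) ≤ 6 * (gv x * gv y) := by
  have h := gv_mul_le x y
  have hx := one_le_gv x
  have hy := one_le_gv y
  nlinarith [mul_nonneg (sub_nonneg.2 hx) (sub_nonneg.2 hy)]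

lemma abs_mul3_le {p q r P Q R : ℝ} (hp : |p| ≤ P) (hq : |q| ≤ Q) (hr : |r| ≤ R) :
    |p * q * r| ≤ P * Q * R := by
  rw [abs_mul, abs_mul]
  have hP : 0 ≤ P := (abs_nonneg p).trans hp
  have hQ : 0 ≤ Q := (abs_nonneg q).trans hq
  exact mul_le_mul (mul_le_mul hp hq (abs_nonneg _) hP) hr (abs_nonneg _) (mul_nonneg hP hQ)

lemma abs_det3_le (h₁ h₂ h₃ : Heis) : |det3 h₁ h₂ h₃| ≤ 6 * (gv h₁ * gv h₂ * gv h₃) := by
  have e : det3 h₁ h₂ h₃ = ct h₁ * h₂.a * h₃.b - ct h₁ * h₂.b * h₃.a - h₁.a * ct h₂ * h₃.b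
      + h₁.a * h₂.b * ct h₃ + h₁.b * ct h₂ * h₃.a - h₁.b * h₂.a * ct h₃ := by
    unfold det3; ring
  rw [e]
  have t1 := abs_mul3_le (abs_ct_le h₁) (abs_a_le h₂) (abs_b_le h₃)
  have t2 := abs_mul3_le (abs_ct_le h₁) (abs_b_le h₂) (abs_a_le h₃)
  have t3 := abs_mul3_le (abs_a_le h₁) (abs_ct_le h₂) (abs_b_le h₃)
  have t4 := abs_mul3_le (abs_a_le h₁) (abs_b_le h₂) (abs_ct_le h₃)
  have t5 := abs_mul3_le (abs_b_le h₁) (abs_ct_le h₂) (abs_a_le h₃)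
  have t6 := abs_mul3_le (abs_b_le h₁) (abs_a_le h₂) (abs_ct_le h₃)
  rw [abs_le] at *
  constructor <;> linarith [t1.1, t1.2, t2.1, t2.2, t3.1, t3.2, t4.1, t4.2, t5.1, t5.2, t6.1, t6.2]

lemma le_cube {v : ℝ} (h : 1 ≤ v) : v ≤ v ^ 3 := by
  nlinarith [mul_nonneg (sub_nonneg.2 h) (sub_nonneg.2 h), sq_nonneg v,
    mul_nonneg (mul_nonneg (sub_nonneg.2 h) (sub_nonneg.2 h)) (by linarith : (0:ℝ) ≤ v)]

/-- (HG) growth: `|x.a|, |x.b| ≤ gv x`, `|ct x| ≤ 2 gv x`, and `gv (x y) ≤ 6 gv x gv y`; each of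
the nine entries of the determinant is bounded by `C gv g₁ gv g₂ gv g₃`, so `d = 3` works. -/
lemma psi_growth (t : ℝ) : ∃ K : ℝ, ∀ l : List Heis,
    ‖psi t l‖ ≤ K * (l.map fun x => gv x ^ 3).prod := by
  refine ⟨|t|⁻¹ + 1296 * |6 * t ^ 2|⁻¹, ?_⟩
  have hK1 : 0 ≤ |t|⁻¹ := inv_nonneg.2 (abs_nonneg _)
  have hK2 : 0 ≤ |6 * t ^ 2|⁻¹ := inv_nonneg.2 (abs_nonneg _)
  have hprod : ∀ l : List Heis, 0 ≤ (l.map fun x => gv x ^ 3).prod := by
    intro l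
    apply List.prod_nonneg
    intro a ha
    obtain ⟨x, -, rfl⟩ := List.mem_map.1 ha
    have := one_le_gv x
    positivity
  have hzero : ∀ l : List Heis, psi t l = 0 →
      ‖psi t l‖ ≤ (|t|⁻¹ + 1296 * |6 * t ^ 2|⁻¹) * (l.map fun x => gv x ^ 3).prod := by
    intro l h
    rw [h, norm_zero]
    exact mul_nonneg (by positivity) (hprod l)
  intro l
  match l with
  | [] => exact hzero _ rfl
  | [_] => exact hzero _ rfl
  | [_, _, _] => exact hzero _ rfl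
  | _ :: _ :: _ :: _ :: _ :: _ => exact hzero _ rfl
  | [x, g₁] =>
    simp only [psi, Complex.norm_real, Real.norm_eq_abs, List.map_cons, List.map_nil,
      List.prod_cons, List.prod_nil, mul_one, abs_div]
    have hx := one_le_gv x
    have h1 := one_le_gv g₁
    have hx3 : 1 ≤ gv x ^ 3 := one_le_pow₀ hx
    have h13 : gv g₁ ≤ gv g₁ ^ 3 := le_cube h1
    have hc := abs_ct_le g₁
    have : |ct g₁| ≤ gv x ^ 3 * gv g₁ ^ 3 := by nlinarith
    rw [div_eq_inv_mul]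
    calc |t|⁻¹ * |ct g₁| ≤ |t|⁻¹ * (gv x ^ 3 * gv g₁ ^ 3) := by gcongr
      _ ≤ (|t|⁻¹ + 1296 * |6 * t ^ 2|⁻¹) * (gv x ^ 3 * gv g₁ ^ 3) := by
        have : 0 ≤ gv x ^ 3 * gv g₁ ^ 3 := by positivity
        nlinarith
  | [x, g₁, g₂, g₃] =>
    simp only [psi, Complex.norm_real, Real.norm_eq_abs, List.map_cons, List.map_nil,
      List.prod_cons, List.prod_nil, mul_one, abs_div]
    have hx := one_le_gv x
    have h1 := one_le_gv g₁
    have h2 := one_le_gv g₂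
    have h3 := one_le_gv g₃
    have hx3 : 1 ≤ gv x ^ 3 := one_le_pow₀ hx
    have hd := abs_det3_le g₁ (g₁ * g₂) (g₁ * g₂ * g₃)
    have m1 := gv_mul_le' g₁ g₂
    have m2 := gv_mul_le' (g₁ * g₂) g₃
    have m12 := one_le_gv (g₁ * g₂)
    have m123 := one_le_gv (g₁ * g₂ * g₃)
    have b2 : gv (g₁ * g₂ * g₃) ≤ 36 * (gv g₁ * gv g₂ * gv g₃) := by
      calc gv (g₁ * g₂ * g₃) ≤ 6 * (gv (g₁ * g₂) * gv g₃) := m2
        _ ≤ 6 * ((6 * (gv g₁ * gv g₂)) * gv g₃) := by gcongr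
        _ = 36 * (gv g₁ * gv g₂ * gv g₃) := by ring
    have b3 : gv g₁ * gv (g₁ * g₂) * gv (g₁ * g₂ * g₃) ≤
        gv g₁ * (6 * (gv g₁ * gv g₂)) * (36 * (gv g₁ * gv g₂ * gv g₃)) := by gcongr
    have b4 : gv g₁ * (6 * (gv g₁ * gv g₂)) * (36 * (gv g₁ * gv g₂ * gv g₃)) ≤
        216 * (gv g₁ ^ 3 * (gv g₂ ^ 3 * gv g₃ ^ 3)) := by
      have e2 : gv g₂ ^ 2 ≤ gv g₂ ^ 3 := pow_le_pow_right₀ h2 (by norm_num)
      have e3 : gv g₃ ≤ gv g₃ ^ 3 := le_cube h3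
      calc gv g₁ * (6 * (gv g₁ * gv g₂)) * (36 * (gv g₁ * gv g₂ * gv g₃))
          = 216 * (gv g₁ ^ 3 * (gv g₂ ^ 2 * gv g₃)) := by ring
        _ ≤ 216 * (gv g₁ ^ 3 * (gv g₂ ^ 3 * gv g₃ ^ 3)) := by gcongr
    have b5 : |det3 g₁ (g₁ * g₂) (g₁ * g₂ * g₃)| ≤
        1296 * (gv x ^ 3 * (gv g₁ ^ 3 * (gv g₂ ^ 3 * gv g₃ ^ 3))) := by
      have : 0 ≤ gv g₁ ^ 3 * (gv g₂ ^ 3 * gv g₃ ^ 3) := by positivity
      nlinarith
    rw [div_eq_inv_mul]
    calc |6 * t ^ 2|⁻¹ * |det3 g₁ (g₁ * g₂) (g₁ * g₂ * g₃)|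
        ≤ |6 * t ^ 2|⁻¹ * (1296 * (gv x ^ 3 * (gv g₁ ^ 3 * (gv g₂ ^ 3 * gv g₃ ^ 3)))) := by gcongr
      _ ≤ (|t|⁻¹ + 1296 * |6 * t ^ 2|⁻¹) * (gv x ^ 3 * (gv g₁ ^ 3 * (gv g₂ ^ 3 * gv g₃ ^ 3))) := by
        have : 0 ≤ gv x ^ 3 * (gv g₁ ^ 3 * (gv g₂ ^ 3 * gv g₃ ^ 3)) := by positivity
        nlinarith

lemma psi_two (t : ℝ) (g₀ g₁ : Heis) : psi t [g₀, g₁] = ((ct g₁ / t : ℝ) : ℂ) := rfl

lemma psi_four (t : ℝ) (g₀ g₁ g₂ g₃ : Heis) : psi t [g₀, g₁, g₂, g₃] =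
    ((det3 g₁ (g₁ * g₂) (g₁ * g₂ * g₃) / (6 * t ^ 2) : ℝ) : ℂ) := rfl

/-- (HC) normalization: two equal columns, or a zero column. -/
lemma psi_norm (t : ℝ) (x : Heis) (l : List Heis) (h : (1 : Heis) ∈ l) : psi t (x :: l) = 0 := by
  match l, h with
  | [], h => simp at h
  | [g₁], h =>
    have h1 : g₁ = 1 := by simpa [eq_comm] using h
    subst h1
    simp [psi_two, ct]
  | [g₁, g₂], _ => rfl
  | [g₁, g₂, g₃], h =>
    rw [psi_four]
    have h1 : g₁ = 1 ∨ g₂ = 1 ∨ g₃ = 1 := by simpa [eq_comm] using h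
    have key : det3 g₁ (g₁ * g₂) (g₁ * g₂ * g₃) = 0 := by
      rcases h1 with h1 | h1 | h1 <;> subst h1 <;> simp [det3, ct] <;> ring
    rw [key]; simp
  | _ :: _ :: _ :: _ :: _, _ => rfl

lemma psi_deg2_real (t : ℝ) (ht : t ≠ 0) (g₀ g₁ g₂ : Heis) (h : g₀ * g₁ * g₂ = ⟨0, 0, t⟩) :
    ct g₂ / t + -(ct (g₁ * g₂) / t) + ct g₁ / t +
      (det3 g₀ (g₀ * g₁) (g₀ * g₁ * g₂) / (6 * t ^ 2) + det3 g₁ (g₁ * g₂) (g₁ * g₂ * g₀) / (6 * t ^ 2) +
        det3 g₂ (g₂ * g₀) (g₂ * g₀ * g₁) / (6 * t ^ 2)) = 0 := by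
  have ha : g₀.a + g₁.a + g₂.a = 0 := by simpa using congrArg Heis.a h
  have hb' : g₀.b + g₁.b + g₂.b = 0 := by simpa using congrArg Heis.b h
  have hc : g₀.c + g₁.c + g₀.a * g₁.b + g₂.c + (g₀.a + g₁.a) * g₂.b = t := by
    simpa using congrArg Heis.c h
  obtain ⟨a0, b0, c0⟩ := g₀
  obtain ⟨a1, b1, c1⟩ := g₁
  obtain ⟨a2, b2, c2⟩ := g₂
  simp only [det3, ct, mul_a, mul_b, mul_c] at *
  have ea : a0 = -a1 - a2 := by linarith
  have eb : b0 = -b1 - b2 := by linarith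
  subst ea eb
  have ec : c0 = t - (c1 + (-a1 - a2) * b1 + c2 + (-a1 - a2 + a1) * b2) := by linarith
  subst ec
  field_simp
  ring

/-- (HC) first identity (checked numerically): for `g₀ g₁ g₂ = (0,0,t)`,
`hb (psi t) [g₀,g₁,g₂] = -(a₁ b₂ - a₂ b₁) / (2 t)` and `cB (psi t) [g₀,g₁,g₂]` is the opposite.
Unfold (`hb`, `cB`, `mrg`, `List.rotate`, `Finset.sum_range_succ`), extract from the hypothesis
the three coordinate equations, eliminate `g₀`, `field_simp`, `ring` / `linear_combination`. -/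
lemma psi_deg2 (t : ℝ) (ht : t ≠ 0) (g₀ g₁ g₂ : Heis) (h : g₀ * g₁ * g₂ = ⟨0, 0, t⟩) :
    hb (psi t) [g₀, g₁, g₂] + cB (psi t) [g₀, g₁, g₂] = 0 := by
  have key := congrArg (fun r : ℝ => (r : ℂ)) (psi_deg2_real t ht g₀ g₁ g₂ h)
  push_cast at key
  simp only [hb, cB, List.length_cons, List.length_nil, Finset.sum_range_succ, Finset.sum_range_zero,
    mrg]
  norm_num [List.rotate, psi_two, psi_four, mrg]
  linear_combination key

lemma psi_deg4_real (g₁ g₂ g₃ g₄ : Heis) :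
    det3 g₂ (g₂ * g₃) (g₂ * g₃ * g₄) - det3 (g₁ * g₂) (g₁ * g₂ * g₃) (g₁ * g₂ * g₃ * g₄) +
      det3 g₁ (g₁ * (g₂ * g₃)) (g₁ * (g₂ * g₃) * g₄) - det3 g₁ (g₁ * g₂) (g₁ * g₂ * (g₃ * g₄)) +
      det3 g₁ (g₁ * g₂) (g₁ * g₂ * g₃) = 0 := by
  obtain ⟨a1, b1, c1⟩ := g₁
  obtain ⟨a2, b2, c2⟩ := g₂
  obtain ⟨a3, b3, c3⟩ := g₃
  obtain ⟨a4, b4, c4⟩ := g₄
  simp only [det3, ct, mul_a, mul_b, mul_c]
  ring

/-- (HC) second identity (checked numerically): the signed volumes of the five faces of a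
four-simplex add up to zero; here `cB` vanishes as `psi t` vanishes on sequences of length six. -/
lemma psi_deg4 (t : ℝ) (ht : t ≠ 0) (g₀ g₁ g₂ g₃ g₄ : Heis)
    (h : g₀ * g₁ * g₂ * g₃ * g₄ = ⟨0, 0, t⟩) :
    hb (psi t) [g₀, g₁, g₂, g₃, g₄] + cB (psi t) [g₀, g₁, g₂, g₃, g₄] = 0 := by
  have key := congrArg (fun r : ℝ => (r : ℂ)) (psi_deg4_real g₁ g₂ g₃ g₄)
  push_cast at key
  simp only [hb, cB, List.length_cons, List.length_nil, Finset.sum_range_succ, Finset.sum_range_zero,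
    mrg]
  norm_num [List.rotate, psi_two, psi_four, mrg, psi]
  linear_combination (1 / (6 * (t : ℂ) ^ 2)) * key

/-- (HX) `k = 5`, `d = 3`, `ψ = psi t`; the sequences of length `2`, `4` and `≥ 6` give only
vanishing terms. -/
theorem polyNilW_central (t : ℝ) (ht : t ≠ 0) : PolyNilW gv (⟨0, 0, t⟩ : Heis) := by
  have hz : ∀ l : List Heis, l.length ≠ 2 → l.length ≠ 4 → psi t l = 0 := by
    intro l h2 h4
    match l with
    | [] => rfl
    | [_] => rfl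
    | [_, _] => simp at h2
    | [_, _, _] => rfl
    | [_, _, _, _] => simp at h4
    | _ :: _ :: _ :: _ :: _ :: _ => rfl
  obtain ⟨K, hK⟩ := psi_growth t
  refine ⟨K, 3, 5, psi t, fun l _ => hK l, fun x l _ h => psi_norm t x l h, ?_, ?_, ?_⟩
  · intro l hl
    exact hz l (by omega) (by omega)
  · intro x hx
    rw [isConj_central_iff] at hx
    subst hx
    simp only [psi, ct]
    have : (t - 0 * 0 / 2) / t = 1 := by
      field_simp
      ring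
    rw [this]
    simp
  · intro l hl hc
    rw [isConj_central_iff] at hc
    by_cases h3 : l.length = 3
    · match l, h3 with
      | [g₀, g₁, g₂], _ =>
        exact psi_deg2 t ht g₀ g₁ g₂ (by simpa [mul_assoc] using hc)
    by_cases h5 : l.length = 5
    · match l, h5 with
      | [g₀, g₁, g₂, g₃, g₄], _ =>
        exact psi_deg4 t ht g₀ g₁ g₂ g₃ g₄ (by simpa [mul_assoc] using hc)
    have hb0 : hb (psi t) l = 0 := by
      unfold hb
      rw [Finset.sum_eq_zero, hz]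
      · simp
      · rw [length_mrg 0 _ (by rw [List.length_rotate]; omega), List.length_rotate]
        omega
      · rw [length_mrg 0 _ (by rw [List.length_rotate]; omega), List.length_rotate]
        omega
      · intro i hi
        rw [Finset.mem_range] at hi
        rw [hz, mul_zero]
        · rw [length_mrg i l (by omega)]
          omega
        · rw [length_mrg i l (by omega)]
          omega
    have hc0 : cB (psi t) l = 0 := by
      unfold cB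
      refine Finset.sum_eq_zero (fun i _ => ?_)
      rw [hz, mul_zero]
      · rw [List.length_cons, List.length_rotate]
        omega
      · rw [List.length_cons, List.length_rotate]
        omega
    rw [hb0, hc0, add_zero]

end Heis

end Vale.Agent.P184.PN

namespace Vale.Agent.P184

open PN

/-- (HX) Heisenberg coordinates.  If `a p ≠ 0` (or `b p ≠ 0`) use `PolyNil.comap` with the
homomorphism `P →* Multiplicative ℝ` given by `a` (or `b`), `polyNilW_real`, `gauge_real`.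
Otherwise use `PolyNil.comap` with `P →* Heis`, `x ↦ ⟨a x, b x, c x⟩`, and
`Heis.polyNilW_central (c p)`, `Heis.gauge_gv`. -/
theorem polyNil_of_heis_coords {P : Type*} [Group P] (a b c : P → ℝ)
    (ha : ∀ x y, a (x * y) = a x + a y) (hb : ∀ x y, b (x * y) = b x + b y)
    (hc : ∀ x y, c (x * y) = c x + c y + a x * b y) (p : P)
    (hp : a p ≠ 0 ∨ b p ≠ 0 ∨ c p ≠ 0) : PolyNil p := by
  have key : ∀ f : P → ℝ, (∀ x y, f (x * y) = f x + f y) → f p ≠ 0 → PolyNil p := by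
    intro f hf hfp
    let π : P →* Multiplicative ℝ :=
      MonoidHom.mk' (fun x => Multiplicative.ofAdd (f x)) (by
        intro x y
        rw [hf, ofAdd_add])
    refine PolyNil.comap π ?_
    exact ⟨_, gauge_real, polyNilW_real (f p) hfp⟩
  by_cases h1 : a p ≠ 0
  · exact key a ha h1
  by_cases h2 : b p ≠ 0
  · exact key b hb h2
  simp only [ne_eq, not_not] at h1 h2
  have h3 : c p ≠ 0 := by
    rcases hp with h | h | h
    · exact absurd h1 h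
    · exact absurd h2 h
    · exact h
  let π : P →* Heis :=
    MonoidHom.mk' (fun x => (⟨a x, b x, c x⟩ : Heis)) (by
      intro x y
      ext <;> simp [ha, hb, hc])
  refine PolyNil.comap π ?_
  have hπ : π p = (⟨0, 0, c p⟩ : Heis) := by
    change (⟨a p, b p, c p⟩ : Heis) = _
    rw [h1, h2]
  rw [hπ]
  exact ⟨_, Heis.gauge_gv, Heis.polyNilW_central (c p) h3⟩

end Vale.Agent.P184
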