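import Vale.Agent.P184.PN.Om

/-!
# The functions `Y j` on lists of points of the Heisenberg group (rows Y1 - Y6)

`Y j` is (up to a factor) the integral of the form `η ∧ ω^j` over the affine simplex spanned by
`2 j + 2` points, `η = d ct - (1/2) ∑ (aᵢ dbᵢ - bᵢ daᵢ)`, `ω = ∑ daᵢ ∧ dbᵢ`, and `Om j []` the
integral of `ω^j` over the simplex spanned by `2 j + 1` points.
-/

namespace Vale.Agent.P184.PN.HeisM

open scoped BigOperators

variable {m : ℕ}

noncomputable def Y (j : ℕ) (pts : List (HeisM m)) : ℝ :=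
  Om j [ct] pts - (1 / (2 * (pts.length : ℝ))) *
    ∑ i, ((pts.map (A i)).sum * Om j [B i] pts - (pts.map (B i)).sum * Om j [A i] pts)

lemma sum_map_eraseIdx_Y1 {X : Type*} (f : X → ℝ) (pts : List X) (l : ℕ) (hl : l < pts.length) :
    ((pts.eraseIdx l).map f).sum = (pts.map f).sum - f pts[l] := by
  induction pts generalizing l with
  | nil => simp at hl
  | cons x pts ih =>
    cases l with
    | zero => simp
    | succ l =>
      simp only [List.length_cons, Nat.add_lt_add_iff_right] at hl
      simp [ih l hl]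
      ring

/-- (Y1) Stokes.  Each `pts.eraseIdx l` has length `2 j + 2`.  The terms `Om j [ct]` add up to `0`
(`Om_delta`).  `((pts.eraseIdx l).map (A i)).sum = (pts.map (A i)).sum - A i pts[l]`; the part
with the full sum adds up to `0` (`Om_delta`), and by `Om_laplace`
`∑ (-1)^l A i pts[l] * Om j [B i] (pts.eraseIdx l) = (-1)^(j+1) Om j [A i, B i] pts`   (`L = []`),
`∑ (-1)^l B i pts[l] * Om j [A i] (pts.eraseIdx l) = (-1)^(j+2) Om j [A i, B i] pts`   (`L = [A i]`).
So the sum is `- 1/(2 (2j+2)) * ∑ i, 2 (-1)^j Om j [A i, B i] pts`, and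
`∑ i, Om j [A i, B i] pts = Om (j+1) [] pts` by definition. -/
lemma Y_delta (j : ℕ) (pts : List (HeisM m)) (h : pts.length = 2 * j + 3) :
    ∑ l ∈ Finset.range pts.length, (-1 : ℝ) ^ l * Y j (pts.eraseIdx l) =
      -((-1) ^ j * Om (j + 1) [] pts) / (2 * j + 2) := by
  have hd : ∀ x : HeisM m → ℝ,
      ∑ l : Fin pts.length, (-1 : ℝ) ^ (l : ℕ) * Om j [x] (pts.eraseIdx l) = 0 := by
    intro x
    have := Om_delta j [x] pts (by simp [h])
    rwa [Finset.sum_range] at this
  have hA : ∀ i, ∑ l : Fin pts.length, (-1 : ℝ) ^ (l : ℕ) *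
      (A i (pts.get l) * Om j [B i] (pts.eraseIdx l)) = (-1) ^ (j + 1) * Om j [A i, B i] pts := by
    intro i
    simpa using Om_laplace j [] [B i] (A i) pts (by simp [h])
  have hB : ∀ i, ∑ l : Fin pts.length, (-1 : ℝ) ^ (l : ℕ) *
      (B i (pts.get l) * Om j [A i] (pts.eraseIdx l)) = (-1) ^ (j + 2) * Om j [A i, B i] pts := by
    intro i
    simpa using Om_laplace j [A i] [] (B i) pts (by simp [h])
  have hY : ∀ l : Fin pts.length, Y j (pts.eraseIdx l) = Om j [ct] (pts.eraseIdx l) -
      (1 / (2 * (2 * (j : ℝ) + 2))) * ∑ i,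
        (((pts.map (A i)).sum - A i (pts.get l)) * Om j [B i] (pts.eraseIdx l) -
          ((pts.map (B i)).sum - B i (pts.get l)) * Om j [A i] (pts.eraseIdx l)) := by
    intro l
    have hlen : (pts.eraseIdx l).length = 2 * j + 2 := by
      rw [List.length_eraseIdx_of_lt l.2]; omega
    unfold Y
    rw [hlen]
    push_cast
    congr 2
    refine Finset.sum_congr rfl fun i _ => ?_
    rw [sum_map_eraseIdx_Y1 _ _ _ l.2, sum_map_eraseIdx_Y1 _ _ _ l.2]
    rfl
  have hi : ∀ i, ∑ l : Fin pts.length, (-1 : ℝ) ^ (l : ℕ) *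
      (((pts.map (A i)).sum - A i (pts.get l)) * Om j [B i] (pts.eraseIdx l) -
          ((pts.map (B i)).sum - B i (pts.get l)) * Om j [A i] (pts.eraseIdx l)) =
      2 * (-1) ^ j * Om j [A i, B i] pts := by
    intro i
    have : ∀ l : Fin pts.length, (-1 : ℝ) ^ (l : ℕ) *
      (((pts.map (A i)).sum - A i (pts.get l)) * Om j [B i] (pts.eraseIdx l) -
          ((pts.map (B i)).sum - B i (pts.get l)) * Om j [A i] (pts.eraseIdx l)) =
        (pts.map (A i)).sum * ((-1 : ℝ) ^ (l : ℕ) * Om j [B i] (pts.eraseIdx l))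
        - (-1 : ℝ) ^ (l : ℕ) * (A i (pts.get l) * Om j [B i] (pts.eraseIdx l))
        - (pts.map (B i)).sum * ((-1 : ℝ) ^ (l : ℕ) * Om j [A i] (pts.eraseIdx l))
        + (-1 : ℝ) ^ (l : ℕ) * (B i (pts.get l) * Om j [A i] (pts.eraseIdx l)) := by
      intro l; ring
    simp_rw [this]
    rw [Finset.sum_add_distrib, Finset.sum_sub_distrib, Finset.sum_sub_distrib,
      ← Finset.mul_sum, ← Finset.mul_sum, hd, hd, hA, hB]
    ring
  rw [Finset.sum_range]
  simp_rw [hY, mul_sub]
  rw [Finset.sum_sub_distrib, hd]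
  have hsw : ∑ l : Fin pts.length, (-1 : ℝ) ^ (l : ℕ) * ((1 / (2 * (2 * (j : ℝ) + 2))) * ∑ i,
        (((pts.map (A i)).sum - A i (pts.get l)) * Om j [B i] (pts.eraseIdx l) -
          ((pts.map (B i)).sum - B i (pts.get l)) * Om j [A i] (pts.eraseIdx l))) =
      (1 / (2 * (2 * (j : ℝ) + 2))) * ∑ i, ∑ l : Fin pts.length, (-1 : ℝ) ^ (l : ℕ) *
      (((pts.map (A i)).sum - A i (pts.get l)) * Om j [B i] (pts.eraseIdx l) -
          ((pts.map (B i)).sum - B i (pts.get l)) * Om j [A i] (pts.eraseIdx l)) := by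
    rw [Finset.sum_comm, Finset.mul_sum]
    refine Finset.sum_congr rfl fun l _ => ?_
    rw [Finset.mul_sum, Finset.mul_sum, Finset.mul_sum]
    refine Finset.sum_congr rfl fun i _ => ?_
    ring
  rw [hsw]
  simp_rw [hi]
  have hOm : Om (j + 1) [] pts = ∑ i, Om j [A i, B i] pts := by simp [Om]
  rw [hOm, ← Finset.mul_sum]
  have hj : (2 * (j : ℝ) + 2) ≠ 0 := by positivity
  field_simp
  ring

/-- (Y2) Invariance under left translations.  By `Om_translate`, `A_mul`, `B_mul`, `ct_mul`,
`Om_single_sum`, `Om_col_add`/`Om_col_const`: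
`Om j [ct] (g pts) = Om j [ct] pts + ∑ i, (A i g * Om j [B i] pts - B i g * Om j [A i] pts) / 2`,
`Om j [A i] (g pts) = Om j [A i] pts`, the same for `B i`, and
`((g pts).map (A i)).sum = (pts.map (A i)).sum + pts.length * A i g`.  (If `pts = []` both sides
vanish.) -/
lemma Y_translate (j : ℕ) (g : HeisM m) (pts : List (HeisM m)) :
    Y j (pts.map (g * ·)) = Y j pts := by
  rcases List.eq_nil_or_concat pts with rfl | ⟨q, a, hq⟩
  · rfl
  have hn : (pts.length : ℝ) ≠ 0 := by
    have h0 : pts.length ≠ 0 := by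
      rw [hq]
      simp
    exact_mod_cast h0
  clear hq
  have hAo : ∀ i, Om j [A i] (pts.map (g * ·)) = Om j [A i] pts := by
    intro i
    rw [Om_translate]
    have h1 := Om_single_sum j (A i) (A i g) (∅ : Finset (Fin m)) (fun _ => 0) (fun _ _ => 0) pts
    simp only [Finset.sum_empty, add_zero] at h1
    simp only [List.map_cons, List.map_nil, A_mul]
    exact h1
  have hBo : ∀ i, Om j [B i] (pts.map (g * ·)) = Om j [B i] pts := by
    intro i
    rw [Om_translate]
    have h1 := Om_single_sum j (B i) (B i g) (∅ : Finset (Fin m)) (fun _ => 0) (fun _ _ => 0) pts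
    simp only [Finset.sum_empty, add_zero] at h1
    simp only [List.map_cons, List.map_nil, B_mul]
    exact h1
  have hct : Om j [ct] (pts.map (g * ·)) = Om j [ct] pts +
      ∑ i, (A i g / 2) * Om j [B i] pts + ∑ i, (-(B i g) / 2) * Om j [A i] pts := by
    rw [Om_translate]
    have h1 := Om_single_sum j ct (ct g) (Finset.univ : Finset (Fin m)) (fun i => A i g / 2)
      (fun i => B i) pts
    have h2 := Om_single_sum j (fun p => ct p + ct g + ∑ i, A i g / 2 * B i p) 0
      (Finset.univ : Finset (Fin m)) (fun i => -(B i g) / 2) (fun i => A i) pts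
    rw [h1] at h2
    rw [← h2]
    simp only [List.map_cons, List.map_nil]
    congr 2
    funext p
    rw [ct_mul, add_zero, add_assoc (ct p + ct g), ← Finset.sum_add_distrib]
    congr 1
    refine Finset.sum_congr rfl fun i _ => ?_
    ring
  have hsum : ∀ (f : HeisM m → ℝ) (r : ℝ), (∀ x, f (g * x) = f x + r) →
      ∀ l : List (HeisM m), ((l.map (g * ·)).map f).sum = (l.map f).sum + l.length * r := by
    intro f r hf l
    induction l with
    | nil => simp
    | cons x l ih =>
      simp only [List.map_cons, List.sum_cons, List.length_cons, hf]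
      rw [ih]
      push_cast
      ring
  unfold Y
  rw [hct, List.length_map]
  simp only [hAo, hBo, hsum (A _) _ (A_mul _ g), hsum (B _) _ (B_mul _ g)]
  have e : ∀ i : Fin m, (((pts.map (A i)).sum + pts.length * A i g) * Om j [B i] pts -
      ((pts.map (B i)).sum + pts.length * B i g) * Om j [A i] pts) =
      ((pts.map (A i)).sum * Om j [B i] pts - (pts.map (B i)).sum * Om j [A i] pts) +
      (2 * (pts.length : ℝ)) * ((A i g / 2) * Om j [B i] pts + (-(B i g) / 2) * Om j [A i] pts) := by
    intro i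
    ring
  simp only [e]
  rw [Finset.sum_add_distrib, ← Finset.mul_sum, Finset.sum_add_distrib]
  field_simp
  ring

/-- (Y3) The prism.  The list has the form `p :: mid ++ [zc m t * p]` with `p = P[k]`.  The terms
`Om j [A i]`, `Om j [B i]` vanish by `Om_rows_eq` (first and last point), `Om j [ct]` is given by
`Om_prism`, and `p :: mid = P.drop k ++ (P.take k).map (zc m t * ·)` has the same coordinates
`a`, `b` as `P.rotate k` (`Om_nil_congr`, `Om_rotate`). -/
lemma Y_prism (j : ℕ) (t : ℝ) (P : List (HeisM m)) (h : P.length = 2 * j + 1) (k : ℕ)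
    (hk : k < P.length) :
    Y j (P.drop k ++ (P.take (k + 1)).map (zc m t * ·)) = (-1) ^ j * t * Om j [] P := by
  set p := P[k] with hp
  set mid := P.drop (k + 1) ++ (P.take k).map (zc m t * ·) with hmid
  have e1 : P.drop k = p :: P.drop (k + 1) := List.drop_eq_getElem_cons hk
  have e2 : P.take (k + 1) = P.take k ++ [p] := List.take_succ_eq_append_getElem hk
  have e : P.drop k ++ (P.take (k + 1)).map (zc m t * ·) = p :: mid ++ [zc m t * p] := by
    rw [e1, e2]
    simp [hmid]
  have e' : p :: mid = P.drop k ++ (P.take k).map (zc m t * ·) := by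
    rw [e1]
    simp [hmid]
  have ha : (zc m t * p).a = p.a := by simp [zc]
  have hb : (zc m t * p).b = p.b := by simp [zc]
  have hc : ct (zc m t * p) = ct p + t := by
    simp only [ct, ha, hb, mul_c]
    simp [zc]
    ring
  have hzero : ∀ c : HeisM m → ℝ, c (zc m t * p) = c p →
      Om j [c] (p :: mid ++ [zc m t * p]) = 0 := by
    intro c hcc
    have hlen : mid.length + 1 < (p :: mid ++ [zc m t * p]).length := by simp
    have h0 : 0 < (p :: mid ++ [zc m t * p]).length := by simp
    have g0 : (p :: mid ++ [zc m t * p])[0]'h0 = p := by simp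
    have g1 : (p :: mid ++ [zc m t * p])[mid.length + 1]'hlen = zc m t * p := by simp
    refine Om_rows_eq j [c] _ 0 (mid.length + 1) (Nat.succ_pos _) hlen ?_ ?_ ?_
    · intro i
      rw [g0, g1]
      simp [A, ha]
    · intro i
      rw [g0, g1]
      simp [B, hb]
    · intro c' hc'
      rw [List.mem_singleton.1 hc', g0, g1, hcc]
  have hrot : Om j [] (p :: mid) = Om j [] P := by
    have h1 : Om j [] (p :: mid) = Om j [] (P.rotate k) := by
      rw [e', List.rotate_eq_drop_append_take hk.le]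
      apply Om_nil_congr
      apply List.rel_append
      · exact List.forall₂_same.2 fun _ _ => ⟨rfl, rfl⟩
      · rw [List.forall₂_map_left_iff]
        exact List.forall₂_same.2 fun q _ => ⟨by simp [zc], by simp [zc]⟩
    rw [h1]
    exact Om_rotate j [] P ⟨j, h⟩ k
  rw [e]
  unfold Y
  rw [Om_prism j t p (zc m t * p) mid ha hb hc, hrot]
  have hs : ∑ i, (((p :: mid ++ [zc m t * p]).map (A i)).sum * Om j [B i] (p :: mid ++ [zc m t * p])
      - ((p :: mid ++ [zc m t * p]).map (B i)).sum * Om j [A i] (p :: mid ++ [zc m t * p])) = 0 := by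
    refine Finset.sum_eq_zero fun i _ => ?_
    rw [hzero (B i) (by simp [B, hb]), hzero (A i) (by simp [A, ha])]
    simp
  rw [hs]
  simp

/-- (Y4) two equal consecutive points (`Om_rows_eq`) -/
lemma Y_dup (j : ℕ) (l₁ l₂ : List (HeisM m)) (p : HeisM m) : Y j (l₁ ++ p :: p :: l₂) = 0 := by
  have key : ∀ mid : List (HeisM m → ℝ), Om j mid (l₁ ++ p :: p :: l₂) = 0 := by
    intro mid
    have hl : l₁.length + 1 < (l₁ ++ p :: p :: l₂).length := by simp
    have e1 : (l₁ ++ p :: p :: l₂)[l₁.length]'((Nat.lt_succ_self _).trans hl) = p := by simp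
    have e2 : (l₁ ++ p :: p :: l₂)[l₁.length + 1]'hl = p := by
      rw [List.getElem_append_right (by omega)]
      simp
    refine Om_rows_eq j mid _ l₁.length (l₁.length + 1) (Nat.lt_succ_self _) hl ?_ ?_ ?_
    · intro i; rw [e1, e2]
    · intro i; rw [e1, e2]
    · intro c _; rw [e1, e2]
  simp only [Y, key]
  simp

/-- (Y5) -/
lemma Y_eq_zero (j : ℕ) (h : m < j) (pts : List (HeisM m)) : Y j pts = 0 := by
  simp [Y, Om_eq_zero j h]

/-- (Y5) -/
lemma Y_zero_pair (t : ℝ) : Y 0 [1, zc m t] = t := by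
  have h1 := Om_prism (m := m) 0 t 1 (zc m t) [] (by simp [zc]) (by simp [zc]) (by simp [ct, zc])
  have h2 : Om 0 [] [(1 : HeisM m)] = 1 := by
    simp [Om, LDet, LMat]
  have h3 : ∀ i : Fin m, (([1, zc m t] : List (HeisM m)).map (A i)).sum = 0 := by
    intro i; simp [A, zc]
  have h4 : ∀ i : Fin m, (([1, zc m t] : List (HeisM m)).map (B i)).sum = 0 := by
    intro i; simp [B, zc]
  unfold Y
  simp only [h3, h4, zero_mul, sub_zero, Finset.sum_const_zero, mul_zero]
  simp only [List.cons_append, List.nil_append] at h1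
  rw [h1, h2]; simp

lemma abs_list_sum_le (f : HeisM m → ℝ) (pts : List (HeisM m)) (M : ℝ)
    (h : ∀ p ∈ pts, |f p| ≤ M) : |(pts.map f).sum| ≤ pts.length * M := by
  induction pts with
  | nil => simp
  | cons p l ih =>
    simp only [List.map_cons, List.sum_cons, List.length_cons, Nat.cast_add, Nat.cast_one]
    have h1 := h p List.mem_cons_self
    have h2 := ih (fun q hq => h q (List.mem_cons_of_mem _ hq))
    calc |f p + (l.map f).sum| ≤ |f p| + |(l.map f).sum| := abs_add_le _ _
      _ ≤ M + l.length * M := add_le_add h1 h2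
      _ = (l.length + 1) * M := by ring

/-- (Y6) bound (`abs_Om_le`; `|sum| ≤ length * M`) -/
lemma abs_Y_le (j : ℕ) (pts : List (HeisM m)) (M : ℝ) (hM : 1 ≤ M)
    (hA : ∀ i, ∀ p ∈ pts, |A i p| ≤ M) (hB : ∀ i, ∀ p ∈ pts, |B i p| ≤ M)
    (hc : ∀ p ∈ pts, |ct p| ≤ M) :
    |Y j pts| ≤ (1 + m) * ((m : ℝ) ^ j * ((pts.length).factorial * M ^ (pts.length + 1))) := by
  set K : ℝ := (m : ℝ) ^ j * ((pts.length).factorial * M ^ pts.length) with hK
  have hK0 : 0 ≤ K := by positivity
  have hM0 : 0 ≤ M := by linarith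
  have h1 : |Om j [ct] pts| ≤ K :=
    abs_Om_le j [ct] pts M hM hA hB (by
      intro c hcm p hp
      rw [List.mem_singleton.1 hcm]; exact hc p hp)
  have h2 : ∀ i, |Om j [B i] pts| ≤ K := fun i =>
    abs_Om_le j [B i] pts M hM hA hB (by
      intro c hcm p hp
      rw [List.mem_singleton.1 hcm]; exact hB i p hp)
  have h3 : ∀ i, |Om j [A i] pts| ≤ K := fun i =>
    abs_Om_le j [A i] pts M hM hA hB (by
      intro c hcm p hp
      rw [List.mem_singleton.1 hcm]; exact hA i p hp)
  have h4 : ∀ i, |(pts.map (A i)).sum| ≤ pts.length * M := fun i =>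
    abs_list_sum_le (A i) pts M (hA i)
  have h5 : ∀ i, |(pts.map (B i)).sum| ≤ pts.length * M := fun i =>
    abs_list_sum_le (B i) pts M (hB i)
  have hlen0 : (0 : ℝ) ≤ pts.length := Nat.cast_nonneg _
  have h6 : |∑ i, ((pts.map (A i)).sum * Om j [B i] pts - (pts.map (B i)).sum * Om j [A i] pts)|
      ≤ m * (2 * (pts.length * M * K)) := by
    calc |∑ i, ((pts.map (A i)).sum * Om j [B i] pts - (pts.map (B i)).sum * Om j [A i] pts)|
        ≤ ∑ i, |((pts.map (A i)).sum * Om j [B i] pts - (pts.map (B i)).sum * Om j [A i] pts)| :=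
          Finset.abs_sum_le_sum_abs _ _
      _ ≤ ∑ _i : Fin m, 2 * (pts.length * M * K) := by
          refine Finset.sum_le_sum fun i _ => ?_
          calc |((pts.map (A i)).sum * Om j [B i] pts - (pts.map (B i)).sum * Om j [A i] pts)|
              ≤ |(pts.map (A i)).sum * Om j [B i] pts| + |(pts.map (B i)).sum * Om j [A i] pts| :=
                abs_sub _ _
            _ = |(pts.map (A i)).sum| * |Om j [B i] pts| + |(pts.map (B i)).sum| * |Om j [A i] pts| := by
                rw [abs_mul, abs_mul]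
            _ ≤ pts.length * M * K + pts.length * M * K :=
                add_le_add (mul_le_mul (h4 i) (h2 i) (abs_nonneg _) (by positivity))
                  (mul_le_mul (h5 i) (h3 i) (abs_nonneg _) (by positivity))
            _ = 2 * (pts.length * M * K) := by ring
      _ = m * (2 * (pts.length * M * K)) := by
          rw [Finset.sum_const, Finset.card_univ, Fintype.card_fin, nsmul_eq_mul]
  have h7 : |(1 / (2 * (pts.length : ℝ))) *
      ∑ i, ((pts.map (A i)).sum * Om j [B i] pts - (pts.map (B i)).sum * Om j [A i] pts)|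
      ≤ m * (M * K) := by
    rw [abs_mul]
    rcases Nat.eq_zero_or_pos pts.length with h0 | hpos
    · rw [h0]; simp; positivity
    · have hp : (0 : ℝ) < pts.length := Nat.cast_pos.2 hpos
      rw [abs_of_nonneg (by positivity)]
      calc 1 / (2 * (pts.length : ℝ)) * |∑ i, ((pts.map (A i)).sum * Om j [B i] pts - (pts.map (B i)).sum * Om j [A i] pts)|
          ≤ 1 / (2 * (pts.length : ℝ)) * (m * (2 * (pts.length * M * K))) :=
            mul_le_mul_of_nonneg_left h6 (by positivity)
        _ = m * (M * K) := by field_simp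
  have h8 : (1 + (m:ℝ)) * ((m : ℝ) ^ j * ((pts.length).factorial * M ^ (pts.length + 1)))
      = (1 + m) * (M * K) := by
    rw [hK, pow_succ]; ring
  rw [h8]
  unfold Y
  calc |Om j [ct] pts - (1 / (2 * (pts.length : ℝ))) *
      ∑ i, ((pts.map (A i)).sum * Om j [B i] pts - (pts.map (B i)).sum * Om j [A i] pts)|
      ≤ |Om j [ct] pts| + |(1 / (2 * (pts.length : ℝ))) *
      ∑ i, ((pts.map (A i)).sum * Om j [B i] pts - (pts.map (B i)).sum * Om j [A i] pts)| := abs_sub _ _
    _ ≤ K + m * (M * K) := add_le_add h1 h7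
    _ ≤ M * K + m * (M * K) := by
        have : K ≤ M * K := by nlinarith
        linarith
    _ = (1 + m) * (M * K) := by ring

end Vale.Agent.P184.PN.HeisM
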