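import Mathlib

/-!
# Determinants attached to a list of columns (functions) and a list of points (rows D1 - D9)

`LDet cols pts` is the determinant of the square matrix whose rows are
`(1, c₁ p, …, c_r p)`, `p` running through `pts`, `cols = [c₁, …, c_r]`; it is `0` if
`pts.length ≠ cols.length + 1`.
-/

namespace Vale.Agent.P184.PN

open scoped BigOperators

variable {X : Type*}

/-- the matrix -/
def LMat (cols : List (X → ℝ)) (pts : List X) : Matrix (Fin pts.length) (Fin pts.length) ℝ :=
  Matrix.of fun k c => (((fun _ => (1 : ℝ)) :: cols).getD c (fun _ => 0)) (pts.get k)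

/-- the determinant -/
noncomputable def LDet (cols : List (X → ℝ)) (pts : List X) : ℝ :=
  if pts.length = cols.length + 1 then (LMat cols pts).det else 0

/-- (D1) two equal columns (`Matrix.det_zero_of_column_eq`) -/
lemma LDet_dup_cols {cols : List (X → ℝ)} (h : ¬ cols.Nodup) (pts : List X) :
    LDet cols pts = 0 := by
  unfold LDet
  split_ifs with hl
  · rw [List.nodup_iff_injective_get] at h
    simp only [Function.Injective, not_forall] at h
    obtain ⟨a, b, hab, hne⟩ := h
    have ha : (a : ℕ) + 1 < pts.length := by have := a.2; omega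
    have hb : (b : ℕ) + 1 < pts.length := by have := b.2; omega
    apply Matrix.det_zero_of_column_eq (i := ⟨(a : ℕ) + 1, ha⟩) (j := ⟨(b : ℕ) + 1, hb⟩)
    · intro hh
      apply hne
      simp only [Fin.mk.injEq, Nat.add_right_cancel_iff] at hh
      exact Fin.ext hh
    · intro k
      simp only [LMat, Matrix.of_apply, List.getD_cons_succ]
      rw [List.getD_eq_getElem _ _ a.2, List.getD_eq_getElem _ _ b.2]
      simp only [List.get_eq_getElem] at hab
      rw [hab]
  · rfl

/-- (D2) two equal rows (`Matrix.det_zero_of_row_eq`) -/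
lemma LDet_rows_eq (cols : List (X → ℝ)) (pts : List X) (i j : ℕ) (hij : i < j)
    (hj : j < pts.length) (h : ∀ c ∈ cols, c (pts[i]'(hij.trans hj)) = c pts[j]) :
    LDet cols pts = 0 := by
  unfold LDet
  split_ifs with hl
  · apply Matrix.det_zero_of_row_eq (i := ⟨i, hij.trans hj⟩) (j := ⟨j, hj⟩)
    · intro hh
      simp only [Fin.mk.injEq] at hh
      omega
    · funext c
      simp only [LMat, Matrix.of_apply, List.get_eq_getElem]
      rcases c with ⟨c, hc⟩
      cases c with
      | zero => simp
      | succ n =>
        simp only [List.getD_cons_succ]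
        have hn : n < cols.length := by omega
        rw [List.getD_eq_getElem _ _ hn]
        exact h _ (List.getElem_mem hn)
  · rfl

/-- (D3) Only the values of the columns at the points matter. -/
lemma LDet_congr {cols cols' : List (X → ℝ)} {pts : List X}
    (h : List.Forall₂ (fun c c' => ∀ p ∈ pts, c p = c' p) cols cols') :
    LDet cols pts = LDet cols' pts := by
  have hlen : cols.length = cols'.length := h.length_eq
  have key : ∀ (n : ℕ), ∀ p ∈ pts,
      (cols.getD n (fun _ => (0 : ℝ))) p = (cols'.getD n (fun _ => (0 : ℝ))) p := by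
    induction h with
    | nil => intro n p _; rfl
    | cons hab _ ih =>
      intro n p hp
      cases n with
      | zero => simpa using hab p hp
      | succ n =>
        simp only [List.getD_cons_succ]
        exact ih (by simpa using List.Forall₂.length_eq ‹_›) n p hp
  unfold LDet
  rw [hlen]
  congr 1
  congr 1
  ext k c
  simp only [LMat, Matrix.of_apply]
  rcases c with ⟨c, hc⟩
  cases c with
  | zero => simp
  | succ n =>
    simp only [List.getD_cons_succ]
    exact key n _ (List.get_mem _ _)

/-- (D3) change of points -/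
lemma LDet_map {Y : Type*} (f : Y → X) (cols : List (X → ℝ)) (pts : List Y) :
    LDet cols (pts.map f) = LDet (cols.map fun c => c ∘ f) pts := by
  unfold LDet
  simp only [List.length_map]
  congr 1
  have hl : (pts.map f).length = pts.length := List.length_map ..
  have hM : LMat cols (pts.map f)
      = (LMat (cols.map fun c => c ∘ f) pts).submatrix (finCongr hl) (finCongr hl) := by
    ext k c
    simp only [LMat, Matrix.of_apply, Matrix.submatrix_apply, finCongr_apply, Fin.val_cast]
    have e1 : ((fun _ => (1 : ℝ)) :: cols.map fun c => c ∘ f)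
        = (((fun _ => (1 : ℝ)) :: cols).map fun c => c ∘ f) := by
      simp only [List.map_cons]
      rfl
    have e2 : (fun _ : Y => (0 : ℝ)) = (fun c : X → ℝ => c ∘ f) (fun _ => 0) := rfl
    rw [e1, e2, List.getD_map]
    simp
  rw [hM, Matrix.det_submatrix_equiv_self]

lemma LDet_aux_getD_ne {α : Type*} (L R : List α) (x z d : α) (n : ℕ) (hn : n ≠ L.length) :
    (L ++ z :: R).getD n d = (L ++ x :: R).getD n d := by
  rcases lt_or_gt_of_ne hn with h | h
  · rw [List.getD_append _ _ _ _ h, List.getD_append _ _ _ _ h]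
  · rw [List.getD_append_right _ _ _ _ h.le, List.getD_append_right _ _ _ _ h.le]
    obtain ⟨m, hm⟩ : ∃ m, n - L.length = m + 1 := ⟨n - L.length - 1, by omega⟩
    rw [hm, List.getD_cons_succ, List.getD_cons_succ]

lemma LDet_aux_getD_mid {α : Type*} (L R : List α) (z d : α) :
    (L ++ z :: R).getD L.length d = z := by
  rw [List.getD_append_right _ _ _ _ le_rfl]
  simp

lemma LDet_aux_updateCol (L R : List (X → ℝ)) (x z : X → ℝ) (pts : List X)
    (hj : L.length + 1 < pts.length) :
    LMat (L ++ z :: R) pts
      = (LMat (L ++ x :: R) pts).updateCol ⟨L.length + 1, hj⟩ (fun k => z (pts.get k)) := by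
  ext k c
  by_cases hc : c = ⟨L.length + 1, hj⟩
  · subst hc
    simp only [LMat, Matrix.of_apply, Matrix.updateCol_self, List.getD_cons_succ, LDet_aux_getD_mid]
  · rw [Matrix.updateCol_ne hc]
    simp only [LMat, Matrix.of_apply]
    rcases c with ⟨c, hc'⟩
    cases c with
    | zero => simp
    | succ n =>
      simp only [List.getD_cons_succ]
      rw [LDet_aux_getD_ne L R x z _ n]
      intro hn
      apply hc
      simp [hn]

/-- (D4) linearity in one column (`Matrix.det_updateCol_add`, `Matrix.det_updateCol_smul`) -/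
lemma LDet_col_add (L R : List (X → ℝ)) (x y : X → ℝ) (r : ℝ) (pts : List X) :
    LDet (L ++ (fun p => x p + r * y p) :: R) pts =
      LDet (L ++ x :: R) pts + r * LDet (L ++ y :: R) pts := by
  unfold LDet
  simp only [List.length_append, List.length_cons]
  split_ifs with h
  · have hj : L.length + 1 < pts.length := by omega
    rw [LDet_aux_updateCol L R x (fun p => x p + r * y p) pts hj, LDet_aux_updateCol L R x y pts hj]
    have e : (fun k => (fun p => x p + r * y p) (pts.get k))
        = (fun k => x (pts.get k)) + r • (fun k => y (pts.get k)) := by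
      funext k
      simp
    rw [e, Matrix.det_updateCol_add, Matrix.det_updateCol_smul, ← LDet_aux_updateCol L R x x pts hj]
  · simp

/-- (D4) a constant column is proportional to the column of ones -/
lemma LDet_col_const (L R : List (X → ℝ)) (r : ℝ) (pts : List X) :
    LDet (L ++ (fun _ => r) :: R) pts = 0 := by
  have e : (fun _ : X => r) = fun p => (fun _ : X => (0 : ℝ)) p + r * (fun _ : X => (1 : ℝ)) p := by
    funext p
    simp
  rw [e, LDet_col_add]
  have h0 : LDet (L ++ (fun _ : X => (0 : ℝ)) :: R) pts = 0 := by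
    unfold LDet
    simp only [List.length_append, List.length_cons]
    split_ifs with h
    · have hj : L.length + 1 < pts.length := by omega
      apply Matrix.det_eq_zero_of_column_eq_zero ⟨L.length + 1, hj⟩
      intro k
      simp only [LMat, Matrix.of_apply, List.getD_cons_succ, LDet_aux_getD_mid]
    · rfl
  have h1 : LDet (L ++ (fun _ : X => (1 : ℝ)) :: R) pts = 0 := by
    unfold LDet
    simp only [List.length_append, List.length_cons]
    split_ifs with h
    · have hj : L.length + 1 < pts.length := by omega
      have h0' : 0 < pts.length := by omega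
      apply Matrix.det_zero_of_column_eq (i := ⟨0, h0'⟩) (j := ⟨L.length + 1, hj⟩)
      · intro hh
        simp at hh
      · intro k
        simp only [LMat, Matrix.of_apply, List.getD_cons_succ, LDet_aux_getD_mid, List.getD_cons_zero]
    · rfl
  rw [h0, h1]
  simp

/-- the determinant over `Fin m` -/
lemma LDet_eq_det {m : ℕ} (cols : List (X → ℝ)) (pts : List X) (hm : pts.length = m)
    (hc : m = cols.length + 1) :
    LDet cols pts = (Matrix.of fun (k c : Fin m) =>
      (((fun _ => (1 : ℝ)) :: cols).getD c (fun _ => 0)) (pts[(k : ℕ)]'(by omega))).det := by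
  subst hm
  unfold LDet LMat
  rw [if_pos hc]
  rfl

lemma getD_eraseIdx_succAbove {α : Type*} (l : List α) (d : α) {n : ℕ} (j : Fin (n + 1))
    (c : Fin n) : (l.eraseIdx j).getD c d = l.getD (j.succAbove c) d := by
  rw [List.getD_eq_getElem?_getD, List.getD_eq_getElem?_getD, List.getElem?_eraseIdx]
  by_cases h : (c : ℕ) < j
  · rw [if_pos h, Fin.succAbove_of_castSucc_lt _ _ (by simpa [Fin.lt_def] using h)]
    rfl
  · rw [if_neg h, Fin.succAbove_of_le_castSucc _ _ (by simpa [Fin.le_def] using h)]
    rfl

lemma getElem_eraseIdx_succAbove {α : Type*} (l : List α) {n : ℕ} (_hl : l.length = n + 1)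
    (j : Fin (n + 1)) (c : Fin n) (h1 : (c : ℕ) < (l.eraseIdx j).length)
    (h2 : ((j.succAbove c : Fin (n + 1)) : ℕ) < l.length) :
    (l.eraseIdx j)[(c : ℕ)]'h1 = l[((j.succAbove c : Fin (n + 1)) : ℕ)]'h2 := by
  rw [List.getElem_eraseIdx]
  by_cases h : (c : ℕ) < j
  · rw [dif_pos h]
    congr 1
    rw [Fin.succAbove_of_castSucc_lt _ _ (by simpa [Fin.lt_def] using h)]
    rfl
  · rw [dif_neg h]
    congr 1
    rw [Fin.succAbove_of_le_castSucc _ _ (by simpa [Fin.le_def] using h)]
    rfl

/-- (D6) Laplace expansion along the column `x` (`Matrix.det_succ_column`), which is the column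
number `L.length + 1` (counted from `0`) of the matrix of `L ++ x :: R`. -/
lemma LDet_laplace (L R : List (X → ℝ)) (x : X → ℝ) (pts : List X)
    (h : pts.length = L.length + R.length + 2) :
    ∑ l : Fin pts.length, (-1 : ℝ) ^ (l : ℕ) * (x (pts.get l) * LDet (L ++ R) (pts.eraseIdx l)) =
      (-1) ^ (L.length + 1) * LDet (L ++ x :: R) pts := by
  obtain ⟨n, hn⟩ : ∃ n, n = L.length + R.length + 1 := ⟨_, rfl⟩
  have hm : pts.length = n + 1 := by omega
  have hj : L.length + 1 < n + 1 := by omega
  set j0 : Fin (n + 1) := ⟨L.length + 1, hj⟩ with hj0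
  rw [LDet_eq_det (L ++ x :: R) pts hm (by simp; omega), Matrix.det_succ_column _ j0,
    Finset.mul_sum]
  have hcols : ((fun _ => (1 : ℝ)) :: (L ++ R)) =
      (((fun _ => (1 : ℝ)) :: (L ++ x :: R)).eraseIdx (j0 : ℕ)) := by
    simp [hj0, List.eraseIdx_cons_succ, List.eraseIdx_append_of_length_le]
  have hx : (((fun _ => (1 : ℝ)) :: (L ++ x :: R)).getD (j0 : ℕ) (fun _ => 0)) = x := by
    simp [hj0]
  refine (Fintype.sum_equiv (finCongr hm) _ _ (fun l => ?_))
  have hlen : (pts.eraseIdx (l : ℕ)).length = n := by
    rw [List.length_eraseIdx_of_lt l.2]; omega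
  rw [LDet_eq_det (L ++ R) (pts.eraseIdx l) hlen (by simp; omega)]
  have hsub : (Matrix.of fun (k c : Fin n) =>
      (((fun _ => (1 : ℝ)) :: (L ++ R)).getD c (fun _ => 0))
        ((pts.eraseIdx (l : ℕ))[(k : ℕ)]'(by omega))) =
      (Matrix.of fun (k c : Fin (n + 1)) =>
        (((fun _ => (1 : ℝ)) :: (L ++ x :: R)).getD c (fun _ => 0))
          (pts[(k : ℕ)]'(by omega))).submatrix (finCongr hm l).succAbove j0.succAbove := by
    ext k c
    simp only [Matrix.of_apply, Matrix.submatrix_apply]
    rw [hcols, getD_eraseIdx_succAbove]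
    exact congrArg _ (getElem_eraseIdx_succAbove pts hm (finCongr hm l) k _ _)
  rw [hsub]
  simp only [Matrix.of_apply, hx]
  have hl : ((finCongr hm l : Fin (n + 1)) : ℕ) = l := rfl
  have hsign : (-1 : ℝ) ^ (L.length + 1) * (-1) ^ (((finCongr hm l : Fin (n + 1)) : ℕ) + (j0 : ℕ))
      = (-1) ^ (l : ℕ) := by
    rw [hl, hj0]
    simp only
    rw [← pow_add, show L.length + 1 + ((l : ℕ) + (L.length + 1)) = 2 * (L.length + 1) + l by ring,
      pow_add, pow_mul]
    simp
  rw [← hsign]
  simp only [List.get_eq_getElem, hl]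
  ring

/-- (D5) The alternating sum over the faces vanishes: it is the Laplace expansion along the first
column (`Matrix.det_succ_column_zero`) of the matrix with rows `(1, 1, c₁ p, …)`. -/
lemma LDet_delta (cols : List (X → ℝ)) (pts : List X) (h : pts.length = cols.length + 2) :
    ∑ l ∈ Finset.range pts.length, (-1 : ℝ) ^ l * LDet cols (pts.eraseIdx l) = 0 := by
  have h1 := LDet_laplace [] cols (fun _ => (1 : ℝ)) pts (by simpa using h)
  have h2 := LDet_col_const [] cols (1 : ℝ) pts
  simp only [List.nil_append] at h1 h2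
  rw [h2, mul_zero] at h1
  rw [← Fin.sum_univ_eq_sum_range (fun l => (-1 : ℝ) ^ l * LDet cols (pts.eraseIdx l))]
  simpa using h1

/-- auxiliary: the matrix attached to a family of points indexed by `Fin n` -/
def GMatRot (cols : List (X → ℝ)) {n : ℕ} (g : Fin n → X) : Matrix (Fin n) (Fin n) ℝ :=
  Matrix.of fun k c => (((fun _ => (1 : ℝ)) :: cols).getD c (fun _ => 0)) (g k)

lemma LMat_det_eq_GMatRot (cols : List (X → ℝ)) (pts : List X) (n : ℕ) (h : pts.length = n) :
    (LMat cols pts).det = (GMatRot cols (fun k : Fin n => pts.get (Fin.cast h.symm k))).det := by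
  subst h
  rfl

lemma LDet_rotate_one (cols : List (X → ℝ)) (pts : List X) (h : Odd pts.length) :
    LDet cols (pts.rotate 1) = LDet cols pts := by
  unfold LDet
  by_cases hl : pts.length = cols.length + 1
  · have hl' : (pts.rotate 1).length = cols.length + 1 := by rw [List.length_rotate, hl]
    rw [if_pos hl, if_pos hl']
    obtain ⟨m, hm⟩ : ∃ m, pts.length = m + 1 := ⟨cols.length, hl⟩
    have hlen : (pts.rotate 1).length = m + 1 := by rw [List.length_rotate, hm]
    rw [LMat_det_eq_GMatRot cols (pts.rotate 1) (m + 1) hlen, LMat_det_eq_GMatRot cols pts (m + 1) hm]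
    have hsub : GMatRot cols (fun k : Fin (m + 1) => (pts.rotate 1).get (Fin.cast hlen.symm k)) =
        (GMatRot cols (fun k : Fin (m + 1) => pts.get (Fin.cast hm.symm k))).submatrix
          (finRotate (m + 1)) id := by
      ext k c
      have hidx : ((k : ℕ) + 1) % pts.length = ((k + 1 : Fin (m + 1)) : ℕ) := by
        rw [hm, Fin.val_add, Fin.val_one']
        simp
      simp only [GMatRot, Matrix.of_apply, Matrix.submatrix_apply, id, List.get_eq_getElem,
        Fin.val_cast, List.getElem_rotate, finRotate_apply, hidx]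
    rw [hsub, Matrix.det_permute, sign_finRotate]
    have hme : Even m := by
      rw [hm] at h
      exact (Nat.odd_add_one.mp h |> fun h' => by simpa using h')
    simp [hme.neg_one_pow]
  · have hl' : ¬ (pts.rotate 1).length = cols.length + 1 := by rwa [List.length_rotate]
    rw [if_neg hl, if_neg hl']

/-- (D7) A cyclic rotation of an odd number of rows is an even permutation
(`Matrix.det_permute`, sign of `finRotate`; or induction on `i` from the case `i = 1`). -/
lemma LDet_rotate (cols : List (X → ℝ)) (pts : List X) (h : Odd pts.length) (i : ℕ) :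
    LDet cols (pts.rotate i) = LDet cols pts := by
  induction i with
  | zero => simp
  | succ i ih =>
    rw [← List.rotate_rotate, LDet_rotate_one cols (pts.rotate i) (by rwa [List.length_rotate]), ih]

lemma LMat_det_cast (cols : List (X → ℝ)) (pts : List X) (n : ℕ) (h : pts.length = n) :
    (LMat cols pts).det = Matrix.det (Matrix.of fun (k c : Fin n) =>
      (((fun _ => (1 : ℝ)) :: cols).getD c (fun _ => 0)) (pts[(k : ℕ)]'(by omega))) := by
  subst h; rfl

lemma prism_getD_diff (L R : List (X → ℝ)) (y : X → ℝ) (t : ℝ) (p p' : X)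
    (hL : ∀ c ∈ L, c p' = c p) (hR : ∀ c ∈ R, c p' = c p) (hy : y p' = y p + t) (i : ℕ) :
    (((fun _ => (1 : ℝ)) :: (L ++ y :: R)).getD i (fun _ => 0)) p' -
    (((fun _ => (1 : ℝ)) :: (L ++ y :: R)).getD i (fun _ => 0)) p =
      if i = L.length + 1 then t else 0 := by
  rcases i with _ | i
  · simp
  · rw [List.getD_cons_succ]
    rcases lt_trichotomy i L.length with h | h | h
    · rw [List.getD_append _ _ _ _ h, List.getD_eq_getElem _ _ h, hL _ (List.getElem_mem h)]
      simp; omega
    · subst h; rw [List.getD_append_right _ _ _ _ le_rfl]; simp [hy]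
    · rw [List.getD_append_right _ _ _ _ h.le]
      obtain ⟨j, rfl⟩ : ∃ j, i = L.length + 1 + j := ⟨i - L.length - 1, by omega⟩
      have : L.length + 1 + j - L.length = j + 1 := by omega
      rw [this, List.getD_cons_succ]
      by_cases hj : j < R.length
      · rw [List.getD_eq_getElem _ _ hj, hR _ (List.getElem_mem hj)]; simp; omega
      · rw [List.getD_eq_default _ _ (by omega)]; simp; omega

lemma prism_getD_erase (L R : List (X → ℝ)) (y : X → ℝ) (i : ℕ) :
    ((fun _ => (1 : ℝ)) :: (L ++ R)).getD i (fun _ => 0) =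
    ((fun _ => (1 : ℝ)) :: (L ++ y :: R)).getD (if i < L.length + 1 then i else i + 1)
      (fun _ => 0) := by
  have : ((fun _ => (1 : ℝ)) :: (L ++ R)) =
      ((fun _ => (1 : ℝ)) :: (L ++ y :: R)).eraseIdx (L.length + 1) := by
    simp [List.eraseIdx_append_of_length_le]
  rw [this, List.getD_eq_getElem?_getD, List.getD_eq_getElem?_getD, List.getElem?_eraseIdx]
  split_ifs <;> rfl

/-- (D8) The prism formula.  The first point `p` and the last point `p'` have the same values for
the columns in `L` and `R`, and `y p' = y p + t`.  Subtract the first row from the last one; the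
new last row has the single entry `t`, in column `L.length + 1`; expand along it
(`Matrix.det_succ_row` for the last row, or move it).  The matrix has
`L.length + R.length + 2` rows, so the sign is `(-1) ^ ((L.length + R.length + 1) + (L.length + 1))
= (-1) ^ R.length`. -/
lemma LDet_prism (L R : List (X → ℝ)) (y : X → ℝ) (t : ℝ) (p p' : X) (mid : List X)
    (hL : ∀ c ∈ L, c p' = c p) (hR : ∀ c ∈ R, c p' = c p) (hy : y p' = y p + t) :
    LDet (L ++ y :: R) (p :: mid ++ [p']) = (-1) ^ R.length * t * LDet (L ++ R) (p :: mid) := by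
  unfold LDet
  by_cases hlen : mid.length = L.length + R.length
  swap
  · rw [if_neg, if_neg]
    · simp
    · simp; omega
    · simp; omega
  rw [if_pos (by simp; omega), if_pos (by simp; omega)]
  rw [LMat_det_cast _ _ (mid.length + 1 + 1) (by simp), LMat_det_cast _ _ (mid.length+1) (by simp)]
  set A : Matrix (Fin (mid.length + 1 + 1)) (Fin (mid.length + 1 + 1)) ℝ := Matrix.of fun (k c : Fin (mid.length + 1 + 1)) =>
      (((fun _ => (1 : ℝ)) :: (L ++ y :: R)).getD c (fun _ => 0)) ((p :: mid ++ [p'])[(k : ℕ)]'(by simp; omega)) with hA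
  have h1 : A.det = (A.updateRow (Fin.last _) (A (Fin.last _) + (-1 : ℝ) • A 0)).det :=
    (Matrix.det_updateRow_add_smul_self A (by simp [Fin.ext_iff] : Fin.last (mid.length + 1) ≠ 0) (-1)).symm
  -- the new last row
  have hrow : ∀ c : Fin (mid.length + 1 + 1), (A (Fin.last _) + (-1 : ℝ) • A 0) c =
      if (c : ℕ) = L.length + 1 then t else 0 := by
    intro c
    have e1 : (p :: mid ++ [p'])[mid.length + 1]'(by simp) = p' := by
      simp [List.getElem_cons_succ]
    have e0 : (p :: mid ++ [p'])[0]'(by simp) = p := by simp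
    simp only [hA, Pi.add_apply, Pi.smul_apply, Matrix.of_apply, Fin.val_last, Fin.val_zero, e1, e0]
    rw [← prism_getD_diff L R y t p p' hL hR hy c]
    simp [sub_eq_add_neg]
  rw [h1, Matrix.det_succ_row _ (Fin.last _)]
  rw [Finset.sum_eq_single (⟨L.length + 1, by omega⟩ : Fin (mid.length + 1 + 1))]
  · rw [Matrix.updateRow_self, hrow, if_pos rfl]
    have hs : ((-1 : ℝ)) ^ ((Fin.last (mid.length + 1) : ℕ) + ((⟨L.length + 1, by omega⟩ : Fin (mid.length + 1 + 1)) : ℕ)) = (-1) ^ R.length := by
      simp only [Fin.val_last, hlen]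
      have : L.length + R.length + 1 + (L.length + 1) = R.length + 2 * (L.length + 1) := by ring
      rw [this, pow_add, pow_mul]; simp
    rw [hs]
    congr 1
    congr 1
    ext k c
    simp only [Matrix.submatrix_apply, Fin.succAbove_last, Matrix.of_apply]
    rw [Matrix.updateRow_ne (by simp [Fin.ext_iff]; omega)]
    simp only [hA, Matrix.of_apply, Fin.val_castSucc]
    rw [prism_getD_erase L R y c]
    have e2 : (p :: mid ++ [p'])[(k : ℕ)]'(by simp) = (p :: mid)[(k : ℕ)]'(by simp; omega) := by
      rw [List.getElem_append_left]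
    rw [e2]
    simp only [Fin.succAbove, Fin.lt_def, Fin.val_castSucc]
    split_ifs <;> simp
  · intro b _ hb
    rw [Matrix.updateRow_self, hrow, if_neg (fun h => hb (Fin.ext h))]
    simp
  · simp

/-- (D9) Leibniz bound: if all entries are bounded by `M ≥ 1` then
`|LDet| ≤ (pts.length)! * M ^ pts.length` (`Matrix.det_apply`). -/
lemma abs_LDet_le (cols : List (X → ℝ)) (pts : List X) (M : ℝ) (hM : 1 ≤ M)
    (h : ∀ c ∈ cols, ∀ p ∈ pts, |c p| ≤ M) :
    |LDet cols pts| ≤ (pts.length).factorial * M ^ pts.length := by
  have hM0 : (0 : ℝ) ≤ M := le_trans zero_le_one hM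
  have hpos : (0 : ℝ) ≤ (pts.length).factorial * M ^ pts.length := by positivity
  unfold LDet
  split_ifs with hl
  · have hentry : ∀ k c, |LMat cols pts k c| ≤ M := by
      intro k c
      simp only [LMat, Matrix.of_apply]
      have hmem : pts.get k ∈ pts := List.get_mem _ _
      by_cases hc : (c : ℕ) < ((fun _ => (1 : ℝ)) :: cols).length
      · rw [List.getD_eq_getElem _ _ hc]
        have hm : (((fun _ => (1 : ℝ)) :: cols)[(c : ℕ)]) ∈ ((fun _ => (1 : ℝ)) :: cols) :=
          List.getElem_mem hc
        rcases List.mem_cons.1 hm with h1 | h1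
        · rw [h1]; simpa using hM
        · exact h _ h1 _ hmem
      · rw [List.getD_eq_default _ _ (not_lt.1 hc)]
        simpa using hM0
    rw [Matrix.det_apply]
    calc |∑ σ : Equiv.Perm (Fin pts.length), Equiv.Perm.sign σ • ∏ i, LMat cols pts (σ i) i|
        ≤ ∑ σ : Equiv.Perm (Fin pts.length),
            |Equiv.Perm.sign σ • ∏ i, LMat cols pts (σ i) i| := Finset.abs_sum_le_sum_abs _ _
      _ ≤ ∑ _σ : Equiv.Perm (Fin pts.length), M ^ pts.length := by
          refine Finset.sum_le_sum fun σ _ => ?_
          have h1 : |Equiv.Perm.sign σ • ∏ i, LMat cols pts (σ i) i|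
              = ∏ i, |LMat cols pts (σ i) i| := by
            rw [← Finset.abs_prod]
            rcases Int.units_eq_one_or (Equiv.Perm.sign σ) with hs | hs <;> simp [hs]
          rw [h1]
          calc ∏ i, |LMat cols pts (σ i) i| ≤ ∏ _i : Fin pts.length, M :=
                Finset.prod_le_prod (fun _ _ => abs_nonneg _) (fun i _ => hentry _ _)
            _ = M ^ pts.length := by simp
      _ = (pts.length).factorial * M ^ pts.length := by
          simp [Fintype.card_perm]
  · simpa using hpos

end Vale.Agent.P184.PN
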