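import Vale.Agent.P184.PN.Defs

/-!
# Elementary facts on `mrg`, rotation and products (row LF)
-/

namespace Vale.Agent.P184.PN

variable {G : Type*} [Group G]

lemma prod_mrg (i : ℕ) (l : List G) : (mrg i l).prod = l.prod := by
  induction i generalizing l with
  | zero =>
    match l with
    | [] => rfl
    | [x] => rfl
    | x :: y :: l => simp [mrg, mul_assoc]
  | succ i ih =>
    match l with
    | [] => rfl
    | [x] => rfl
    | x :: y :: l =>
      have := ih (y :: l)
      simp only [mrg, List.prod_cons] at this ⊢
      rw [this]

lemma length_mrg (i : ℕ) (l : List G) (h : i + 2 ≤ l.length) :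
    (mrg i l).length = l.length - 1 := by
  induction i generalizing l with
  | zero =>
    match l with
    | [] => simp at h
    | [x] => simp at h
    | x :: y :: l => simp [mrg]
  | succ i ih =>
    match l with
    | [] => simp at h
    | [x] => simp at h
    | x :: y :: l =>
      have h' : i + 2 ≤ (y :: l).length := by
        simp only [List.length_cons] at h ⊢
        omega
      have := ih (y :: l) h'
      simp only [mrg, List.length_cons] at this ⊢
      omega

lemma mrg_succ_cons (i : ℕ) (x : G) (l : List G) (h : l ≠ []) :
    mrg (i + 1) (x :: l) = x :: mrg i l := by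
  match l with
  | [] => exact absurd rfl h
  | y :: l => rfl

lemma mrg_zero_one_cons (l : List G) (h : l ≠ []) : mrg 0 (1 :: l) = l := by
  match l with
  | [] => exact absurd rfl h
  | y :: l => simp [mrg]

/-- `(l.rotate i).prod` is conjugate to `l.prod`:
`(l.rotate i).prod = ((l.take (i % l.length)).prod)⁻¹ * l.prod * (l.take (i % l.length)).prod`. -/
lemma isConj_prod_rotate (l : List G) (i : ℕ) : IsConj l.prod (l.rotate i).prod := by
  rw [isConj_iff]
  refine ⟨((l.take (i % l.length)).prod)⁻¹, ?_⟩
  rw [List.rotate_eq_drop_append_take_mod, List.prod_append]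
  conv_lhs => rw [← List.take_append_drop (i % l.length) l, List.prod_append]
  simp only [List.take_append_drop]
  group

lemma isConj_prod_rotate_iff (g : G) (l : List G) (i : ℕ) :
    IsConj g (l.rotate i).prod ↔ IsConj g l.prod :=
  ⟨fun h => h.trans (isConj_prod_rotate l i).symm, fun h => h.trans (isConj_prod_rotate l i)⟩

/-- `(1 :: l).rotate (l.length)` is `last :: 1 :: init`, so that merging gives `l.rotate (len-1)`. -/
lemma mrg_zero_rotate_one_cons (l : List G) (h : l ≠ []) :
    mrg 0 ((1 :: l).rotate l.length) = l.rotate (l.length - 1) := by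
  obtain ⟨m, a, rfl⟩ : ∃ m a, l = m ++ [a] := ⟨l.dropLast, l.getLast h, (List.dropLast_append_getLast h).symm⟩
  have h1 : ((1 : G) :: (m ++ [a])).rotate (m ++ [a]).length = a :: 1 :: m := by
    have : ((1 : G) :: (m ++ [a])) = ((1 : G) :: m) ++ [a] := rfl
    rw [this]
    have hl : (m ++ [a]).length = ((1 : G) :: m).length := by simp
    rw [hl, List.rotate_append_length_eq]
    rfl
  have h2 : (m ++ [a]).rotate ((m ++ [a]).length - 1) = a :: m := by
    have hl : (m ++ [a]).length - 1 = m.length := by simp
    rw [hl, List.rotate_append_length_eq]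
    rfl
  rw [h1, h2]
  simp [mrg]

end Vale.Agent.P184.PN
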