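import Vale.Agent.P184.PN.HeisMain
import Vale.Agent.P184.HH.RFRS

/-!
# Finitely generated groups with central commutators (rows N1 - N6)
-/

namespace Vale.Agent.P184.PN

open scoped BigOperators commutatorElement

/-- a bi-additive function -/
structure BiAdd (P : Type*) [Group P] where
  f : P → P → ℝ
  left : ∀ x x' y, f (x * x') y = f x y + f x' y
  right : ∀ x y y', f x (y * y') = f x y + f x y'

namespace BiAdd

variable {P : Type*} [Group P] (γ : BiAdd P)

@[simp] lemma one_left (y : P) : γ.f 1 y = 0 := by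
  have := γ.left 1 1 y
  simp at this
  exact this

@[simp] lemma one_right (x : P) : γ.f x 1 = 0 := by
  have := γ.right x 1 1
  simp at this
  exact this

@[simp] lemma inv_left (x y : P) : γ.f x⁻¹ y = - γ.f x y := by
  have := γ.left x x⁻¹ y
  simp at this
  linarith

@[simp] lemma inv_right (x y : P) : γ.f x y⁻¹ = - γ.f x y := by
  have := γ.right x y y⁻¹
  simp at this
  linarith

end BiAdd

/-- the central extension of `P` by `ℝ` with the cocycle `γ` -/
@[ext] structure Tw {P : Type*} [Group P] (γ : BiAdd P) where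
  x : P
  s : ℝ

namespace Tw

variable {P : Type*} [Group P] {γ : BiAdd P}

instance : Mul (Tw γ) := ⟨fun u v => ⟨u.x * v.x, u.s + v.s + γ.f u.x v.x⟩⟩
instance : One (Tw γ) := ⟨⟨1, 0⟩⟩
instance : Inv (Tw γ) := ⟨fun u => ⟨u.x⁻¹, -u.s + γ.f u.x u.x⟩⟩

@[simp] lemma mul_x (u v : Tw γ) : (u * v).x = u.x * v.x := rfl
@[simp] lemma mul_s (u v : Tw γ) : (u * v).s = u.s + v.s + γ.f u.x v.x := rfl
@[simp] lemma one_x : (1 : Tw γ).x = 1 := rfl
@[simp] lemma one_s : (1 : Tw γ).s = 0 := rfl
@[simp] lemma inv_x (u : Tw γ) : (u⁻¹).x = u.x⁻¹ := rfl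
@[simp] lemma inv_s (u : Tw γ) : (u⁻¹).s = -u.s + γ.f u.x u.x := rfl

instance : Group (Tw γ) :=
  Group.ofLeftAxioms
    (fun u v w => by
      ext
      · simp [mul_assoc]
      · simp [γ.left, γ.right]
        ring)
    (fun u => by ext <;> simp)
    (fun u => by ext <;> simp)

/-- (N1) the commutators -/
lemma comm_x (u v : Tw γ) : ⁅u, v⁆.x = ⁅u.x, v.x⁆ := by
  simp [commutatorElement_def]

/-- (N1) `commutatorElement_def`, `simp`, `ring` -/
lemma comm_s (u v : Tw γ) : ⁅u, v⁆.s = γ.f u.x v.x - γ.f v.x u.x := by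
  simp [commutatorElement_def, γ.left]
  ring

end Tw

/-- (N1) As `HH.exists_real_char`.  Let `A = Additive (Abelianization Γ ⧸ K.map Abelianization.of)`
and `f : ℝ →+ A` induced by `ι`.  It is injective: if `of (ι s) ∈ K.map of` then `of (ι s) = of k`
with `k ∈ K`, so `ι s * k⁻¹ ∈ commutator Γ ≤ K` (`Abelianization.ker_of`) and `ι s ∈ K`.  Extend the
identity of `ℝ` along `f`
(`(Module.Baer.of_divisible ℝ).extension_property_addMonoidHom f hf (AddMonoidHom.id ℝ)`). -/
lemma exists_retraction {Γ : Type*} [Group Γ] (K : Subgroup Γ) (hK : commutator Γ ≤ K)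
    (ι : Multiplicative ℝ →* Γ) (hι : ∀ s, ι s ∈ K → s = 1) :
    ∃ ρ : Γ →* Multiplicative ℝ, (∀ s, ρ (ι s) = s) ∧ ∀ k ∈ K, ρ k = 1 := by
  let K' : Subgroup (Abelianization Γ) := K.map Abelianization.of
  let π : Γ →* (Abelianization Γ ⧸ K') := (QuotientGroup.mk' K').comp Abelianization.of
  have hker : ∀ g : Γ, π g = 1 → g ∈ K := by
    intro g hg
    have h1 : Abelianization.of g ∈ K' := by
      have : (QuotientGroup.mk' K') (Abelianization.of g) = 1 := hg
      rwa [QuotientGroup.mk'_apply, QuotientGroup.eq_one_iff] at this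
    obtain ⟨k, hk, hkg⟩ := h1
    have h2 : g * k⁻¹ ∈ (Abelianization.of (G := Γ)).ker := by
      rw [MonoidHom.mem_ker, map_mul, map_inv, hkg]
      simp
    rw [Abelianization.ker_of] at h2
    have h3 : g * k⁻¹ ∈ K := hK h2
    have := K.mul_mem h3 hk
    simpa using this
  have hK1 : ∀ k ∈ K, π k = 1 := by
    intro k hk
    show (QuotientGroup.mk' K') (Abelianization.of k) = 1
    rw [QuotientGroup.mk'_apply, QuotientGroup.eq_one_iff]
    exact ⟨k, hk, rfl⟩
  let A := Additive (Abelianization Γ ⧸ K')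
  let f : ℝ →+ A :=
    { toFun := fun s => Additive.ofMul (π (ι (Multiplicative.ofAdd s)))
      map_zero' := by
        show Additive.ofMul (π (ι 1)) = 0
        simp
      map_add' := by
        intro a b
        show Additive.ofMul (π (ι (Multiplicative.ofAdd a * Multiplicative.ofAdd b))) = _
        rw [map_mul, map_mul]
        rfl }
  have hf : Function.Injective f := by
    rw [injective_iff_map_eq_zero]
    intro s hs
    have h1 : π (ι (Multiplicative.ofAdd s)) = 1 := hs
    have h2 := hι _ (hker _ h1)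
    exact h2
  obtain ⟨h, hh⟩ := (Module.Baer.of_divisible ℝ).extension_property_addMonoidHom f hf
    (AddMonoidHom.id ℝ)
  refine ⟨(AddMonoidHom.toMultiplicativeRight h).comp π, ?_, ?_⟩
  · intro s
    have := DFunLike.congr_fun hh (Multiplicative.toAdd s)
    exact this
  · intro k hk
    show Multiplicative.ofAdd (h (Additive.ofMul (π k))) = 1
    rw [hK1 k hk]
    simp

section

variable {P : Type*} [Group P]

/-- (N2) `HH.exists_real_char` for the commutative group `Subgroup.center P` (its commutator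
subgroup is trivial) and the element `⟨z, hz⟩`;
`L x = if h : x ∈ center P then toAdd (ψ ⟨x, h⟩) else 0`. -/
lemma exists_L (z : P) (hz : z ∈ Subgroup.center P) (hinf : ¬ IsOfFinOrder z) :
    ∃ L : P → ℝ, (∀ ζ ζ', ζ ∈ Subgroup.center P → ζ' ∈ Subgroup.center P →
      L (ζ * ζ') = L ζ + L ζ') ∧ L z ≠ 0 := by
  classical
  have hcomm : commutator (Subgroup.center P) = ⊥ := by
    rw [commutator_def, Subgroup.commutator_eq_bot_iff_le_centralizer]
    intro a _ b _
    apply Subtype.ext
    exact (Subgroup.mem_center_iff.1 a.2 b.1)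
  obtain ⟨ψ, hψ⟩ := HH.exists_real_char (Subgroup.center P) ⟨z, hz⟩ (by
    intro n hn h
    rw [hcomm, Subgroup.mem_bot] at h
    apply hinf
    rw [isOfFinOrder_iff_pow_eq_one]
    refine ⟨n, hn, ?_⟩
    have := congrArg Subtype.val h
    simpa using this)
  refine ⟨fun x => if h : x ∈ Subgroup.center P then Multiplicative.toAdd (ψ ⟨x, h⟩) else 0, ?_, ?_⟩
  · intro ζ ζ' h1 h2
    have h3 : ζ * ζ' ∈ Subgroup.center P := Subgroup.mul_mem _ h1 h2
    simp only [h1, h2, h3, dif_pos]
    have : (⟨ζ * ζ', h3⟩ : Subgroup.center P) = ⟨ζ, h1⟩ * ⟨ζ', h2⟩ := rfl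
    rw [this, map_mul]
    rfl
  · simp only [hz, dif_pos]
    intro h
    exact hψ h

/-- (N2) `⁅x x', y⁆ = x ⁅x', y⁆ x⁻¹ ⁅x, y⁆ = ⁅x', y⁆ ⁅x, y⁆`, and similarly on the right. -/
lemma beta_biadd (hP : ∀ x y z : P, ⁅x, y⁆ * z = z * ⁅x, y⁆) (L : P → ℝ)
    (hL : ∀ ζ ζ', ζ ∈ Subgroup.center P → ζ' ∈ Subgroup.center P → L (ζ * ζ') = L ζ + L ζ') :
    (∀ x x' y : P, L ⁅x * x', y⁆ = L ⁅x, y⁆ + L ⁅x', y⁆) ∧
    (∀ x y y' : P, L ⁅x, y * y'⁆ = L ⁅x, y⁆ + L ⁅x, y'⁆) ∧
    (∀ x y : P, L ⁅y, x⁆ = - L ⁅x, y⁆) ∧ L 1 = 0 := by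
  have hc : ∀ x y : P, ⁅x, y⁆ ∈ Subgroup.center P := by
    intro x y
    rw [Subgroup.mem_center_iff]
    intro g
    exact (hP x y g).symm
  have h1 : L 1 = 0 := by
    have := hL 1 1 (Subgroup.one_mem _) (Subgroup.one_mem _)
    simp at this
    exact this
  refine ⟨?_, ?_, ?_, h1⟩
  · intro x x' y
    have : ⁅x * x', y⁆ = ⁅x, y⁆ * ⁅x', y⁆ := by
      have e : ⁅x * x', y⁆ = x * ⁅x', y⁆ * x⁻¹ * ⁅x, y⁆ := by
        simp only [commutatorElement_def]
        group
      rw [e, ← hP x' y x]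
      have := hP x y ⁅x', y⁆
      rw [mul_assoc, mul_assoc, ← mul_assoc x x⁻¹]
      simp [this]
    rw [this, hL _ _ (hc _ _) (hc _ _)]
  · intro x y y'
    have : ⁅x, y * y'⁆ = ⁅x, y⁆ * ⁅x, y'⁆ := by
      have e : ⁅x, y * y'⁆ = ⁅x, y⁆ * (y * ⁅x, y'⁆ * y⁻¹) := by
        simp only [commutatorElement_def]
        group
      rw [e, ← hP x y' y]
      simp [mul_assoc]
    rw [this, hL _ _ (hc _ _) (hc _ _)]
  · intro x y
    have h2 : ⁅x, y⁆ * ⁅y, x⁆ = 1 := by
      simp only [commutatorElement_def]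
      group
    have := hL _ _ (hc x y) (hc y x)
    rw [h2, h1] at this
    linarith

/-- (N3) Let `γ = L ⁅x, y⁆ / 2` (a `BiAdd` by `beta_biadd`), `Γ = Tw γ`,
`K = {u | u.x ∈ center P ∧ u.s = L u.x}`.  It is a subgroup (`γ ζ ζ' = L 1 / 2 = 0` for central
`ζ`), and it contains all commutators by `Tw.comm_x`, `Tw.comm_s`:
`γ x y - γ y x = L ⁅x, y⁆`; so `commutator Γ ≤ K` (`commutator_def`, `Subgroup.commutator_le`).
`ι s = ⟨1, s⟩`.  Take `ρ` from `exists_retraction` and `c x = - toAdd (ρ ⟨x, 0⟩)`.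
`⟨x, 0⟩ * ⟨y, 0⟩ = ⟨x y, 0⟩ * ⟨1, γ x y⟩` and, for central `ζ`, `⟨ζ, 0⟩ = ⟨ζ, L ζ⟩ * ⟨1, - L ζ⟩`. -/
theorem exists_quad (hP : ∀ x y z : P, ⁅x, y⁆ * z = z * ⁅x, y⁆) (L : P → ℝ)
    (hL : ∀ ζ ζ', ζ ∈ Subgroup.center P → ζ' ∈ Subgroup.center P → L (ζ * ζ') = L ζ + L ζ') :
    ∃ c : P → ℝ, (∀ x y, c (x * y) = c x + c y + L ⁅x, y⁆ / 2) ∧
      ∀ ζ ∈ Subgroup.center P, c ζ = L ζ := by
  obtain ⟨hb1, hb2, hb3, hb4⟩ := beta_biadd hP L hL
  let γ : BiAdd P := ⟨fun x y => L ⁅x, y⁆ / 2, fun x x' y => by rw [hb1]; ring,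
    fun x y y' => by rw [hb2]; ring⟩
  have hγ : ∀ x y, γ.f x y = L ⁅x, y⁆ / 2 := fun _ _ => rfl
  have hcen : ∀ x y : P, ⁅x, y⁆ ∈ Subgroup.center P := by
    intro x y
    rw [Subgroup.mem_center_iff]
    intro z
    exact (hP x y z).symm
  have hc1 : ∀ ζ ∈ Subgroup.center P, ∀ y : P, ⁅ζ, y⁆ = (1 : P) := by
    intro ζ hζ y
    rw [commutatorElement_eq_one_iff_mul_comm]
    exact (Subgroup.mem_center_iff.mp hζ y).symm
  have hLinv : ∀ ζ ∈ Subgroup.center P, L ζ⁻¹ = - L ζ := by
    intro ζ hζ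
    have := hL ζ ζ⁻¹ hζ (inv_mem hζ)
    rw [mul_inv_cancel, hb4] at this
    linarith
  let K : Subgroup (Tw γ) :=
    { carrier := {u | u.x ∈ Subgroup.center P ∧ u.s = L u.x}
      mul_mem' := by
        rintro u v ⟨hu1, hu2⟩ ⟨hv1, hv2⟩
        refine ⟨mul_mem hu1 hv1, ?_⟩
        rw [Tw.mul_s, Tw.mul_x, hL _ _ hu1 hv1, hu2, hv2, hγ, hc1 _ hu1, hb4]
        ring
      one_mem' := ⟨one_mem _, hb4.symm⟩
      inv_mem' := by
        rintro u ⟨hu1, hu2⟩
        refine ⟨inv_mem hu1, ?_⟩
        rw [Tw.inv_s, Tw.inv_x, hLinv _ hu1, hu2, hγ, hc1 _ hu1, hb4]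
        ring }
  have hKmem : ∀ u : Tw γ, u ∈ K ↔ (u.x ∈ Subgroup.center P ∧ u.s = L u.x) := fun _ => Iff.rfl
  have hK : commutator (Tw γ) ≤ K := by
    rw [commutator_def, Subgroup.commutator_le]
    intro u _ v _
    rw [hKmem]
    refine ⟨?_, ?_⟩
    · rw [Tw.comm_x]
      exact hcen _ _
    · rw [Tw.comm_s, Tw.comm_x, hγ, hγ, hb3 u.x v.x]
      ring
  let ι : Multiplicative ℝ →* Tw γ :=
    { toFun := fun s => ⟨1, Multiplicative.toAdd s⟩
      map_one' := rfl
      map_mul' := by
        intro s t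
        ext
        · simp
        · simp }
  have hιdef : ∀ s, ι s = ⟨1, Multiplicative.toAdd s⟩ := fun _ => rfl
  have hι : ∀ s, ι s ∈ K → s = 1 := by
    intro s hs
    have h2 := ((hKmem _).mp hs).2
    rw [hιdef] at h2
    have h3 : Multiplicative.toAdd s = 0 := by
      simpa [hb4] using h2
    exact Multiplicative.toAdd.injective (by simpa using h3)
  obtain ⟨ρ, hρ1, hρ2⟩ := exists_retraction K hK ι hι
  refine ⟨fun x => - Multiplicative.toAdd (ρ ⟨x, 0⟩), ?_, ?_⟩
  · intro x y
    have h1 : (⟨x, 0⟩ : Tw γ) * ⟨y, 0⟩ = ⟨x * y, 0⟩ * ι (Multiplicative.ofAdd (γ.f x y)) := by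
      rw [hιdef]
      ext
      · simp
      · simp
    have h2 := congrArg (fun u => Multiplicative.toAdd (ρ u)) h1
    simp only [map_mul, hρ1, toAdd_mul, toAdd_ofAdd] at h2
    rw [hγ] at h2
    show - Multiplicative.toAdd (ρ ⟨x * y, 0⟩) = - Multiplicative.toAdd (ρ ⟨x, 0⟩) +
      - Multiplicative.toAdd (ρ ⟨y, 0⟩) + L ⁅x, y⁆ / 2
    linarith
  · intro ζ hζ
    have h1 : (⟨ζ, 0⟩ : Tw γ) = ⟨ζ, L ζ⟩ * ι (Multiplicative.ofAdd (- L ζ)) := by
      rw [hιdef]
      ext
      · simp
      · simp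
    have h3 : ρ (⟨ζ, L ζ⟩ : Tw γ) = 1 := hρ2 _ ((hKmem _).mpr ⟨hζ, rfl⟩)
    have h2 := congrArg (fun u => Multiplicative.toAdd (ρ u)) h1
    simp only [map_mul, hρ1, h3, toAdd_mul, toAdd_ofAdd, toAdd_one] at h2
    show - Multiplicative.toAdd (ρ ⟨ζ, 0⟩) = L ζ
    linarith

/-- (N4) Finite rank.  Let `H` be the submodule of `P → ℝ` of all additive functions.  It is finite
dimensional: for a finite generating set `S` the linear map `H → (S → ℝ)`, `f ↦ f|S` is injective
(`Subgroup.closure_induction`).  Take `m = finrank`, the basis `Module.finBasis ℝ H`,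
`b i = basis i` and `a i x = basis.repr ⟨γ x ·, _⟩ i` (`Basis.sum_repr`). -/
theorem exists_rank [Group.FG P] (γ : P → P → ℝ)
    (hl : ∀ x x' y, γ (x * x') y = γ x y + γ x' y)
    (hr : ∀ x y y', γ x (y * y') = γ x y + γ x y') :
    ∃ (m : ℕ) (a b : Fin m → P → ℝ), (∀ i x y, a i (x * y) = a i x + a i y) ∧
      (∀ i x y, b i (x * y) = b i x + b i y) ∧ ∀ x y, γ x y = ∑ i, a i x * b i y := by
  classical
  let H : Submodule ℝ (P → ℝ) :=
    { carrier := {f | ∀ x y, f (x * y) = f x + f y}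
      add_mem' := by
        intro f g hf hg x y
        simp only [Pi.add_apply, hf x y, hg x y]
        ring
      zero_mem' := by
        intro x y
        simp
      smul_mem' := by
        intro c f hf x y
        simp only [Pi.smul_apply, hf x y, smul_eq_mul]
        ring }
  have hmem : ∀ f : H, ∀ x y, f.1 (x * y) = f.1 x + f.1 y := fun f => f.2
  obtain ⟨S, hS⟩ := (Group.fg_def (G := P)).1 inferInstance
  let res : H →ₗ[ℝ] (S → ℝ) :=
    { toFun := fun f s => f.1 s.1
      map_add' := by intro f g; rfl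
      map_smul' := by intro c f; rfl }
  have hinj : Function.Injective res := by
    rw [injective_iff_map_eq_zero]
    intro f hf
    have h1 : f.1 1 = 0 := by
      have := hmem f 1 1
      simp at this
      exact this
    have hall : ∀ x : P, f.1 x = 0 := by
      intro x
      have hx : x ∈ Subgroup.closure (S : Set P) := by rw [hS]; trivial
      induction hx using Subgroup.closure_induction with
      | mem y hy => exact congrFun hf ⟨y, hy⟩
      | one => exact h1
      | mul y z _ _ hy hz => rw [hmem f y z, hy, hz, add_zero]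
      | inv y _ hy =>
        have := hmem f y y⁻¹
        rw [mul_inv_cancel, h1, hy] at this
        linarith
    apply Subtype.ext
    funext x
    exact hall x
  have : FiniteDimensional ℝ H := FiniteDimensional.of_injective res hinj
  let bs := Module.finBasis ℝ H
  let g : P → H := fun x => ⟨fun y => γ x y, fun y y' => hr x y y'⟩
  have hg : ∀ x x', g (x * x') = g x + g x' := by
    intro x x'
    apply Subtype.ext
    funext y
    exact hl x x' y
  refine ⟨Module.finrank ℝ H, fun i x => bs.repr (g x) i, fun i => (bs i).1, ?_, ?_, ?_⟩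
  · intro i x y
    simp only [hg, map_add, Finsupp.add_apply]
  · intro i x y
    exact hmem (bs i) x y
  · intro x y
    have h := bs.sum_repr (g x)
    have h2 : (∑ i, bs.repr (g x) i • bs i : H).1 y = (g x).1 y := by rw [h]
    have h3 : (∑ i, bs.repr (g x) i • bs i : H).1 y = ∑ i, bs.repr (g x) i * (bs i).1 y := by
      rw [Submodule.coe_sum, Finset.sum_apply]
      rfl
    rw [show γ x y = (g x).1 y from rfl, ← h2, h3]

end

end Vale.Agent.P184.PN

namespace Vale.Agent.P184

open PN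
open scoped commutatorElement

/-- (N5) (`⁅x, y⁆ = x * y * x⁻¹ * y⁻¹` holds by `rfl`.) Let `p` have infinite order.
Case 1: `p ^ n ∉ center P` for all `n > 0`.  Then `p ^ n ∉ commutator P` (all commutators are
central, `commutator_def`, `Subgroup.commutator_le`), `HH.exists_real_char` gives an additive
`c` with `c p ≠ 0`; use `polyNil_of_heisM_coords` with `m = 0`.
Case 2: `z = p ^ n ∈ center P`, `n > 0`.  It has infinite order.  Take `L` from `exists_L`, `c` from
`exists_quad`, and `m a b` from `exists_rank` for `γ x y = L ⁅x, y⁆ / 2` (`beta_biadd`).  By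
induction `c (p ^ k) = k * c p` (`⁅p ^ k, p⁆ = 1`, `L 1 = 0`), so `n * c p = L z ≠ 0`. -/
theorem allPolyNil_of_central_commutators {P : Type*} [Group P] [Group.FG P]
    (hP : ∀ x y z : P, (x * y * x⁻¹ * y⁻¹) * z = z * (x * y * x⁻¹ * y⁻¹)) : AllPolyNil P := by
  intro p hp
  have hP' : ∀ x y z : P, ⁅x, y⁆ * z = z * ⁅x, y⁆ := hP
  have hcen : ∀ x y : P, ⁅x, y⁆ ∈ Subgroup.center P := fun x y =>
    Subgroup.mem_center_iff.mpr (fun z => (hP' x y z).symm)
  have hcomm : commutator P ≤ Subgroup.center P := by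
    rw [commutator_def, Subgroup.commutator_le]
    intro x _ y _
    exact hcen x y
  by_cases h : ∃ n : ℕ, 0 < n ∧ p ^ n ∈ Subgroup.center P
  · obtain ⟨n, hn, hz⟩ := h
    have hinf : ¬ IsOfFinOrder (p ^ n) := by
      intro h
      exact hp (h.of_pow hn.ne')
    obtain ⟨L, hL, hLz⟩ := exists_L (p ^ n) hz hinf
    obtain ⟨c, hc, hcz⟩ := exists_quad hP' L hL
    obtain ⟨hb1, hb2, _, hb4⟩ := beta_biadd hP' L hL
    obtain ⟨m, a, b, ha, hb, hab⟩ := exists_rank (fun x y => L ⁅x, y⁆ / 2)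
      (by
        intro x x' y
        rw [hb1]
        ring)
      (by
        intro x y y'
        rw [hb2]
        ring)
    refine polyNil_of_heisM_coords m a b c ha hb (fun x y => by rw [hc, ← hab]) p
      (Or.inr (Or.inr ?_))
    have hc1 : c 1 = 0 := by
      have h1 := hc 1 1
      have h2 : (⁅(1 : P), 1⁆ : P) = 1 := by simp
      rw [h2, hb4, mul_one] at h1
      linarith
    have hpow : ∀ k : ℕ, c (p ^ k) = k * c p := by
      intro k
      induction k with
      | zero => simp [hc1]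
      | succ k ih =>
        have h2 : (⁅p ^ k, p⁆ : P) = 1 :=
          commutatorElement_eq_one_iff_commute.mpr ((Commute.refl p).pow_left k)
        rw [pow_succ, hc, ih, h2, hb4]
        push_cast
        ring
    intro h0
    apply hLz
    rw [← hcz _ hz, hpow, h0, mul_zero]
  · push Not at h
    obtain ⟨ψ, hψ⟩ := HH.exists_real_char P p (fun n hn hmem => h n hn (hcomm hmem))
    refine polyNil_of_heisM_coords 0 (fun i => i.elim0) (fun i => i.elim0)
      (fun x => Multiplicative.toAdd (ψ x)) (fun i => i.elim0) (fun i => i.elim0)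
      (fun x y => by simp [map_mul]) p (Or.inr (Or.inr ?_))
    intro h0
    apply hψ
    exact Multiplicative.toAdd.injective h0

/-- (N6) The elements of finite order of `P` form a finite set.  `commutator P` is a finitely
generated commutative group (generated by the `⁅s, s'⁆`, `s s'` in a finite generating set closed
under inverses, since `⁅·,·⁆` is bi-multiplicative), so it has finitely many elements of finite order
(`CommGroup.finite_of_fg_torsion` for its torsion subgroup, which is finitely generated since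
`ℤ` is Noetherian); the same for `Abelianization P`.  If `t`, `t'` have finite order and the same
image in the abelianization then `t' = t ζ` with `ζ ∈ commutator P` central, of finite order. -/
theorem finTor_of_central_commutators {P : Type*} [Group P] [Group.FG P]
    (hP : ∀ x y z : P, (x * y * x⁻¹ * y⁻¹) * z = z * (x * y * x⁻¹ * y⁻¹)) : FinTor P := by
  classical
  -- finitely generated subgroups of commutative groups have finitely many torsion elements
  have key : ∀ {A : Type _} [CommGroup A] (H : Subgroup A), H.FG →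
      {a : A | a ∈ H ∧ IsOfFinOrder a}.Finite := by
    intro A _ H hH
    set T : Subgroup A := H ⊓ CommGroup.torsion A with hT
    have h1 : (AddSubgroup.toIntSubmodule H.toAddSubgroup).FG :=
      (Submodule.fg_iff_addSubgroup_fg _).2 (by simpa using (Subgroup.fg_iff_add_fg H).1 hH)
    have h2 : (AddSubgroup.toIntSubmodule T.toAddSubgroup).FG := by
      refine Submodule.FG.of_le h1 ?_
      intro x hx
      exact hx.1
    have h3 : T.FG :=
      (Subgroup.fg_iff_add_fg T).2 (by simpa using (Submodule.fg_iff_addSubgroup_fg _).1 h2)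
    have : Group.FG T := (Group.fg_iff_subgroup_fg T).2 h3
    have h4 : Finite T := by
      refine CommGroup.finite_of_fg_isMulTorsion (G := T) ?_
      rintro ⟨t, ht⟩
      exact Submonoid.isOfFinOrder_coe.1 ht.2
    refine (Set.toFinite (T : Set A)).subset ?_
    rintro a ⟨ha, ha'⟩
    exact ⟨ha, ha'⟩
  have key' : ∀ {A : Type _} [Group A], (∀ a b : A, a * b = b * a) → ∀ (H : Subgroup A), H.FG →
      {a : A | a ∈ H ∧ IsOfFinOrder a}.Finite := by
    intro A _ hA H hH
    let _ : CommGroup A := { (inferInstance : Group A) with mul_comm := hA }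
    exact key H hH
  have hP' : ∀ x y z : P, ⁅x, y⁆ * z = z * ⁅x, y⁆ := hP
  have hc : ∀ x y : P, ⁅x, y⁆ ∈ Subgroup.center P :=
    fun x y => Subgroup.mem_center_iff.2 (fun z => (hP x y z).symm)
  obtain ⟨S, hS⟩ := Group.FG.out (G := P)
  let C : Set (Subgroup.center P) :=
    Set.range (fun p : S × S => (⟨⁅(p.1 : P), (p.2 : P)⁆, hc _ _⟩ : Subgroup.center P))
  have hCfin : C.Finite := Set.finite_range _
  let K : Subgroup (Subgroup.center P) := Subgroup.closure C
  have hKfg : K.FG := ⟨hCfin.toFinset, by simp [K]⟩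
  let K' : Subgroup P := K.map (Subgroup.center P).subtype
  have hl : ∀ x x' y : P, ⁅x * x', y⁆ = ⁅x, y⁆ * ⁅x', y⁆ := by
    intro x x' y
    have e1 : ⁅x * x', y⁆ = x * ⁅x', y⁆ * x⁻¹ * ⁅x, y⁆ := by
      simp only [commutatorElement_def]; group
    rw [e1, ← hP' x' y x, mul_inv_cancel_right, hP']
  have hr : ∀ x y y' : P, ⁅x, y * y'⁆ = ⁅x, y⁆ * ⁅x, y'⁆ := by
    intro x y y'
    have e1 : ⁅x, y * y'⁆ = ⁅x, y⁆ * (y * ⁅x, y'⁆ * y⁻¹) := by
      simp only [commutatorElement_def]; group
    rw [e1, ← hP' x y' y, mul_inv_cancel_right]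
  have hl1 : ∀ y : P, ⁅(1 : P), y⁆ = 1 := fun y => by simp [commutatorElement_def]
  have hr1 : ∀ x : P, ⁅x, (1 : P)⁆ = 1 := fun y => by simp [commutatorElement_def]
  have hli : ∀ x y : P, ⁅x⁻¹, y⁆ = ⁅x, y⁆⁻¹ := by
    intro x y
    have := hl x x⁻¹ y
    rw [mul_inv_cancel, hl1] at this
    exact (inv_eq_of_mul_eq_one_right this.symm).symm
  have hri : ∀ x y : P, ⁅x, y⁻¹⁆ = ⁅x, y⁆⁻¹ := by
    intro x y
    have := hr x y y⁻¹
    rw [mul_inv_cancel, hr1] at this
    exact (inv_eq_of_mul_eq_one_right this.symm).symm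
  have c1 : ∀ y ∈ S, ∀ x : P, ⁅x, y⁆ ∈ K' := by
    intro y hy x
    have hx : x ∈ Subgroup.closure (S : Set P) := by rw [hS]; trivial
    induction hx using Subgroup.closure_induction with
    | mem x hx =>
      exact ⟨⟨⁅x, y⁆, hc _ _⟩, Subgroup.subset_closure ⟨(⟨x, hx⟩, ⟨y, hy⟩), rfl⟩, rfl⟩
    | one => rw [hl1]; exact K'.one_mem
    | mul a b _ _ ha hb => rw [hl]; exact K'.mul_mem ha hb
    | inv a _ ha => rw [hli]; exact K'.inv_mem ha
  have c2 : ∀ x y : P, ⁅x, y⁆ ∈ K' := by
    intro x y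
    have hy : y ∈ Subgroup.closure (S : Set P) := by rw [hS]; trivial
    induction hy using Subgroup.closure_induction with
    | mem y hy => exact c1 y hy x
    | one => rw [hr1]; exact K'.one_mem
    | mul a b _ _ ha hb => rw [hr]; exact K'.mul_mem ha hb
    | inv a _ ha => rw [hri]; exact K'.inv_mem ha
  have c3 : commutator P ≤ K' := by
    rw [commutator_def, Subgroup.commutator_le]
    intro a _ b _
    exact c2 a b
  have F1 := key' (fun a b : Subgroup.center P => mul_comm' a b) K hKfg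
  have hAb : Group.FG (Abelianization P) :=
    Group.fg_of_surjective (f := Abelianization.of (G := P)) (QuotientGroup.mk'_surjective _)
  have F2 := key (⊤ : Subgroup (Abelianization P)) (Group.FG.out)
  have hT : {t : P | IsOfFinOrder t}.Finite := by
    refine Set.Finite.of_finite_fibers (Abelianization.of (G := P)) (F2.subset ?_) ?_
    · rintro _ ⟨t, ht, rfl⟩
      exact ⟨trivial, MonoidHom.isOfFinOrder _ ht⟩
    · rintro _ ⟨t, ht, rfl⟩
      refine (F1.image (fun ζ : Subgroup.center P => t * (ζ : P))).subset ?_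
      rintro t' ⟨ht', hEq⟩
      have hEq' : Abelianization.of t' = Abelianization.of t := hEq
      have hk : t⁻¹ * t' ∈ commutator P := by
        rw [← Abelianization.ker_of, MonoidHom.mem_ker, map_mul, map_inv, hEq', inv_mul_cancel]
      obtain ⟨ζ, hζK, hζ⟩ := c3 hk
      have hζ' : (ζ : P) = t⁻¹ * t' := hζ
      have ht'eq : t' = t * (ζ : P) := by rw [hζ']; group
      have hcomm : Commute t⁻¹ t' := by
        have h0 : Commute t (ζ : P) := Subgroup.mem_center_iff.1 ζ.2 t
        have : Commute t t' := by rw [ht'eq]; exact (Commute.refl t).mul_right h0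
        exact this.inv_left
      have hfin : IsOfFinOrder (ζ : P) := by
        rw [hζ']
        exact hcomm.isOfFinOrder_mul ht.inv ht'
      exact ⟨ζ, ⟨hζK, Submonoid.isOfFinOrder_coe.1 hfin⟩, ht'eq.symm⟩
  refine (hT.image ConjClasses.mk).subset ?_
  intro D hD
  obtain ⟨g, rfl⟩ := ConjClasses.mk_surjective D
  exact ⟨g, hD g ConjClasses.mem_carrier_mk, rfl⟩

end Vale.Agent.P184
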