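import Vale.Agent.P184.PN.LDet
import Vale.Agent.P184.PN.Defs

/-!
# The Heisenberg groups of all dimensions and the sums `Om` (rows O1 - O9)
-/

namespace Vale.Agent.P184.PN

open scoped BigOperators

/-- the real Heisenberg group of dimension `2 m + 1`:
`(a,b,c)(a',b',c') = (a+a', b+b', c+c'+∑ aᵢ b'ᵢ)` -/
@[ext] structure HeisM (m : ℕ) where
  a : Fin m → ℝ
  b : Fin m → ℝ
  c : ℝ

namespace HeisM

variable {m : ℕ}

instance : Mul (HeisM m) := ⟨fun x y => ⟨x.a + y.a, x.b + y.b, x.c + y.c + ∑ i, x.a i * y.b i⟩⟩
instance : One (HeisM m) := ⟨⟨0, 0, 0⟩⟩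
instance : Inv (HeisM m) := ⟨fun x => ⟨-x.a, -x.b, -x.c + ∑ i, x.a i * x.b i⟩⟩

@[simp] lemma mul_a (x y : HeisM m) : (x * y).a = x.a + y.a := rfl
@[simp] lemma mul_b (x y : HeisM m) : (x * y).b = x.b + y.b := rfl
@[simp] lemma mul_c (x y : HeisM m) : (x * y).c = x.c + y.c + ∑ i, x.a i * y.b i := rfl
@[simp] lemma one_a : (1 : HeisM m).a = 0 := rfl
@[simp] lemma one_b : (1 : HeisM m).b = 0 := rfl
@[simp] lemma one_c : (1 : HeisM m).c = 0 := rfl
@[simp] lemma inv_a (x : HeisM m) : (x⁻¹).a = -x.a := rfl
@[simp] lemma inv_b (x : HeisM m) : (x⁻¹).b = -x.b := rfl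
@[simp] lemma inv_c (x : HeisM m) : (x⁻¹).c = -x.c + ∑ i, x.a i * x.b i := rfl

instance : Group (HeisM m) :=
  Group.ofLeftAxioms
    (fun x y z => by
      ext <;> simp [add_assoc, add_mul, mul_add, Finset.sum_add_distrib]
      ring)
    (fun x => by ext <;> simp)
    (fun x => by ext <;> simp)

/-- the coordinate functions -/
def A (i : Fin m) : HeisM m → ℝ := fun x => x.a i
def B (i : Fin m) : HeisM m → ℝ := fun x => x.b i

/-- the symmetric central coordinate -/
noncomputable def ct (x : HeisM m) : ℝ := x.c - (∑ i, x.a i * x.b i) / 2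

/-- the central element -/
def zc (m : ℕ) (t : ℝ) : HeisM m := ⟨0, 0, t⟩

/-- `Om j mid pts = ∑ LDet (A_{s_j}, …, A_{s_1}, mid, B_{s_1}, …, B_{s_j}) pts`, the sum over all
`s₁, …, s_j`. -/
noncomputable def Om : ℕ → List (HeisM m → ℝ) → List (HeisM m) → ℝ
  | 0, mid, pts => LDet mid pts
  | (j + 1), mid, pts => ∑ i, Om j (A i :: (mid ++ [B i])) pts

lemma A_mul (i : Fin m) (g x : HeisM m) : A i (g * x) = A i x + A i g := by
  simp [A, add_comm]

lemma B_mul (i : Fin m) (g x : HeisM m) : B i (g * x) = B i x + B i g := by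
  simp [B, add_comm]

/-- (O1) `ct (g x) = ct x + ct g + ∑ (A i g * B i x - B i g * A i x) / 2` -/
lemma ct_mul (g x : HeisM m) :
    ct (g * x) = ct x + ct g + ∑ i, (A i g * B i x - B i g * A i x) / 2 := by
  simp only [ct, A, B, mul_a, mul_b, mul_c, Pi.add_apply]
  rw [← Finset.sum_div]
  have h : ∑ i, (g.a i + x.a i) * (g.b i + x.b i) =
      ∑ i, g.a i * g.b i + ∑ i, x.a i * x.b i + ∑ i, g.a i * x.b i + ∑ i, g.b i * x.a i := by
    rw [← Finset.sum_add_distrib, ← Finset.sum_add_distrib, ← Finset.sum_add_distrib]
    exact Finset.sum_congr rfl (fun i _ => by ring)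
  rw [h, Finset.sum_sub_distrib]
  ring

/-- (O1) wrong length -/
lemma Om_length (j : ℕ) (mid : List (HeisM m → ℝ)) (pts : List (HeisM m))
    (h : pts.length ≠ 2 * j + mid.length + 1) : Om j mid pts = 0 := by
  induction j generalizing mid with
  | zero =>
    simp only [Om, LDet]
    rw [if_neg (by simpa using h)]
  | succ j ih =>
    simp only [Om]
    refine Finset.sum_eq_zero (fun i _ => ih _ ?_)
    simp only [List.length_cons, List.length_append, List.length_nil]
    omega

/-- (O2) induction on `j`; `LDet_dup_cols` -/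
lemma Om_dup (j : ℕ) {mid : List (HeisM m → ℝ)} (h : ¬ mid.Nodup) (pts : List (HeisM m)) :
    Om j mid pts = 0 := by
  induction j generalizing mid with
  | zero => exact LDet_dup_cols h pts
  | succ j ih =>
    simp only [Om]
    refine Finset.sum_eq_zero fun i _ => ih ?_
    intro hn
    apply h
    have h1 := (List.nodup_cons.1 hn).2
    exact (List.nodup_append.1 h1).1

/-- (O2) Pigeonhole.  Induction on `j` (generalizing `mid`, `S`): in
`Om (j+1) mid = ∑ i, Om j (A i :: (mid ++ [B i]))` the terms with `i ∈ S` vanish by `Om_dup`, for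
the others use the induction hypothesis with `insert i S`. -/
lemma Om_pigeon (j : ℕ) (S : Finset (Fin m)) (mid : List (HeisM m → ℝ))
    (hS : ∀ i ∈ S, A i ∈ mid) (h : m < j + S.card) (pts : List (HeisM m)) : Om j mid pts = 0 := by
  induction j generalizing mid S with
  | zero =>
    exfalso
    have := Finset.card_le_univ S
    simp at this
    omega
  | succ j ih =>
    simp only [Om]
    refine Finset.sum_eq_zero fun i _ => ?_
    by_cases hi : i ∈ S
    · apply Om_dup
      intro hn
      have h1 := (List.nodup_cons.1 hn).1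
      exact h1 (List.mem_append_left _ (hS i hi))
    · refine ih (insert i S) _ ?_ ?_
      · intro k hk
        rcases Finset.mem_insert.1 hk with rfl | hk
        · exact List.mem_cons_self
        · exact List.mem_cons_of_mem _ (List.mem_append_left _ (hS k hk))
      · rw [Finset.card_insert_of_notMem hi]; omega

lemma Om_eq_zero (j : ℕ) (h : m < j) (mid : List (HeisM m → ℝ)) (pts : List (HeisM m)) :
    Om j mid pts = 0 :=
  Om_pigeon j ∅ mid (by simp) (by simpa using h) pts

/-- (O3) two points at which all coordinates `A i`, `B i` and all columns of `mid` agree -/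
lemma Om_rows_eq (j : ℕ) (mid : List (HeisM m → ℝ)) (pts : List (HeisM m)) (k l : ℕ)
    (hkl : k < l) (hl : l < pts.length)
    (hA : ∀ i, A i (pts[k]'(hkl.trans hl)) = A i pts[l])
    (hB : ∀ i, B i (pts[k]'(hkl.trans hl)) = B i pts[l])
    (h : ∀ c ∈ mid, c (pts[k]'(hkl.trans hl)) = c pts[l]) : Om j mid pts = 0 := by
  induction j generalizing mid with
  | zero =>
    simp only [Om]
    exact LDet_rows_eq mid pts k l hkl hl h
  | succ j ih =>
    simp only [Om]
    refine Finset.sum_eq_zero (fun i _ => ih _ ?_)
    intro c hc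
    simp only [List.mem_cons, List.mem_append, List.not_mem_nil, or_false] at hc
    rcases hc with rfl | hc | rfl
    · exact hA i
    · exact h c hc
    · exact hB i

/-- (O4) linearity in a column of `mid` -/
lemma Om_col_add (j : ℕ) (L R : List (HeisM m → ℝ)) (x y : HeisM m → ℝ) (r : ℝ)
    (pts : List (HeisM m)) :
    Om j (L ++ (fun p => x p + r * y p) :: R) pts =
      Om j (L ++ x :: R) pts + r * Om j (L ++ y :: R) pts := by
  induction j generalizing L R with
  | zero => exact LDet_col_add L R x y r pts
  | succ j ih =>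
    simp only [Om]
    rw [Finset.mul_sum, ← Finset.sum_add_distrib]
    refine Finset.sum_congr rfl fun i _ => ?_
    have := ih (A i :: L) (R ++ [B i])
    simpa [List.append_assoc] using this

lemma Om_col_const (j : ℕ) (L R : List (HeisM m → ℝ)) (r : ℝ) (pts : List (HeisM m)) :
    Om j (L ++ (fun _ => r) :: R) pts = 0 := by
  induction j generalizing L R with
  | zero => exact LDet_col_const L R r pts
  | succ j ih =>
    simp only [Om]
    refine Finset.sum_eq_zero fun i _ => ?_
    have := ih (A i :: L) (R ++ [B i])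
    simpa [List.append_assoc] using this

/-- (O4) finite sums in the single column of `mid` -/
lemma Om_single_sum (j : ℕ) (x : HeisM m → ℝ) (r : ℝ) {ι : Type*} (s : Finset ι) (w : ι → ℝ)
    (y : ι → HeisM m → ℝ) (pts : List (HeisM m)) :
    Om j [fun p => x p + r + ∑ i ∈ s, w i * y i p] pts =
      Om j [x] pts + ∑ i ∈ s, w i * Om j [y i] pts := by
  classical
  induction s using Finset.induction_on with
  | empty =>
    have h1 := Om_col_add j [] [] x (fun _ => r) 1 pts
    have h2 := Om_col_const j [] [] r pts
    simp only [List.nil_append] at h1 h2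
    simp only [Finset.sum_empty, add_zero]
    have : (fun p => x p + r) = (fun p => x p + 1 * (fun _ : HeisM m => r) p) := by
      funext p; simp
    rw [this, h1, h2]; simp
  | insert a s ha ih =>
    have h1 := Om_col_add j [] [] (fun p => x p + r + ∑ i ∈ s, w i * y i p) (y a) (w a) pts
    simp only [List.nil_append] at h1
    have : (fun p => x p + r + ∑ i ∈ insert a s, w i * y i p)
        = (fun p => (x p + r + ∑ i ∈ s, w i * y i p) + w a * y a p) := by
      funext p; rw [Finset.sum_insert ha]; ring
    rw [this, h1, ih, Finset.sum_insert ha]; ring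

/-- (O5) `LDet_delta` -/
lemma Om_delta (j : ℕ) (mid : List (HeisM m → ℝ)) (pts : List (HeisM m))
    (h : pts.length = 2 * j + mid.length + 2) :
    ∑ l ∈ Finset.range pts.length, (-1 : ℝ) ^ l * Om j mid (pts.eraseIdx l) = 0 := by
  induction j generalizing mid with
  | zero =>
    simp only [Om]
    exact LDet_delta mid pts (by simpa using h)
  | succ j ih =>
    simp only [Om, Finset.mul_sum]
    rw [Finset.sum_comm]
    refine Finset.sum_eq_zero fun i _ => ?_
    refine ih (A i :: (mid ++ [B i])) ?_
    simp only [List.length_cons, List.length_append, List.length_nil]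
    omega

/-- (O5) `LDet_laplace`; there are `j` more columns to the left -/
lemma Om_laplace (j : ℕ) (L R : List (HeisM m → ℝ)) (x : HeisM m → ℝ) (pts : List (HeisM m))
    (h : pts.length = 2 * j + L.length + R.length + 2) :
    ∑ l : Fin pts.length, (-1 : ℝ) ^ (l : ℕ) * (x (pts.get l) * Om j (L ++ R) (pts.eraseIdx l)) =
      (-1) ^ (j + L.length + 1) * Om j (L ++ x :: R) pts := by
  induction j generalizing L R with
  | zero =>
    simp only [Om]
    have := LDet_laplace L R x pts (by simpa using h)
    rw [this]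
    simp
  | succ j ih =>
    simp only [Om, Finset.mul_sum]
    rw [Finset.sum_comm]
    refine Finset.sum_congr rfl fun i _ => ?_
    have := ih (A i :: L) (R ++ [B i]) (by
      simp only [List.length_cons, List.length_append, List.length_nil]
      omega)
    have e1 : A i :: (L ++ R ++ [B i]) = (A i :: L) ++ (R ++ [B i]) := by simp
    have e2 : A i :: (L ++ x :: R ++ [B i]) = (A i :: L) ++ x :: (R ++ [B i]) := by simp
    rw [e1, e2, this]
    congr 2
    simp only [List.length_cons]
    omega

/-- (O6) left translation: the columns `A i`, `B i` change by constants (`A_mul`, `B_mul`), which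
does not matter by `Om_col_add` (with `y = 1`) and `Om_col_const`; `LDet_map` for `j = 0`. -/
lemma Om_translate (j : ℕ) (mid : List (HeisM m → ℝ)) (g : HeisM m) (pts : List (HeisM m)) :
    Om j mid (pts.map (g * ·)) = Om j (mid.map fun c => fun p => c (g * p)) pts := by
  induction j generalizing mid with
  | zero =>
    simp only [Om]
    exact LDet_map (g * ·) mid pts
  | succ j ih =>
    simp only [Om]
    refine Finset.sum_congr rfl fun i _ => ?_
    rw [ih]
    simp only [List.map_cons, List.map_append, List.map_nil]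
    set M := mid.map fun c => fun p => c (g * p) with hM
    have hA : (fun p => A i (g * p)) = fun p => A i p + A i g * (fun _ => (1 : ℝ)) p := by
      funext p; simp [A_mul]
    have hB : (fun p => B i (g * p)) = fun p => B i p + B i g * (fun _ => (1 : ℝ)) p := by
      funext p; simp [B_mul]
    rw [hA, hB]
    have h1 := Om_col_add j [] (M ++ [fun p => B i p + B i g * (fun _ => (1 : ℝ)) p]) (A i)
      (fun _ => (1 : ℝ)) (A i g) pts
    have h2 := Om_col_const j [] (M ++ [fun p => B i p + B i g * (fun _ => (1 : ℝ)) p]) 1 pts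
    have h3 := Om_col_add j (A i :: M) [] (B i) (fun _ => (1 : ℝ)) (B i g) pts
    have h4 := Om_col_const j (A i :: M) [] 1 pts
    simp only [List.nil_append, List.cons_append] at h1 h2 h3 h4
    rw [h1, h2, h3, h4]
    simp

/-- (O7) `LDet_rotate` -/
lemma Om_rotate (j : ℕ) (mid : List (HeisM m → ℝ)) (pts : List (HeisM m)) (h : Odd pts.length)
    (i : ℕ) : Om j mid (pts.rotate i) = Om j mid pts := by
  induction j generalizing mid with
  | zero => exact LDet_rotate mid pts h i
  | succ j ih =>
    simp only [Om]
    exact Finset.sum_congr rfl fun k _ => ih _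

/-- change of points along a map which preserves the coordinates `A i`, `B i` -/
lemma Om_map_of_coord (f : HeisM m → HeisM m) (hA : ∀ i, A i ∘ f = A i) (hB : ∀ i, B i ∘ f = B i)
    (j : ℕ) (mid : List (HeisM m → ℝ)) (pts : List (HeisM m)) :
    Om j mid (pts.map f) = Om j (mid.map fun c => c ∘ f) pts := by
  induction j generalizing mid with
  | zero => exact LDet_map f mid pts
  | succ j ih =>
    simp only [Om]
    refine Finset.sum_congr rfl fun k _ => ?_
    rw [ih]
    simp only [List.map_cons, List.map_append, List.map_nil, hA, hB]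

/-- (O7) only the values at the points matter; here for `mid = []` and points with the same
coordinates `A i`, `B i` (`LDet_congr`, `LDet_map`) -/
lemma Om_nil_congr (j : ℕ) (pts pts' : List (HeisM m))
    (h : List.Forall₂ (fun p p' => p.a = p'.a ∧ p.b = p'.b) pts pts') :
    Om j [] pts = Om j [] pts' := by
  have hA : ∀ i : Fin m, A i ∘ (fun p : HeisM m => (⟨p.a, p.b, 0⟩ : HeisM m)) = A i := fun i => rfl
  have hB : ∀ i : Fin m, B i ∘ (fun p : HeisM m => (⟨p.a, p.b, 0⟩ : HeisM m)) = B i := fun i => rfl
  have hmap : pts.map (fun p : HeisM m => (⟨p.a, p.b, 0⟩ : HeisM m)) =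
      pts'.map (fun p : HeisM m => (⟨p.a, p.b, 0⟩ : HeisM m)) := by
    induction h with
    | nil => rfl
    | cons hp _ ih =>
      simp only [List.map_cons, ih, hp.1, hp.2]
  have h1 := Om_map_of_coord _ hA hB j [] pts
  have h2 := Om_map_of_coord _ hA hB j [] pts'
  simp only [List.map_nil] at h1 h2
  rw [← h1, ← h2, hmap]

lemma Om_prism_aux (j : ℕ) (t : ℝ) (p p' : HeisM m) (mid : List (HeisM m)) (ha : p'.a = p.a)
    (hb : p'.b = p.b) (hc : ct p' = ct p + t) :
    ∀ (L R : List (HeisM m → ℝ)), (∀ c ∈ L, c p' = c p) → (∀ c ∈ R, c p' = c p) →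
    Om j (L ++ ct :: R) (p :: mid ++ [p']) =
      (-1) ^ (j + R.length) * t * Om j (L ++ R) (p :: mid) := by
  induction j with
  | zero =>
    intro L R hL hR
    simpa [Om] using LDet_prism L R ct t p p' mid hL hR hc
  | succ j ih =>
    intro L R hL hR
    simp only [Om]
    rw [Finset.mul_sum]
    refine Finset.sum_congr rfl fun i _ => ?_
    have h1 : A i :: ((L ++ ct :: R) ++ [B i]) = (A i :: L) ++ ct :: (R ++ [B i]) := by simp
    have h2 : A i :: ((L ++ R) ++ [B i]) = (A i :: L) ++ (R ++ [B i]) := by simp
    rw [h1, h2, ih (A i :: L) (R ++ [B i])]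
    · congr 2
      simp only [List.length_append, List.length_singleton]
      congr 1
      omega
    · intro c hcm
      rcases List.mem_cons.1 hcm with rfl | hcm
      · simp [A, ha]
      · exact hL c hcm
    · intro c hcm
      rcases List.mem_append.1 hcm with hcm | hcm
      · exact hR c hcm
      · rw [List.mem_singleton.1 hcm]
        simp [B, hb]

/-- (O8) `LDet_prism` with `y = ct`; to the right of `ct` there are `j` columns -/
lemma Om_prism (j : ℕ) (t : ℝ) (p p' : HeisM m) (mid : List (HeisM m)) (ha : p'.a = p.a)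
    (hb : p'.b = p.b) (hc : ct p' = ct p + t) :
    Om j [ct] (p :: mid ++ [p']) = (-1) ^ j * t * Om j [] (p :: mid) := by
  simpa using Om_prism_aux j t p p' mid ha hb hc [] [] (by simp) (by simp)

/-- (O9) bound: `abs_LDet_le`, there are `m ^ j` terms -/
lemma abs_Om_le (j : ℕ) (mid : List (HeisM m → ℝ)) (pts : List (HeisM m)) (M : ℝ) (hM : 1 ≤ M)
    (hA : ∀ i, ∀ p ∈ pts, |A i p| ≤ M) (hB : ∀ i, ∀ p ∈ pts, |B i p| ≤ M)
    (h : ∀ c ∈ mid, ∀ p ∈ pts, |c p| ≤ M) :
    |Om j mid pts| ≤ (m : ℝ) ^ j * ((pts.length).factorial * M ^ pts.length) := by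
  induction j generalizing mid with
  | zero =>
    simp only [Om, pow_zero, one_mul]
    exact abs_LDet_le mid pts M hM h
  | succ j ih =>
    simp only [Om]
    calc |∑ i, Om j (A i :: (mid ++ [B i])) pts|
        ≤ ∑ i, |Om j (A i :: (mid ++ [B i])) pts| := Finset.abs_sum_le_sum_abs _ _
      _ ≤ ∑ _i : Fin m, (m : ℝ) ^ j * ((pts.length).factorial * M ^ pts.length) := by
          refine Finset.sum_le_sum (fun i _ => ih _ ?_)
          intro c hc p hp
          simp only [List.mem_cons, List.mem_append, List.not_mem_nil, or_false] at hc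
          rcases hc with rfl | hc | rfl
          · exact hA i p hp
          · exact h c hc p hp
          · exact hB i p hp
      _ = (m : ℝ) ^ (j + 1) * ((pts.length).factorial * M ^ pts.length) := by
          rw [Finset.sum_const, Finset.card_univ, Fintype.card_fin, nsmul_eq_mul, pow_succ]
          ring

end HeisM

end Vale.Agent.P184.PN
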