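import Vale.Agent.P184.PN.LDet

/-!
# The sums `OmX` for arbitrary families of functions (the general form of `Om`)
-/

namespace Vale.Agent.P184.PN

open scoped BigOperators

variable {X : Type*} {ι : Type*} [Fintype ι] (A B : ι → X → ℝ)

/-- `OmX A B j mid pts = ∑ LDet (A_{s_j}, …, A_{s_1}, mid, B_{s_1}, …, B_{s_j}) pts`, the sum over
all `s₁, …, s_j`. -/
noncomputable def OmX : ℕ → List (X → ℝ) → List X → ℝ
  | 0, mid, pts => LDet mid pts
  | (j + 1), mid, pts => ∑ i, OmX j (A i :: (mid ++ [B i])) pts

/-- (O1) wrong length -/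
lemma OmX_length (j : ℕ) (mid : List (X → ℝ)) (pts : List X)
    (h : pts.length ≠ 2 * j + mid.length + 1) : OmX A B j mid pts = 0 := by
  induction j generalizing mid with
  | zero =>
    simp only [OmX, LDet]
    rw [if_neg (by simpa using h)]
  | succ j ih =>
    simp only [OmX]
    refine Finset.sum_eq_zero (fun i _ => ih _ ?_)
    simp only [List.length_cons, List.length_append, List.length_nil]
    omega

/-- (O2) induction on `j`; `LDet_dup_cols` -/
lemma OmX_dup (j : ℕ) {mid : List (X → ℝ)} (h : ¬ mid.Nodup) (pts : List X) :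
    OmX A B j mid pts = 0 := by
  induction j generalizing mid with
  | zero => exact LDet_dup_cols h pts
  | succ j ih =>
    simp only [OmX]
    refine Finset.sum_eq_zero fun i _ => ih ?_
    intro hn
    apply h
    have h1 := (List.nodup_cons.1 hn).2
    exact (List.nodup_append.1 h1).1

/-- (O2) Pigeonhole.  Induction on `j` (generalizing `mid`, `S`): in
`OmX (j+1) mid = ∑ i, OmX A B j (A i :: (mid ++ [B i]))` the terms with `i ∈ S` vanish by `OmX_dup`, for
the others use the induction hypothesis with `insert i S`. -/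
lemma OmX_pigeon (j : ℕ) (S : Finset ι) (mid : List (X → ℝ))
    (hS : ∀ i ∈ S, A i ∈ mid) (h : Fintype.card ι < j + S.card) (pts : List X) :
    OmX A B j mid pts = 0 := by
  classical
  induction j generalizing mid S with
  | zero =>
    exfalso
    have := Finset.card_le_univ S
    omega
  | succ j ih =>
    simp only [OmX]
    refine Finset.sum_eq_zero fun i _ => ?_
    by_cases hi : i ∈ S
    · apply OmX_dup
      intro hn
      have h1 := (List.nodup_cons.1 hn).1
      exact h1 (List.mem_append_left _ (hS i hi))
    · refine ih (insert i S) _ ?_ ?_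
      · intro k hk
        rcases Finset.mem_insert.1 hk with rfl | hk
        · exact List.mem_cons_self
        · exact List.mem_cons_of_mem _ (List.mem_append_left _ (hS k hk))
      · rw [Finset.card_insert_of_notMem hi]; omega

lemma OmX_eq_zero (j : ℕ) (h : Fintype.card ι < j) (mid : List (X → ℝ)) (pts : List X) :
    OmX A B j mid pts = 0 :=
  OmX_pigeon A B j ∅ mid (by simp) (by simpa using h) pts

/-- (O3) two points at which all coordinates `A i`, `B i` and all columns of `mid` agree -/
lemma OmX_rows_eq (j : ℕ) (mid : List (X → ℝ)) (pts : List X) (k l : ℕ)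
    (hkl : k < l) (hl : l < pts.length)
    (hA : ∀ i, A i (pts[k]'(hkl.trans hl)) = A i pts[l])
    (hB : ∀ i, B i (pts[k]'(hkl.trans hl)) = B i pts[l])
    (h : ∀ c ∈ mid, c (pts[k]'(hkl.trans hl)) = c pts[l]) : OmX A B j mid pts = 0 := by
  induction j generalizing mid with
  | zero =>
    simp only [OmX]
    exact LDet_rows_eq mid pts k l hkl hl h
  | succ j ih =>
    simp only [OmX]
    refine Finset.sum_eq_zero (fun i _ => ih _ ?_)
    intro c hc
    simp only [List.mem_cons, List.mem_append, List.not_mem_nil, or_false] at hc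
    rcases hc with rfl | hc | rfl
    · exact hA i
    · exact h c hc
    · exact hB i

/-- (O4) linearity in a column of `mid` -/
lemma OmX_col_add (j : ℕ) (L R : List (X → ℝ)) (x y : X → ℝ) (r : ℝ)
    (pts : List X) :
    OmX A B j (L ++ (fun p => x p + r * y p) :: R) pts =
      OmX A B j (L ++ x :: R) pts + r * OmX A B j (L ++ y :: R) pts := by
  induction j generalizing L R with
  | zero => exact LDet_col_add L R x y r pts
  | succ j ih =>
    simp only [OmX]
    rw [Finset.mul_sum, ← Finset.sum_add_distrib]
    refine Finset.sum_congr rfl fun i _ => ?_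
    have := ih (A i :: L) (R ++ [B i])
    simpa [List.append_assoc] using this

lemma OmX_col_const (j : ℕ) (L R : List (X → ℝ)) (r : ℝ) (pts : List X) :
    OmX A B j (L ++ (fun _ => r) :: R) pts = 0 := by
  induction j generalizing L R with
  | zero => exact LDet_col_const L R r pts
  | succ j ih =>
    simp only [OmX]
    refine Finset.sum_eq_zero fun i _ => ?_
    have := ih (A i :: L) (R ++ [B i])
    simpa [List.append_assoc] using this

/-- (O4) finite sums in the single column of `mid` -/
lemma OmX_single_sum (j : ℕ) (x : X → ℝ) (r : ℝ) {ι : Type*} (s : Finset ι) (w : ι → ℝ)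
    (y : ι → X → ℝ) (pts : List X) :
    OmX A B j [fun p => x p + r + ∑ i ∈ s, w i * y i p] pts =
      OmX A B j [x] pts + ∑ i ∈ s, w i * OmX A B j [y i] pts := by
  classical
  induction s using Finset.induction_on with
  | empty =>
    have h1 := OmX_col_add A B j [] [] x (fun _ => r) 1 pts
    have h2 := OmX_col_const A B j [] [] r pts
    simp only [List.nil_append] at h1 h2
    simp only [Finset.sum_empty, add_zero]
    have : (fun p => x p + r) = (fun p => x p + 1 * (fun _ : X => r) p) := by
      funext p; simp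
    rw [this, h1, h2]; simp
  | insert a s ha ih =>
    have h1 := OmX_col_add A B j [] [] (fun p => x p + r + ∑ i ∈ s, w i * y i p) (y a) (w a) pts
    simp only [List.nil_append] at h1
    have : (fun p => x p + r + ∑ i ∈ insert a s, w i * y i p)
        = (fun p => (x p + r + ∑ i ∈ s, w i * y i p) + w a * y a p) := by
      funext p; rw [Finset.sum_insert ha]; ring
    rw [this, h1, ih, Finset.sum_insert ha]; ring

/-- (O5) `LDet_delta` -/
lemma OmX_delta (j : ℕ) (mid : List (X → ℝ)) (pts : List X)
    (h : pts.length = 2 * j + mid.length + 2) :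
    ∑ l ∈ Finset.range pts.length, (-1 : ℝ) ^ l * OmX A B j mid (pts.eraseIdx l) = 0 := by
  induction j generalizing mid with
  | zero =>
    simp only [OmX]
    exact LDet_delta mid pts (by simpa using h)
  | succ j ih =>
    simp only [OmX, Finset.mul_sum]
    rw [Finset.sum_comm]
    refine Finset.sum_eq_zero fun i _ => ?_
    refine ih (A i :: (mid ++ [B i])) ?_
    simp only [List.length_cons, List.length_append, List.length_nil]
    omega

/-- (O5) `LDet_laplace`; there are `j` more columns to the left -/
lemma OmX_laplace (j : ℕ) (L R : List (X → ℝ)) (x : X → ℝ) (pts : List X)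
    (h : pts.length = 2 * j + L.length + R.length + 2) :
    ∑ l : Fin pts.length, (-1 : ℝ) ^ (l : ℕ) * (x (pts.get l) * OmX A B j (L ++ R) (pts.eraseIdx l)) =
      (-1) ^ (j + L.length + 1) * OmX A B j (L ++ x :: R) pts := by
  induction j generalizing L R with
  | zero =>
    simp only [OmX]
    have := LDet_laplace L R x pts (by simpa using h)
    rw [this]
    simp
  | succ j ih =>
    simp only [OmX, Finset.mul_sum]
    rw [Finset.sum_comm]
    refine Finset.sum_congr rfl fun i _ => ?_
    have := ih (A i :: L) (R ++ [B i]) (by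
      simp only [List.length_cons, List.length_append, List.length_nil]
      omega)
    have e1 : A i :: (L ++ R ++ [B i]) = (A i :: L) ++ (R ++ [B i]) := by simp
    have e2 : A i :: (L ++ x :: R ++ [B i]) = (A i :: L) ++ x :: (R ++ [B i]) := by simp
    rw [e1, e2, this]
    congr 2
    simp only [List.length_cons]
    omega

/-- (O7) `LDet_rotate` -/
lemma OmX_rotate (j : ℕ) (mid : List (X → ℝ)) (pts : List X) (h : Odd pts.length)
    (i : ℕ) : OmX A B j mid (pts.rotate i) = OmX A B j mid pts := by
  induction j generalizing mid with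
  | zero => exact LDet_rotate mid pts h i
  | succ j ih =>
    simp only [OmX]
    exact Finset.sum_congr rfl fun k _ => ih _

lemma OmX_prism_aux (ct : X → ℝ) (j : ℕ) (t : ℝ) (p p' : X) (mid : List X)
    (ha : ∀ i, A i p' = A i p) (hb : ∀ i, B i p' = B i p) (hc : ct p' = ct p + t) :
    ∀ (L R : List (X → ℝ)), (∀ c ∈ L, c p' = c p) → (∀ c ∈ R, c p' = c p) →
    OmX A B j (L ++ ct :: R) (p :: mid ++ [p']) =
      (-1) ^ (j + R.length) * t * OmX A B j (L ++ R) (p :: mid) := by
  induction j with
  | zero =>
    intro L R hL hR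
    simpa [OmX] using LDet_prism L R ct t p p' mid hL hR hc
  | succ j ih =>
    intro L R hL hR
    simp only [OmX]
    rw [Finset.mul_sum]
    refine Finset.sum_congr rfl fun i _ => ?_
    have h1 : A i :: ((L ++ ct :: R) ++ [B i]) = (A i :: L) ++ ct :: (R ++ [B i]) := by simp
    have h2 : A i :: ((L ++ R) ++ [B i]) = (A i :: L) ++ (R ++ [B i]) := by simp
    rw [h1, h2, ih (A i :: L) (R ++ [B i])]
    · congr 2
      simp only [List.length_append, List.length_singleton]
      congr 1
      omega
    · intro c hcm
      rcases List.mem_cons.1 hcm with rfl | hcm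
      · exact ha i
      · exact hL c hcm
    · intro c hcm
      rcases List.mem_append.1 hcm with hcm | hcm
      · exact hR c hcm
      · rw [List.mem_singleton.1 hcm]
        exact hb i

/-- (O8) `LDet_prism` with `y = ct`; to the right of `ct` there are `j` columns -/
lemma OmX_prism (ct : X → ℝ) (j : ℕ) (t : ℝ) (p p' : X) (mid : List X)
    (ha : ∀ i, A i p' = A i p) (hb : ∀ i, B i p' = B i p) (hc : ct p' = ct p + t) :
    OmX A B j [ct] (p :: mid ++ [p']) = (-1) ^ j * t * OmX A B j [] (p :: mid) := by
  simpa using OmX_prism_aux A B ct j t p p' mid ha hb hc [] [] (by simp) (by simp)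

/-- (O9) bound: `abs_LDet_le`, there are `m ^ j` terms -/
lemma abs_OmX_le (j : ℕ) (mid : List (X → ℝ)) (pts : List X) (M : ℝ) (hM : 1 ≤ M)
    (hA : ∀ i, ∀ p ∈ pts, |A i p| ≤ M) (hB : ∀ i, ∀ p ∈ pts, |B i p| ≤ M)
    (h : ∀ c ∈ mid, ∀ p ∈ pts, |c p| ≤ M) :
    |OmX A B j mid pts| ≤ (Fintype.card ι : ℝ) ^ j * ((pts.length).factorial * M ^ pts.length) := by
  induction j generalizing mid with
  | zero =>
    simp only [OmX, pow_zero, one_mul]
    exact abs_LDet_le mid pts M hM h
  | succ j ih =>
    simp only [OmX]
    calc |∑ i, OmX A B j (A i :: (mid ++ [B i])) pts|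
        ≤ ∑ i, |OmX A B j (A i :: (mid ++ [B i])) pts| := Finset.abs_sum_le_sum_abs _ _
      _ ≤ ∑ _i : ι, (Fintype.card ι : ℝ) ^ j * ((pts.length).factorial * M ^ pts.length) := by
          refine Finset.sum_le_sum (fun i _ => ih _ ?_)
          intro c hc p hp
          simp only [List.mem_cons, List.mem_append, List.not_mem_nil, or_false] at hc
          rcases hc with rfl | hc | rfl
          · exact hA i p hp
          · exact h c hc p hp
          · exact hB i p hp
      _ = (Fintype.card ι : ℝ) ^ (j + 1) * ((pts.length).factorial * M ^ pts.length) := by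
          rw [Finset.sum_const, Finset.card_univ, nsmul_eq_mul, pow_succ]
          ring


/-! ## New lemmas (rows U1 - U4) -/

/-- (U1) pull-back along a map (`LDet_map`, induction on `j` generalizing `mid`) -/
lemma OmX_map {Z : Type*} (f : Z → X) (j : ℕ) (mid : List (X → ℝ)) (pts : List Z) :
    OmX A B j mid (pts.map f) =
      OmX (fun i => A i ∘ f) (fun i => B i ∘ f) j (mid.map fun c => c ∘ f) pts := by
  induction j generalizing mid with
  | zero => exact LDet_map f mid pts
  | succ j ih =>
    simp only [OmX]
    refine Finset.sum_congr rfl fun i _ => ?_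
    rw [ih]
    simp

/-- (U1) only the values at the points matter (`LDet_congr`, induction on `j`) -/
lemma OmX_congr {A' B' : ι → X → ℝ} {pts : List X} (hA : ∀ i, ∀ p ∈ pts, A i p = A' i p)
    (hB : ∀ i, ∀ p ∈ pts, B i p = B' i p) (j : ℕ) {mid mid' : List (X → ℝ)}
    (h : List.Forall₂ (fun c c' => ∀ p ∈ pts, c p = c' p) mid mid') :
    OmX A B j mid pts = OmX A' B' j mid' pts := by
  induction j generalizing mid mid' with
  | zero => exact LDet_congr h
  | succ j ih =>
    simp only [OmX]
    refine Finset.sum_congr rfl fun i _ => ih ?_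
    refine List.Forall₂.cons (hA i) ?_
    exact List.rel_append h (List.Forall₂.cons (hB i) List.Forall₂.nil)

/-- (U2) finite sums in one column (`Finset.induction_on`, `OmX_col_add`; for the empty sum
`OmX_col_const` with `r = 0`) -/
lemma OmX_col_sum (j : ℕ) (L R : List (X → ℝ)) {κ : Type*} (s : Finset κ) (w : κ → ℝ)
    (y : κ → X → ℝ) (pts : List X) :
    OmX A B j (L ++ (fun p => ∑ u ∈ s, w u * y u p) :: R) pts =
      ∑ u ∈ s, w u * OmX A B j (L ++ y u :: R) pts := by
  classical
  induction s using Finset.induction_on with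
  | empty =>
    simp only [Finset.sum_empty]
    exact OmX_col_const A B j L R 0 pts
  | insert a s ha ih =>
    have h1 := OmX_col_add A B j L R (fun p => ∑ u ∈ s, w u * y u p) (y a) (w a) pts
    have : (fun p => ∑ u ∈ insert a s, w u * y u p)
        = (fun p => (∑ u ∈ s, w u * y u p) + w a * y a p) := by
      funext p; rw [Finset.sum_insert ha]; ring
    rw [this, h1, ih, Finset.sum_insert ha]; ring

/-- (U2) exchange of the first and the last column.  With `z = x + y` the list
`z :: (mid ++ [z])` has a repetition, so `OmX_dup` gives `0`; expand by `OmX_col_add` (twice) into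
four terms, two of which vanish by `OmX_dup`. -/
lemma OmX_swap (j : ℕ) (x y : X → ℝ) (mid : List (X → ℝ)) (pts : List X) :
    OmX A B j (x :: (mid ++ [y])) pts = - OmX A B j (y :: (mid ++ [x])) pts := by
  have hdup : ∀ z : X → ℝ, OmX A B j (z :: (mid ++ [z])) pts = 0 := by
    intro z
    apply OmX_dup
    intro hn
    exact (List.nodup_cons.1 hn).1 (by simp)
  have e1 : ∀ c : X → ℝ, OmX A B j ((fun p => x p + 1 * y p) :: (mid ++ [c])) pts =
      OmX A B j (x :: (mid ++ [c])) pts + 1 * OmX A B j (y :: (mid ++ [c])) pts := by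
    intro c
    simpa using OmX_col_add A B j [] (mid ++ [c]) x y 1 pts
  have e2 : ∀ c : X → ℝ, OmX A B j (c :: (mid ++ [fun p => x p + 1 * y p])) pts =
      OmX A B j (c :: (mid ++ [x])) pts + 1 * OmX A B j (c :: (mid ++ [y])) pts := by
    intro c
    simpa using OmX_col_add A B j (c :: mid) [] x y 1 pts
  have h0 := hdup (fun p => x p + 1 * y p)
  rw [e1, e2, e2, hdup x, hdup y] at h0
  linarith

/-- the antisymmetric function of two points attached to `A`, `B`, `ct` -/
noncomputable def Rz (ct : X → ℝ) (p q : X) : ℝ :=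
  ct q - ct p - (∑ i, (A i p * B i q - A i q * B i p)) / 2

/-- the indicator function of a point -/
noncomputable def ind [DecidableEq X] (u : X) : X → ℝ := fun p => if p = u then 1 else 0

lemma ind_expand [Fintype X] [DecidableEq X] (c : X → ℝ) :
    (fun p => ∑ u ∈ Finset.univ, c u * ind u p) = c := by
  funext p
  simp [ind]

lemma OmX_first_ind [Fintype X] [DecidableEq X] (j : ℕ) (x : X → ℝ) (R : List (X → ℝ))
    (pts : List X) :
    OmX A B j (x :: R) pts = ∑ u, x u * OmX A B j (ind u :: R) pts := by
  have h := OmX_col_sum A B j [] R Finset.univ x (fun v => ind v) pts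
  rw [ind_expand] at h
  simpa using h

lemma OmX_last_ind [Fintype X] [DecidableEq X] (j : ℕ) (y : X → ℝ) (L : List (X → ℝ))
    (pts : List X) :
    OmX A B j (L ++ [y]) pts = ∑ v, y v * OmX A B j (L ++ [ind v]) pts := by
  have h := OmX_col_sum A B j L [] Finset.univ y (fun v => ind v) pts
  rw [ind_expand] at h
  exact h

/-- (U3) Put `D u v = OmX A B j (ind u :: (mid ++ [ind v])) pts`.
(a) `A i = fun p => ∑ u, A i u * ind u p` and the same for `B i`, so by `OmX_col_sum` (for the first
column, `L = []`, and for the last one, `R = []`)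
`OmX A B j (A i :: (mid ++ [B i])) pts = ∑ u, ∑ v, A i u * B i v * D u v`.
(b) `D v u = - D u v` (`OmX_swap`), hence
`∑ u v, A i u * B i v * D u v = ∑ u v, (A i u * B i v - A i v * B i u) / 2 * D u v`.
(c) `∑ u, D u v = 0` and `∑ v, D u v = 0`: by `OmX_col_sum` this is `OmX` with the column
`fun p => ∑ u, 1 * ind u p = fun _ => 1`, which vanishes by `OmX_col_const`.  Hence
`∑ u v, (ct v - ct u) * D u v = 0`. -/
lemma OmX_expand [Fintype X] [DecidableEq X] (ct : X → ℝ) (j : ℕ) (mid : List (X → ℝ))
    (pts : List X) :
    OmX A B (j + 1) mid pts =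
      - ∑ u, ∑ v, Rz A B ct u v * OmX A B j (ind u :: (mid ++ [ind v])) pts := by
  set D : X → X → ℝ := fun u v => OmX A B j (ind u :: (mid ++ [ind v])) pts with hD
  have ha : ∀ x y : X → ℝ, OmX A B j (x :: (mid ++ [y])) pts = ∑ u, ∑ v, x u * y v * D u v := by
    intro x y
    rw [OmX_first_ind]
    refine Finset.sum_congr rfl fun u _ => ?_
    have := OmX_last_ind A B j y (ind u :: mid) pts
    simp only [List.cons_append] at this
    rw [this, Finset.mul_sum]
    refine Finset.sum_congr rfl fun v _ => ?_
    rw [mul_assoc]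
  have hb : ∀ u v, D v u = - D u v := fun u v => OmX_swap A B j (ind v) (ind u) mid pts
  have hc1 : ∀ v, ∑ u, D u v = 0 := by
    intro v
    have h1 := OmX_first_ind A B j (fun _ => 1) (mid ++ [ind v]) pts
    have h2 := OmX_col_const A B j [] (mid ++ [ind v]) 1 pts
    simp only [List.nil_append] at h2
    rw [h2] at h1
    simpa using h1.symm
  have hc2 : ∀ u, ∑ v, D u v = 0 := by
    intro u
    have h1 := OmX_last_ind A B j (fun _ => 1) (ind u :: mid) pts
    have h2 := OmX_col_const A B j (ind u :: mid) [] 1 pts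
    rw [h2] at h1
    simpa using h1.symm
  have hS : OmX A B (j + 1) mid pts = ∑ u, ∑ v, (∑ i, A i u * B i v) * D u v := by
    simp only [OmX]
    simp_rw [ha, Finset.sum_mul]
    rw [Finset.sum_comm]
    refine Finset.sum_congr rfl fun u _ => ?_
    rw [Finset.sum_comm]
  have hS' : ∑ u, ∑ v, (∑ i, A i v * B i u) * D u v = - ∑ u, ∑ v, (∑ i, A i u * B i v) * D u v := by
    rw [Finset.sum_comm, ← Finset.sum_neg_distrib]
    refine Finset.sum_congr rfl fun u _ => ?_
    rw [← Finset.sum_neg_distrib]
    refine Finset.sum_congr rfl fun v _ => ?_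
    rw [hb u v]
    ring
  have h1 : ∑ u, ∑ v, ct v * D u v = 0 := by
    rw [Finset.sum_comm]
    refine Finset.sum_eq_zero fun v _ => ?_
    rw [← Finset.mul_sum, hc1, mul_zero]
  have h2 : ∑ u, ∑ v, ct u * D u v = 0 := by
    refine Finset.sum_eq_zero fun u _ => ?_
    rw [← Finset.mul_sum, hc2, mul_zero]
  have h3 : ∑ u, ∑ v, Rz A B ct u v * D u v =
      ∑ u, ∑ v, ct v * D u v - ∑ u, ∑ v, ct u * D u v -
      (∑ u, ∑ v, (∑ i, A i u * B i v) * D u v - ∑ u, ∑ v, (∑ i, A i v * B i u) * D u v) / 2 := by
    simp only [← Finset.sum_sub_distrib, Finset.sum_div]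
    refine Finset.sum_congr rfl fun u _ => ?_
    refine Finset.sum_congr rfl fun v _ => ?_
    unfold Rz
    rw [Finset.sum_sub_distrib]
    ring
  rw [h3, h1, h2, hS', hS]
  ring

/-- (U4) `OmX` depends only on `Rz`: induction on `j` generalizing `mid`, by `OmX_expand`. -/
theorem OmX_gauge [Fintype X] [DecidableEq X] {ι' : Type*} [Fintype ι'] (A' B' : ι' → X → ℝ)
    (ct ct' : X → ℝ) (h : ∀ u v, Rz A B ct u v = Rz A' B' ct' u v) (j : ℕ) (mid : List (X → ℝ))
    (pts : List X) : OmX A B j mid pts = OmX A' B' j mid pts := by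
  induction j generalizing mid with
  | zero => simp only [OmX]
  | succ j ih =>
    rw [OmX_expand A B ct j mid pts, OmX_expand A' B' ct' j mid pts]
    congr 1
    refine Finset.sum_congr rfl fun u _ => Finset.sum_congr rfl fun v _ => ?_
    rw [h u v, ih]

end Vale.Agent.P184.PN
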