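import Vale.Agent.P184.Newton

/-!
# Boundedness of the Newton sequence in finer norms (rows SQ, SN)
-/

namespace Vale.Agent.P184.PN

open Filter Topology

/-- (SQ1) If `x (n+1) ≤ ε n * x n + β n` with `ε → 0`, `β` summable, all nonnegative, then `x` is
summable.  Proof: choose `n₀` with `ε n ≤ 1/2` for `n ≥ n₀`; for the shifted sequence
`y n = x (n + n₀)` one gets for the finite sums `S m = ∑_{n<m} y n` the bound
`S (m+1) ≤ y 0 + S m / 2 + ∑ β`, hence `S m ≤ 2 (y 0 + ∑ β)` by induction; use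
`summable_of_sum_range_le` and `summable_nat_add_iff`. -/
theorem summable_of_contract {x ε β : ℕ → ℝ} (hx : ∀ n, 0 ≤ x n)
    (hε : Tendsto ε atTop (𝓝 0)) (hβ0 : ∀ n, 0 ≤ β n) (hβ : Summable β)
    (h : ∀ n, x (n + 1) ≤ ε n * x n + β n) : Summable x := by
  have hev : ∀ᶠ n in atTop, ε n < 1 / 2 := hε.eventually (Iio_mem_nhds (by norm_num))
  obtain ⟨n₀, hn₀⟩ := eventually_atTop.1 hev
  rw [← summable_nat_add_iff n₀]
  set B := ∑' n, β n with hB
  have hB0 : 0 ≤ B := tsum_nonneg hβ0
  have hstep : ∀ n, x (n + 1 + n₀) ≤ x (n + n₀) / 2 + β (n + n₀) := by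
    intro n
    have h1 := h (n + n₀)
    have h2 : ε (n + n₀) ≤ 1 / 2 := (hn₀ _ (by omega)).le
    have h3 : ε (n + n₀) * x (n + n₀) ≤ 1 / 2 * x (n + n₀) :=
      mul_le_mul_of_nonneg_right h2 (hx _)
    have e : n + 1 + n₀ = n + n₀ + 1 := by omega
    rw [e]
    linarith
  have hβsum : ∀ m, ∑ n ∈ Finset.range m, β (n + n₀) ≤ B := by
    intro m
    have h1 : ∑ n ∈ Finset.range m, β (n + n₀) ≤ ∑' n, β (n + n₀) :=
      ((summable_nat_add_iff n₀).2 hβ).sum_le_tsum _ (fun i _ => hβ0 _)
    have h2 := hβ.sum_add_tsum_nat_add n₀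
    have h0 : 0 ≤ ∑ i ∈ Finset.range n₀, β i := Finset.sum_nonneg (fun i _ => hβ0 i)
    linarith
  refine summable_of_sum_range_le (c := 2 * (x n₀ + B)) (fun n => hx _) ?_
  intro m
  induction m with
  | zero =>
    have := hx n₀
    simp only [Finset.range_zero, Finset.sum_empty]
    positivity
  | succ m ih =>
    rw [Finset.sum_range_succ']
    have h1 : ∑ i ∈ Finset.range m, x (i + 1 + n₀) ≤
        ∑ i ∈ Finset.range m, (x (i + n₀) / 2 + β (i + n₀)) :=
      Finset.sum_le_sum (fun i _ => hstep i)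
    rw [Finset.sum_add_distrib, ← Finset.sum_div] at h1
    have h2 := hβsum m
    have e0 : x (0 + n₀) = x n₀ := by rw [Nat.zero_add]
    rw [e0]
    linarith

/-- (SQ2) Discrete Gronwall: `z (n+1) ≤ z n * (1 + α n) + β n`, `α`, `β` summable and nonnegative,
then `z` is bounded.  Proof: by induction
`z n ≤ (z 0 + ∑_{j<n} β j) * ∏_{j<n} (1 + α j)` and `∏ (1 + α j) ≤ exp (∑ α j)`
(`Real.add_one_le_exp`, `Real.exp_sum`). -/
theorem bounded_of_gronwall {z α β : ℕ → ℝ} (hz : ∀ n, 0 ≤ z n) (hα0 : ∀ n, 0 ≤ α n)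
    (hα : Summable α) (hβ0 : ∀ n, 0 ≤ β n) (hβ : Summable β)
    (h : ∀ n, z (n + 1) ≤ z n * (1 + α n) + β n) : ∃ M, ∀ n, z n ≤ M := by
  have key : ∀ n, z n ≤ (z 0 + ∑ j ∈ Finset.range n, β j) *
      Real.exp (∑ j ∈ Finset.range n, α j) := by
    intro n
    induction n with
    | zero => simp
    | succ n ih =>
      rw [Finset.sum_range_succ, Finset.sum_range_succ, Real.exp_add]
      set Sb := ∑ j ∈ Finset.range n, β j with hSb
      set Sa := ∑ j ∈ Finset.range n, α j with hSa
      have hSb0 : 0 ≤ Sb := Finset.sum_nonneg (fun i _ => hβ0 i)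
      have hSa0 : 0 ≤ Sa := Finset.sum_nonneg (fun i _ => hα0 i)
      have e1 : 1 + α n ≤ Real.exp (α n) := by
        have := Real.add_one_le_exp (α n)
        linarith
      have e2 : 1 ≤ Real.exp Sa := Real.one_le_exp hSa0
      have e3 : 1 ≤ Real.exp (α n) := Real.one_le_exp (hα0 n)
      have e4 : 1 ≤ Real.exp Sa * Real.exp (α n) := by nlinarith
      have h1 : z n * (1 + α n) ≤ ((z 0 + Sb) * Real.exp Sa) * Real.exp (α n) :=
        mul_le_mul ih e1 (by linarith [hα0 n]) (by have := hz 0; positivity)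
      have h2 : β n ≤ β n * (Real.exp Sa * Real.exp (α n)) :=
        le_mul_of_one_le_right (hβ0 n) e4
      have := h n
      nlinarith
  refine ⟨(z 0 + ∑' j, β j) * Real.exp (∑' j, α j), fun n => (key n).trans ?_⟩
  have h1 : ∑ j ∈ Finset.range n, β j ≤ ∑' j, β j := hβ.sum_le_tsum _ (fun i _ => hβ0 i)
  have h2 : ∑ j ∈ Finset.range n, α j ≤ ∑' j, α j := hα.sum_le_tsum _ (fun i _ => hα0 i)
  have h3 : 0 ≤ ∑ j ∈ Finset.range n, β j := Finset.sum_nonneg (fun i _ => hβ0 i)
  exact mul_le_mul (by linarith) (Real.exp_le_exp.2 h2) (Real.exp_pos _).le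
    (by have := hz 0; linarith)


/-- (SN) The Newton sequence stays bounded in every finer norm `N k` of a chain of differential
norms.  Write `a n = newtonSeq a n`, `d n = a n * a n - a n`.  One proves by induction on `k`:
`(∃ M, ∀ n, N k (a n) ≤ M) ∧ Summable (fun n => N k (d n))`.
* `k = 0`: `newtonSeq_invariant` gives `‖d n‖ ≤ D / 4 ^ n` and `‖a n - a‖` bounded.
* step: all `a n`, `d n` satisfy `P`.  `N (k+1)` is submultiplicative up to a constant
  (`hNmul`, `hNmono`), the same for `N k` (for `k = 0` by `norm_mul_le`).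
  With `x n = N (k+1) (d n)`, `y n = N k (d n)` and `newtonStep_defect`
  (`d (n+1) = d n * d n * (4 d n - 3)`), `hNmul` gives `x (n+1) ≤ ε n * x n + β n`, where
  `ε n = C (y n + y n ^ 2)`, `β n = C y n ^ 2`; apply `summable_of_contract`.
  With `z n = N (k+1) (a n)` and `a (n+1) = a n + (1 - 2 a n) * d n`, `hNmul` gives
  `z (n+1) ≤ z n * (1 + 2 c y n) + C (y n + x n)`; apply `bounded_of_gronwall`. -/
theorem newton_bounded {A : Type*} [NormedRing A] (h1 : ‖(1 : A)‖ ≤ 1) (P : A → Prop)
    (hP1 : P 1) (hPadd : ∀ a b, P a → P b → P (a + b)) (hPneg : ∀ a, P a → P (-a))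
    (hPmul : ∀ a b, P a → P b → P (a * b))
    (N : ℕ → A → ℝ) (hN0 : ∀ a, N 0 a = ‖a‖) (hNnn : ∀ k a, 0 ≤ N k a)
    (hNmono : ∀ k a, P a → N k a ≤ N (k + 1) a)
    (hNadd : ∀ k a b, P a → P b → N k (a + b) ≤ N k a + N k b)
    (hNneg : ∀ k a, N k (-a) = N k a)
    (hNmul : ∀ k, ∃ c : ℝ, ∀ a b, P a → P b →
      N (k + 1) (a * b) ≤ c * (N (k + 1) a * N k b + N k a * N (k + 1) b))
    (a : A) (ha : P a) (hd : ‖a * a - a‖ ≤ 1 / 16) (k : ℕ) :
    ∃ M, ∀ n, N k (newtonSeq a n) ≤ M := by
  -- closure of `P` under subtraction, subadditivity for subtraction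
  have hPsub : ∀ a b, P a → P b → P (a - b) := by
    intro a b h₁ h₂
    rw [sub_eq_add_neg]
    exact hPadd _ _ h₁ (hPneg _ h₂)
  have hNsub : ∀ k a b, P a → P b → N k (a - b) ≤ N k a + N k b := by
    intro k a b h₁ h₂
    rw [sub_eq_add_neg]
    have := hNadd k a (-b) h₁ (hPneg _ h₂)
    rwa [hNneg] at this
  -- nonnegative constants in `hNmul`
  have hNmul' : ∀ k, ∃ c : ℝ, 0 ≤ c ∧ ∀ a b, P a → P b →
      N (k + 1) (a * b) ≤ c * (N (k + 1) a * N k b + N k a * N (k + 1) b) := by
    intro k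
    obtain ⟨c, hc⟩ := hNmul k
    refine ⟨max c 0, le_max_right _ _, fun a b h₁ h₂ => (hc a b h₁ h₂).trans ?_⟩
    refine mul_le_mul_of_nonneg_right (le_max_left _ _) ?_
    have := hNnn (k + 1) a
    have := hNnn (k + 1) b
    have := hNnn k a
    have := hNnn k b
    positivity
  -- submultiplicativity up to a constant
  have hsub : ∀ k, ∃ C : ℝ, 0 ≤ C ∧ ∀ a b, P a → P b → N k (a * b) ≤ C * (N k a * N k b) := by
    intro k
    cases k with
    | zero =>
      refine ⟨1, zero_le_one, fun a b _ _ => ?_⟩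
      rw [hN0, hN0, hN0, one_mul]
      exact norm_mul_le _ _
    | succ k =>
      obtain ⟨c, hc0, hc⟩ := hNmul' k
      refine ⟨2 * c, by positivity, fun a b h₁ h₂ => (hc a b h₁ h₂).trans ?_⟩
      have m1 := hNmono k a h₁
      have m2 := hNmono k b h₂
      have n1 := hNnn k a
      have n2 := hNnn k b
      have n3 := hNnn (k + 1) a
      have n4 := hNnn (k + 1) b
      have e1 : N (k + 1) a * N k b ≤ N (k + 1) a * N (k + 1) b :=
        mul_le_mul_of_nonneg_left m2 n3
      have e2 : N k a * N (k + 1) b ≤ N (k + 1) a * N (k + 1) b :=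
        mul_le_mul_of_nonneg_right m1 n4
      have : c * (N (k + 1) a * N k b + N k a * N (k + 1) b) ≤
          c * (N (k + 1) a * N (k + 1) b + N (k + 1) a * N (k + 1) b) :=
        mul_le_mul_of_nonneg_left (by linarith) hc0
      linarith
  -- all iterates satisfy `P`
  have hPa : ∀ n, P (newtonSeq a n) := by
    intro n
    induction n with
    | zero => exact ha
    | succ n ih =>
      change P (newtonStep (newtonSeq a n))
      unfold newtonStep
      exact hPadd _ _ ih (hPmul _ _ (hPsub _ _ hP1 (hPadd _ _ ih ih))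
        (hPsub _ _ (hPmul _ _ ih ih) ih))
  have hPd : ∀ n, P (newtonSeq a n * newtonSeq a n - newtonSeq a n) := fun n =>
    hPsub _ _ (hPmul _ _ (hPa n) (hPa n)) (hPa n)
  have inv := newtonSeq_invariant h1 a hd
  suffices H : ∀ k, (∃ M, ∀ n, N k (newtonSeq a n) ≤ M) ∧
      Summable (fun n => N k (newtonSeq a n * newtonSeq a n - newtonSeq a n)) from (H k).1
  intro k
  induction k with
  | zero =>
    constructor
    · refine ⟨‖a‖ + 8 / 3 * ((1 + 2 * ‖a‖) * ‖a * a - a‖), fun n => ?_⟩
      rw [hN0]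
      have h2 := (inv n).2.1
      have h3 : ‖newtonSeq a n‖ ≤ ‖a‖ + ‖newtonSeq a n - a‖ := by
        have := norm_add_le a (newtonSeq a n - a)
        simpa using this
      have hq0 : 0 < (1 / 4 : ℝ) ^ n := by positivity
      have h4 : 8 / 3 * ((1 + 2 * ‖a‖) * ‖a * a - a‖) * (1 - (1 / 4 : ℝ) ^ n) ≤
          8 / 3 * ((1 + 2 * ‖a‖) * ‖a * a - a‖) * 1 :=
        mul_le_mul_of_nonneg_left (by linarith) (by positivity)
      linarith
    · refine Summable.of_nonneg_of_le (fun n => hNnn 0 _) (fun n => ?_)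
        ((summable_geometric_of_lt_one (by norm_num : (0 : ℝ) ≤ 1 / 4)
          (by norm_num)).mul_left ‖a * a - a‖)
      rw [hN0]
      exact (inv n).1
  | succ k ih =>
    obtain ⟨⟨M, hM⟩, hy⟩ := ih
    obtain ⟨c, hc0, hc⟩ := hNmul' k
    obtain ⟨C, hC0, hC⟩ := hsub k
    set an := newtonSeq a with han
    set d : ℕ → A := fun n => an n * an n - an n with hdd
    set y : ℕ → ℝ := fun n => N k (d n) with hyy
    set x : ℕ → ℝ := fun n => N (k + 1) (d n) with hxx
    set u := N k (1 : A) with hu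
    set u' := N (k + 1) (1 : A) with hu'
    have hu0 : 0 ≤ u := hNnn _ _
    have hu'0 : 0 ≤ u' := hNnn _ _
    have hy0 : ∀ n, 0 ≤ y n := fun n => hNnn _ _
    have hx0 : ∀ n, 0 ≤ x n := fun n => hNnn _ _
    have hM0 : 0 ≤ M := (hNnn k (an 0)).trans (hM 0)
    have hy' : Summable y := hy
    have hylim : Tendsto y atTop (𝓝 0) := hy'.tendsto_atTop_zero
    have hysq : Summable (fun n => y n ^ 2) := by
      refine Summable.of_nonneg_of_le (fun n => by positivity) (fun n => ?_)
        (hy'.mul_left (∑' n, y n))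
      have : y n ≤ ∑' n, y n := hy'.le_tsum n (fun j _ => hy0 j)
      have := mul_le_mul_of_nonneg_right this (hy0 n)
      nlinarith
    -- bound on the fourfold sum minus three
    have hE : ∀ j (e : A), P e →
        N j (e + e + e + e - 1 - 1 - 1) ≤ 4 * N j e + 3 * N j (1 : A) := by
      intro j e he
      have p2 := hPadd _ _ he he
      have p3 := hPadd _ _ p2 he
      have p4 := hPadd _ _ p3 he
      have p5 := hPsub _ _ p4 hP1
      have p6 := hPsub _ _ p5 hP1
      have a1 := hNsub j _ _ p6 hP1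
      have a2 := hNsub j _ _ p5 hP1
      have a3 := hNsub j _ _ p4 hP1
      have a4 := hNadd j _ _ p3 he
      have a5 := hNadd j _ _ p2 he
      have a6 := hNadd j _ _ he he
      linarith
    have hPE : ∀ e : A, P e → P (e + e + e + e - 1 - 1 - 1) := by
      intro e he
      exact hPsub _ _ (hPsub _ _ (hPsub _ _ (hPadd _ _ (hPadd _ _ (hPadd _ _ he he) he) he)
        hP1) hP1) hP1
    have hdrec : ∀ n, d (n + 1) = d n * d n * (d n + d n + d n + d n - 1 - 1 - 1) := by
      intro n
      exact newtonStep_defect (an n)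
    have hxrec : ∀ n, x (n + 1) ≤
        (2 * c ^ 2 * y n * (4 * y n + 3 * u) + 4 * c * C * y n ^ 2) * x n +
          3 * c * C * u' * y n ^ 2 := by
      intro n
      have pd := hPd n
      have b1 := hc (d n * d n) (d n + d n + d n + d n - 1 - 1 - 1) (hPmul _ _ pd pd) (hPE _ pd)
      have b2 := hc (d n) (d n) pd pd
      have b3 := hC (d n) (d n) pd pd
      have b4 := hE k (d n) pd
      have b5 := hE (k + 1) (d n) pd
      have hx' : x (n + 1) = N (k + 1) (d n * d n * (d n + d n + d n + d n - 1 - 1 - 1)) := by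
        rw [← hdrec n]
      rw [hx']
      have X0 := hx0 n
      have Y0 := hy0 n
      change N (k + 1) (d n * d n) ≤ c * (x n * y n + y n * x n) at b2
      change N k (d n * d n) ≤ C * (y n * y n) at b3
      change N k (d n + d n + d n + d n - 1 - 1 - 1) ≤ 4 * y n + 3 * u at b4
      change N (k + 1) (d n + d n + d n + d n - 1 - 1 - 1) ≤ 4 * x n + 3 * u' at b5
      have q1 : N (k + 1) (d n * d n) * N k (d n + d n + d n + d n - 1 - 1 - 1) ≤
          (c * (x n * y n + y n * x n)) * (4 * y n + 3 * u) :=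
        mul_le_mul b2 b4 (hNnn _ _) (by positivity)
      have q2 : N k (d n * d n) * N (k + 1) (d n + d n + d n + d n - 1 - 1 - 1) ≤
          (C * (y n * y n)) * (4 * x n + 3 * u') :=
        mul_le_mul b3 b5 (hNnn _ _) (by positivity)
      have q3 := mul_le_mul_of_nonneg_left (add_le_add q1 q2) hc0
      refine b1.trans (q3.trans (le_of_eq ?_))
      ring
    have hxs : Summable x := by
      refine summable_of_contract (ε := fun n => 2 * c ^ 2 * y n * (4 * y n + 3 * u) +
        4 * c * C * y n ^ 2) (β := fun n => 3 * c * C * u' * y n ^ 2) hx0 ?_ ?_ ?_ hxrec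
      · have t1 : Tendsto (fun n => 2 * c ^ 2 * y n * (4 * y n + 3 * u) + 4 * c * C * y n ^ 2)
            atTop (𝓝 (2 * c ^ 2 * 0 * (4 * 0 + 3 * u) + 4 * c * C * 0 ^ 2)) :=
          ((hylim.const_mul _).mul ((hylim.const_mul _).add_const _)).add
            ((hylim.pow 2).const_mul _)
        simpa using t1
      · intro n
        have := hy0 n
        positivity
      · exact hysq.mul_left _
    refine ⟨?_, hxs⟩
    refine bounded_of_gronwall (z := fun n => N (k + 1) (an n)) (α := fun n => 2 * c * y n)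
      (β := fun n => c * u' * y n + c * (u + 2 * M) * x n) (fun n => hNnn _ _) ?_ ?_ ?_ ?_ ?_
    · intro n
      have := hy0 n
      positivity
    · exact hy'.mul_left _
    · intro n
      have := hy0 n
      have := hx0 n
      positivity
    · exact (hy'.mul_left _).add (hxs.mul_left _)
    · intro n
      have pa := hPa n
      have pd := hPd n
      have p1 : P (1 - (an n + an n)) := hPsub _ _ hP1 (hPadd _ _ pa pa)
      have e : an (n + 1) = an n + (1 - (an n + an n)) * d n := rfl
      have b1 := hNadd (k + 1) (an n) ((1 - (an n + an n)) * d n) pa (hPmul _ _ p1 pd)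
      have b2 := hc (1 - (an n + an n)) (d n) p1 pd
      have b3 := hNsub (k + 1) 1 (an n + an n) hP1 (hPadd _ _ pa pa)
      have b4 := hNadd (k + 1) (an n) (an n) pa pa
      have b5 := hNsub k 1 (an n + an n) hP1 (hPadd _ _ pa pa)
      have b6 := hNadd k (an n) (an n) pa pa
      have b7 := hM n
      have X0 := hx0 n
      have Y0 := hy0 n
      change N (k + 1) (an (n + 1)) ≤ N (k + 1) (an n) * (1 + 2 * c * y n) +
        (c * u' * y n + c * (u + 2 * M) * x n)
      rw [e]
      set z := N (k + 1) (an n) with hz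
      have r1 : N (k + 1) (1 - (an n + an n)) ≤ u' + 2 * z := by linarith
      have r2 : N k (1 - (an n + an n)) ≤ u + 2 * M := by linarith
      have q1 : N (k + 1) (1 - (an n + an n)) * N k (d n) ≤ (u' + 2 * z) * y n :=
        mul_le_mul_of_nonneg_right r1 Y0
      have q2 : N k (1 - (an n + an n)) * N (k + 1) (d n) ≤ (u + 2 * M) * x n :=
        mul_le_mul_of_nonneg_right r2 X0
      have q3 := mul_le_mul_of_nonneg_left (add_le_add q1 q2) hc0
      have : c * ((u' + 2 * z) * y n + (u + 2 * M) * x n) =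
          z * (2 * c * y n) + (c * u' * y n + c * (u + 2 * M) * x n) := by ring
      linarith

end Vale.Agent.P184.PN
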