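import Vale.Agent.P184.PN.Defs
import Vale.Agent.P184.PN.Seq
import Vale.Agent.P184.L1Bridge
import Vale.Agent.P184.L1Single

/-!
# Smoothing of idempotents (row SM)
-/

set_option linter.unusedSectionVars false

namespace Vale.Agent.P184.PN

open scoped BigOperators Matrix.Norms.Operator
open Filter Topology

section weighted

variable {G : Type*} [Group G] {R : Type*} [NormedRing R] [CompleteSpace R]

/-- general weighted convolution bound -/
lemma conv_bound (a b : L1 G R) (ω F₁ G₁ F₂ G₂ : G → ℝ) (hω : ∀ w, 0 ≤ ω w)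
    (hF₁ : Summable F₁) (hG₁ : Summable G₁) (hF₂ : Summable F₂) (hG₂ : Summable G₂)
    (hF₁0 : 0 ≤ F₁) (hG₁0 : 0 ≤ G₁) (hF₂0 : 0 ≤ F₂) (hG₂0 : 0 ≤ G₂)
    (h : ∀ x y, ‖a x‖ * ‖b y‖ * ω (x * y) ≤ F₁ x * G₁ y + F₂ x * G₂ y) :
    Summable (fun w => ‖(a * b) w‖ * ω w) ∧
      ∑' w, ‖(a * b) w‖ * ω w ≤
        (∑' x, F₁ x) * (∑' y, G₁ y) + (∑' x, F₂ x) * (∑' y, G₂ y) := by
  have hpt : ∀ w, ‖(a * b) w‖ * ω w ≤ cv F₁ G₁ w + cv F₂ G₂ w := by
    intro w
    have hs : Summable (fun x => ‖a x‖ * ‖b (x⁻¹ * w)‖) :=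
      cv_fiber a.summable b.summable (fun _ => norm_nonneg _) (fun _ => norm_nonneg _) w
    have h1 : ‖(a * b) w‖ ≤ ∑' x, ‖a x‖ * ‖b (x⁻¹ * w)‖ := by
      rw [L1.mul_apply]
      have hs' : Summable (fun x => ‖a x * b (x⁻¹ * w)‖) :=
        Summable.of_nonneg_of_le (fun _ => norm_nonneg _) (fun x => norm_mul_le _ _) hs
      exact (norm_tsum_le_tsum_norm hs').trans (hs'.tsum_le_tsum (fun x => norm_mul_le _ _) hs)
    have h2 : (∑' x, ‖a x‖ * ‖b (x⁻¹ * w)‖) * ω w = ∑' x, ‖a x‖ * ‖b (x⁻¹ * w)‖ * ω w :=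
      tsum_mul_right.symm
    have hs1 := cv_fiber hF₁ hG₁ hF₁0 hG₁0 w
    have hs2 := cv_fiber hF₂ hG₂ hF₂0 hG₂0 w
    calc ‖(a * b) w‖ * ω w ≤ (∑' x, ‖a x‖ * ‖b (x⁻¹ * w)‖) * ω w :=
          mul_le_mul_of_nonneg_right h1 (hω w)
      _ = ∑' x, ‖a x‖ * ‖b (x⁻¹ * w)‖ * ω w := h2
      _ ≤ ∑' x, (F₁ x * G₁ (x⁻¹ * w) + F₂ x * G₂ (x⁻¹ * w)) := by
          refine (hs.mul_right (ω w)).tsum_le_tsum (fun x => ?_) (hs1.add hs2)
          have := h x (x⁻¹ * w)
          rwa [mul_inv_cancel_left] at this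
      _ = cv F₁ G₁ w + cv F₂ G₂ w := hs1.tsum_add hs2
  have hc1 := cv_summable hF₁ hG₁ hF₁0 hG₁0
  have hc2 := cv_summable hF₂ hG₂ hF₂0 hG₂0
  have hsum : Summable (fun w => cv F₁ G₁ w + cv F₂ G₂ w) := hc1.add hc2
  have hS : Summable (fun w => ‖(a * b) w‖ * ω w) :=
    Summable.of_nonneg_of_le (fun w => mul_nonneg (norm_nonneg _) (hω w)) hpt hsum
  refine ⟨hS, (hS.tsum_le_tsum hpt hsum).trans (le_of_eq ?_)⟩
  rw [hc1.tsum_add hc2, cv_tsum hF₁ hG₁ hF₁0 hG₁0, cv_tsum hF₂ hG₂ hF₂0 hG₂0]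

/-- all weighted sums are finite -/
def WP (v : G → ℝ) (a : L1 G R) : Prop := ∀ k : ℕ, Summable (fun x => ‖a x‖ * v x ^ k)

/-- the weighted norms -/
noncomputable def WN (v : G → ℝ) (k : ℕ) (a : L1 G R) : ℝ := ∑' x, ‖a x‖ * v x ^ k

lemma norm_apply_le (a : L1 G R) (x : G) : ‖a x‖ ≤ ‖a‖ := by
  rw [L1.norm_eq]
  exact a.summable.le_tsum x (fun _ _ => norm_nonneg _)

variable {v : G → ℝ}

lemma gauge_pos (hv : Gauge v) (x : G) : 0 < v x := lt_of_lt_of_le one_pos (hv.1 x)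

lemma gauge_const (hv : Gauge v) :
    ∃ K : ℝ, 0 < K ∧ (∀ x y, v (x * y) ≤ K * (v x + v y)) ∧
      ∀ x y, v (x * y) ≤ 2 * K * (v x * v y) := by
  obtain ⟨h1, K, hK⟩ := hv
  have hKpos : 0 < K := by
    by_contra hneg
    have hK0 : K ≤ 0 := not_lt.mp hneg
    have h2 := hK 1 1
    have h3 := h1 (1 * 1)
    have h4 := h1 1
    nlinarith
  refine ⟨K, hKpos, hK, fun x y => (hK x y).trans ?_⟩
  have hx := h1 x
  have hy := h1 y
  have : v x + v y ≤ 2 * (v x * v y) := by nlinarith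
  nlinarith

lemma wterm_nonneg (hv : Gauge v) (a : L1 G R) (k : ℕ) : 0 ≤ fun x => ‖a x‖ * v x ^ k :=
  fun x => mul_nonneg (norm_nonneg _) (pow_nonneg (gauge_pos hv x).le k)

lemma WP.one (_hv : Gauge v) : WP v (1 : L1 G R) := by
  classical
  intro k
  refine summable_of_ne_finset_zero (s := {1}) (fun x hx => ?_)
  rw [L1.one_apply, if_neg (by simpa using hx), norm_zero, zero_mul]

lemma WP.add (hv : Gauge v) {a b : L1 G R} (ha : WP v a) (hb : WP v b) : WP v (a + b) := by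
  intro k
  refine Summable.of_nonneg_of_le (wterm_nonneg hv _ k) (fun x => ?_) ((ha k).add (hb k))
  rw [L1.add_apply, ← add_mul]
  exact mul_le_mul_of_nonneg_right (norm_add_le _ _) (pow_nonneg (gauge_pos hv x).le k)

lemma WP.neg {a : L1 G R} (ha : WP v a) : WP v (-a) := by
  intro k
  simpa using ha k

lemma WP.mul (hv : Gauge v) {a b : L1 G R} (ha : WP v a) (hb : WP v b) : WP v (a * b) := by
  intro k
  obtain ⟨K, hK0, -, hK2⟩ := gauge_const hv
  refine (conv_bound a b (fun w => v w ^ k) (fun x => (2 * K) ^ k * (‖a x‖ * v x ^ k))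
    (fun y => ‖b y‖ * v y ^ k) 0 0 (fun w => pow_nonneg (gauge_pos hv w).le k)
    ((ha k).mul_left _) (hb k) summable_zero summable_zero
    (fun x => mul_nonneg (by positivity) (wterm_nonneg hv a k x)) (wterm_nonneg hv b k)
    le_rfl le_rfl (fun x y => ?_)).1
  have h1 : v (x * y) ^ k ≤ (2 * K * (v x * v y)) ^ k :=
    pow_le_pow_left₀ (gauge_pos hv _).le (hK2 x y) k
  have h2 : 0 ≤ ‖a x‖ * ‖b y‖ := mul_nonneg (norm_nonneg _) (norm_nonneg _)
  calc ‖a x‖ * ‖b y‖ * v (x * y) ^ k ≤ ‖a x‖ * ‖b y‖ * (2 * K * (v x * v y)) ^ k :=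
        mul_le_mul_of_nonneg_left h1 h2
    _ = (2 * K) ^ k * (‖a x‖ * v x ^ k) * (‖b y‖ * v y ^ k) + (0 : G → ℝ) x * (0 : G → ℝ) y := by
        simp only [Pi.zero_apply, mul_pow]
        ring

lemma WP.trunc (S : Finset G) (a : L1 G R) : WP v (L1.trunc S a) := by
  classical
  intro k
  refine summable_of_ne_finset_zero (s := S) (fun x hx => ?_)
  rw [L1.trunc_apply, if_neg hx, norm_zero, zero_mul]

lemma WP.newtonSeq (hv : Gauge v) {a : L1 G R} (ha : WP v a) (n : ℕ) : WP v (newtonSeq a n) := by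
  induction n with
  | zero => exact ha
  | succ n ih =>
    change WP v (newtonStep (Vale.Agent.P184.newtonSeq a n))
    unfold newtonStep
    refine WP.add hv ih (WP.mul hv ?_ ?_)
    · rw [sub_eq_add_neg]
      exact WP.add hv (WP.one hv) (WP.neg (WP.add hv ih ih))
    · rw [sub_eq_add_neg]
      exact WP.add hv (WP.mul hv ih ih) (WP.neg ih)

lemma WN_mul_le (hv : Gauge v) (k : ℕ) : ∃ c : ℝ, ∀ a b : L1 G R, WP v a → WP v b →
    WN v (k + 1) (a * b) ≤ c * (WN v (k + 1) a * WN v k b + WN v k a * WN v (k + 1) b) := by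
  obtain ⟨K, hK0, hK1, hK2⟩ := gauge_const hv
  refine ⟨K * (2 * K) ^ k, fun a b ha hb => ?_⟩
  set c := K * (2 * K) ^ k with hc
  have hc0 : 0 ≤ c := by positivity
  have := (conv_bound a b (fun w => v w ^ (k + 1)) (fun x => c * (‖a x‖ * v x ^ (k + 1)))
    (fun y => ‖b y‖ * v y ^ k) (fun x => c * (‖a x‖ * v x ^ k)) (fun y => ‖b y‖ * v y ^ (k + 1))
    (fun w => pow_nonneg (gauge_pos hv w).le _)
    ((ha _).mul_left _) (hb _) ((ha _).mul_left _) (hb _)
    (fun x => mul_nonneg hc0 (wterm_nonneg hv a _ x)) (wterm_nonneg hv b _)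
    (fun x => mul_nonneg hc0 (wterm_nonneg hv a _ x)) (wterm_nonneg hv b _) (fun x y => ?_)).2
  · refine this.trans (le_of_eq ?_)
    rw [tsum_mul_left, tsum_mul_left]
    unfold WN
    ring
  · have h1 : v (x * y) ^ k ≤ (2 * K * (v x * v y)) ^ k :=
      pow_le_pow_left₀ (gauge_pos hv _).le (hK2 x y) k
    have h2 : 0 ≤ ‖a x‖ * ‖b y‖ := mul_nonneg (norm_nonneg _) (norm_nonneg _)
    have hx := (gauge_pos hv x).le
    have hy := (gauge_pos hv y).le
    have h3 : v (x * y) ^ (k + 1) ≤ (2 * K * (v x * v y)) ^ k * (K * (v x + v y)) := by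
      rw [pow_succ]
      exact mul_le_mul h1 (hK1 x y) (gauge_pos hv _).le (by positivity)
    calc ‖a x‖ * ‖b y‖ * v (x * y) ^ (k + 1)
        ≤ ‖a x‖ * ‖b y‖ * ((2 * K * (v x * v y)) ^ k * (K * (v x + v y))) :=
          mul_le_mul_of_nonneg_left h3 h2
      _ = c * (‖a x‖ * v x ^ (k + 1)) * (‖b y‖ * v y ^ k) +
          c * (‖a x‖ * v x ^ k) * (‖b y‖ * v y ^ (k + 1)) := by
          rw [hc]
          simp only [mul_pow, pow_succ]
          ring

end weighted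

/-- The Newton sequence converges to an idempotent. -/
theorem exists_idem_limit {A : Type*} [NormedRing A] [CompleteSpace A] (h1 : ‖(1 : A)‖ ≤ 1)
    (a : A) (h : ‖a * a - a‖ ≤ 1 / 16) :
    ∃ p : A, Tendsto (newtonSeq a) atTop (𝓝 p) ∧ p * p = p ∧
      ‖p - a‖ ≤ 4 * (1 + 2 * ‖a‖) * ‖a * a - a‖ := by
  have inv := newtonSeq_invariant h1 a h
  set D := ‖a * a - a‖ with hD
  set M := 1 + 2 * ‖a‖ with hM
  have hD0 : 0 ≤ D := norm_nonneg _
  have hM1 : 1 ≤ M := by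
    have : 0 ≤ ‖a‖ := norm_nonneg _
    linarith
  have hMD0 : 0 ≤ M * D := mul_nonneg (by linarith) hD0
  have hc : CauchySeq (newtonSeq a) := by
    refine cauchySeq_of_le_geometric (1 / 4 : ℝ) (2 * (M * D)) (by norm_num) ?_
    intro n
    rw [dist_comm, dist_eq_norm]
    exact (inv n).2.2
  obtain ⟨p, hp⟩ := cauchySeq_tendsto_of_complete hc
  refine ⟨p, hp, ?_, ?_⟩
  · have t1 : Tendsto (fun k => newtonSeq a k * newtonSeq a k - newtonSeq a k) atTop
        (𝓝 (p * p - p)) := (hp.mul hp).sub hp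
    have t2 : Tendsto (fun k => newtonSeq a k * newtonSeq a k - newtonSeq a k) atTop
        (𝓝 0) := by
      refine squeeze_zero_norm (fun k => (inv k).1) ?_
      have : Tendsto (fun k : ℕ => D * (1 / 4 : ℝ) ^ k) atTop (𝓝 (D * 0)) :=
        (tendsto_pow_atTop_nhds_zero_of_lt_one (by norm_num) (by norm_num)).const_mul D
      simpa using this
    have := tendsto_nhds_unique t1 t2
    exact sub_eq_zero.mp this
  · have t3 : Tendsto (fun k => ‖newtonSeq a k - a‖) atTop (𝓝 ‖p - a‖) :=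
      (hp.sub_const a).norm
    refine le_of_tendsto t3 (Eventually.of_forall fun k => ?_)
    refine (inv k).2.1.trans ?_
    have hq0 : 0 < (1 / 4 : ℝ) ^ k := by positivity
    have : 8 / 3 * (M * D) * (1 - (1 / 4 : ℝ) ^ k) ≤ 8 / 3 * (M * D) * 1 :=
      mul_le_mul_of_nonneg_left (by linarith) (by positivity)
    nlinarith

lemma idem_identity {A : Type*} [Ring A] (a E : A) (hE : E * E = E) :
    a * a - a = (a - E) * a + E * (a - E) - (a - E) := by
  have : (a - E) * a + E * (a - E) - (a - E) = a * a - E * E - a + E := by noncomm_ring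
  rw [this, hE]
  abel

section smooth

variable {G : Type*} [Group G] {R : Type*} [NormedRing R] [CompleteSpace R] {v : G → ℝ}

lemma newton_WN_bounded (hv : Gauge v) (h1 : ‖(1 : L1 G R)‖ ≤ 1) (a : L1 G R) (haP : WP v a)
    (hδ : ‖a * a - a‖ ≤ 1 / 16) (d : ℕ) : ∃ B, ∀ n, WN v d (newtonSeq a n) ≤ B := by
  refine newton_bounded h1 (WP v) (WP.one hv) (fun _ _ => WP.add hv)
    (fun _ => WP.neg) (fun _ _ => WP.mul hv) (WN v) ?_ ?_ ?_ ?_ ?_ (WN_mul_le hv) a haP hδ d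
  · intro x
    unfold WN
    simp [L1.norm_eq]
  · exact fun k x => tsum_nonneg (wterm_nonneg hv x k)
  · exact fun k x hx => (hx k).tsum_le_tsum (fun y => mul_le_mul_of_nonneg_left
      (pow_le_pow_right₀ (hv.1 y) (Nat.le_succ k)) (norm_nonneg _)) (hx (k + 1))
  · intro k x y hx hy
    unfold WN
    rw [← (hx k).tsum_add (hy k)]
    refine (WP.add hv hx hy k).tsum_le_tsum (fun z => ?_) ((hx k).add (hy k))
    rw [L1.add_apply, ← add_mul]
    exact mul_le_mul_of_nonneg_right (norm_add_le _ _) (pow_nonneg (gauge_pos hv z).le k)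
  · intro k x
    unfold WN
    simp

theorem exists_smooth_close (hv : Gauge v) (hR : ‖(1 : R)‖ ≤ 1) (d : ℕ) (E : L1 G R)
    (hE : E * E = E) :
    ∃ p : L1 G R, p * p = p ∧ ‖p - E‖ < 1 ∧ Summable (fun x => ‖p x‖ * v x ^ d) := by
  classical
  have h1 : ‖(1 : L1 G R)‖ ≤ 1 := L1.norm_one_le.trans hR
  set N := ‖E‖ with hN
  have hN0 : 0 ≤ N := norm_nonneg _
  set M := 2 * N + 1 with hM
  have hM1 : 1 ≤ M := by linarith
  have hM2 : 0 < 16 * M ^ 2 := by positivity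
  obtain ⟨S, hS⟩ := L1.exists_trunc_close E (η := 1 / (16 * M ^ 2)) (by positivity)
  set a := L1.trunc S E with ha
  set η := ‖E - a‖ with hη
  have hη0 : 0 ≤ η := norm_nonneg _
  have hna : ‖a‖ ≤ N := L1.norm_trunc_le S E
  have hid : a * a - a = (a - E) * a + E * (a - E) - (a - E) := idem_identity a E hE
  have hae : ‖a - E‖ = η := by rw [hη, norm_sub_rev]
  have hdel : ‖a * a - a‖ ≤ η * M := by
    rw [hid]
    calc ‖(a - E) * a + E * (a - E) - (a - E)‖
        ≤ ‖(a - E) * a‖ + ‖E * (a - E)‖ + ‖a - E‖ :=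
          (norm_sub_le _ _).trans (add_le_add_left (norm_add_le _ _) _)
      _ ≤ η * N + N * η + η := by
          refine add_le_add (add_le_add ?_ ?_) hae.le
          · exact (norm_mul_le _ _).trans (by rw [hae]; exact mul_le_mul_of_nonneg_left hna hη0)
          · exact (norm_mul_le _ _).trans (by rw [hae])
      _ = η * M := by rw [hM]; ring
  have hηM : η * (16 * M ^ 2) < 1 := by
    have := hS
    rwa [lt_div_iff₀ hM2] at this
  have hδ : ‖a * a - a‖ ≤ 1 / 16 := by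
    refine hdel.trans ?_
    nlinarith
  obtain ⟨p, hlim, hp, hpa⟩ := exists_idem_limit h1 a hδ
  have hclose : ‖p - E‖ < 1 := by
    have h3 : p - E = (p - a) + (a - E) := by abel
    rw [h3]
    calc ‖(p - a) + (a - E)‖ ≤ ‖p - a‖ + ‖a - E‖ := norm_add_le _ _
      _ ≤ 4 * (1 + 2 * ‖a‖) * ‖a * a - a‖ + η := add_le_add hpa hae.le
      _ ≤ 4 * M * (η * M) + η := by
          have h5 : 1 + 2 * ‖a‖ ≤ M := by rw [hM]; linarith
          have h7 : 0 ≤ ‖a * a - a‖ := norm_nonneg _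
          have h8 : 0 ≤ 1 + 2 * ‖a‖ := by positivity
          nlinarith [mul_le_mul h5 hdel h7 (by linarith : (0:ℝ) ≤ M)]
      _ < 1 := by nlinarith
  have haP : WP v a := WP.trunc S E
  obtain ⟨B, hB⟩ := newton_WN_bounded hv h1 a haP hδ d
  have hpt : ∀ x, Tendsto (fun n => ‖newtonSeq a n x‖ * v x ^ d) atTop (𝓝 (‖p x‖ * v x ^ d)) := by
    intro x
    have hx : Tendsto (fun n => newtonSeq a n x) atTop (𝓝 (p x)) := by
      rw [tendsto_iff_norm_sub_tendsto_zero]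
      have h0 : Tendsto (fun n => ‖newtonSeq a n - p‖) atTop (𝓝 0) :=
        tendsto_iff_norm_sub_tendsto_zero.mp hlim
      refine squeeze_zero (fun _ => norm_nonneg _) (fun n => ?_) h0
      have := norm_apply_le (newtonSeq a n - p) x
      rwa [L1.sub_apply] at this
    exact hx.norm.mul_const _
  refine ⟨p, hp, hclose, ?_⟩
  refine summable_of_sum_le (c := B) (wterm_nonneg hv p d) (fun T => ?_)
  have ht : Tendsto (fun n => ∑ x ∈ T, ‖newtonSeq a n x‖ * v x ^ d) atTop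
      (𝓝 (∑ x ∈ T, ‖p x‖ * v x ^ d)) := tendsto_finsetSum T (fun x _ => hpt x)
  refine le_of_tendsto ht (Eventually.of_forall fun n => ?_)
  exact ((WP.newtonSeq hv haP n d).sum_le_tsum T
    (fun x _ => wterm_nonneg hv (newtonSeq a n) d x)).trans (hB n)

end smooth

variable {G : Type*} [Group G] {q : ℕ}

lemma carrier_conj_inv' (C : ConjClasses G) (c x : G) (hc : c ∈ C.carrier) :
    x⁻¹ * c * x ∈ C.carrier := by
  rw [ConjClasses.mem_carrier_iff_mk_eq] at hc ⊢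
  rw [← hc]
  apply ConjClasses.mk_eq_mk_iff_isConj.mpr
  exact (isConj_iff.mpr ⟨x, by group⟩)

/-- (SM) Every idempotent matrix over `ℓ¹(G)` can be replaced, without changing its
Hattori-Stallings trace, by one which is summable against `v ^ d`. -/
theorem exists_smooth_idem {v : G → ℝ} (hv : Gauge v) (d : ℕ) {e : Fin q → Fin q → G → ℂ}
    (he : IsIdem e) :
    ∃ e' : Fin q → Fin q → G → ℂ, IsIdem e' ∧ Summable (fun x => ‖toMat e' x‖ * v x ^ d) ∧
      ∀ C : ConjClasses G, hs e' C = hs e C := by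
  obtain ⟨p, hp, hclose, hsm⟩ :=
    exists_smooth_close hv mat_norm_one_le d (toL1 e he) (toL1_idem e he)
  refine ⟨ofL1 p, isIdem_ofL1 hp, ?_, fun C => ?_⟩
  · simpa only [toMat_ofL1] using hsm
  · rw [hs_eq_ctr (ofL1 p) (isIdem_ofL1 hp) C, toL1_ofL1 hp, hs_eq_ctr e he C]
    exact L1.ctr_eq_of_close (traceL (q := q)) (fun a b => Matrix.trace_mul_comm a b)
      (fun x => x ∈ C.carrier) (fun c x hc => carrier_conj_inv' C c x hc) hp (toL1_idem e he)
      hclose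

end Vale.Agent.P184.PN
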