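import Vale.Agent.P184.PN.SumsBasic

/-!
# Contraction of two neighbouring variables (row MM)
-/

set_option linter.unusedSectionVars false

namespace Vale.Agent.P184.PN

open scoped BigOperators Matrix.Norms.Operator

variable {G : Type*} [Group G] {q : ℕ} {v : G → ℝ} {d : ℕ} {E : G → Matrix (Fin q) (Fin q) ℂ}

lemma gauge_mul_pow_le (hv : Gauge v) :
    ∃ C : ℝ, 0 ≤ C ∧ ∀ x y, v (x * y) ^ d ≤ C * (v x ^ d * v y ^ d) := by
  obtain ⟨h1, K, hK⟩ := hv
  have hK0 : 0 ≤ K := by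
    by_contra hneg
    rw [not_le] at hneg
    have h2 := hK 1 1
    have h3 := h1 (1 * 1)
    have h4 := h1 (1 : G)
    nlinarith
  refine ⟨(2 * K) ^ d, by positivity, fun x y => ?_⟩
  have hx := h1 x
  have hy := h1 y
  have h5 : v (x * y) ≤ (2 * K) * (v x * v y) := by
    refine (hK x y).trans ?_
    have : v x + v y ≤ 2 * (v x * v y) := by nlinarith
    calc K * (v x + v y) ≤ K * (2 * (v x * v y)) := mul_le_mul_of_nonneg_left this hK0
      _ = _ := by ring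
  calc v (x * y) ^ d ≤ ((2 * K) * (v x * v y)) ^ d :=
        pow_le_pow_left₀ (by linarith [h1 (x * y)]) h5 d
    _ = _ := by simp only [mul_pow]

section gen

variable {R : Type*} [NormedRing R] [CompleteSpace R] {A : G → R}

lemma summable_norm_gen (hv : Gauge v) (hA : Summable fun x => ‖A x‖ * v x ^ d) :
    Summable fun x => ‖A x‖ := by
  refine Summable.of_nonneg_of_le (fun x => norm_nonneg _) (fun x => ?_) hA
  have : 1 ≤ v x ^ d := one_le_pow₀ (hv.1 x)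
  nlinarith [norm_nonneg (A x)]

lemma summable_mul_gen (hv : Gauge v) (hA : Summable fun x => ‖A x‖ * v x ^ d) :
    Summable (fun p : G × G => A p.1 * A p.2) := by
  have hn := summable_norm_gen hv hA
  have hn0 : ∀ x, 0 ≤ ‖A x‖ := fun x => norm_nonneg _
  refine Summable.of_norm_bounded (g := fun p : G × G => ‖A p.1‖ * ‖A p.2‖)
    (hn.mul_of_nonneg hn hn0 hn0) ?_
  intro p
  exact norm_mul_le _ _

/-- a family bounded by the weight, multiplied by `A x * A y`, is summable over `G × G` -/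
lemma summable_mul_mul_gen (hv : Gauge v) (hA : Summable fun x => ‖A x‖ * v x ^ d)
    {H : G → R} {B : ℝ} (hB : 0 ≤ B) (hH : ∀ w, ‖H w‖ ≤ B * v w ^ d) :
    Summable (fun p : G × G => A p.1 * (A p.2 * H (p.1 * p.2))) := by
  obtain ⟨C, hC0, hC⟩ := gauge_mul_pow_le (d := d) hv
  have hv0 : ∀ x, 0 ≤ v x ^ d := fun x => pow_nonneg (by linarith [hv.1 x]) d
  have hm0 : ∀ x, 0 ≤ ‖A x‖ * v x ^ d := fun x => mul_nonneg (norm_nonneg _) (hv0 _)
  refine Summable.of_norm_bounded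
    (g := fun p : G × G => ((‖A p.1‖ * v p.1 ^ d) * (‖A p.2‖ * v p.2 ^ d)) * (B * C))
    ((hA.mul_of_nonneg hA hm0 hm0).mul_right _) ?_
  intro p
  have h1 : ‖A p.1 * (A p.2 * H (p.1 * p.2))‖ ≤ ‖A p.1‖ * (‖A p.2‖ * ‖H (p.1 * p.2)‖) :=
    (norm_mul_le _ _).trans (mul_le_mul_of_nonneg_left (norm_mul_le _ _) (norm_nonneg _))
  have h2 : ‖H (p.1 * p.2)‖ ≤ B * (C * (v p.1 ^ d * v p.2 ^ d)) :=
    (hH _).trans (mul_le_mul_of_nonneg_left (hC _ _) hB)
  calc ‖A p.1 * (A p.2 * H (p.1 * p.2))‖ ≤ ‖A p.1‖ * (‖A p.2‖ * ‖H (p.1 * p.2)‖) := h1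
    _ ≤ ‖A p.1‖ * (‖A p.2‖ * (B * (C * (v p.1 ^ d * v p.2 ^ d)))) :=
        mul_le_mul_of_nonneg_left (mul_le_mul_of_nonneg_left h2 (norm_nonneg _)) (norm_nonneg _)
    _ = _ := by ring

lemma summable_mul_fiber_gen (hv : Gauge v) (hA : Summable fun x => ‖A x‖ * v x ^ d)
    {H : G → R} {B : ℝ} (hB : 0 ≤ B) (hH : ∀ w, ‖H w‖ ≤ B * v w ^ d) (x : G) :
    Summable (fun y => A y * H (x * y)) := by
  obtain ⟨C, hC0, hC⟩ := gauge_mul_pow_le (d := d) hv
  refine Summable.of_norm_bounded (g := fun y => (‖A y‖ * v y ^ d) * (B * C * v x ^ d))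
    (hA.mul_right _) ?_
  intro y
  have h2 : ‖H (x * y)‖ ≤ B * (C * (v x ^ d * v y ^ d)) :=
    (hH _).trans (mul_le_mul_of_nonneg_left (hC _ _) hB)
  calc ‖A y * H (x * y)‖ ≤ ‖A y‖ * ‖H (x * y)‖ := norm_mul_le _ _
    _ ≤ ‖A y‖ * (B * (C * (v x ^ d * v y ^ d))) := mul_le_mul_of_nonneg_left h2 (norm_nonneg _)
    _ = _ := by ring

/-- the abstract shear identity -/
lemma tsum_shear_gen (hv : Gauge v) (hA : Summable fun x => ‖A x‖ * v x ^ d)
    (hid : ∀ w, ∑' x, A x * A (x⁻¹ * w) = A w)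
    {H : G → R} {B : ℝ} (hB : 0 ≤ B) (hH : ∀ w, ‖H w‖ ≤ B * v w ^ d) :
    ∑' x, A x * ∑' y, A y * H (x * y) = ∑' w, A w * H w := by
  have hs := summable_mul_mul_gen hv hA hB hH
  have hAA := summable_mul_gen hv hA
  set Φ : G × G → R := fun p => A p.1 * (A p.2 * H (p.1 * p.2)) with hΦ
  have h1 : ∑' w, ∑' x, Φ (x, x⁻¹ * w) = ∑' x, ∑' y, Φ (x, y) := by
    rw [tsum_shear hs, hs.tsum_prod]
  have h2 : ∑' x, A x * ∑' y, A y * H (x * y) = ∑' x, ∑' y, Φ (x, y) := by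
    refine tsum_congr (fun x => ?_)
    exact (Summable.tsum_mul_left (A x) (summable_mul_fiber_gen hv hA hB hH x)).symm
  rw [h2, ← h1]
  refine tsum_congr (fun w => ?_)
  have h3 := (summable_shear_fiber hAA w).tsum_mul_right (H w)
  rw [← hid w]
  refine Eq.trans ?_ h3
  refine tsum_congr (fun x => ?_)
  simp only [hΦ, mul_inv_cancel_left, mul_assoc]

end gen

lemma exists_norm_bm_cons_le (hv : Gauge v) (hE : Summable fun x => ‖E x‖ * v x ^ d)
    {F : List G → ℂ} (hF : Adm v d F) (n : ℕ) :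
    ∃ B : ℝ, 0 ≤ B ∧ ∀ w, ‖bm E n (fun l => F (w :: l))‖ ≤ B * v w ^ d := by
  obtain ⟨K, hK⟩ := hF
  have hK0 : 0 ≤ K := by
    have := hK []
    simp only [wt, List.map_nil, List.prod_nil, mul_one] at this
    exact (norm_nonneg _).trans this
  have hv0 : ∀ x, 0 ≤ v x ^ d := fun x => pow_nonneg (by linarith [hv.1 x]) d
  have hS0 : 0 ≤ ∑' g : Fin n → G, ∏ i, (‖E (g i)‖ * v (g i) ^ d) :=
    tsum_nonneg (fun g => Finset.prod_nonneg (fun i _ => mul_nonneg (norm_nonneg _) (hv0 _)))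
  refine ⟨K * ∑' g : Fin n → G, ∏ i, (‖E (g i)‖ * v (g i) ^ d), mul_nonneg hK0 hS0, fun w => ?_⟩
  have := norm_bm_le hv hE (F := fun l => F (w :: l)) (K := K * v w ^ d) (fun l => by
    rw [mul_assoc, ← wt_cons]
    exact hK _) n
  refine this.trans (le_of_eq ?_)
  ring

lemma tsum_shear_mat (hv : Gauge v) (hE : Summable fun x => ‖E x‖ * v x ^ d)
    (hid : ∀ w, ∑' x, E x * E (x⁻¹ * w) = E w)
    {H : G → Matrix (Fin q) (Fin q) ℂ} {B : ℝ} (hB : 0 ≤ B) (hH : ∀ w, ‖H w‖ ≤ B * v w ^ d) :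
    ∑' x, E x * ∑' y, E y * H (x * y) = ∑' w, E w * H w :=
  tsum_shear_gen hv hE hid hB hH

/-- (MM0) Contraction of the first two variables.  By `bm_succ` twice the left side is
`∑' x, E x * ∑' y, E y * bm E n (fun l => F ((x * y) :: l))`.  The family
`(x, y) ↦ E x * E y * bm E n (fun l => F ((x * y) :: l))` is summable over `G × G`
(`norm_bm_le` gives `‖bm E n (fun l => F (w :: l))‖ ≤ K S v w ^ d` and
`v (x y) ^ d ≤ (2 K') ^ d v x ^ d v y ^ d`), so `tsum_shear` (file `Kernel`) rewrites the sum as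
`∑' w, (∑' x, E x * E (x⁻¹ * w)) * bm E n (fun l => F (w :: l))`, which by `hid` and `bm_succ` is
the right side. -/
theorem bm_mrg_zero (hv : Gauge v) (hE : Summable fun x => ‖E x‖ * v x ^ d)
    (hid : ∀ w, ∑' x, E x * E (x⁻¹ * w) = E w) {F : List G → ℂ} (hF : Adm v d F) (n : ℕ) :
    bm E (n + 2) (fun l => F (mrg 0 l)) = bm E (n + 1) F := by
  obtain ⟨B, hB0, hB⟩ := exists_norm_bm_cons_le hv hE hF n
  have key : ∑' x, E x * ∑' y, E y * bm E n (fun l => F ((x * y) :: l)) =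
      ∑' w, E w * bm E n (fun l => F (w :: l)) :=
    tsum_shear_mat (H := fun w => bm E n (fun l => F (w :: l))) hv hE hid hB0 hB
  rw [bm_succ hv hE hF n, ← key, bm_succ hv hE (hF.mrg hv 0) (n + 1)]
  refine tsum_congr (fun x => ?_)
  rw [bm_succ hv hE ((hF.mrg hv 0).cons hv x) n]
  simp only [mrg]

/-- (MM) Contraction of the variables number `i`, `i + 1`.  Induction on `i` (generalizing `n`,
`F`): for `i + 1` use `bm_succ`, `bm_congr` with `mrg (i+1) (x :: l) = x :: mrg i l` for `l` of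
length `≥ 1`, the induction hypothesis for `fun l => F (x :: l)` (`Adm.cons`), and `bm_succ`
again. -/
theorem bm_mrg (hv : Gauge v) (hE : Summable fun x => ‖E x‖ * v x ^ d)
    (hid : ∀ w, ∑' x, E x * E (x⁻¹ * w) = E w) {F : List G → ℂ} (hF : Adm v d F) (n i : ℕ)
    (hi : i ≤ n) : bm E (n + 2) (fun l => F (mrg i l)) = bm E (n + 1) F := by
  induction i generalizing n F with
  | zero => exact bm_mrg_zero hv hE hid hF n
  | succ i ih =>
    obtain ⟨m, rfl⟩ : ∃ m, n = m + 1 := ⟨n - 1, by omega⟩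
    rw [bm_succ hv hE (hF.mrg hv (i + 1)) (m + 1 + 1), bm_succ hv hE hF (m + 1)]
    refine tsum_congr (fun x => ?_)
    congr 1
    rw [← ih (hF.cons hv x) m (by omega)]
    refine bm_congr _ (fun l hl => ?_)
    cases l with
    | nil => simp at hl
    | cons y l => rfl

theorem br_mrg (hv : Gauge v) (hE : Summable fun x => ‖E x‖ * v x ^ d)
    (hid : ∀ w, ∑' x, E x * E (x⁻¹ * w) = E w) {F : List G → ℂ} (hF : Adm v d F) (n i : ℕ)
    (hi : i ≤ n) : br E (n + 2) (fun l => F (mrg i l)) = br E (n + 1) F := by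
  rw [br_eq_trace_bm hv hE (hF.mrg hv i), br_eq_trace_bm hv hE hF, bm_mrg hv hE hid hF n i hi]

end Vale.Agent.P184.PN
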