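import Vale.Agent.P184.PN.SumsBasic

/-!
# Cyclic invariance of the multiple sums (row MR)
-/

set_option linter.unusedSectionVars false

namespace Vale.Agent.P184.PN

open scoped BigOperators Matrix.Norms.Operator

variable {G : Type*} [Group G] {q : ℕ} {E : G → Matrix (Fin q) (Fin q) ℂ}

lemma trace_pE_rotate_one (l : List G) :
    Matrix.trace (pE E (l.rotate 1)) = Matrix.trace (pE E l) := by
  cases l with
  | nil => simp
  | cons x l' =>
    rw [List.rotate_cons_succ, List.rotate_zero]
    simp only [pE, List.map_append, List.map_cons, List.map_nil, List.prod_append,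
      List.prod_cons, List.prod_nil, mul_one]
    rw [Matrix.trace_mul_comm]

/-- the trace of the ordered product is invariant under rotation (`l = x :: l'`,
`List.rotate_cons_succ`, `List.prod_append`, `Matrix.trace_mul_comm`; then induction on `i` with
`List.rotate_rotate`). -/
lemma trace_pE_rotate (l : List G) (i : ℕ) :
    Matrix.trace (pE E (l.rotate i)) = Matrix.trace (pE E l) := by
  induction i with
  | zero => simp
  | succ i ih =>
    rw [← List.rotate_rotate, trace_pE_rotate_one, ih]

lemma ofFn_comp_finRotate (n : ℕ) (g : Fin n → G) :
    List.ofFn (g ∘ finRotate n) = (List.ofFn g).rotate 1 := by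
  cases n with
  | zero => simp
  | succ m =>
    apply List.ext_getElem
    · simp
    · intro k h1 h2
      rw [List.getElem_rotate]
      simp only [List.getElem_ofFn, Function.comp_apply, List.length_ofFn]
      congr 1
      apply Fin.ext
      rw [finRotate_apply, Fin.val_add]
      simp

lemma br_rotate_one (F : List G → ℂ) (n : ℕ) :
    br E n (fun l => F (l.rotate 1)) = br E n F := by
  let σ : (Fin n → G) ≃ (Fin n → G) := (finRotate n).symm.arrowCongr (Equiv.refl G)
  have hσ : ∀ g, σ g = g ∘ finRotate n := by
    intro g
    funext i
    simp [σ, Equiv.arrowCongr]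
  have h := Equiv.tsum_eq σ (fun g => F (List.ofFn g) * Matrix.trace (pE E (List.ofFn g)))
  unfold br
  rw [← h]
  refine tsum_congr (fun g => ?_)
  rw [hσ, ofFn_comp_finRotate, trace_pE_rotate_one]

/-- (MR) No summability is needed: the map `g ↦ g ∘ (· + 1)` (composition with `finRotate`) is a
bijection `σ` of `Fin n → G` with `List.ofFn (σ g) = (List.ofFn g).rotate 1`; use
`Equiv.tsum_eq` and `trace_pE_rotate`; then induction on `i`. -/
theorem br_rotate (F : List G → ℂ) (n i : ℕ) :
    br E n (fun l => F (l.rotate i)) = br E n F := by
  induction i generalizing F with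
  | zero => simp
  | succ i ih =>
    have h1 : (fun l : List G => F (l.rotate (i + 1))) =
        fun l => (fun l' : List G => F (l'.rotate 1)) (l.rotate i) := by
      funext l
      simp only [List.rotate_rotate]
    rw [h1]
    exact (ih (fun l' => F (l'.rotate 1))).trans (br_rotate_one F n)

end Vale.Agent.P184.PN
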