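import Vale.Agent.P184.PN.ListFacts
import Vale.Agent.P184.PN.SumsMrg
import Vale.Agent.P184.PN.SumsRot
import Vale.Agent.P184.PN.Smooth

/-!
# The pairing argument: `PolyNil g → Van g` (rows PA, PB, PC)
-/

set_option linter.unusedSectionVars false

namespace Vale.Agent.P184.PN

open scoped BigOperators Matrix.Norms.Operator

variable {G : Type*} [Group G] {q : ℕ}

open Classical in
/-- the conditions of `PolyNilW`, for all finite sequences -/
structure Prim (g : G) (v : G → ℝ) (d k : ℕ) (ψ : List G → ℂ) : Prop where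
  adm : Adm v d ψ
  nrm : ∀ x l, (1 : G) ∈ l → ψ (x :: l) = 0
  fin : ∀ l, k ≤ l.length → ψ l = 0
  deg0 : ∀ x, ψ [1, x] = if IsConj g x then 1 else 0
  degS : ∀ l, 2 ≤ l.length → hb ψ l + cB ψ l = 0

open Classical in
/-- (PA) Replace `ψ` by `fun l => if IsConj g l.prod then ψ l else 0`.  All sequences occurring in
`hb ψ l` and `cB ψ l` have a product conjugate to `l.prod` (`prod_mrg`, `isConj_prod_rotate_iff`,
`List.prod_cons`, `one_mul`), so for `l.prod` not conjugate to `g` all terms vanish.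
(The hypothesis `Gauge v` is needed for `Adm`: the weights have to be nonnegative.) -/
theorem exists_prim {g : G} {v : G → ℝ} (hv : Gauge v) (H : PolyNilW v g) :
    ∃ (d k : ℕ) (ψ : List G → ℂ), Prim g v d k ψ := by
  obtain ⟨K, d, k, ψ, h1, h2, h3, h4, h5⟩ := H
  set ψ' : List G → ℂ := fun l => if IsConj g l.prod then ψ l else 0 with hψ'
  have hpos : ∀ l, IsConj g l.prod → ψ' l = ψ l := fun l h => if_pos h
  have hneg : ∀ l, ¬ IsConj g l.prod → ψ' l = 0 := fun l h => if_neg h
  have hc1 : ∀ l : List G, ∀ i, IsConj g (mrg i l).prod ↔ IsConj g l.prod := by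
    intro l i; rw [prod_mrg]
  have hc2 : ∀ l : List G, ∀ j, IsConj g (mrg 0 (l.rotate j)).prod ↔ IsConj g l.prod := by
    intro l j; rw [prod_mrg, isConj_prod_rotate_iff]
  have hc3 : ∀ l : List G, ∀ i, IsConj g ((1 : G) :: l.rotate i).prod ↔ IsConj g l.prod := by
    intro l i; rw [List.prod_cons, one_mul, isConj_prod_rotate_iff]
  refine ⟨d, k, ψ', ⟨max K 0, ?_⟩, ?_, ?_, ?_, ?_⟩
  · intro l
    have hw : 0 ≤ wt v d l := wt_nonneg hv l
    by_cases h : IsConj g l.prod
    · rw [hpos l h]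
      calc ‖ψ l‖ ≤ K * wt v d l := h1 l h
        _ ≤ max K 0 * wt v d l := mul_le_mul_of_nonneg_right (le_max_left _ _) hw
    · rw [hneg l h, norm_zero]
      exact mul_nonneg (le_max_right _ _) hw
  · intro x l hl
    by_cases h : IsConj g (x :: l).prod
    · rw [hpos _ h]; exact h2 x l h hl
    · exact hneg _ h
  · intro l hl
    by_cases h : IsConj g l.prod
    · rw [hpos _ h]; exact h3 l hl
    · exact hneg _ h
  · intro x
    have hx : ([1, x] : List G).prod = x := by simp
    by_cases h : IsConj g x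
    · rw [hpos _ (by rw [hx]; exact h), if_pos h]; exact h4 x h
    · rw [hneg _ (by rw [hx]; exact h), if_neg h]
  · intro l hl
    by_cases h : IsConj g l.prod
    · have e1 : hb ψ' l = hb ψ l := by
        unfold hb
        rw [hpos _ ((hc2 l _).2 h)]
        congr 1
        exact Finset.sum_congr rfl (fun i _ => by rw [hpos _ ((hc1 l i).2 h)])
      have e2 : cB ψ' l = cB ψ l := by
        unfold cB
        exact Finset.sum_congr rfl (fun i _ => by rw [hpos _ ((hc3 l i).2 h)])
      rw [e1, e2]; exact h5 l hl h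
    · have e1 : hb ψ' l = 0 := by
        unfold hb
        rw [hneg _ (fun h' => h ((hc2 l _).1 h')), mul_zero, add_zero]
        exact Finset.sum_eq_zero (fun i _ => by
          rw [hneg _ (fun h' => h ((hc1 l i).1 h')), mul_zero])
      have e2 : cB ψ' l = 0 := by
        unfold cB
        exact Finset.sum_eq_zero (fun i _ => by
          rw [hneg _ (fun h' => h ((hc3 l i).1 h')), mul_zero])
      rw [e1, e2, add_zero]

section

variable {g : G} {v : G → ℝ} {d k : ℕ} {ψ : List G → ℂ} {E : G → Matrix (Fin q) (Fin q) ℂ}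

lemma sum_neg_one_pow_even (m : ℕ) (hm : Even m) :
    ∑ i ∈ Finset.range m, (-1 : ℂ) ^ i = 0 := by
  obtain ⟨r, rfl⟩ := hm
  induction r with
  | zero => simp
  | succ r ih =>
    have e : r + 1 + (r + 1) = (r + r) + 1 + 1 := by ring
    rw [e, Finset.sum_range_succ, Finset.sum_range_succ, ih]
    have h1 : (-1 : ℂ) ^ (r + r) = 1 := Even.neg_one_pow ⟨r, rfl⟩
    rw [pow_succ, h1]
    ring

lemma sum_neg_one_pow_odd (m : ℕ) (hm : Odd m) :
    ∑ i ∈ Finset.range m, (-1 : ℂ) ^ i = 1 := by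
  obtain ⟨r, rfl⟩ := hm
  rw [Finset.sum_range_succ, sum_neg_one_pow_even _ (even_two_mul r)]
  rw [Even.neg_one_pow (even_two_mul r)]
  ring

/-- first relation -/
lemma u_rec_one (hP : Prim g v d k ψ) (hv : Gauge v) (hE : Summable fun x => ‖E x‖ * v x ^ d)
    (hid : ∀ w, ∑' x, E x * E (x⁻¹ * w) = E w) (n : ℕ) (hn : Odd n) :
    br E (n + 1) ψ + ((n : ℂ) + 2) * br E (n + 2) (fun l => ψ (1 :: l)) = 0 := by
  have hev : Even (n + 1) := hn.add_one
  have hA := hP.adm
  have hA1 : Adm v d (fun l => ψ (1 :: l)) := hA.cons hv 1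
  -- the two pieces
  have a1 : ∀ i ∈ Finset.range (n + 1), Adm v d (fun l => (-1 : ℂ) ^ i * ψ (mrg i l)) :=
    fun i _ => (hA.mrg hv i).const_mul _
  have a2 : Adm v d (fun l => (-1 : ℂ) ^ (n + 1) * ψ (mrg 0 (l.rotate (n + 1)))) :=
    (Adm.rotate (F := fun l => ψ (mrg 0 l)) (hA.mrg hv 0) (n + 1)).const_mul _
  have a3 : ∀ i ∈ Finset.range (n + 2),
      Adm v d (fun l => (-1 : ℂ) ^ ((n + 1) * i) * ψ (1 :: l.rotate i)) :=
    fun i _ => (Adm.rotate (F := fun l => ψ (1 :: l)) hA1 i).const_mul _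
  have key : br E (n + 2) (fun l =>
      ((∑ i ∈ Finset.range (n + 1), (-1 : ℂ) ^ i * ψ (mrg i l)) +
        (-1 : ℂ) ^ (n + 1) * ψ (mrg 0 (l.rotate (n + 1)))) +
      ∑ i ∈ Finset.range (n + 2), (-1 : ℂ) ^ ((n + 1) * i) * ψ (1 :: l.rotate i)) = 0 := by
    rw [← br_zero (E := E) (n + 2)]
    refine br_congr _ (fun l hl => ?_)
    have := hP.degS l (by omega)
    unfold hb cB at this
    rw [hl] at this
    simpa using this
  rw [br_add hv hE ((Adm.sum _ a1).add a2) (Adm.sum _ a3), br_add hv hE (Adm.sum _ a1) a2,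
    br_sum hv hE _ a1, br_sum hv hE _ a3] at key
  have e1 : ∀ i ∈ Finset.range (n + 1), br E (n + 2) (fun l => (-1 : ℂ) ^ i * ψ (mrg i l)) =
      (-1 : ℂ) ^ i * br E (n + 1) ψ := by
    intro i hi
    rw [br_const_mul, br_mrg hv hE hid hA n i (by simpa [Nat.lt_succ_iff] using hi)]
  have e2 : br E (n + 2) (fun l => (-1 : ℂ) ^ (n + 1) * ψ (mrg 0 (l.rotate (n + 1)))) =
      br E (n + 1) ψ := by
    rw [br_const_mul, br_rotate (fun l => ψ (mrg 0 l)), br_mrg hv hE hid hA n 0 (Nat.zero_le _),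
      hev.neg_one_pow, one_mul]
  have e3 : ∀ i ∈ Finset.range (n + 2),
      br E (n + 2) (fun l => (-1 : ℂ) ^ ((n + 1) * i) * ψ (1 :: l.rotate i)) =
      br E (n + 2) (fun l => ψ (1 :: l)) := by
    intro i _
    rw [br_const_mul, br_rotate (fun l => ψ (1 :: l)), (hev.mul_right i).neg_one_pow, one_mul]
  rw [Finset.sum_congr rfl e1, Finset.sum_congr rfl e3, e2, ← Finset.sum_mul,
    sum_neg_one_pow_even _ hev, Finset.sum_const, Finset.card_range] at key
  rw [← key]
  simp only [nsmul_eq_mul]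
  push_cast
  ring

/-- second relation -/
lemma u_rec_two (hP : Prim g v d k ψ) (hv : Gauge v) (hE : Summable fun x => ‖E x‖ * v x ^ d)
    (hid : ∀ w, ∑' x, E x * E (x⁻¹ * w) = E w) (n : ℕ) (hn : Odd n) :
    2 * br E (n + 1) ψ - br E n (fun l => ψ (1 :: l)) = 0 := by
  have hev : Even (n + 1) := hn.add_one
  have hA := hP.adm
  have hA1 : Adm v d (fun l => ψ (1 :: l)) := hA.cons hv 1
  obtain ⟨m, rfl⟩ : ∃ m, n = m + 1 := ⟨n - 1, by have := hn.pos; omega⟩
  have a1 : ∀ j ∈ Finset.range (m + 1),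
      Adm v d (fun l => (-1 : ℂ) ^ (j + 1) * ψ (1 :: mrg j l)) :=
    fun j _ => (Adm.mrg (F := fun l => ψ (1 :: l)) hv hA1 j).const_mul _
  have a2 : Adm v d (fun l => (-1 : ℂ) ^ (m + 1 + 1) * ψ (l.rotate (m + 1))) :=
    (hA.rotate (m + 1)).const_mul _
  have key : br E (m + 1 + 1) (fun l =>
      ((∑ j ∈ Finset.range (m + 1), (-1 : ℂ) ^ (j + 1) * ψ (1 :: mrg j l)) + ψ l) +
        (-1 : ℂ) ^ (m + 1 + 1) * ψ (l.rotate (m + 1))) = 0 := by
    rw [← br_zero (E := E) (m + 1 + 1)]
    refine br_congr _ (fun l hl => ?_)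
    have hne : l ≠ [] := by
      intro h
      rw [h] at hl
      simp at hl
    have := hP.degS (1 :: l) (by simp [hl])
    have hc : cB ψ (1 :: l) = 0 := by
      unfold cB
      refine Finset.sum_eq_zero (fun i _ => ?_)
      rw [hP.nrm 1 _ (List.mem_rotate.2 (List.mem_cons_self)), mul_zero]
    rw [hc, add_zero] at this
    unfold hb at this
    have hlen : (1 :: l).length - 1 = m + 1 + 1 := by simp [hl]
    rw [hlen, Finset.sum_range_succ'] at this
    rw [← this]
    have h0 : mrg 0 (1 :: l) = l := mrg_zero_one_cons l hne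
    have hlast : mrg 0 ((1 :: l).rotate (m + 1 + 1)) = l.rotate (m + 1) := by
      have := mrg_zero_rotate_one_cons l hne
      rw [hl] at this
      simpa using this
    rw [h0, hlast]
    congr 1
    congr 1
    · refine Finset.sum_congr rfl (fun j _ => ?_)
      rw [mrg_succ_cons j 1 l hne]
    · simp
  rw [br_add hv hE ((Adm.sum _ a1).add hA) a2, br_add hv hE (Adm.sum _ a1) hA,
    br_sum hv hE _ a1] at key
  have e1 : ∀ j ∈ Finset.range (m + 1),
      br E (m + 1 + 1) (fun l => (-1 : ℂ) ^ (j + 1) * ψ (1 :: mrg j l)) =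
      (-1 : ℂ) ^ j * (- br E (m + 1) (fun l => ψ (1 :: l))) := by
    intro j hj
    rw [br_const_mul, br_mrg hv hE hid hA1 m j (by simpa [Nat.lt_succ_iff] using hj)]
    ring
  have e2 : br E (m + 1 + 1) (fun l => (-1 : ℂ) ^ (m + 1 + 1) * ψ (l.rotate (m + 1))) =
      br E (m + 1 + 1) ψ := by
    rw [br_const_mul, br_rotate ψ, hev.neg_one_pow, one_mul]
  rw [Finset.sum_congr rfl e1, e2, ← Finset.sum_mul, sum_neg_one_pow_odd _ hn] at key
  rw [← key]
  ring

/-- (PB) The recursion, from the two relations `u_rec_one` (sum `degS` over sequences of length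
`n + 2`) and `u_rec_two` (sum `degS` at `1 :: l` over sequences `l` of length `n + 1`). -/
theorem u_rec (hP : Prim g v d k ψ) (hv : Gauge v) (hE : Summable fun x => ‖E x‖ * v x ^ d)
    (hid : ∀ w, ∑' x, E x * E (x⁻¹ * w) = E w) (n : ℕ) (hn : Odd n) :
    br E n (fun l => ψ (1 :: l)) = -2 * ((n : ℂ) + 2) * br E (n + 2) (fun l => ψ (1 :: l)) := by
  have h1 := u_rec_one hP hv hE hid n hn
  have h2 := u_rec_two hP hv hE hid n hn
  linear_combination 2 * h1 - h2

/-- (PC1) Downward induction from `fin`: `br E n (fun l => ψ (1 :: l)) = 0` for all odd `n`. -/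
theorem u_zero (hP : Prim g v d k ψ) (hv : Gauge v) (hE : Summable fun x => ‖E x‖ * v x ^ d)
    (hid : ∀ w, ∑' x, E x * E (x⁻¹ * w) = E w) (n : ℕ) (hn : Odd n) :
    br E n (fun l => ψ (1 :: l)) = 0 := by
  have key : ∀ j n : ℕ, Odd n → k ≤ n + 2 * j → br E n (fun l => ψ (1 :: l)) = 0 := by
    intro j
    induction j with
    | zero =>
      intro n _ hk
      have h0 : ∀ l : List G, l.length = n → (fun l => ψ (1 :: l)) l = (fun _ => (0 : ℂ)) l := by
        intro l hl
        refine hP.fin _ ?_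
        rw [List.length_cons, hl]
        omega
      rw [br_congr n h0]
      exact br_zero n
    | succ j ih =>
      intro n hn hk
      rw [u_rec hP hv hE hid n hn, ih (n + 2) (hn.add_even even_two) (by omega), mul_zero]
  exact key k n hn (by omega)

end

end Vale.Agent.P184.PN

namespace Vale.Agent.P184

open PN

/-- (PC2) The criterion.  Take `v`, `ψ`, `d` from `exists_prim`, replace `e` by `e'` from
`exists_smooth_idem`, put `E = toMat e'` (`toMat_idem`).  By `u_zero` for `n = 1`, `br_one` and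
`deg0`: `∑' x, (if IsConj g x then 1 else 0) * trace (E x) = 0`, which is `hs e' (mk g)`
(compare `hs_eq_ctr`, `L1.ctr_eq`). -/
theorem PolyNil.van {G : Type*} [Group G] {g : G} (H : PolyNil g) : Van g := by
  obtain ⟨v, hv, hW⟩ := H
  obtain ⟨d, k, ψ, hP⟩ := exists_prim hv hW
  intro q e he
  obtain ⟨e', he', hsum, hhs⟩ := exists_smooth_idem hv d he
  rw [← hhs]
  have h0 := u_zero (E := toMat e') hP hv hsum (toMat_idem he') 1 odd_one
  rw [br_one] at h0
  simp only [hP.deg0] at h0
  unfold hs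
  have hsub := tsum_subtype (ConjClasses.mk g).carrier (fun x => ∑ i, e' i i x)
  refine hsub.trans (Eq.trans (tsum_congr (fun x => ?_)) h0)
  have htr : Matrix.trace (toMat e' x) = ∑ i, e' i i x := by
    simp [toMat, Matrix.trace]
  have hiff : x ∈ (ConjClasses.mk g).carrier ↔ IsConj g x := by
    rw [ConjClasses.mem_carrier_iff_mk_eq, ConjClasses.mk_eq_mk_iff_isConj]
    exact isConj_comm
  by_cases hx : IsConj g x
  · rw [Set.indicator_of_mem (hiff.mpr hx), if_pos hx, one_mul, htr]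
  · rw [Set.indicator_of_notMem (fun h => hx (hiff.mp h)), if_neg hx, zero_mul]

theorem AllPolyNil.van {G : Type*} [Group G] (h : AllPolyNil G) (g : G)
    (hg : ¬ IsOfFinOrder g) : Van g := (h g hg).van

end Vale.Agent.P184
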