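import Vale.Agent.P184.PN.YX

/-!
# The cochains attached to an antisymmetric function of two points (rows V1 - V9)

For `α : X → X → ℝ` antisymmetric and points `p₀, …, pₙ` consider on the affine simplex with these
vertices the form `η = ∑ α(p_u, p_v) t_u dt_v`.  Then (up to factors) `PsiC α j` is the integral
of `η ∧ (dη)^j` (`n = 2 j + 1`) and `Wc α j` the integral of ` (dη)^j` (`n = 2 j`).
-/

namespace Vale.Agent.P184.PN

open scoped BigOperators

variable {X : Type*} (α : X → X → ℝ)

/-- the canonical families on the set of positions -/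
def canA (pts : List X) : Fin pts.length → Fin pts.length → ℝ :=
  fun u p => - α (pts.get p) (pts.get u)

def canB (n : ℕ) : Fin n → Fin n → ℝ := fun u p => if p = u then 1 else 0

noncomputable def PsiC (j : ℕ) (pts : List X) : ℝ :=
  YX (canA α pts) (canB pts.length) (fun _ => 0) j (List.finRange pts.length)

noncomputable def Wc (j : ℕ) (pts : List X) : ℝ :=
  OmX (canA α pts) (canB pts.length) j [] (List.finRange pts.length)

lemma PsiC_cast (j : ℕ) (pts : List X) (n : ℕ) (hn : pts.length = n) :
    PsiC α j pts = YX (fun u p : Fin n => - α (pts.get (p.cast hn.symm)) (pts.get (u.cast hn.symm)))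
      (canB n) (fun _ => 0) j (List.finRange n) := by
  subst hn; rfl

lemma Wc_cast (j : ℕ) (pts : List X) (n : ℕ) (hn : pts.length = n) :
    Wc α j pts = OmX (fun u p : Fin n => - α (pts.get (p.cast hn.symm)) (pts.get (u.cast hn.symm)))
      (canB n) j [] (List.finRange n) := by
  subst hn; rfl

/-- (V1) First show, for `pts` and `hn : pts.length = n`, by `subst hn; rfl`, that
`PsiC α j pts = YX (fun u p : Fin n => - α (pts.get (p.cast hn.symm)) (pts.get (u.cast hn.symm)))
(canB n) (fun _ => 0) j (List.finRange n)`. -/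
lemma PsiC_ofFn (n : ℕ) (f : Fin n → X) (j : ℕ) :
    PsiC α j ((List.finRange n).map f) =
      YX (fun u p : Fin n => - α (f p) (f u)) (canB n) (fun _ => 0) j (List.finRange n) := by
  rw [PsiC_cast α j _ n (by simp)]
  simp

/-- (V1) -/
lemma Wc_ofFn (n : ℕ) (f : Fin n → X) (j : ℕ) :
    Wc α j ((List.finRange n).map f) =
      OmX (fun u p : Fin n => - α (f p) (f u)) (canB n) j [] (List.finRange n) := by
  rw [Wc_cast α j _ n (by simp)]
  simp

variable {α}

/-- (V1) -/
lemma Rz_can (hα : ∀ p q, α q p = - α p q) (n : ℕ) (f : Fin n → X) (u v : Fin n) :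
    Rz (fun u p : Fin n => - α (f p) (f u)) (canB n) (fun _ => 0) u v = α (f u) (f v) := by
  unfold Rz canB
  simp only [mul_ite, mul_one, mul_zero, Finset.sum_sub_distrib, Finset.sum_ite_eq, Finset.mem_univ,
    if_true]
  rw [hα (f u) (f v)]
  ring

/-- (V2) The realization lemma.  Let `n = L.length`, `ℓ = L.get`; then
`L = (List.finRange n).map ℓ` (`List.finRange_map_get`) and `L.map g = (List.finRange n).map (g ∘ ℓ)`.
By `YX_map`, `OmX_map` the left sides are `YX (A · ∘ ℓ) (B · ∘ ℓ) (ct ∘ ℓ) j (List.finRange n)`, …, the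
right sides are given by `PsiC_ofFn`, `Wc_ofFn`; conclude by `YX_gauge`, `OmX_gauge` on `Fin n`
(`Rz_can`; `Rz (A · ∘ ℓ) (B · ∘ ℓ) (ct ∘ ℓ) u v = Rz A B ct (ℓ u) (ℓ v)` by `rfl`). -/
theorem realize (hα : ∀ p q, α q p = - α p q) {Z ι : Type*} [Fintype ι] (g : Z → X) (L : List Z)
    (A B : ι → Z → ℝ) (ct : Z → ℝ)
    (h : ∀ z ∈ L, ∀ w ∈ L, Rz A B ct z w = α (g z) (g w)) (j : ℕ) :
    YX A B ct j L = PsiC α j (L.map g) ∧ OmX A B j [] L = Wc α j (L.map g) := by
  have hL : L = (List.finRange L.length).map L.get := (List.map_get_finRange L).symm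
  have hLg : L.map g = (List.finRange L.length).map (g ∘ L.get) := by
    conv_lhs => rw [hL]
    rw [List.map_map]
  have hR : ∀ u v : Fin L.length,
      Rz (fun i => A i ∘ L.get) (fun i => B i ∘ L.get) (ct ∘ L.get) u v =
      Rz (fun u p : Fin L.length => - α ((g ∘ L.get) p) ((g ∘ L.get) u)) (canB L.length)
        (fun _ => 0) u v := by
    intro u v
    rw [Rz_can hα]
    exact h _ (List.get_mem _ _) _ (List.get_mem _ _)
  constructor
  · rw [hLg, PsiC_ofFn]
    conv_lhs => rw [hL]
    rw [YX_map]
    exact YX_gauge _ _ _ _ _ _ hR j _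
  · rw [hLg, Wc_ofFn]
    conv_lhs => rw [hL]
    rw [OmX_map]
    exact OmX_gauge _ _ _ _ _ _ hR j _ _

lemma finRange_map_get_aux {Y : Type*} (l : List Y) :
    (List.finRange l.length).map l.get = l := by
  rw [← List.ofFn_eq_map, List.ofFn_get]

/-- (V3) Stokes.  Let `n = pts.length`, `L = List.finRange n`, `A = canA α pts`, `B = canB n`,
`ct = 0`.  By `realize` (with `g = pts.get`, and the lists `L.eraseIdx l`; `Rz_can`)
`YX A B ct j (L.eraseIdx l) = PsiC α j ((L.eraseIdx l).map pts.get) = PsiC α j (pts.eraseIdx l)`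
(`List.eraseIdx_map`, `List.finRange_map_get`).  Conclude by `YX_delta`. -/
lemma PsiC_delta (hα : ∀ p q, α q p = - α p q) (j : ℕ) (pts : List X)
    (h : pts.length = 2 * j + 3) :
    ∑ l ∈ Finset.range pts.length, (-1 : ℝ) ^ l * PsiC α j (pts.eraseIdx l) =
      -((-1) ^ j * Wc α (j + 1) pts) / (2 * j + 2) := by
  have key : ∀ l, YX (canA α pts) (canB pts.length) (fun _ => 0) j
      ((List.finRange pts.length).eraseIdx l) = PsiC α j (pts.eraseIdx l) := by
    intro l
    have h1 := (realize hα pts.get ((List.finRange pts.length).eraseIdx l)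
      (canA α pts) (canB pts.length) (fun _ => 0)
      (fun z _ w _ => Rz_can hα pts.length pts.get z w) j).1
    rw [h1, ← List.eraseIdx_map, finRange_map_get_aux]
  have h2 := YX_delta (canA α pts) (canB pts.length) (fun _ => 0) j (List.finRange pts.length)
    (by simpa using h)
  rw [List.length_finRange] at h2
  simp_rw [key] at h2
  exact h2

/-- (V4) invariance: `realize` with `Z = Fin pts.length`, `L = List.finRange _`,
`g' = g ∘ pts.get`, and the canonical families of `pts`. -/
lemma PsiC_map (hα : ∀ p q, α q p = - α p q) (g : X → X) (hg : ∀ p q, α (g p) (g q) = α p q)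
    (j : ℕ) (pts : List X) : PsiC α j (pts.map g) = PsiC α j pts := by
  have h := (realize hα (g ∘ pts.get) (List.finRange pts.length) (canA α pts) (canB pts.length)
    (fun _ => 0) (by
      intro u _ v _
      have := Rz_can hα pts.length pts.get u v
      simp only [Function.comp, hg]
      exact this) j).1
  rw [← List.map_map, List.map_get_finRange] at h
  exact h.symm

/-- (V4) If the functions `α (f' u) (f' v)` and `α (f u) (f v)` differ by `s v - s u` then `Wc` does
not change: the canonical families of `f` with `ct = s` realize `α (f' u) (f' v)`, and `OmX` does not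
involve `ct` (`realize`, `Wc_ofFn`). -/
lemma Wc_congr (hα : ∀ p q, α q p = - α p q) (j n : ℕ) (f f' : Fin n → X) (s : Fin n → ℝ)
    (h : ∀ u v, α (f' u) (f' v) = α (f u) (f v) + s v - s u) :
    Wc α j ((List.finRange n).map f') = Wc α j ((List.finRange n).map f) := by
  have h2 := (realize hα f' (List.finRange n) (fun u p : Fin n => - α (f p) (f u)) (canB n) s (by
      intro u _ v _
      have := Rz_can hα n f u v
      rw [h u v, ← this]
      unfold Rz
      ring) j).2
  rw [← h2, Wc_ofFn]

/-- (V5) two equal points.  Let `pts = l₁ ++ p :: p :: l₂`, `n = pts.length`, `a = l₁.length`,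
`π : Fin n → Fin n` the map with `π (a + 1) = a` and `π u = u` otherwise.  The families
`A u p = - α (pts.get p) (pts.get u)`, `B u p = if π p = u then 1 else 0`, `ct = 0` on `Fin n` satisfy
`∑ u, A u p * B u q = - α (pts.get p) (pts.get (π q)) = - α (pts.get p) (pts.get q)`, so they realize
`α`; all of them agree at the positions `a`, `a + 1`: `YX_rows_eq`, `realize`. -/
lemma PsiC_dup (hα : ∀ p q, α q p = - α p q) (j : ℕ) (l₁ l₂ : List X) (p : X) :
    PsiC α j (l₁ ++ p :: p :: l₂) = 0 := by
  classical
  set pts := l₁ ++ p :: p :: l₂ with hpts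
  have hlen : pts.length = l₁.length + l₂.length + 2 := by
    simp [hpts]; omega
  have ha : l₁.length < pts.length := by omega
  have ha1 : l₁.length + 1 < pts.length := by omega
  have hga : pts[l₁.length]'ha = p := by simp [hpts]
  have hga1 : pts[l₁.length + 1]'ha1 = p := by
    simp [hpts, List.getElem_append_right]
  let π : Fin pts.length → Fin pts.length :=
    fun u => if (u : ℕ) = l₁.length + 1 then ⟨l₁.length, ha⟩ else u
  have hπ : ∀ u, pts.get (π u) = pts.get u := by
    intro u
    by_cases hu : (u : ℕ) = l₁.length + 1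
    · simp only [π, if_pos hu, List.get_eq_getElem]
      rw [hga]
      have : pts[(u : ℕ)] = pts[l₁.length + 1]'ha1 := by congr 1
      rw [this, hga1]
    · simp only [π, if_neg hu]
  let A : Fin pts.length → Fin pts.length → ℝ := fun u q => - α (pts.get q) (pts.get u)
  let B : Fin pts.length → Fin pts.length → ℝ := fun u q => if π q = u then 1 else 0
  have hsum : ∀ z w, ∑ u, A u z * B u w = - α (pts.get z) (pts.get w) := by
    intro z w
    simp only [A, B, mul_ite, mul_one, mul_zero, Finset.sum_ite_eq, Finset.mem_univ, if_true, hπ]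
  have hRz : ∀ z w, Rz A B (fun _ => 0) z w = α (pts.get z) (pts.get w) := by
    intro z w
    unfold Rz
    rw [Finset.sum_sub_distrib, hsum, hsum, hα (pts.get z) (pts.get w)]
    ring
  have h1 := (realize hα pts.get (List.finRange pts.length) A B (fun _ => 0)
    (fun z _ w _ => hRz z w) j).1
  rw [finRange_map_get_aux] at h1
  rw [← h1]
  refine YX_rows_eq A B (fun _ => 0) j (List.finRange pts.length) l₁.length (l₁.length + 1)
    (Nat.lt_succ_self _) (by simpa using ha1) ?_ ?_ rfl
  · intro i
    simp only [A, List.getElem_finRange, List.get_eq_getElem, Fin.val_cast]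
    simp [hga, hga1]
  · intro i
    simp only [B, List.getElem_finRange]
    simp [π]

/-- (V6) The prism, first step.  Let `pts = p :: mid ++ [p']`, `n = pts.length`, `Z = Fin n`,
`last = n - 1`, `π last = 0`, `π u = u` otherwise, `ct last = t`, `ct u = 0` otherwise,
`ε u v = α (pts.get u) (pts.get v) - (ct v - ct u)`.  Then `ε` is antisymmetric and
`ε u v = ε u (π v)`: for `v = last`, `u ≠ last` this is `h`; for `u = v = last` use
`α p' p' = 0 = α p' p + t` (antisymmetry and `h p`).  The families `A a u = - ε u a`,
`B a u = if π u = a then 1 else 0` satisfy `∑ a, A a u * B a v = - ε u (π v) = - ε u v`, so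
`Rz A B ct u v = α (pts.get u) (pts.get v)`; moreover `A a last = A a 0`, `B a last = B a 0`,
`ct last = ct 0 + t`.  Write `List.finRange n = 0 :: M ++ [last]` and apply `YX_prism` and `realize`
(for the lists `0 :: M ++ [last]` and `0 :: M`). -/
lemma PsiC_prism_one (hα : ∀ p q, α q p = - α p q) (j : ℕ) (t : ℝ) (p p' : X) (mid : List X)
    (h : ∀ q ∈ p :: mid, α q p' = α q p + t) :
    PsiC α j (p :: mid ++ [p']) = (-1) ^ j * t * Wc α j (p :: mid) := by
  classical
  have h0 : ∀ x, α x x = 0 := fun x => by have := hα x x; linarith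
  let q : Fin (mid.length + 1) → X := fun u => (p :: mid).get u
  let e : Option (Fin (mid.length + 1)) → Fin (mid.length + 1) := fun z => z.getD 0
  let g : Option (Fin (mid.length + 1)) → X := fun z => z.elim p' q
  let A : Fin (mid.length + 1) → Option (Fin (mid.length + 1)) → ℝ := fun a z => - α (q (e z)) (q a)
  let B : Fin (mid.length + 1) → Option (Fin (mid.length + 1)) → ℝ :=
    fun a z => if e z = a then 1 else 0
  let ct : Option (Fin (mid.length + 1)) → ℝ := fun z => z.elim t (fun _ => 0)
  have hq0 : q 0 = p := rfl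
  have hqm : ∀ u, q u ∈ p :: mid := fun u => List.get_mem _ _
  have hR0 : ∀ z w, Rz A B ct z w = α (q (e z)) (q (e w)) + ct w - ct z := by
    intro z w
    have h1 : ∑ i, (A i z * B i w - A i w * B i z) = - α (q (e z)) (q (e w)) + α (q (e w)) (q (e z)) := by
      simp only [A, B, mul_ite, mul_one, mul_zero, Finset.sum_sub_distrib, Finset.sum_ite_eq,
        Finset.mem_univ, if_true]
      ring
    unfold Rz
    rw [h1, hα (q (e z)) (q (e w))]
    ring
  have hR : ∀ z w, Rz A B ct z w = α (g z) (g w) := by
    intro z w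
    rw [hR0]
    rcases z with _ | u <;> rcases w with _ | v
    · simp [e, g, ct, h0]
    · have := h (q v) (hqm v)
      have h2 := hα (q v) p'
      have h3 := hα (q v) p
      simp only [e, g, ct, Option.getD_none, Option.getD_some, Option.elim_none, Option.elim_some, hq0]
      linarith
    · have := h (q u) (hqm u)
      simp only [e, g, ct, Option.getD_none, Option.getD_some, Option.elim_none, Option.elim_some, hq0]
      linarith
    · simp [e, g, ct]
  have hfr : List.finRange (mid.length + 1) = 0 :: (List.finRange mid.length).map Fin.succ :=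
    List.finRange_succ
  set M : List (Option (Fin (mid.length + 1))) :=
    ((List.finRange mid.length).map Fin.succ).map some with hM
  have hL2 : (some 0 :: M).map g = p :: mid := by
    have : (some 0 :: M) = (List.finRange (mid.length + 1)).map some := by
      rw [hfr]; rfl
    rw [this, List.map_map]
    exact List.map_get_finRange (p :: mid)
  have hL1 : (some 0 :: M ++ [none]).map g = p :: mid ++ [p'] := by
    have : (some 0 :: M ++ [none]) = (some 0 :: M) ++ [none] := rfl
    rw [this, List.map_append, hL2]
    rfl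
  have r1 := (realize hα g (some 0 :: M ++ [none]) A B ct (fun z _ w _ => hR z w) j).1
  have r2 := (realize hα g (some 0 :: M) A B ct (fun z _ w _ => hR z w) j).2
  rw [hL1] at r1
  rw [hL2] at r2
  rw [← r1, ← r2]
  exact YX_prism A B ct j t (some 0) none M (fun i => rfl) (fun i => rfl) (by simp [ct])

/-- (V7) rotation: `realize` for the canonical families of `P` and the list
` (List.finRange _).rotate k` (`List.map_rotate`), `OmX_rotate`. -/
lemma Wc_rotate (hα : ∀ p q, α q p = - α p q) (j : ℕ) (P : List X) (h : Odd P.length) (k : ℕ) :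
    Wc α j (P.rotate k) = Wc α j P := by
  have hR : ∀ z ∈ (List.finRange P.length).rotate k, ∀ w ∈ (List.finRange P.length).rotate k,
      Rz (canA α P) (canB P.length) (fun _ => 0) z w = α (P.get z) (P.get w) := by
    intro z _ w _
    exact Rz_can hα P.length P.get z w
  have h1 := (realize hα P.get ((List.finRange P.length).rotate k) (canA α P) (canB P.length)
    (fun _ => 0) hR j).2
  rw [List.map_rotate, List.map_get_finRange] at h1
  rw [← h1, OmX_rotate _ _ _ _ _ (by simpa using h)]
  rfl

lemma Wc_shift_aux (hα : ∀ p q, α q p = - α p q) (x : X → X) (hx : ∀ p q, α p (x q) = α p q + 1)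
    (j : ℕ) (D T : List X) : Wc α j (D ++ T.map x) = Wc α j (D ++ T) := by
  set f : Fin (D ++ T).length → X := (D ++ T).get with hf
  set f' : Fin (D ++ T).length → X := fun u => if (u : ℕ) < D.length then f u else x (f u) with hf'
  set s : Fin (D ++ T).length → ℝ := fun u => if (u : ℕ) < D.length then 0 else 1 with hs
  have hx' : ∀ p q, α (x p) q = α p q - 1 := by
    intro p q
    rw [hα q (x p), hx, hα p q]; ring
  have hrel : ∀ u v, α (f' u) (f' v) = α (f u) (f v) + s v - s u := by
    intro u v
    simp only [hf', hs]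
    by_cases hu : (u : ℕ) < D.length <;> by_cases hv : (v : ℕ) < D.length <;>
      simp [hu, hv, hx, hx']
  have h1 := Wc_congr hα j (D ++ T).length f f' s hrel
  have e1 : (List.finRange (D ++ T).length).map f = D ++ T := List.map_get_finRange _
  have e2 : (List.finRange (D ++ T).length).map f' = D ++ T.map x := by
    apply List.ext_getElem
    · simp
    · intro i h1 h2
      simp only [List.getElem_map, List.getElem_finRange, hf', hf, List.get_eq_getElem,
        Fin.val_cast]
      by_cases hi : i < D.length
      · simp [hi, List.getElem_append_left]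
      · simp [hi, List.getElem_append_right (not_lt.1 hi)]
  rw [e1, e2] at h1
  exact h1

/-- (V7) `P.rotate k = P.drop k ++ P.take k`; `Wc_congr` with `s u = 0` for `u < P.length - k` and
`s u = 1` otherwise; `α (x p) q = α p q - 1`, `α (x p) (x q) = α p q` by antisymmetry. -/
lemma Wc_shift (hα : ∀ p q, α q p = - α p q) (x : X → X) (hx : ∀ p q, α p (x q) = α p q + 1)
    (j : ℕ) (P : List X) (k : ℕ) (hk : k ≤ P.length) :
    Wc α j (P.drop k ++ (P.take k).map x) = Wc α j (P.rotate k) := by
  rw [List.rotate_eq_drop_append_take hk]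
  exact Wc_shift_aux hα x hx j _ _

/-- (V8) The prism.  As in `HeisM.Y_prism`: the list is `p :: mid ++ [x p]` with `p = P[k]`,
`p :: mid = P.drop k ++ (P.take k).map x`.  `PsiC_prism_one` (`t = 1`), `Wc_shift`, `Wc_rotate`. -/
lemma PsiC_prism (hα : ∀ p q, α q p = - α p q) (x : X → X) (hx : ∀ p q, α p (x q) = α p q + 1)
    (j : ℕ) (P : List X) (h : P.length = 2 * j + 1) (k : ℕ) (hk : k < P.length) :
    PsiC α j (P.drop k ++ (P.take (k + 1)).map x) = (-1) ^ j * Wc α j P := by
  have h1 : P.drop k = P[k] :: P.drop (k + 1) := List.drop_eq_getElem_cons hk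
  have h2 : P.take (k + 1) = P.take k ++ [P[k]] := by
    rw [List.take_succ_eq_append_getElem hk]
  have h3 : P.drop k ++ (P.take (k + 1)).map x =
      P[k] :: (P.drop (k + 1) ++ (P.take k).map x) ++ [x P[k]] := by
    rw [h1, h2, List.map_append, List.map_singleton, List.cons_append, List.cons_append,
      List.append_assoc]
  have h4 : P[k] :: (P.drop (k + 1) ++ (P.take k).map x) = P.drop k ++ (P.take k).map x := by
    rw [h1, List.cons_append]
  rw [h3, PsiC_prism_one hα j 1 P[k] (x P[k]) _ (fun q _ => hx q P[k]), h4,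
    Wc_shift hα x hx j P k hk.le, Wc_rotate hα j P (by rw [h]; exact ⟨j, rfl⟩) k]
  ring

/-- (V9) `PsiC_prism_one` with `mid = []`, `t = α p q`; `Wc α 0 [p] = 1`. -/
lemma PsiC_zero_pair (hα : ∀ p q, α q p = - α p q) (p q : X) : PsiC α 0 [p, q] = α p q := by
  have hpp : α p p = 0 := by
    have := hα p p
    linarith
  have h1 := PsiC_prism_one hα 0 (α p q) p q [] (by
    intro q' hq'
    rw [List.mem_singleton.1 hq', hpp, zero_add])
  have hL : ∀ {Y : Type} (y : Y), LDet [] [y] = 1 := by
    intro Y y
    unfold LDet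
    rw [if_pos (by simp)]
    show (LMat [] [y] : Matrix (Fin 1) (Fin 1) ℝ).det = 1
    rw [Matrix.det_fin_one]
    simp [LMat]
  have hW : Wc α 0 [p] = 1 := hL (0 : Fin 1)
  simp only [List.cons_append, List.nil_append] at h1
  rw [h1, hW]
  simp

/-- (V9) wrong length (`OmX_length`) -/
lemma PsiC_length (j : ℕ) (pts : List X) (h : pts.length ≠ 2 * j + 2) : PsiC α j pts = 0 := by
  have h0 : ∀ c : Fin pts.length → ℝ,
      OmX (canA α pts) (canB pts.length) j [c] (List.finRange pts.length) = 0 := by
    intro c
    refine OmX_length _ _ j [c] _ ?_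
    simp only [List.length_finRange, List.length_cons, List.length_nil]
    omega
  unfold PsiC YX
  simp [h0]

/-- (V9) bound (`abs_YX_le`) -/
lemma abs_PsiC_le (j : ℕ) (pts : List X) (M : ℝ) (hM : 1 ≤ M)
    (h : ∀ p ∈ pts, ∀ q ∈ pts, |α p q| ≤ M) :
    |PsiC α j pts| ≤ (1 + pts.length) *
      ((pts.length : ℝ) ^ j * ((pts.length).factorial * M ^ (pts.length + 1))) := by
  have h1 := abs_YX_le (canA α pts) (canB pts.length) (fun _ => 0) j
    (List.finRange pts.length) M hM
    (by
      intro i p _
      simp only [canA, abs_neg]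
      exact h _ (List.get_mem _ _) _ (List.get_mem _ _))
    (by
      intro i p _
      simp only [canB]
      split_ifs
      · simpa using hM
      · simpa using (zero_le_one.trans hM))
    (by
      intro p _
      simpa using (zero_le_one.trans hM))
  simpa [PsiC, Fintype.card_fin, List.length_finRange] using h1

/-- (V9) finite rank: if `α p q = ∑ i, (a i p * b i q - a i q * b i p) / 2` then `Wc α j = 0` for
`j > card ι` (`realize` with `g = id`, `A = - a`, `B = b`, `ct = 0`; `OmX_eq_zero`). -/
lemma Wc_eq_zero_of_rank {ι : Type*} [Fintype ι] (a b : ι → X → ℝ)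
    (h : ∀ p q, α p q = (∑ i, (a i p * b i q - a i q * b i p)) / 2) (j : ℕ)
    (hj : Fintype.card ι < j) (pts : List X) : Wc α j pts = 0 := by
  have hα : ∀ p q, α q p = - α p q := by
    intro p q
    rw [h q p, h p q, ← neg_div, ← Finset.sum_neg_distrib]
    congr 1
    refine Finset.sum_congr rfl fun i _ => ?_
    ring
  have h1 := (realize hα (id : X → X) pts (fun i => - a i) b (fun _ => 0) (by
    intro z _ w _
    simp only [Rz, id, Pi.neg_apply, h z w, sub_self, zero_sub, ← neg_div,
      ← Finset.sum_neg_distrib]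
    congr 1
    refine Finset.sum_congr rfl fun i _ => ?_
    ring) j).2
  rw [List.map_id] at h1
  rw [← h1]
  exact OmX_eq_zero _ _ j hj [] pts

end Vale.Agent.P184.PN
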