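import Vale.Agent.P184.PN.ListFacts

/-!
# Pulling cochains back along a cocycle (rows LA, LB, LC)
-/

namespace Vale.Agent.P184.PN

variable {G Λ : Type*} [Group G] [Group Λ]

/-- transport of a finite sequence along `A`: the entry `x` is replaced by `A s x`, where `s` is
the current state, and the state becomes `x⁻¹ s x` -/
def tr (A : G → G → Λ) : G → List G → List Λ
  | _, [] => []
  | s, x :: l => A s x :: tr A (x⁻¹ * s * x) l

section

variable {a : G} {A : G → G → Λ}

lemma isConj_conj_iff (a s x : G) : IsConj a (x⁻¹ * s * x) ↔ IsConj a s := by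
  have h : IsConj s (x⁻¹ * s * x) := isConj_iff.2 ⟨x⁻¹, by simp⟩
  exact ⟨fun h' => h'.trans h.symm, fun h' => h'.trans h⟩

lemma tr_length (s : G) (l : List G) : (tr A s l).length = l.length := by
  induction l generalizing s with
  | nil => rfl
  | cons x l ih => simp [tr, ih]

lemma A_one (hcoc : ∀ s, IsConj a s → ∀ x y, A s (x * y) = A s x * A (x⁻¹ * s * x) y)
    {s : G} (hs : IsConj a s) : A s 1 = 1 := by
  have h := hcoc s hs 1 1
  simpa using h

lemma tr_one_cons (hcoc : ∀ s, IsConj a s → ∀ x y, A s (x * y) = A s x * A (x⁻¹ * s * x) y)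
    {s : G} (hs : IsConj a s) (l : List G) : tr A s (1 :: l) = 1 :: tr A s l := by
  simp [tr, A_one hcoc hs]

lemma one_mem_tr (hcoc : ∀ s, IsConj a s → ∀ x y, A s (x * y) = A s x * A (x⁻¹ * s * x) y)
    {s : G} (hs : IsConj a s) {l : List G} (h : (1 : G) ∈ l) : (1 : Λ) ∈ tr A s l := by
  induction l generalizing s with
  | nil => simp at h
  | cons x l ih =>
    rcases List.mem_cons.1 h with h1 | h1
    · subst h1
      rw [tr_one_cons hcoc hs]
      exact List.mem_cons_self
    · exact List.mem_cons_of_mem _ (ih ((isConj_conj_iff a s x).2 hs) h1)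

lemma tr_prod (hcoc : ∀ s, IsConj a s → ∀ x y, A s (x * y) = A s x * A (x⁻¹ * s * x) y)
    {s : G} (hs : IsConj a s) (l : List G) : (tr A s l).prod = A s l.prod := by
  induction l generalizing s with
  | nil => simp [tr, A_one hcoc hs]
  | cons x l ih =>
    simp only [tr, List.prod_cons]
    rw [ih ((isConj_conj_iff a s x).2 hs), hcoc s hs]

lemma tr_append (s : G) (l₁ l₂ : List G) :
    tr A s (l₁ ++ l₂) = tr A s l₁ ++ tr A (l₁.prod⁻¹ * s * l₁.prod) l₂ := by
  induction l₁ generalizing s with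
  | nil => simp [tr]
  | cons x l₁ ih =>
    simp only [List.cons_append, tr, List.prod_cons]
    rw [ih]
    have e : l₁.prod⁻¹ * (x⁻¹ * s * x) * l₁.prod = (x * l₁.prod)⁻¹ * s * (x * l₁.prod) := by
      group
    rw [e]

/-- induction on `i` and `l`, the cocycle identity and `(x y)⁻¹ s (x y) = y⁻¹ (x⁻¹ s x) y` -/
lemma tr_mrg (hcoc : ∀ s, IsConj a s → ∀ x y, A s (x * y) = A s x * A (x⁻¹ * s * x) y)
    {s : G} (hs : IsConj a s) (i : ℕ) (l : List G) : tr A s (mrg i l) = mrg i (tr A s l) := by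
  induction i generalizing s l with
  | zero =>
    match l with
    | [] => rfl
    | [x] => rfl
    | x :: y :: l =>
      simp only [mrg, tr]
      rw [hcoc s hs]
      have e : (x * y)⁻¹ * s * (x * y) = y⁻¹ * (x⁻¹ * s * x) * y := by group
      rw [e]
  | succ i ih =>
    match l with
    | [] => rfl
    | [x] => rfl
    | x :: y :: l =>
      have h := ih ((isConj_conj_iff a s x).2 hs) (y :: l)
      simp only [mrg, tr] at h ⊢
      rw [h]

/-- With `l = l₁ ++ l₂`, `l.rotate i = l₂ ++ l₁` (`List.rotate_eq_drop_append_take_mod`): the state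
of `l₂ ++ l₁` is `(l₂ ++ l₁).prod = l₁.prod⁻¹ * l.prod * l₁.prod`, and after `l₂` it is
`l₂.prod⁻¹ * (l₂.prod * l₁.prod) * l₂.prod = l.prod`; use `tr_append` twice. -/
lemma tr_rotate (l : List G) (i : ℕ) :
    tr A (l.rotate i).prod (l.rotate i) = (tr A l.prod l).rotate i := by
  have key : ∀ l₁ l₂ : List G,
      tr A ((l₁ ++ l₂).rotate l₁.length).prod ((l₁ ++ l₂).rotate l₁.length) =
        (tr A (l₁ ++ l₂).prod (l₁ ++ l₂)).rotate l₁.length := by
    intro l₁ l₂
    rw [List.rotate_append_length_eq, tr_append, tr_append]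
    have e : l₁.length = (tr A (l₁ ++ l₂).prod l₁).length := (tr_length _ _).symm
    have e2 : (tr A (l₁ ++ l₂).prod l₁ ++
        tr A (l₁.prod⁻¹ * (l₁ ++ l₂).prod * l₁.prod) l₂).rotate l₁.length =
        tr A (l₁.prod⁻¹ * (l₁ ++ l₂).prod * l₁.prod) l₂ ++ tr A (l₁ ++ l₂).prod l₁ := by
      conv_lhs => rw [e]
      exact List.rotate_append_length_eq _ _
    rw [e2]
    have s1 : (l₂ ++ l₁).prod = l₁.prod⁻¹ * (l₁ ++ l₂).prod * l₁.prod := by
      simp only [List.prod_append]
      group
    have s2 : l₂.prod⁻¹ * (l₂ ++ l₁).prod * l₂.prod = (l₁ ++ l₂).prod := by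
      simp only [List.prod_append]
      group
    rw [s2, s1]
  rcases eq_or_ne l [] with rfl | hl
  · simp [tr]
  · have hpos : 0 < l.length := List.length_pos_iff.2 hl
    have hn : i % l.length < l.length := Nat.mod_lt _ hpos
    have h1 : l.rotate i = l.rotate (i % l.length) := (List.rotate_mod l i).symm
    have h2 : (tr A l.prod l).rotate i = (tr A l.prod l).rotate (i % l.length) := by
      have := (List.rotate_mod (tr A l.prod l) i).symm
      rwa [tr_length] at this
    rw [h1, h2]
    have hk := key (l.take (i % l.length)) (l.drop (i % l.length))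
    have hlen : (l.take (i % l.length)).length = i % l.length := by
      rw [List.length_take]
      omega
    rw [List.take_append_drop, hlen] at hk
    exact hk

/-- (LB) `hb` and `cB` commute with the transport. -/
lemma hb_tr (hcoc : ∀ s, IsConj a s → ∀ x y, A s (x * y) = A s x * A (x⁻¹ * s * x) y)
    (ψ : List Λ → ℂ) (l : List G) (hl : IsConj a l.prod) :
    hb (fun m : List G => ψ (tr A m.prod m)) l = hb ψ (tr A l.prod l) := by
  unfold hb
  rw [tr_length]
  congr 1
  · refine Finset.sum_congr rfl (fun i _ => ?_)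
    beta_reduce
    rw [prod_mrg, tr_mrg hcoc hl]
  · beta_reduce
    rw [prod_mrg, tr_mrg hcoc ((isConj_prod_rotate_iff a l _).2 hl), tr_rotate]

lemma cB_tr (hcoc : ∀ s, IsConj a s → ∀ x y, A s (x * y) = A s x * A (x⁻¹ * s * x) y)
    (ψ : List Λ → ℂ) (l : List G) (hl : IsConj a l.prod) :
    cB (fun m : List G => ψ (tr A m.prod m)) l = cB ψ (tr A l.prod l) := by
  unfold cB
  rw [tr_length]
  refine Finset.sum_congr rfl (fun i _ => ?_)
  have e : ((1 : G) :: l.rotate i).prod = (l.rotate i).prod := by simp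
  beta_reduce
  rw [e, tr_one_cons hcoc ((isConj_prod_rotate_iff a l _).2 hl), tr_rotate]

end

/-- `v l.prod ≤ v 1 (2 K) ^ l.length ∏ v`. -/
lemma exists_gauge_prod_le {v : G → ℝ} (hv : Gauge v) : ∃ C : ℝ, 1 ≤ C ∧ ∀ l : List G,
    v l.prod ≤ C ^ (l.length + 1) * (l.map v).prod := by
  obtain ⟨h1, K, hK⟩ := hv
  refine ⟨max (v 1) (max 1 (2 * K)), le_trans (le_max_left _ _) (le_max_right _ _), ?_⟩
  set C : ℝ := max (v 1) (max 1 (2 * K)) with hC
  have hC1 : 1 ≤ C := le_trans (le_max_left _ _) (le_max_right _ _)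
  have hCK : 2 * K ≤ C := le_trans (le_max_right _ _) (le_max_right _ _)
  intro l
  induction l with
  | nil =>
    have h0 : v 1 ≤ C := le_max_left (v 1) (max 1 (2 * K))
    simpa using h0
  | cons x l ih =>
    have hx := h1 x
    have hp := h1 l.prod
    have h2 : v (x * l.prod) ≤ C * (v x * v l.prod) := by
      have h3 := hK x l.prod
      have h4 : v x + v l.prod ≤ 2 * (v x * v l.prod) := by nlinarith
      have h5 : K * (v x + v l.prod) ≤ C / 2 * (v x + v l.prod) :=
        mul_le_mul_of_nonneg_right (by linarith) (by linarith)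
      have h6 : C / 2 * (v x + v l.prod) ≤ C / 2 * (2 * (v x * v l.prod)) :=
        mul_le_mul_of_nonneg_left h4 (by linarith)
      linarith
    have h7 : C * (v x * v l.prod) ≤ C * (v x * (C ^ (l.length + 1) * (l.map v).prod)) :=
      mul_le_mul_of_nonneg_left (mul_le_mul_of_nonneg_left ih (by linarith)) (by linarith)
    simp only [List.prod_cons, List.length_cons, List.map_cons]
    calc v (x * l.prod) ≤ C * (v x * (C ^ (l.length + 1) * (l.map v).prod)) := h2.trans h7
      _ = C ^ (l.length + 1 + 1) * (v x * (l.map v).prod) := by ring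

/-- every entry of a transported sequence is `A s' x` with `x` an entry and `s'` the state -/
lemma mem_tr_iff_aux {G Λ : Type*} [Group G] {A : G → G → Λ} {y : Λ} : ∀ (l : List G) (s : G), y ∈ tr A s l →
    ∃ (l₁ : List G) (x : G) (l₂ : List G), l = l₁ ++ x :: l₂ ∧
      y = A (l₁.prod⁻¹ * s * l₁.prod) x := by
  intro l
  induction l with
  | nil => intro s h; simp [tr] at h
  | cons x l ih =>
    intro s h
    rw [tr, List.mem_cons] at h
    rcases h with h | h
    · exact ⟨[], x, l, rfl, by simpa using h⟩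
    · obtain ⟨l₁, z, l₂, rfl, hy⟩ := ih _ h
      refine ⟨x :: l₁, z, l₂, rfl, ?_⟩
      rw [hy, List.prod_cons]
      congr 1
      group

lemma one_le_prod_map {α : Type*} {v : α → ℝ} (h1 : ∀ x, 1 ≤ v x) (l : List α) :
    1 ≤ (l.map v).prod := by
  induction l with
  | nil => simp
  | cons x l ih =>
    simp only [List.map_cons, List.prod_cons]
    exact one_le_mul_of_one_le_of_one_le (h1 x) ih

lemma prod_map_le_pow {α : Type*} {f : α → ℝ} {M : ℝ} (hM : 1 ≤ M) : ∀ (l : List α) (k : ℕ),
    (∀ y ∈ l, 0 ≤ f y ∧ f y ≤ M) → l.length ≤ k → (l.map f).prod ≤ M ^ k := by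
  intro l
  induction l with
  | nil => intro k _ _; simpa using one_le_pow₀ hM
  | cons x l ih =>
    intro k h hk
    obtain ⟨k, rfl⟩ : ∃ j, k = j + 1 := ⟨k - 1, by simp only [List.length_cons] at hk; omega⟩
    have h1 := ih k (fun y hy => h y (List.mem_cons_of_mem _ hy))
      (by simp only [List.length_cons] at hk; omega)
    have h2 := h x List.mem_cons_self
    simp only [List.map_cons, List.prod_cons]
    calc f x * (l.map f).prod ≤ M * M ^ k :=
          mul_le_mul h2.2 h1 (List.prod_nonneg (by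
            intro a ha
            obtain ⟨y, hy, rfl⟩ := List.mem_map.mp ha
            exact (h y (List.mem_cons_of_mem _ hy)).1)) (by linarith)
      _ = M ^ (k + 1) := by ring

lemma prod_map_pow_eq {α : Type*} (v : α → ℝ) (n : ℕ) (l : List α) :
    (l.map fun x => v x ^ n).prod = (l.map v).prod ^ n := by
  induction l with
  | nil => simp
  | cons x l ih => simp only [List.map_cons, List.prod_cons, ih, mul_pow]

/-- (LC) Growth.  All states occurring in `tr A l.prod l` are products of rotations of `l`, hence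
have `vG ≤ W := C ^ (k+1) ∏ vG` (`exists_gauge_prod_le`); each entry `x` of `l` has `vG x ≤ ∏ vG`.
So every entry of the transported sequence has `vΛ ≤ K W ^ (2 r)`, and there are fewer than `k` of
them.  It is convenient to prove first, by induction on `l₂`, the statement for
`tr A (l₁.prod⁻¹ * (l₁ ++ l₂).prod * l₁.prod) l₂`. -/
lemma exists_wt_tr_le {a : G} {A : G → G → Λ} {vΛ : Λ → ℝ} {vG : G → ℝ} (hvΛ : Gauge vΛ)
    (hvG : Gauge vG)
    (hgr : ∃ (K : ℝ) (r : ℕ), ∀ s, IsConj a s → ∀ x, vΛ (A s x) ≤ K * (vG s * vG x) ^ r)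
    (d k : ℕ) : ∃ (K' : ℝ) (d' : ℕ), 0 ≤ K' ∧ ∀ l : List G, l.length < k → IsConj a l.prod →
      ((tr A l.prod l).map fun x => vΛ x ^ d).prod ≤ K' * (l.map fun x => vG x ^ d').prod := by
  obtain ⟨K, r, hK⟩ := hgr
  obtain ⟨C, hC1, hC⟩ := exists_gauge_prod_le hvG
  have hG1 := hvG.1
  have hΛ1 := hvΛ.1
  set K₁ : ℝ := max K 1 with hK₁
  have hK₁1 : 1 ≤ K₁ := le_max_right _ _
  have hC0 : 0 ≤ C := by linarith
  refine ⟨(K₁ * (C ^ k) ^ r) ^ (d * k), 2 * r * d * k, by positivity, ?_⟩
  intro l hlk hl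
  set P : ℝ := (l.map vG).prod with hP
  have hP1 : 1 ≤ P := one_le_prod_map hG1 l
  have hCk1 : 1 ≤ C ^ k := one_le_pow₀ hC1
  set B : ℝ := K₁ * (C ^ k * P * P) ^ r with hB
  have hB1 : 1 ≤ B := by
    apply one_le_mul_of_one_le_of_one_le hK₁1
    apply one_le_pow₀
    exact one_le_mul_of_one_le_of_one_le (one_le_mul_of_one_le_of_one_le hCk1 hP1) hP1
  have hentry : ∀ y ∈ tr A l.prod l, vΛ y ≤ B := by
    intro y hy
    obtain ⟨l₁, x, l₂, hl12, rfl⟩ := mem_tr_iff_aux l l.prod hy
    set s' : G := l₁.prod⁻¹ * l.prod * l₁.prod with hs'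
    have hconj : IsConj a s' := hl.trans (isConj_iff.mpr ⟨l₁.prod⁻¹, by simp [hs']⟩)
    have hs'' : s' = ((x :: l₂) ++ l₁).prod := by
      rw [hs', hl12, List.prod_append, List.prod_append]
      group
    have hPeq : P = (l₁.map vG).prod * (vG x * (l₂.map vG).prod) := by
      rw [hP, hl12, List.map_append, List.prod_append, List.map_cons, List.prod_cons]
    have ha1 := one_le_prod_map hG1 l₁
    have ha2 := one_le_prod_map hG1 l₂
    have hx1 := hG1 x
    have hsle : vG s' ≤ C ^ k * P := by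
      have h1 := hC ((x :: l₂) ++ l₁)
      rw [← hs''] at h1
      have h2 : (((x :: l₂) ++ l₁).map vG).prod = P := by
        rw [hPeq, List.map_append, List.prod_append, List.map_cons, List.prod_cons]
        ring
      have h3 : ((x :: l₂) ++ l₁).length + 1 ≤ k := by
        have : ((x :: l₂) ++ l₁).length = l.length := by
          rw [hl12]; simp only [List.length_append, List.length_cons]; omega
        omega
      rw [h2] at h1
      exact h1.trans (mul_le_mul_of_nonneg_right (pow_le_pow_right₀ hC1 h3) (by linarith))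
    have hxle : vG x ≤ P := by
      rw [hPeq]
      have h4 : vG x ≤ vG x * (l₂.map vG).prod := le_mul_of_one_le_right (by linarith) ha2
      have h5 : vG x * (l₂.map vG).prod ≤ (l₁.map vG).prod * (vG x * (l₂.map vG).prod) :=
        le_mul_of_one_le_left (by positivity) ha1
      exact h4.trans h5
    have hs1 := hG1 s'
    have h6 : vG s' * vG x ≤ C ^ k * P * P :=
      mul_le_mul hsle hxle (by linarith) (by positivity)
    have h7 : (vG s' * vG x) ^ r ≤ (C ^ k * P * P) ^ r :=
      pow_le_pow_left₀ (by positivity) h6 r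
    calc vΛ (A s' x) ≤ K * (vG s' * vG x) ^ r := hK s' hconj x
      _ ≤ K₁ * (vG s' * vG x) ^ r :=
          mul_le_mul_of_nonneg_right (le_max_left _ _) (by positivity)
      _ ≤ B := mul_le_mul_of_nonneg_left h7 (by linarith)
  have hmain : ((tr A l.prod l).map fun x => vΛ x ^ d).prod ≤ (B ^ d) ^ k := by
    apply prod_map_le_pow (one_le_pow₀ hB1)
    · intro y hy
      have h8 := hΛ1 y
      exact ⟨by positivity, pow_le_pow_left₀ (by linarith) (hentry y hy) d⟩
    · rw [tr_length]; omega
  rw [prod_map_pow_eq vG]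
  calc ((tr A l.prod l).map fun x => vΛ x ^ d).prod ≤ (B ^ d) ^ k := hmain
    _ = (K₁ * (C ^ k) ^ r) ^ (d * k) * P ^ (2 * r * d * k) := by
        rw [hB]; ring

end Vale.Agent.P184.PN

namespace Vale.Agent.P184

open PN

/-- (LA) Pull back: `ψG l = ψΛ (tr A l.prod l)`.  Growth: `exists_wt_tr_le` (for `l.length ≥ k` the
cochain vanishes, `tr_length`).  Normalization: `one_mem_tr`.  Degree zero:
`tr A x [1, x] = [1, A x x]`.  Higher degrees: `hb_tr`, `cB_tr`, `tr_length`, and
`(tr A l.prod l).prod = A l.prod l.prod` is conjugate to `lam` (`tr_prod`, `hdiag`). -/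
theorem PolyNilW.pull {G Λ : Type*} [Group G] [Group Λ] {a : G} {lam : Λ} {vΛ : Λ → ℝ}
    {vG : G → ℝ} (hvΛ : Gauge vΛ) (hvG : Gauge vG) (A : G → G → Λ)
    (hcoc : ∀ s, IsConj a s → ∀ x y, A s (x * y) = A s x * A (x⁻¹ * s * x) y)
    (hdiag : ∀ s, IsConj a s → IsConj lam (A s s))
    (hgr : ∃ (K : ℝ) (r : ℕ), ∀ s, IsConj a s → ∀ x, vΛ (A s x) ≤ K * (vG s * vG x) ^ r)
    (H : PolyNilW vΛ lam) : PolyNilW vG a := by
  obtain ⟨K, d, k, ψ, h1, h2, h3, h4, h5⟩ := H
  obtain ⟨K', d', hK', hgrow⟩ := exists_wt_tr_le (a := a) (A := A) hvΛ hvG hgr d k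
  have hconj : ∀ l : List G, IsConj a l.prod → IsConj lam (tr A l.prod l).prod := by
    intro l hl
    rw [tr_prod hcoc hl l]
    exact hdiag _ hl
  have hposG : ∀ l : List G, 0 ≤ (l.map fun x => vG x ^ d').prod := by
    intro l
    apply List.prod_nonneg
    intro y hy
    obtain ⟨x, -, rfl⟩ := List.mem_map.1 hy
    exact pow_nonneg (le_trans zero_le_one (hvG.1 x)) _
  have hposΛ : ∀ l : List Λ, 0 ≤ (l.map fun x => vΛ x ^ d).prod := by
    intro l
    apply List.prod_nonneg
    intro y hy
    obtain ⟨x, -, rfl⟩ := List.mem_map.1 hy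
    exact pow_nonneg (le_trans zero_le_one (hvΛ.1 x)) _
  refine ⟨|K| * K', d', k, fun l => ψ (tr A l.prod l), ?_, ?_, ?_, ?_, ?_⟩
  · intro l hl
    by_cases hk : k ≤ l.length
    · have h0 : ψ (tr A l.prod l) = 0 := h3 _ (by rw [tr_length]; exact hk)
      simp only [h0, norm_zero]
      exact mul_nonneg (mul_nonneg (abs_nonneg K) hK') (hposG l)
    · have hlt : l.length < k := not_le.1 hk
      calc ‖ψ (tr A l.prod l)‖ ≤ K * ((tr A l.prod l).map fun x => vΛ x ^ d).prod :=
            h1 _ (hconj l hl)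
        _ ≤ |K| * ((tr A l.prod l).map fun x => vΛ x ^ d).prod :=
            mul_le_mul_of_nonneg_right (le_abs_self K) (hposΛ _)
        _ ≤ |K| * (K' * (l.map fun x => vG x ^ d').prod) :=
            mul_le_mul_of_nonneg_left (hgrow l hlt hl) (abs_nonneg K)
        _ = |K| * K' * (l.map fun x => vG x ^ d').prod := by ring
  · intro x l hl hmem
    have hc := hconj (x :: l) hl
    have hs : IsConj a (x⁻¹ * (x :: l).prod * x) := (isConj_conj_iff a _ x).2 hl
    have hm : (1 : Λ) ∈ tr A (x⁻¹ * (x :: l).prod * x) l := one_mem_tr hcoc hs hmem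
    have he : tr A (x :: l).prod (x :: l)
        = A (x :: l).prod x :: tr A (x⁻¹ * (x :: l).prod * x) l := rfl
    show ψ (tr A (x :: l).prod (x :: l)) = 0
    rw [he] at hc ⊢
    exact h2 _ _ hc hm
  · intro l hl
    exact h3 _ (by rw [tr_length]; exact hl)
  · intro x hx
    have hp : ([1, x] : List G).prod = x := by simp
    show ψ (tr A ([1, x] : List G).prod [1, x]) = 1
    rw [hp, tr_one_cons hcoc hx]
    exact h4 _ (hdiag x hx)
  · intro l hl2 hl
    rw [hb_tr hcoc ψ l hl, cB_tr hcoc ψ l hl]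
    exact h5 _ (by rw [tr_length]; exact hl2) (hconj l hl)

end Vale.Agent.P184
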