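import Vale.Agent.P184.PN.Pull

/-!
# Transfer from a subgroup along an equivariant projection (row AT)
-/

namespace Vale.Agent.P184

open PN

/-- Same hypotheses as `HasHeight.transfer`.  Let `vA` be the gauge of `H`.
* `F x = {c : A | ∃ y, p (x * y) = c * p y}` is finite and nonempty, `F (x y) ⊆ F x * F y`;
  `vG x = sSup (vA '' F x)` (a maximum) is a gauge with the constant of `vA`.
* For `s` conjugate to `a` choose `U s` with `U s * a * (U s)⁻¹ = s` and put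
  `A s x = p (U s) * (p (x⁻¹ * U s))⁻¹ ∈ F x`, so `vA (A s x) ≤ vG x ≤ (vG s * vG x) ^ 1`.
* Cocycle identity: `x⁻¹ * U s = U (x⁻¹ s x) * z` with `z` commuting with `a`, so `z ∈ A` (`hcent`)
  and `p (x⁻¹ U s) = p (U (x⁻¹ s x)) z`, `p (y⁻¹ x⁻¹ U s) = p (y⁻¹ U (x⁻¹ s x)) z` (`hp`).
* `A s s = p (U s) * a * (p (U s))⁻¹` since `s⁻¹ U s = U s a⁻¹`.
Then apply `PolyNilW.pull`. -/
theorem PolyNil.transfer {G : Type*} [Group G] (A : Subgroup G) (p : G → A)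
    (hp : ∀ (x : G) (k : A), p (x * k) = p x * k)
    (hfin : ∀ g : G, {c : A | ∃ x, p (g * x) = c * p x}.Finite)
    (a : A) (hcent : ∀ z : G, z * a = a * z → z ∈ A) (H : PolyNil a) :
    PolyNil (a : G) := by
  obtain ⟨vA, ⟨hvA1, KA, hKA⟩, HW⟩ := H
  set F : G → Set A := fun g => {c : A | ∃ x, p (g * x) = c * p x} with hF
  have hFne : ∀ x, (F x).Nonempty := fun x => ⟨p (x * 1) * (p 1)⁻¹, 1, by group⟩
  have hFmul : ∀ x y c, c ∈ F (x * y) → ∃ c₁ ∈ F x, ∃ c₂ ∈ F y, c = c₁ * c₂ := by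
    rintro x y c ⟨z, hz⟩
    refine ⟨p (x * (y * z)) * (p (y * z))⁻¹, ⟨y * z, by group⟩,
      p (y * z) * (p z)⁻¹, ⟨z, by group⟩, ?_⟩
    have : c = p (x * y * z) * (p z)⁻¹ := by rw [hz]; group
    rw [this, mul_assoc x y z]
    group
  set vG : G → ℝ := fun x => sSup (vA '' F x) with hvGdef
  have hbdd : ∀ x, BddAbove (vA '' F x) := fun x => ((hfin x).image vA).bddAbove
  have hle : ∀ x c, c ∈ F x → vA c ≤ vG x := fun x c hc =>
    le_csSup (hbdd x) (Set.mem_image_of_mem vA hc)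
  have hsup : ∀ x B, (∀ c ∈ F x, vA c ≤ B) → vG x ≤ B := by
    intro x B hB
    apply csSup_le ((hFne x).image vA)
    rintro _ ⟨c, hc, rfl⟩
    exact hB c hc
  have hvG1 : ∀ x, 1 ≤ vG x := by
    intro x
    obtain ⟨c, hc⟩ := hFne x
    exact (hvA1 c).trans (hle x c hc)
  have hgG : Gauge vG := by
    refine ⟨hvG1, |KA|, fun x y => ?_⟩
    apply hsup
    intro c hc
    obtain ⟨c₁, h₁, c₂, h₂, rfl⟩ := hFmul x y c hc
    have hpos : 0 ≤ vA c₁ + vA c₂ := by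
      have := hvA1 c₁
      have := hvA1 c₂
      linarith
    calc vA (c₁ * c₂) ≤ KA * (vA c₁ + vA c₂) := hKA c₁ c₂
      _ ≤ |KA| * (vA c₁ + vA c₂) := mul_le_mul_of_nonneg_right (le_abs_self KA) hpos
      _ ≤ |KA| * (vG x + vG y) :=
          mul_le_mul_of_nonneg_left (add_le_add (hle x c₁ h₁) (hle y c₂ h₂)) (abs_nonneg KA)
  have hex : ∀ s : G, ∃ u : G, IsConj (a : G) s → u * a * u⁻¹ = s := by
    intro s
    by_cases h : IsConj (a : G) s
    · obtain ⟨u, hu⟩ := isConj_iff.1 h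
      exact ⟨u, fun _ => hu⟩
    · exact ⟨1, fun h' => absurd h' h⟩
  choose U hU using hex
  set Aco : G → G → A := fun s x => p (U s) * (p (x⁻¹ * U s))⁻¹ with hAco
  have hAF : ∀ s x, Aco s x ∈ F x := by
    intro s x
    refine ⟨x⁻¹ * U s, ?_⟩
    have : x * (x⁻¹ * U s) = U s := by group
    rw [this]
    simp only [hAco]
    group
  refine ⟨vG, hgG, PolyNilW.pull (lam := a) (vΛ := vA) ⟨hvA1, KA, hKA⟩ hgG Aco ?_ ?_ ?_ HW⟩
  · intro s hs x y
    have hs' : IsConj (a : G) (x⁻¹ * s * x) := (isConj_conj_iff _ s x).2 hs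
    have e1 := hU s hs
    have e2 := hU _ hs'
    set u := U s with hu
    set u' := U (x⁻¹ * s * x) with hu'
    have hzc : (u'⁻¹ * x⁻¹ * u) * a = a * (u'⁻¹ * x⁻¹ * u) := by
      have h1 : (a : G) = u'⁻¹ * (x⁻¹ * s * x) * u' := by rw [← e2]; group
      have h2 : u'⁻¹ * (x⁻¹ * s * x) * u' * (u'⁻¹ * x⁻¹ * u) = u'⁻¹ * x⁻¹ * u * a := by
        rw [← e1]; group
      calc (u'⁻¹ * x⁻¹ * u) * a = u'⁻¹ * (x⁻¹ * s * x) * u' * (u'⁻¹ * x⁻¹ * u) := h2.symm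
        _ = a * (u'⁻¹ * x⁻¹ * u) := by rw [← h1]
    have hzA := hcent _ hzc
    set z : A := ⟨u'⁻¹ * x⁻¹ * u, hzA⟩ with hz
    have f1 : x⁻¹ * u = u' * (z : G) := by simp only [hz]; group
    have f2 : (x * y)⁻¹ * u = (y⁻¹ * u') * (z : G) := by simp only [hz]; group
    show p u * (p ((x * y)⁻¹ * u))⁻¹ = p u * (p (x⁻¹ * u))⁻¹ * (p u' * (p (y⁻¹ * u'))⁻¹)
    rw [f1, f2, hp, hp]
    group
  · intro s hs
    have e1 := hU s hs
    rw [isConj_iff]
    refine ⟨p (U s), ?_⟩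
    have f1 : s⁻¹ * U s = U s * ((a⁻¹ : A) : G) := by
      generalize U s = u at e1
      subst e1
      simp only [Subgroup.coe_inv]
      group
    show p (U s) * a * (p (U s))⁻¹ = p (U s) * (p (s⁻¹ * U s))⁻¹
    rw [f1, hp]
    group
  · refine ⟨1, 1, fun s _ x => ?_⟩
    have h1 := hle x _ (hAF s x)
    have h2 := hvG1 s
    have h3 := hvG1 x
    rw [one_mul, pow_one]
    nlinarith

end Vale.Agent.P184
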