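import Vale.Agent.P184.PN.Base
import Vale.Agent.P184.PN.Transfer
import Vale.Agent.P184.PN.Pairing
import Vale.Agent.P184.RH.All

/-!
# Relatively hyperbolic groups (row RR)
-/

namespace Vale.Agent.P184

open scoped Pointwise

variable {G X : Type*} [Group G] [PseudoMetricSpace X] [MulAction G X]
  {𝓑 : Set (Set X)} {δ μ σ κ R₀ : ℝ} {x₀ : X}

/-- as `CuspUniform.parabolic_height` (file `RH/Main`), with `PolyNil.transfer` -/
theorem CuspUniform.parabolic_polyNil (hC : CuspUniform G X 𝓑 δ μ σ κ R₀ x₀) {B : Set X}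
    (hB : B ∈ 𝓑) (hne : B.Nonempty) (h : MulAction.stabilizer G B) (hinf : ¬ IsOfFinOrder h)
    (H : PolyNil h) : PolyNil (h : G) := by
  obtain ⟨p, hp, hfin⟩ := hC.exists_equivariant_proj hB hne
  refine PolyNil.transfer (MulAction.stabilizer G B) p hp hfin h ?_ H
  intro z hz
  rw [MulAction.mem_stabilizer_iff]
  have hh : (h : G) • B = B := MulAction.mem_stabilizer_iff.mp h.2
  have hinf' : ¬ IsOfFinOrder (h : G) := fun hf => hinf (subgroup_fin_iff.mp hf)
  exact hC.centralizer_le_stab hB hh hinf' hz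

/-- as `CuspUniform.allHeight` (file `RH/All`); in the loxodromic case use `HasHeight.polyNil` -/
theorem CuspUniform.allPolyNil (hC : CuspUniform G X 𝓑 δ μ σ κ R₀ x₀)
    (hper : ∀ B ∈ 𝓑, AllPolyNil (MulAction.stabilizer G B)) : AllPolyNil G := by
  intro g hg
  obtain ⟨S, hS⟩ := hC.trichotomy
  rcases hS g with ⟨ε, hε, hlox⟩ | ⟨hfin, _⟩ | ⟨B, hB, hne, hgB⟩
  · exact (HH.lox_criterion hC.isom hC.hyp g x₀ ε hε hlox
      (fun R => (hC.proper R).subset (fun s hs => hs.2))).polyNil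
  · exact absurd hfin hg
  · have hmem : g ∈ MulAction.stabilizer G B := MulAction.mem_stabilizer_iff.mpr hgB
    have hinf : ¬ IsOfFinOrder (⟨g, hmem⟩ : MulAction.stabilizer G B) :=
      fun hf => hg (subgroup_fin_iff.mpr hf)
    exact hC.parabolic_polyNil hB hne ⟨g, hmem⟩ hinf (hper B hB _ hinf)

/-- as `AllHeight.Q1` (file `HH/Classes`) -/
theorem AllPolyNil.Q1 {G : Type*} [Group G] (h : AllPolyNil G) (hfin : FinTor G) : Q1 G := by
  classical
  intro q e he
  have hfin' : {C : ConjClasses G | ∀ g ∈ C.carrier, IsOfFinOrder g}.Finite := hfin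
  refine ⟨hfin'.toFinset, ?_, ?_⟩
  · intro C hC
    exact (Set.Finite.mem_toFinset hfin').mp hC
  · intro C hC
    obtain ⟨g, rfl⟩ := ConjClasses.exists_rep C
    by_cases hg : IsOfFinOrder g
    · exfalso
      apply hC
      rw [Set.Finite.mem_toFinset]
      intro x hx
      rw [ConjClasses.mem_carrier_iff_mk_eq, ConjClasses.mk_eq_mk_iff_isConj] at hx
      exact isOfFinOrder_of_isConj hx.symm hg
    · exact h.van g hg q e he

/-- as `AllHeight.of_residual` -/
theorem AllPolyNil.of_residual {G : Type*} [Group G]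
    (h : ∀ g : G, ¬ IsOfFinOrder g → ∃ (H : Type*) (_ : Group H) (π : G →* H),
      AllPolyNil H ∧ ¬ IsOfFinOrder (π g)) : AllPolyNil G := by
  intro g hg
  obtain ⟨H, _, π, hH, hπ⟩ := h g hg
  exact PolyNil.comap π (hH _ hπ)

end Vale.Agent.P184
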