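import Vale.Agent.P184.PN.Defs
import Vale.Agent.P184.L1Bridge

/-!
# Multiple sums against products of a matrix valued function (rows MB1, MB2)
-/

set_option linter.unusedSectionVars false

namespace Vale.Agent.P184.PN

open scoped BigOperators Matrix.Norms.Operator

variable {G : Type*} [Group G] {q : ℕ}

/-- the weight of a finite sequence -/
def wt (v : G → ℝ) (d : ℕ) (l : List G) : ℝ := (l.map fun x => v x ^ d).prod

/-- functions on finite sequences of polynomial growth -/
def Adm (v : G → ℝ) (d : ℕ) (F : List G → ℂ) : Prop := ∃ K : ℝ, ∀ l, ‖F l‖ ≤ K * wt v d l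

/-- the ordered product of the values of `E` -/
def pE (E : G → Matrix (Fin q) (Fin q) ℂ) (l : List G) : Matrix (Fin q) (Fin q) ℂ :=
  (l.map E).prod

/-- the matrix valued multiple sum -/
noncomputable def bm (E : G → Matrix (Fin q) (Fin q) ℂ) (n : ℕ) (F : List G → ℂ) :
    Matrix (Fin q) (Fin q) ℂ :=
  ∑' g : Fin n → G, F (List.ofFn g) • pE E (List.ofFn g)

/-- the scalar multiple sum -/
noncomputable def br (E : G → Matrix (Fin q) (Fin q) ℂ) (n : ℕ) (F : List G → ℂ) : ℂ :=
  ∑' g : Fin n → G, F (List.ofFn g) * Matrix.trace (pE E (List.ofFn g))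

section adm

variable {v : G → ℝ} {d : ℕ}

lemma wt_nonneg (hv : Gauge v) (l : List G) : 0 ≤ wt v d l := by
  unfold wt
  apply List.prod_nonneg
  intro a ha
  obtain ⟨x, _, rfl⟩ := List.mem_map.1 ha
  exact pow_nonneg (le_trans zero_le_one (hv.1 x)) d

lemma wt_cons (x : G) (l : List G) : wt v d (x :: l) = v x ^ d * wt v d l := by
  simp [wt]

lemma wt_rotate (l : List G) (i : ℕ) : wt v d (l.rotate i) = wt v d l := by
  unfold wt
  exact ((List.rotate_perm l i).map _).prod_eq

/-- `wt (mrg i l) ≤ C wt l` with `C = max 1 ((2 K) ^ d)`, by induction on `i` and `l`, from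
`v (x y) ≤ K (v x + v y) ≤ 2 K v x v y`. -/
lemma exists_wt_mrg_le (hv : Gauge v) : ∃ C : ℝ, 0 ≤ C ∧ ∀ (i : ℕ) (l : List G),
    wt v d (mrg i l) ≤ C * wt v d l := by
  obtain ⟨h1, K, hK⟩ := hv
  have hv' : Gauge v := ⟨h1, K, hK⟩
  have hC1 : (1 : ℝ) ≤ max 1 ((2 * K) ^ d) := le_max_left _ _
  have hC2 : (2 * K) ^ d ≤ max 1 ((2 * K) ^ d) := le_max_right _ _
  have hK0 : 0 ≤ K := by
    have h := hK 1 1
    have h2 := h1 (1 * 1 : G)
    have h3 := h1 (1 : G)
    by_contra hneg
    rw [not_le] at hneg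
    nlinarith
  refine ⟨max 1 ((2 * K) ^ d), le_trans zero_le_one hC1, ?_⟩
  set C := max 1 ((2 * K) ^ d) with hC
  have hC0 : 0 ≤ C := le_trans zero_le_one hC1
  intro i
  induction i with
  | zero =>
    intro l
    match l with
    | [] => simpa [mrg] using le_mul_of_one_le_left (wt_nonneg hv' []) hC1
    | [x] => simpa [mrg] using le_mul_of_one_le_left (wt_nonneg hv' [x]) hC1
    | x :: y :: l =>
      simp only [mrg, wt_cons]
      have hx := h1 x
      have hy := h1 y
      have hxy : v (x * y) ≤ 2 * K * (v x * v y) := by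
        refine (hK x y).trans ?_
        have : v x + v y ≤ 2 * (v x * v y) := by nlinarith
        nlinarith
      have hpow : v (x * y) ^ d ≤ (2 * K) ^ d * (v x ^ d * v y ^ d) := by
        calc v (x * y) ^ d ≤ (2 * K * (v x * v y)) ^ d :=
              pow_le_pow_left₀ (le_trans zero_le_one (h1 _)) hxy d
          _ = (2 * K) ^ d * (v x ^ d * v y ^ d) := by ring
      have hw := wt_nonneg (d := d) hv' l
      have hxd : 0 ≤ v x ^ d * v y ^ d := by positivity
      calc v (x * y) ^ d * wt v d l ≤ ((2 * K) ^ d * (v x ^ d * v y ^ d)) * wt v d l :=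
            mul_le_mul_of_nonneg_right hpow hw
        _ ≤ (C * (v x ^ d * v y ^ d)) * wt v d l :=
            mul_le_mul_of_nonneg_right (mul_le_mul_of_nonneg_right hC2 hxd) hw
        _ = C * (v x ^ d * (v y ^ d * wt v d l)) := by ring
  | succ i ih =>
    intro l
    match l with
    | [] => simpa [mrg] using le_mul_of_one_le_left (wt_nonneg hv' []) hC1
    | [x] => simpa [mrg] using le_mul_of_one_le_left (wt_nonneg hv' [x]) hC1
    | x :: y :: l =>
      simp only [mrg]
      rw [wt_cons, wt_cons x]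
      have hx : 0 ≤ v x ^ d := pow_nonneg (le_trans zero_le_one (h1 x)) d
      calc v x ^ d * wt v d (mrg i (y :: l)) ≤ v x ^ d * (C * wt v d (y :: l)) :=
            mul_le_mul_of_nonneg_left (ih _) hx
        _ = C * (v x ^ d * wt v d (y :: l)) := by ring

lemma Adm.add {F F' : List G → ℂ} (h : Adm v d F) (h' : Adm v d F') :
    Adm v d (fun l => F l + F' l) := by
  obtain ⟨K, hK⟩ := h
  obtain ⟨K', hK'⟩ := h'
  refine ⟨K + K', fun l => ?_⟩
  calc ‖F l + F' l‖ ≤ ‖F l‖ + ‖F' l‖ := norm_add_le _ _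
    _ ≤ K * wt v d l + K' * wt v d l := add_le_add (hK l) (hK' l)
    _ = (K + K') * wt v d l := by ring

lemma Adm.const_mul {F : List G → ℂ} (h : Adm v d F) (c : ℂ) : Adm v d (fun l => c * F l) := by
  obtain ⟨K, hK⟩ := h
  refine ⟨‖c‖ * K, fun l => ?_⟩
  calc ‖c * F l‖ = ‖c‖ * ‖F l‖ := norm_mul _ _
    _ ≤ ‖c‖ * (K * wt v d l) := mul_le_mul_of_nonneg_left (hK l) (norm_nonneg _)
    _ = ‖c‖ * K * wt v d l := by ring

lemma Adm.sum {ι : Type*} (s : Finset ι) {F : ι → List G → ℂ} (h : ∀ i ∈ s, Adm v d (F i)) :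
    Adm v d (fun l => ∑ i ∈ s, F i l) := by
  classical
  induction s using Finset.induction_on with
  | empty => exact ⟨0, fun l => by simp⟩
  | insert a s ha ih =>
    have h1 := h a (Finset.mem_insert_self a s)
    have h2 := ih (fun i hi => h i (Finset.mem_insert_of_mem hi))
    have := h1.add h2
    simpa [Finset.sum_insert ha] using this

lemma Adm.mrg (hv : Gauge v) {F : List G → ℂ} (h : Adm v d F) (i : ℕ) :
    Adm v d (fun l => F (mrg i l)) := by
  obtain ⟨K, hK⟩ := h
  obtain ⟨C, hC0, hC⟩ := exists_wt_mrg_le (d := d) hv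
  have hK0 : 0 ≤ K := by
    have := hK []
    simp only [wt, List.map_nil, List.prod_nil, mul_one] at this
    exact le_trans (norm_nonneg _) this
  refine ⟨K * C, fun l => ?_⟩
  calc ‖F (Vale.Agent.P184.mrg i l)‖ ≤ K * wt v d (Vale.Agent.P184.mrg i l) := hK _
    _ ≤ K * (C * wt v d l) := mul_le_mul_of_nonneg_left (hC i l) hK0
    _ = K * C * wt v d l := by ring

lemma Adm.rotate {F : List G → ℂ} (h : Adm v d F) (i : ℕ) :
    Adm v d (fun l => F (l.rotate i)) := by
  obtain ⟨K, hK⟩ := h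
  refine ⟨K, fun l => ?_⟩
  have := hK (l.rotate i)
  rwa [wt_rotate] at this

lemma Adm.cons (hv : Gauge v) {F : List G → ℂ} (h : Adm v d F) (x : G) :
    Adm v d (fun l => F (x :: l)) := by
  obtain ⟨K, hK⟩ := h
  refine ⟨K * v x ^ d, fun l => ?_⟩
  have := hK (x :: l)
  rw [wt_cons] at this
  calc ‖F (x :: l)‖ ≤ K * (v x ^ d * wt v d l) := this
    _ = K * v x ^ d * wt v d l := by ring

end adm

section sums

variable {v : G → ℝ} {d : ℕ} {E : G → Matrix (Fin q) (Fin q) ℂ}

/-- the majorant `∏ i, ‖E (g i)‖ v (g i) ^ d` is summable over `Fin n → G`; induction on `n` with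
`Fin.consEquiv` (or `Fin.insertNthEquiv`), `Fin.prod_univ_succ`, `Summable.mul_of_nonneg`. -/
lemma summable_maj (hv : Gauge v) (hE : Summable fun x => ‖E x‖ * v x ^ d) (n : ℕ) :
    Summable (fun g : Fin n → G => ∏ i, (‖E (g i)‖ * v (g i) ^ d)) := by
  induction n with
  | zero => exact summable_of_hasFiniteSupport (Set.toFinite _)
  | succ n ih =>
    have h0 : ∀ x, 0 ≤ ‖E x‖ * v x ^ d := fun x =>
      mul_nonneg (norm_nonneg _) (pow_nonneg (le_trans zero_le_one (hv.1 x)) d)
    have hp := Summable.mul_of_nonneg hE ih h0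
      (fun g => Finset.prod_nonneg (fun i _ => h0 (g i)))
    rw [← (Fin.consEquiv (fun _ : Fin (n + 1) => G)).summable_iff]
    refine hp.congr (fun p => ?_)
    simp [Fin.consEquiv, Fin.prod_univ_succ]

lemma pE_cons (x : G) (l : List G) : pE E (x :: l) = E x * pE E l := by
  simp [pE]

/-- `‖pE E (ofFn g)‖ wt (ofFn g) ≤ ∏ i, ‖E (g i)‖ v (g i) ^ d` (for `n = 0` use
`mat_norm_one_le`). -/
lemma norm_pE_mul_wt_le (hv : Gauge v) (n : ℕ) (g : Fin n → G) :
    ‖pE E (List.ofFn g)‖ * wt v d (List.ofFn g) ≤ ∏ i, (‖E (g i)‖ * v (g i) ^ d) := by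
  induction n with
  | zero =>
    simp only [List.ofFn_zero, Finset.univ_eq_empty, Finset.prod_empty]
    simpa [pE, wt] using (mat_norm_one_le (q := q))
  | succ n ih =>
    rw [List.ofFn_succ, pE_cons, wt_cons, Fin.prod_univ_succ]
    have h1 := ih (fun i => g i.succ)
    have hx : 0 ≤ v (g 0) ^ d := pow_nonneg (le_trans zero_le_one (hv.1 _)) d
    have hw := wt_nonneg (d := d) hv (List.ofFn fun i => g i.succ)
    calc ‖E (g 0) * pE E (List.ofFn fun i => g i.succ)‖ *
          (v (g 0) ^ d * wt v d (List.ofFn fun i => g i.succ))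
        ≤ (‖E (g 0)‖ * ‖pE E (List.ofFn fun i => g i.succ)‖) *
          (v (g 0) ^ d * wt v d (List.ofFn fun i => g i.succ)) :=
          mul_le_mul_of_nonneg_right (norm_mul_le _ _) (mul_nonneg hx hw)
      _ = (‖E (g 0)‖ * v (g 0) ^ d) * (‖pE E (List.ofFn fun i => g i.succ)‖ *
          wt v d (List.ofFn fun i => g i.succ)) := by ring
      _ ≤ (‖E (g 0)‖ * v (g 0) ^ d) * ∏ i : Fin n, (‖E (g i.succ)‖ * v (g i.succ) ^ d) :=
          mul_le_mul_of_nonneg_left h1 (mul_nonneg (norm_nonneg _) hx)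

lemma const_nonneg {F : List G → ℂ} {K : ℝ} (hF : ∀ l, ‖F l‖ ≤ K * wt v d l) : 0 ≤ K := by
  have := hF []
  simp only [wt, List.map_nil, List.prod_nil, mul_one] at this
  exact le_trans (norm_nonneg _) this

lemma norm_term_le (hv : Gauge v) {F : List G → ℂ} {K : ℝ} (hF : ∀ l, ‖F l‖ ≤ K * wt v d l)
    (n : ℕ) (g : Fin n → G) :
    ‖F (List.ofFn g) • pE E (List.ofFn g)‖ ≤ K * ∏ i, (‖E (g i)‖ * v (g i) ^ d) := by
  have hK := const_nonneg hF
  calc ‖F (List.ofFn g) • pE E (List.ofFn g)‖ = ‖F (List.ofFn g)‖ * ‖pE E (List.ofFn g)‖ :=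
        norm_smul _ _
    _ ≤ (K * wt v d (List.ofFn g)) * ‖pE E (List.ofFn g)‖ :=
        mul_le_mul_of_nonneg_right (hF _) (norm_nonneg _)
    _ = K * (‖pE E (List.ofFn g)‖ * wt v d (List.ofFn g)) := by ring
    _ ≤ K * ∏ i, (‖E (g i)‖ * v (g i) ^ d) :=
        mul_le_mul_of_nonneg_left (norm_pE_mul_wt_le hv n g) hK

lemma bm_summable (hv : Gauge v) (hE : Summable fun x => ‖E x‖ * v x ^ d) {F : List G → ℂ}
    (hF : Adm v d F) (n : ℕ) :
    Summable (fun g : Fin n → G => F (List.ofFn g) • pE E (List.ofFn g)) := by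
  obtain ⟨K, hK⟩ := hF
  exact Summable.of_norm_bounded ((summable_maj hv hE n).mul_left K)
    (fun g => norm_term_le hv hK n g)

/-- a bound which is uniform in `F` -/
lemma norm_bm_le (hv : Gauge v) (hE : Summable fun x => ‖E x‖ * v x ^ d) {F : List G → ℂ}
    {K : ℝ} (hF : ∀ l, ‖F l‖ ≤ K * wt v d l) (n : ℕ) :
    ‖bm E n F‖ ≤ K * ∑' g : Fin n → G, ∏ i, (‖E (g i)‖ * v (g i) ^ d) := by
  exact tsum_of_norm_bounded ((summable_maj hv hE n).hasSum.mul_left K)
    (fun g => norm_term_le hv hF n g)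

lemma traceL_apply (A : Matrix (Fin q) (Fin q) ℂ) : traceL A = Matrix.trace A := rfl

lemma br_summable (hv : Gauge v) (hE : Summable fun x => ‖E x‖ * v x ^ d) {F : List G → ℂ}
    (hF : Adm v d F) (n : ℕ) :
    Summable (fun g : Fin n → G => F (List.ofFn g) * Matrix.trace (pE E (List.ofFn g))) := by
  have h := (traceL (q := q)).summable (bm_summable hv hE hF n)
  refine h.congr (fun g => ?_)
  rw [map_smul, traceL_apply, smul_eq_mul]

/-- `br` is the trace of `bm` (`traceL.map_tsum`). -/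
lemma br_eq_trace_bm (hv : Gauge v) (hE : Summable fun x => ‖E x‖ * v x ^ d) {F : List G → ℂ}
    (hF : Adm v d F) (n : ℕ) : br E n F = Matrix.trace (bm E n F) := by
  have h := (traceL (q := q)).map_tsum (bm_summable hv hE hF n)
  rw [← traceL_apply]
  unfold bm br
  rw [h]
  refine tsum_congr (fun g => ?_)
  rw [map_smul, traceL_apply, smul_eq_mul]

lemma bm_congr {F F' : List G → ℂ} (n : ℕ) (h : ∀ l : List G, l.length = n → F l = F' l) :
    bm E n F = bm E n F' := by
  unfold bm
  refine tsum_congr (fun g => ?_)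
  rw [h _ (List.length_ofFn)]

lemma br_congr {F F' : List G → ℂ} (n : ℕ) (h : ∀ l : List G, l.length = n → F l = F' l) :
    br E n F = br E n F' := by
  unfold br
  refine tsum_congr (fun g => ?_)
  rw [h _ (List.length_ofFn)]

lemma br_add (hv : Gauge v) (hE : Summable fun x => ‖E x‖ * v x ^ d) {F F' : List G → ℂ}
    (hF : Adm v d F) (hF' : Adm v d F') (n : ℕ) :
    br E n (fun l => F l + F' l) = br E n F + br E n F' := by
  unfold br
  rw [← (br_summable hv hE hF n).tsum_add (br_summable hv hE hF' n)]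
  refine tsum_congr (fun g => ?_)
  ring

lemma br_const_mul (c : ℂ) (F : List G → ℂ) (n : ℕ) :
    br E n (fun l => c * F l) = c * br E n F := by
  unfold br
  rw [← tsum_mul_left]
  refine tsum_congr (fun g => ?_)
  ring

lemma br_zero (n : ℕ) : br E n (fun _ => 0) = 0 := by
  simp [br]

lemma br_sum (hv : Gauge v) (hE : Summable fun x => ‖E x‖ * v x ^ d) {ι : Type*} (s : Finset ι)
    {F : ι → List G → ℂ} (hF : ∀ i ∈ s, Adm v d (F i)) (n : ℕ) :
    br E n (fun l => ∑ i ∈ s, F i l) = ∑ i ∈ s, br E n (F i) := by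
  classical
  induction s using Finset.induction_on with
  | empty => simp [br]
  | insert a s ha ih =>
    have h1 := hF a (Finset.mem_insert_self a s)
    have h2 : ∀ i ∈ s, Adm v d (F i) := fun i hi => hF i (Finset.mem_insert_of_mem hi)
    rw [Finset.sum_insert ha, ← ih h2, ← br_add hv hE h1 (Adm.sum s h2)]
    refine br_congr n (fun l _ => ?_)
    rw [Finset.sum_insert ha]

lemma ofFn_consEquiv (n : ℕ) (x : G) (g : Fin n → G) :
    List.ofFn (Fin.consEquiv (fun _ : Fin (n + 1) => G) (x, g)) = x :: List.ofFn g := by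
  rw [List.ofFn_succ]
  rfl

/-- Fubini: split off the first variable (`Fin.consEquiv`, `List.ofFn_succ`/`List.ofFn_cons`,
`Summable.tsum_prod`, `tsum_mul_left` for matrices via a continuous linear map). -/
lemma bm_succ (hv : Gauge v) (hE : Summable fun x => ‖E x‖ * v x ^ d) {F : List G → ℂ}
    (hF : Adm v d F) (n : ℕ) :
    bm E (n + 1) F = ∑' x, E x * bm E n (fun l => F (x :: l)) := by
  have hs := bm_summable hv hE hF (n + 1)
  have hs' : Summable (fun c : G × (Fin n → G) =>
      F (c.1 :: List.ofFn c.2) • pE E (c.1 :: List.ofFn c.2)) := by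
    have := ((Fin.consEquiv (fun _ : Fin (n + 1) => G)).summable_iff).2 hs
    refine this.congr (fun c => ?_)
    simp only [Function.comp_apply]
    rw [ofFn_consEquiv]
  have h1 : bm E (n + 1) F = ∑' c : G × (Fin n → G),
      F (c.1 :: List.ofFn c.2) • pE E (c.1 :: List.ofFn c.2) := by
    unfold bm
    rw [← (Fin.consEquiv (fun _ : Fin (n + 1) => G)).tsum_eq]
    refine tsum_congr (fun c => ?_)
    rw [ofFn_consEquiv]
  rw [h1, hs'.tsum_prod]
  refine tsum_congr (fun x => ?_)
  unfold bm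
  rw [← (bm_summable hv hE (hF.cons hv x) n).tsum_mul_left]
  refine tsum_congr (fun g => ?_)
  rw [pE_cons, mul_smul_comm]

/-- the family in `bm_succ` is summable, with the bound
`‖E x * bm E n (fun l => F (x :: l))‖ ≤ K S ‖E x‖ v x ^ d`, `S` the sum of the majorant. -/
lemma bm_succ_summable (hv : Gauge v) (hE : Summable fun x => ‖E x‖ * v x ^ d) {F : List G → ℂ}
    (hF : Adm v d F) (n : ℕ) :
    Summable (fun x => E x * bm E n (fun l => F (x :: l))) := by
  obtain ⟨K, hK⟩ := hF
  set S := ∑' g : Fin n → G, ∏ i, (‖E (g i)‖ * v (g i) ^ d) with hS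
  refine Summable.of_norm_bounded (hE.mul_left (K * S)) (fun x => ?_)
  have hb : ∀ l, ‖F (x :: l)‖ ≤ (K * v x ^ d) * wt v d l := by
    intro l
    have := hK (x :: l)
    rw [wt_cons] at this
    calc ‖F (x :: l)‖ ≤ K * (v x ^ d * wt v d l) := this
      _ = K * v x ^ d * wt v d l := by ring
  have h1 := norm_bm_le (E := E) hv hE hb n
  calc ‖E x * bm E n (fun l => F (x :: l))‖ ≤ ‖E x‖ * ‖bm E n (fun l => F (x :: l))‖ :=
        norm_mul_le _ _
    _ ≤ ‖E x‖ * (K * v x ^ d * S) := mul_le_mul_of_nonneg_left h1 (norm_nonneg _)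
    _ = K * S * (‖E x‖ * v x ^ d) := by ring

/-- the sum over sequences of length one -/
lemma br_one (F : List G → ℂ) : br E 1 F = ∑' x, F [x] * Matrix.trace (E x) := by
  unfold br
  rw [← (Equiv.funUnique (Fin 1) G).symm.tsum_eq]
  refine tsum_congr (fun x => ?_)
  simp [pE]

end sums

end Vale.Agent.P184.PN
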