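import Vale.Agent.P184.PN.DefsUni
import Vale.Agent.P184.PN.Euler
import Vale.Agent.P184.PN.Apps
import Vale.Agent.P184.PN.RelHyp

/-!
# Unitriangular representations (rows UA - UM)

Everything follows from the finite rank criterion `PN.polyNilW_of_rank`: a matrix coefficient of a
finite dimensional representation has a kernel `θ (p⁻¹ q)` of finite rank.
-/

namespace Vale.Agent.P184.PN

open scoped BigOperators

/-- (UA) the corner criterion.  Put `θ₀ h = μ h i j / ξ`, `θ h = (θ₀ h - θ₀ h⁻¹) / 2`.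
`θ₀ (x h) = θ₀ h + 1` by `h1`; `θ₀ (x⁻¹ k) = θ₀ k - 1` (`h1` with `h = x⁻¹ k`);
` (x h)⁻¹ = x⁻¹ h⁻¹` by `hx`; so `θ (x h) = θ h + 1`; `θ` is odd; `|θ h| ≤ (K / |ξ|) v(h)^d`.
Finite rank: `μ (p⁻¹ q) i j = ∑ l, μ p⁻¹ i l * μ q l j` (`map_mul`, `Matrix.mul_apply`), the same for
`q⁻¹ p`.  Apply `polyNilW_of_rank` with `m = n + n`,
`a = Fin.addCases (fun l p => μ p⁻¹ i l / (2 ξ)) (fun l p => - μ p l j / (2 ξ))`,
`b = Fin.addCases (fun l q => μ q l j) (fun l q => μ q⁻¹ i l)` and `Fin.sum_univ_add`. -/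
theorem polyNilW_of_corner {C : Type*} [Group C] {v : C → ℝ} (hv : Gauge v) (x : C)
    (hx : ∀ y, y * x = x * y) {n : ℕ} (μ : C →* Matrix (Fin n) (Fin n) ℝ) (i j : Fin n) (ξ : ℝ)
    (hξ : ξ ≠ 0) (h1 : ∀ h, μ (x * h) i j = μ h i j + ξ) (K : ℝ) (d : ℕ)
    (hb : ∀ h, |μ h i j| ≤ K * v h ^ d) (hb' : ∀ h, |μ h⁻¹ i j| ≤ K * v h ^ d) :
    PolyNilW v x := by
  have h2 : ∀ k, μ (x⁻¹ * k) i j = μ k i j - ξ := by
    intro k
    have := h1 (x⁻¹ * k)
    rw [mul_inv_cancel_left] at this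
    linarith
  have hinv : ∀ h, (x * h)⁻¹ = x⁻¹ * h⁻¹ := by
    intro h
    rw [← hx h, mul_inv_rev]
  refine polyNilW_of_rank (θ := fun h => (μ h i j / ξ - μ h⁻¹ i j / ξ) / 2) hv x hx ?_ ?_
    (K / |ξ|) d ?_ (n + n)
    (Fin.addCases (fun l p => μ p⁻¹ i l / (2 * ξ)) (fun l p => - μ p l j / (2 * ξ)))
    (Fin.addCases (fun l q => μ q l j) (fun l q => μ q⁻¹ i l)) ?_
  · intro h
    show (μ (x * h) i j / ξ - μ (x * h)⁻¹ i j / ξ) / 2 = (μ h i j / ξ - μ h⁻¹ i j / ξ) / 2 + 1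
    rw [hinv, h1, h2]
    field_simp
    ring
  · intro h
    show (μ h⁻¹ i j / ξ - μ h⁻¹⁻¹ i j / ξ) / 2 = - ((μ h i j / ξ - μ h⁻¹ i j / ξ) / 2)
    rw [inv_inv]
    ring
  · intro h
    show |(μ h i j / ξ - μ h⁻¹ i j / ξ) / 2| ≤ K / |ξ| * v h ^ d
    have hξ' : 0 < |ξ| := abs_pos.mpr hξ
    have e : (μ h i j / ξ - μ h⁻¹ i j / ξ) / 2 = (μ h i j - μ h⁻¹ i j) / 2 / ξ := by
      field_simp
    rw [e, abs_div, div_mul_eq_mul_div]
    apply div_le_div_of_nonneg_right _ hξ'.le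
    have e1 := hb h
    have e2 := hb' h
    rw [abs_div, abs_two]
    have e3 := abs_sub (μ h i j) (μ h⁻¹ i j)
    linarith
  · intro p q
    show (μ (p⁻¹ * q) i j / ξ - μ (p⁻¹ * q)⁻¹ i j / ξ) / 2 = _
    rw [Fin.sum_univ_add]
    simp only [Fin.addCases_left, Fin.addCases_right]
    rw [mul_inv_rev, inv_inv, map_mul, map_mul, Matrix.mul_apply, Matrix.mul_apply]
    rw [Finset.sum_div, Finset.sum_div, ← Finset.sum_sub_distrib, Finset.sum_div,
      ← Finset.sum_add_distrib]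
    refine Finset.sum_congr rfl fun l _ => ?_
    field_simp
    ring

section weight

variable {n : ℕ}

/-- the numbers `t ≥ 1` with `|M a b| ≤ t ^ (b - a)` above the diagonal -/
def mwset (M : Matrix (Fin n) (Fin n) ℝ) : Set ℝ :=
  {t | 1 ≤ t ∧ ∀ a b : Fin n, a < b → |M a b| ≤ t ^ ((b : ℕ) - (a : ℕ))}

/-- the homogeneous weight of a matrix -/
noncomputable def mwt (M : Matrix (Fin n) (Fin n) ℝ) : ℝ := sInf (mwset M)

/-- (UB) `t = 1 + ∑ a, ∑ b, |M a b|` works: `|M a b| ≤ t = t ^ 1 ≤ t ^ (b - a)`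
(`pow_le_pow_right₀`, `1 ≤ b - a`). -/
lemma mwset_nonempty (M : Matrix (Fin n) (Fin n) ℝ) : (mwset M).Nonempty := by
  have h0 : 0 ≤ ∑ a, ∑ b, |M a b| :=
    Finset.sum_nonneg fun a _ => Finset.sum_nonneg fun b _ => abs_nonneg _
  refine ⟨1 + ∑ a, ∑ b, |M a b|, by linarith, fun a b hab => ?_⟩
  have h1 : |M a b| ≤ ∑ a, ∑ b, |M a b| := by
    calc |M a b| ≤ ∑ b, |M a b| :=
          Finset.single_le_sum (f := fun b => |M a b|) (fun _ _ => abs_nonneg _) (Finset.mem_univ b)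
      _ ≤ ∑ a, ∑ b, |M a b| :=
          Finset.single_le_sum (f := fun a => ∑ b, |M a b|)
            (fun _ _ => Finset.sum_nonneg fun _ _ => abs_nonneg _) (Finset.mem_univ a)
  have h2 : (1 + ∑ a, ∑ b, |M a b|) ^ 1 ≤ (1 + ∑ a, ∑ b, |M a b|) ^ ((b : ℕ) - (a : ℕ)) :=
    pow_le_pow_right₀ (by linarith) (by have : (a : ℕ) < b := hab; omega)
  rw [pow_one] at h2
  linarith

/-- (UC) `mwset M` is closed (intersection of `Set.Ici 1` and of the closed sets
`{t | a < b → |M a b| ≤ t ^ k}`, `isClosed_le continuous_const (continuous_pow k)`), nonempty and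
bounded below by `1`: `IsClosed.csInf_mem`. -/
lemma mwt_mem (M : Matrix (Fin n) (Fin n) ℝ) : mwt M ∈ mwset M := by
  have hcl : IsClosed (mwset M) := by
    have e : mwset M = Set.Ici 1 ∩ ⋂ a : Fin n, ⋂ b : Fin n,
        {t : ℝ | a < b → |M a b| ≤ t ^ ((b : ℕ) - (a : ℕ))} := by
      ext t
      simp only [mwset, Set.mem_setOf_eq, Set.mem_inter_iff, Set.mem_Ici, Set.mem_iInter]
    rw [e]
    refine isClosed_Ici.inter (isClosed_iInter fun a => isClosed_iInter fun b => ?_)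
    by_cases hab : a < b
    · simp only [hab, true_imp_iff]
      exact isClosed_le continuous_const (continuous_pow _)
    · simp only [hab, false_imp_iff, Set.setOf_true]
      exact isClosed_univ
  exact hcl.csInf_mem (mwset_nonempty M) ⟨1, fun t ht => ht.1⟩

lemma one_le_mwt (M : Matrix (Fin n) (Fin n) ℝ) : 1 ≤ mwt M := (mwt_mem M).1

lemma abs_le_mwt_pow (M : Matrix (Fin n) (Fin n) ℝ) {a b : Fin n} (h : a < b) :
    |M a b| ≤ mwt M ^ ((b : ℕ) - (a : ℕ)) := (mwt_mem M).2 a b h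

/-- (UD) Let `s = mwt M`, `t = mwt N`.  It suffices that `n (s + t) ∈ mwset (M * N)` (`csInf_le`, the set is
bounded below by `1`).  Let `a < b` (so `1 ≤ n`), `k = b - a ≥ 1`.  Every term of
` (M * N) a b = ∑ l, M a l * N l b` has absolute value `≤ (s + t) ^ k`: it vanishes if `l < a` or `b < l`;
if `a ≤ l ≤ b` then `|M a l| ≤ s ^ (l - a) ≤ (s + t) ^ (l - a)` (for `l = a` use `hM1`),
`|N l b| ≤ (s + t) ^ (b - l)`, and ` (l - a) + (b - l) = k`.  So `| (M * N) a b| ≤ n (s + t) ^ k ≤ (n (s + t)) ^ k`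
(`n ≤ n ^ k`). -/
lemma mwt_mul_le (M N : Matrix (Fin n) (Fin n) ℝ) (hn : n ≠ 0) (hM : ∀ i j, j < i → M i j = 0)
    (hM1 : ∀ i, M i i = 1) (hN : ∀ i j, j < i → N i j = 0) (hN1 : ∀ i, N i i = 1) :
    mwt (M * N) ≤ n * (mwt M + mwt N) := by
  have hs := one_le_mwt M
  have ht := one_le_mwt N
  set s := mwt M with hsdef
  set t := mwt N with htdef
  have hst : 1 ≤ s + t := by linarith
  have hbdd : BddBelow (mwset (M * N)) := ⟨1, fun x hx => hx.1⟩
  have hn1 : (1 : ℝ) ≤ n := by exact_mod_cast Nat.one_le_iff_ne_zero.mpr hn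
  apply csInf_le hbdd
  refine ⟨by nlinarith, ?_⟩
  intro a b hab
  have hk : 1 ≤ (b : ℕ) - (a : ℕ) := by
    have : (a : ℕ) < b := hab
    omega
  have hterm : ∀ l : Fin n, |M a l * N l b| ≤ (s + t) ^ ((b : ℕ) - (a : ℕ)) := by
    intro l
    have hpos : 0 ≤ (s + t) ^ ((b : ℕ) - (a : ℕ)) := by positivity
    by_cases h1 : l < a
    · rw [hM a l h1]; simpa using hpos
    by_cases h2 : b < l
    · rw [hN l b h2]; simpa using hpos
    have hal : (a : ℕ) ≤ l := by
      have := not_lt.mp h1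
      exact this
    have hlb : (l : ℕ) ≤ b := by
      have := not_lt.mp h2
      exact this
    have hA : |M a l| ≤ (s + t) ^ ((l : ℕ) - (a : ℕ)) := by
      by_cases h3 : a = l
      · subst h3; simp [hM1]
      · have h4 : a < l := lt_of_le_of_ne (not_lt.mp h1) h3
        exact (abs_le_mwt_pow M h4).trans (pow_le_pow_left₀ (by linarith) (by linarith) _)
    have hB : |N l b| ≤ (s + t) ^ ((b : ℕ) - (l : ℕ)) := by
      by_cases h3 : l = b
      · subst h3; simp [hN1]
      · have h4 : l < b := lt_of_le_of_ne (not_lt.mp h2) h3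
        exact (abs_le_mwt_pow N h4).trans (pow_le_pow_left₀ (by linarith) (by linarith) _)
    rw [abs_mul]
    have : (b : ℕ) - (a : ℕ) = ((l : ℕ) - (a : ℕ)) + ((b : ℕ) - (l : ℕ)) := by omega
    rw [this, pow_add]
    exact mul_le_mul hA hB (abs_nonneg _) (by positivity)
  calc |(M * N) a b| = |∑ l, M a l * N l b| := by rw [Matrix.mul_apply]
    _ ≤ ∑ l, |M a l * N l b| := Finset.abs_sum_le_sum_abs _ _
    _ ≤ ∑ _l : Fin n, (s + t) ^ ((b : ℕ) - (a : ℕ)) := Finset.sum_le_sum fun l _ => hterm l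
    _ = n * (s + t) ^ ((b : ℕ) - (a : ℕ)) := by simp
    _ ≤ (n : ℝ) ^ ((b : ℕ) - (a : ℕ)) * (s + t) ^ ((b : ℕ) - (a : ℕ)) := by
        apply mul_le_mul_of_nonneg_right _ (by positivity)
        exact le_self_pow₀ hn1 (by omega)
    _ = (n * (s + t)) ^ ((b : ℕ) - (a : ℕ)) := by rw [mul_pow]

end weight

section trunc

variable {n : ℕ}

/-- keep the diagonal block with indices in `[i, j]`, replace the rest by the identity matrix -/
def trunc (i j : Fin n) (M : Matrix (Fin n) (Fin n) ℝ) : Matrix (Fin n) (Fin n) ℝ :=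
  fun a b => if i ≤ a ∧ a ≤ j ∧ i ≤ b ∧ b ≤ j then M a b else if a = b then 1 else 0

/-- (UE) entrywise, `Matrix.one_apply`. -/
lemma trunc_one (i j : Fin n) : trunc i j (1 : Matrix (Fin n) (Fin n) ℝ) = 1 := by
  ext a b
  unfold trunc
  rw [Matrix.one_apply]
  split_ifs <;> rfl

/-- (UF) Entry `(a, b)`, `I = [i, j]`.  If `a, b ∈ I`: in `∑ l, trunc M a l * trunc N l b` the terms with
`l ∉ I` vanish (`trunc M a l = 0` since `a ≠ l`), the terms with `l ∈ I` are `M a l * N l b`; in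
`∑ l, M a l * N l b` the terms with `l < i` vanish (`l < a`, `hM`), also those with `j < l` (`b < l`, `hN`).
If `a ∉ I`: `trunc M a l = if a = l then 1 else 0`, the sum is `trunc N a b = if a = b then 1 else 0`.
If `a ∈ I`, `b ∉ I`: `trunc N l b = if l = b then 1 else 0`, the sum is `trunc M a b = if a = b ..`. -/
lemma trunc_mul (i j : Fin n) (M N : Matrix (Fin n) (Fin n) ℝ) (hM : ∀ a b, b < a → M a b = 0)
    (hN : ∀ a b, b < a → N a b = 0) : trunc i j (M * N) = trunc i j M * trunc i j N := by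
  ext a b
  rw [Matrix.mul_apply]
  by_cases ha : i ≤ a ∧ a ≤ j
  · by_cases hb : i ≤ b ∧ b ≤ j
    · have h0 : trunc i j (M * N) a b = ∑ l, M a l * N l b := by
        simp only [trunc]
        rw [if_pos ⟨ha.1, ha.2, hb.1, hb.2⟩, Matrix.mul_apply]
      rw [h0]
      apply Finset.sum_congr rfl
      intro l _
      by_cases hl : i ≤ l ∧ l ≤ j
      · simp only [trunc]
        rw [if_pos ⟨ha.1, ha.2, hl.1, hl.2⟩, if_pos ⟨hl.1, hl.2, hb.1, hb.2⟩]
      · have hal : a ≠ l := by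
          rintro rfl; exact hl ha
        have h1 : trunc i j M a l = 0 := by
          simp only [trunc]
          rw [if_neg (fun h => hl ⟨h.2.2.1, h.2.2.2⟩), if_neg hal]
        rw [h1, zero_mul]
        by_cases h2 : l < i
        · rw [hM a l (lt_of_lt_of_le h2 ha.1), zero_mul]
        · have h3 : j < l := by
            by_contra h4
            exact hl ⟨not_lt.mp h2, not_lt.mp h4⟩
          rw [hN l b (lt_of_le_of_lt hb.2 h3), mul_zero]
    · have h0 : trunc i j (M * N) a b = if a = b then 1 else 0 := by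
        simp only [trunc]
        rw [if_neg (fun h => hb ⟨h.2.2.1, h.2.2.2⟩)]
      have h1 : ∀ l, trunc i j N l b = if l = b then 1 else 0 := by
        intro l
        simp only [trunc]
        rw [if_neg (fun h => hb ⟨h.2.2.1, h.2.2.2⟩)]
      have h2 : trunc i j M a b = if a = b then 1 else 0 := by
        simp only [trunc]
        rw [if_neg (fun h => hb ⟨h.2.2.1, h.2.2.2⟩)]
      rw [h0]
      simp only [h1, mul_ite, mul_one, mul_zero, Finset.sum_ite_eq', Finset.mem_univ, if_true]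
      exact h2.symm
  · have h0 : trunc i j (M * N) a b = if a = b then 1 else 0 := by
      simp only [trunc]
      rw [if_neg (fun h => ha ⟨h.1, h.2.1⟩)]
    have h1 : ∀ l, trunc i j M a l = if a = l then 1 else 0 := by
      intro l
      simp only [trunc]
      rw [if_neg (fun h => ha ⟨h.1, h.2.1⟩)]
    have h2 : trunc i j N a b = if a = b then 1 else 0 := by
      simp only [trunc]
      rw [if_neg (fun h => ha ⟨h.1, h.2.1⟩)]
    rw [h0]
    simp only [h1, ite_mul, one_mul, zero_mul, Finset.sum_ite_eq, Finset.mem_univ, if_true]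
    exact h2.symm

/-- (UG) -/
lemma trunc_lower (i j : Fin n) (M : Matrix (Fin n) (Fin n) ℝ) (hM : ∀ a b, b < a → M a b = 0)
    (a b : Fin n) (h : b < a) : trunc i j M a b = 0 := by
  unfold trunc
  rw [hM a b h, if_neg (ne_of_gt h)]
  split_ifs <;> rfl

/-- (UG) -/
lemma trunc_diag (i j : Fin n) (M : Matrix (Fin n) (Fin n) ℝ) (hM1 : ∀ a, M a a = 1)
    (a : Fin n) : trunc i j M a a = 1 := by
  unfold trunc
  rw [hM1 a, if_pos rfl]
  split_ifs <;> rfl

/-- (UH) row `j`: if `b` is in the block then `b ≤ j`, so `b = j` or `M j b = 0`. -/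
lemma trunc_row (i j : Fin n) (M : Matrix (Fin n) (Fin n) ℝ) (hM : ∀ a b, b < a → M a b = 0)
    (hM1 : ∀ a, M a a = 1) (b : Fin n) : trunc i j M j b = if j = b then 1 else 0 := by
  unfold trunc
  by_cases hc : i ≤ j ∧ j ≤ j ∧ i ≤ b ∧ b ≤ j
  · rw [if_pos hc]
    by_cases hjb : j = b
    · subst hjb
      rw [hM1, if_pos rfl]
    · rw [if_neg hjb]
      exact hM j b (lt_of_le_of_ne hc.2.2.2 (Ne.symm hjb))
  · rw [if_neg hc]

/-- (UH) column `i`. -/
lemma trunc_col (i j : Fin n) (M : Matrix (Fin n) (Fin n) ℝ) (hM : ∀ a b, b < a → M a b = 0)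
    (hM1 : ∀ a, M a a = 1) (a : Fin n) : trunc i j M a i = if a = i then 1 else 0 := by
  unfold trunc
  by_cases hc : i ≤ a ∧ a ≤ j ∧ i ≤ i ∧ i ≤ j
  · rw [if_pos hc]
    by_cases hai : a = i
    · subst hai
      rw [hM1, if_pos rfl]
    · rw [if_neg hai]
      exact hM a i (lt_of_le_of_ne hc.1 (Ne.symm hai))
  · rw [if_neg hc]

/-- (UI) a nonzero entry above the diagonal with minimal distance to the diagonal
(`Nat.find` for the set of `k` with `∃ i j, i < j ∧ j - i = k ∧ M i j ≠ 0`; it is nonempty, otherwise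
`M = 1` by `Matrix.ext`). -/
lemma exists_min_entry (M : Matrix (Fin n) (Fin n) ℝ) (hM : ∀ a b, b < a → M a b = 0)
    (hM1 : ∀ a, M a a = 1) (hne : M ≠ 1) :
    ∃ i j : Fin n, i < j ∧ M i j ≠ 0 ∧
      ∀ a b : Fin n, a < b → (b : ℕ) - (a : ℕ) < (j : ℕ) - (i : ℕ) → M a b = 0 := by
  classical
  have hex : ∃ k : ℕ, ∃ i j : Fin n, i < j ∧ (j : ℕ) - (i : ℕ) = k ∧ M i j ≠ 0 := by
    by_contra hcon
    apply hne
    ext a b
    rw [Matrix.one_apply]
    rcases lt_trichotomy a b with h | h | h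
    · rw [if_neg (ne_of_lt h)]
      by_contra h0
      exact hcon ⟨_, a, b, h, rfl, h0⟩
    · subst h
      rw [if_pos rfl, hM1]
    · rw [if_neg (ne_of_gt h)]
      exact hM a b h
  obtain ⟨i, j, hij, hk, h0⟩ := Nat.find_spec hex
  refine ⟨i, j, hij, h0, ?_⟩
  intro a b hab hlt
  by_contra hne0
  rw [hk] at hlt
  exact Nat.find_min hex hlt ⟨a, b, hab, rfl, hne0⟩

/-- (UJ) the truncation of such a matrix: the identity matrix plus the entry `M i j` at `(i, j)`.
If `a, b` are in the block and `a < b`, `(a, b) ≠ (i, j)`, then `b - a < j - i`. -/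
lemma trunc_min (i j : Fin n) (hij : i < j) (M : Matrix (Fin n) (Fin n) ℝ)
    (hM : ∀ a b, b < a → M a b = 0) (hM1 : ∀ a, M a a = 1)
    (hmin : ∀ a b : Fin n, a < b → (b : ℕ) - (a : ℕ) < (j : ℕ) - (i : ℕ) → M a b = 0)
    (a b : Fin n) :
    trunc i j M a b = (if a = b then 1 else 0) + if a = i ∧ b = j then M i j else 0 := by
  unfold trunc
  by_cases hc : i ≤ a ∧ a ≤ j ∧ i ≤ b ∧ b ≤ j
  · rw [if_pos hc]
    obtain ⟨h1, h2, h3, h4⟩ := hc
    rcases lt_trichotomy a b with h | h | h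
    · rw [if_neg (ne_of_lt h)]
      by_cases hc2 : a = i ∧ b = j
      · rw [if_pos hc2, hc2.1, hc2.2, zero_add]
      · rw [if_neg hc2, add_zero]
        apply hmin a b h
        have e1 : (i : ℕ) ≤ a := h1
        have e2 : (b : ℕ) ≤ j := h4
        have e3 : (a : ℕ) < b := h
        have e4 : ¬ ((a : ℕ) = i ∧ (b : ℕ) = j) := fun hh => hc2 ⟨Fin.ext hh.1, Fin.ext hh.2⟩
        omega
    · subst h
      rw [if_pos rfl, hM1, if_neg, add_zero]
      rintro ⟨e1, e2⟩
      rw [e1] at e2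
      exact absurd e2 (ne_of_lt hij)
    · rw [if_neg (ne_of_gt h), hM a b h, if_neg, add_zero]
      rintro ⟨e1, e2⟩
      rw [e1, e2] at h
      exact absurd h (not_lt.mpr hij.le)
  · have hc2 : ¬ (a = i ∧ b = j) := by
      rintro ⟨e1, e2⟩
      apply hc
      rw [e1, e2]
      exact ⟨le_refl _, hij.le, hij.le, le_refl _⟩
    rw [if_neg hc, if_neg hc2, add_zero]

/-- (UK) left and right multiplication by `A = 1 + ξ E_{ij}`:
` (A * B) a b = B a b + (if a = i then ξ * B j b else 0)`,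
` (B * A) a b = B a b + (if b = j then B a i * ξ else 0)` (`Matrix.mul_apply`, `Finset.sum_add_distrib`,
`Finset.sum_ite_eq`). -/
lemma corner_mul (i j : Fin n) (ξ : ℝ) (A B : Matrix (Fin n) (Fin n) ℝ)
    (hA : ∀ a b, A a b = (if a = b then 1 else 0) + if a = i ∧ b = j then ξ else 0) (a b : Fin n) :
    (A * B) a b = B a b + (if a = i then ξ * B j b else 0) ∧
      (B * A) a b = B a b + (if b = j then B a i * ξ else 0) := by
  constructor
  · rw [Matrix.mul_apply]
    simp only [hA, add_mul, Finset.sum_add_distrib, ite_mul, one_mul, zero_mul]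
    rw [Finset.sum_ite_eq]
    simp only [Finset.mem_univ, if_true]
    congr 1
    by_cases ha : a = i
    · simp only [ha, true_and, if_true]
      rw [Finset.sum_ite_eq']
      simp
    · simp [ha]
  · rw [Matrix.mul_apply]
    simp only [hA, mul_add, Finset.sum_add_distrib, mul_ite, mul_one, mul_zero]
    rw [Finset.sum_ite_eq']
    simp only [Finset.mem_univ, if_true]
    congr 1
    by_cases hb : b = j
    · simp only [hb, and_true, if_true]
      rw [Finset.sum_ite_eq']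
      simp
    · simp [hb]

end trunc

end Vale.Agent.P184.PN

namespace Vale.Agent.P184

open PN

/-- (UL) the main step.  Take `n, ρ` from `h`, `i, j` from `exists_min_entry (ρ g)`, `ξ = ρ g i j`.
`ρ' : G →* Matrix` with `ρ' h = trunc i j (ρ h)` (`trunc_one`, `trunc_mul`), `u = ρ'.toHomUnits`,
`C = u.range`, `π = u.rangeRestrict`, `μ : C →* Matrix` the coercion
(`(Units.coeHom _).comp C.subtype`), `x = π g`.  All `μ y` are of the form `trunc i j (ρ h)`.
`x` is central: by `corner_mul` (with `trunc_min`), `trunc_row`, `trunc_col` the matrices `μ x * μ y` and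
`μ y * μ x` have the same entries; `Units.ext`, `Subtype.ext`.
`μ (x * y) i j = μ y i j + ξ` by `corner_mul`, `trunc_diag`.
Gauge `v y = mwt (μ y) + mwt (μ y⁻¹)`: `1 ≤ v`, `v (y z) ≤ n (v y + v z)` by `mwt_mul_le`
(`(y z)⁻¹ = z⁻¹ y⁻¹`), `trunc_lower`, `trunc_diag`.
`|μ y i j| ≤ mwt (μ y) ^ (j - i) ≤ v y ^ (j - i)`, the same for `y⁻¹`.  Apply `polyNilW_of_corner` with
`K = 1`, `d = j - i`, then `PolyNil.comap π`.
The second statement: `μ (x ^ k) i j = k ξ` by induction (`pow_succ'`), `μ 1 i j = 0`, so `x ^ k ≠ 1` for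
`k > 0`, and `π (g ^ k) = x ^ k` (`isOfFinOrder_iff_pow_eq_one`). -/
theorem UniAt.polyNil_and {G : Type*} [Group G] {g : G} (h : UniAt g) :
    PolyNil g ∧ ¬ IsOfFinOrder g := by
  obtain ⟨n, ρ, hlow, hdiag, hne⟩ := h
  obtain ⟨i, j, hij, hξ, hmin⟩ := exists_min_entry (ρ g) (hlow g) (hdiag g) hne
  let ρ' : G →* Matrix (Fin n) (Fin n) ℝ :=
    { toFun := fun h => trunc i j (ρ h)
      map_one' := by rw [map_one, trunc_one]
      map_mul' := fun a b => by rw [map_mul, trunc_mul i j _ _ (hlow a) (hlow b)] }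
  let u : G →* (Matrix (Fin n) (Fin n) ℝ)ˣ := ρ'.toHomUnits
  let π : G →* u.range := u.rangeRestrict
  let μ : u.range →* Matrix (Fin n) (Fin n) ℝ := (Units.coeHom _).comp u.range.subtype
  have hμ : ∀ y : u.range, ∃ h : G, μ y = trunc i j (ρ h) := by
    rintro ⟨y, h, rfl⟩
    exact ⟨h, rfl⟩
  have hμπ : ∀ h : G, μ (π h) = trunc i j (ρ h) := fun h => rfl
  have hμinj : Function.Injective μ := by
    intro a b hab
    exact Subtype.ext (Units.ext hab)
  have hA : ∀ a b, μ (π g) a b =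
      (if a = b then 1 else 0) + if a = i ∧ b = j then ρ g i j else 0 := by
    intro a b
    rw [hμπ]
    exact trunc_min i j hij (ρ g) (hlow g) (hdiag g) hmin a b
  have hlowμ : ∀ y a b, b < a → μ y a b = 0 := by
    intro y a b hab
    obtain ⟨h, hh⟩ := hμ y
    rw [hh]; exact trunc_lower i j _ (hlow h) a b hab
  have hdiagμ : ∀ y a, μ y a a = 1 := by
    intro y a
    obtain ⟨h, hh⟩ := hμ y
    rw [hh]; exact trunc_diag i j _ (hdiag h) a
  have hrow : ∀ y b, μ y j b = if j = b then 1 else 0 := by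
    intro y b
    obtain ⟨h, hh⟩ := hμ y
    rw [hh]; exact trunc_row i j _ (hlow h) (hdiag h) b
  have hcol : ∀ y a, μ y a i = if a = i then 1 else 0 := by
    intro y a
    obtain ⟨h, hh⟩ := hμ y
    rw [hh]; exact trunc_col i j _ (hlow h) (hdiag h) a
  have hcentral : ∀ y, y * π g = π g * y := by
    intro y
    apply hμinj
    rw [map_mul, map_mul]
    ext a b
    obtain ⟨h1, h2⟩ := corner_mul i j (ρ g i j) (μ (π g)) (μ y) hA a b
    rw [h1, h2, hrow, hcol]
    by_cases ha : a = i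
    · by_cases hb : b = j
      · simp [ha, hb]
      · have hb' : ¬ j = b := fun e => hb e.symm
        simp [ha, hb, hb']
    · simp [ha]
  have hshift : ∀ y, μ (π g * y) i j = μ y i j + ρ g i j := by
    intro y
    rw [map_mul, (corner_mul i j (ρ g i j) (μ (π g)) (μ y) hA i j).1, hdiagμ]; simp
  let v : u.range → ℝ := fun y => mwt (μ y) + mwt (μ y⁻¹)
  have hv : Gauge v := by
    refine ⟨fun y => ?_, n, fun y z => ?_⟩
    · have h1 := one_le_mwt (μ y)
      have h2 := one_le_mwt (μ y⁻¹)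
      show 1 ≤ mwt _ + mwt _
      linarith
    · show mwt (μ (y * z)) + mwt (μ (y * z)⁻¹) ≤
        n * ((mwt (μ y) + mwt (μ y⁻¹)) + (mwt (μ z) + mwt (μ z⁻¹)))
      rw [mul_inv_rev, map_mul, map_mul]
      have hn0 : n ≠ 0 := fun h0 => by subst h0; exact i.elim0
      have h1 := mwt_mul_le (μ y) (μ z) hn0 (hlowμ y) (hdiagμ y) (hlowμ z) (hdiagμ z)
      have h2 := mwt_mul_le (μ z⁻¹) (μ y⁻¹) hn0 (hlowμ _) (hdiagμ _) (hlowμ _) (hdiagμ _)
      linarith
  have hb : ∀ y, |μ y i j| ≤ 1 * v y ^ ((j : ℕ) - (i : ℕ)) := by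
    intro y
    rw [one_mul]
    refine (abs_le_mwt_pow (μ y) hij).trans ?_
    apply pow_le_pow_left₀ (by linarith [one_le_mwt (μ y)])
    show mwt (μ y) ≤ mwt (μ y) + mwt (μ y⁻¹)
    linarith [one_le_mwt (μ y⁻¹)]
  have hb' : ∀ y, |μ y⁻¹ i j| ≤ 1 * v y ^ ((j : ℕ) - (i : ℕ)) := by
    intro y
    rw [one_mul]
    refine (abs_le_mwt_pow (μ y⁻¹) hij).trans ?_
    apply pow_le_pow_left₀ (by linarith [one_le_mwt (μ y⁻¹)])
    show mwt (μ y⁻¹) ≤ mwt (μ y) + mwt (μ y⁻¹)
    linarith [one_le_mwt (μ y)]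
  have hW : PolyNilW v (π g) :=
    polyNilW_of_corner hv (π g) hcentral μ i j (ρ g i j) hξ hshift 1 _ hb hb'
  refine ⟨PolyNil.comap π ⟨v, hv, hW⟩, ?_⟩
  intro hfin
  rw [isOfFinOrder_iff_pow_eq_one] at hfin
  obtain ⟨k, hk, hgk⟩ := hfin
  have hpow : ∀ k : ℕ, μ (π g ^ k) i j = k * ρ g i j := by
    intro k
    induction k with
    | zero => simp [Matrix.one_apply, hij.ne]
    | succ k ih => rw [pow_succ', hshift, ih]; push_cast; ring
  have h1 : π g ^ k = 1 := by rw [← map_pow, hgk, map_one]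
  have h2 := hpow k
  rw [h1, map_one, Matrix.one_apply, if_neg hij.ne] at h2
  have h3 : (k : ℝ) * ρ g i j ≠ 0 := mul_ne_zero (by exact_mod_cast hk.ne') hξ
  exact h3 h2.symm

theorem UniAt.polyNil {G : Type*} [Group G] {g : G} (h : UniAt g) : PolyNil g := h.polyNil_and.1

theorem UniDet.allPolyNil {P : Type*} [Group P] (h : UniDet P) : AllPolyNil P :=
  fun x hx => (h x hx).polyNil

/-- (UM) `ResUni P` implies that `P` is torsion free (`UniAt.polyNil_and`), so the only conjugacy class of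
elements of finite order is the class of `1`: the set in `FinTor` is contained in `{ConjClasses.mk 1}`
(`ConjClasses.mem_carrier_mk`, `Quotient.inductionOn`). -/
theorem ResUni.uniDet_finTor {P : Type*} [Group P] (h : ResUni P) : UniDet P ∧ FinTor P := by
  refine ⟨fun x hx => h x (fun h1 => hx (by rw [h1]; exact IsOfFinOrder.one)), ?_⟩
  unfold FinTor
  apply Set.Finite.subset (Set.finite_singleton (ConjClasses.mk (1 : P)))
  intro C hC
  induction C using Quotient.inductionOn with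
  | _ g =>
    have hg : IsOfFinOrder g := hC g ConjClasses.mem_carrier_mk
    have h1 : g = 1 := by
      by_contra hne
      exact (h g hne).polyNil_and.2 hg
    rw [h1]
    rfl

end Vale.Agent.P184
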