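import Vale.Agent.P184.PN.Wr
import Vale.Agent.P184.PN.DefsVUni
import Vale.Agent.P184.PN.Apps

/-!
# Virtually unipotent detection (rows VA - VM)
-/

namespace Vale.Agent.P184.PN

open scoped BigOperators

/-- (VA) as `exists_min_entry`, for a family (`Nat.find` for the set of `k` with
`∃ ω i j, i < j ∧ j - i = k ∧ M ω i j ≠ 0`; it is nonempty since `M ω₁ ≠ 1`). -/
lemma exists_min_entry_family {n : ℕ} {ι : Type*} (M : ι → Matrix (Fin n) (Fin n) ℝ)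
    (hM : ∀ ω a b, b < a → M ω a b = 0) (hM1 : ∀ ω a, M ω a a = 1) (ω₁ : ι) (hne : M ω₁ ≠ 1) :
    ∃ (ω₀ : ι) (i j : Fin n), i < j ∧ M ω₀ i j ≠ 0 ∧
      ∀ (ω : ι) (a b : Fin n), a < b → (b : ℕ) - (a : ℕ) < (j : ℕ) - (i : ℕ) → M ω a b = 0 := by
  classical
  have hex : ∃ k : ℕ, ∃ (ω : ι) (i j : Fin n), i < j ∧ (j : ℕ) - (i : ℕ) = k ∧ M ω i j ≠ 0 := by
    by_contra hcon
    apply hne
    ext a b
    rw [Matrix.one_apply]
    rcases lt_trichotomy a b with h | h | h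
    · rw [if_neg (ne_of_lt h)]
      by_contra h0
      exact hcon ⟨_, ω₁, a, b, h, rfl, h0⟩
    · subst h
      rw [if_pos rfl, hM1]
    · rw [if_neg (ne_of_gt h)]
      exact hM ω₁ a b h
  obtain ⟨ω₀, i, j, hij, hk, h0⟩ := Nat.find_spec hex
  refine ⟨ω₀, i, j, hij, h0, ?_⟩
  intro ω a b hab hlt
  by_contra hne0
  rw [hk] at hlt
  exact Nat.find_min hex hlt ⟨ω, a, b, hab, rfl, hne0⟩

/-- (VB) Copy the proof of `UniAt.polyNil_and`: `ρ' h = trunc i j (ρ h)`, `u = ρ'.toHomUnits`, `U = u.range`,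
`π = u.rangeRestrict`, `μ : U →* Matrix` the coercion, `vU y = mwt (μ y) + mwt (μ y⁻¹)` (symmetric: `inv_inv`,
`add_comm`), `β y = μ y i j`, `A l y = μ y i l`, `B l y = μ y l j` (`map_mul`, `Matrix.mul_apply`), `d = j - i`.
For `h` as in the last clause `μ (π h)` is the identity plus `ρ h i j` at `(i, j)` (`trunc_min`), then `corner_mul`,
`trunc_row`, `trunc_col`, `trunc_diag` exactly as there (`hcentral`, `hshift`). -/
theorem corner_package {H : Type*} [Group H] {n : ℕ} (ρ : H →* Matrix (Fin n) (Fin n) ℝ)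
    (hlow : ∀ h i j, j < i → ρ h i j = 0) (hdiag : ∀ h i, ρ h i i = 1) (i j : Fin n) (hij : i < j) :
    ∃ (U : Type) (_ : Group U) (π : H →* U) (vU : U → ℝ) (β : U → ℝ) (A B : Fin n → U → ℝ) (d : ℕ),
      Gauge vU ∧ (∀ a, vU a⁻¹ = vU a) ∧ (∀ a b, β (a * b) = ∑ l, A l a * B l b) ∧
      (∀ a, |β a| ≤ 1 * vU a ^ d) ∧
      ∀ h : H, (∀ a b : Fin n, a < b → (b : ℕ) - (a : ℕ) < (j : ℕ) - (i : ℕ) → ρ h a b = 0) →
        (∀ a, a * π h = π h * a) ∧ (∀ a, β (π h * a) = β a + β (π h)) ∧ β (π h) = ρ h i j := by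
  let ρ' : H →* Matrix (Fin n) (Fin n) ℝ :=
    { toFun := fun h => trunc i j (ρ h)
      map_one' := by rw [map_one, trunc_one]
      map_mul' := fun a b => by rw [map_mul, trunc_mul i j _ _ (hlow a) (hlow b)] }
  let u : H →* (Matrix (Fin n) (Fin n) ℝ)ˣ := ρ'.toHomUnits
  let π : H →* u.range := u.rangeRestrict
  let μ : u.range →* Matrix (Fin n) (Fin n) ℝ := (Units.coeHom _).comp u.range.subtype
  have hμ : ∀ y : u.range, ∃ h : H, μ y = trunc i j (ρ h) := by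
    rintro ⟨y, h, rfl⟩
    exact ⟨h, rfl⟩
  have hμπ : ∀ h : H, μ (π h) = trunc i j (ρ h) := fun h => rfl
  have hμinj : Function.Injective μ := by
    intro a b hab
    exact Subtype.ext (Units.ext hab)
  have hlowμ : ∀ y a b, b < a → μ y a b = 0 := by
    intro y a b hab
    obtain ⟨h, hh⟩ := hμ y
    rw [hh]; exact trunc_lower i j _ (hlow h) a b hab
  have hdiagμ : ∀ y a, μ y a a = 1 := by
    intro y a
    obtain ⟨h, hh⟩ := hμ y
    rw [hh]; exact trunc_diag i j _ (hdiag h) a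
  have hrow : ∀ y b, μ y j b = if j = b then 1 else 0 := by
    intro y b
    obtain ⟨h, hh⟩ := hμ y
    rw [hh]; exact trunc_row i j _ (hlow h) (hdiag h) b
  have hcol : ∀ y a, μ y a i = if a = i then 1 else 0 := by
    intro y a
    obtain ⟨h, hh⟩ := hμ y
    rw [hh]; exact trunc_col i j _ (hlow h) (hdiag h) a
  let v : u.range → ℝ := fun y => mwt (μ y) + mwt (μ y⁻¹)
  have hv : Gauge v := by
    refine ⟨fun y => ?_, n, fun y z => ?_⟩
    · have h1 := one_le_mwt (μ y)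
      have h2 := one_le_mwt (μ y⁻¹)
      show 1 ≤ mwt _ + mwt _
      linarith
    · show mwt (μ (y * z)) + mwt (μ (y * z)⁻¹) ≤
        n * ((mwt (μ y) + mwt (μ y⁻¹)) + (mwt (μ z) + mwt (μ z⁻¹)))
      rw [mul_inv_rev, map_mul, map_mul]
      have hn0 : n ≠ 0 := fun h0 => by subst h0; exact i.elim0
      have h1 := mwt_mul_le (μ y) (μ z) hn0 (hlowμ y) (hdiagμ y) (hlowμ z) (hdiagμ z)
      have h2 := mwt_mul_le (μ z⁻¹) (μ y⁻¹) hn0 (hlowμ _) (hdiagμ _) (hlowμ _) (hdiagμ _)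
      linarith
  have hb : ∀ y, |μ y i j| ≤ 1 * v y ^ ((j : ℕ) - (i : ℕ)) := by
    intro y
    rw [one_mul]
    refine (abs_le_mwt_pow (μ y) hij).trans ?_
    apply pow_le_pow_left₀ (by linarith [one_le_mwt (μ y)])
    show mwt (μ y) ≤ mwt (μ y) + mwt (μ y⁻¹)
    linarith [one_le_mwt (μ y⁻¹)]
  refine ⟨u.range, inferInstance, π, v, fun y => μ y i j, fun l y => μ y i l, fun l y => μ y l j,
    (j : ℕ) - (i : ℕ), hv, ?_, ?_, hb, ?_⟩
  · intro a
    show mwt (μ a⁻¹) + mwt (μ a⁻¹⁻¹) = mwt (μ a) + mwt (μ a⁻¹)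
    rw [inv_inv, add_comm]
  · intro a b
    show μ (a * b) i j = ∑ l, μ a i l * μ b l j
    rw [map_mul, Matrix.mul_apply]
  · intro g hmin
    have hA : ∀ a b, μ (π g) a b =
        (if a = b then 1 else 0) + if a = i ∧ b = j then ρ g i j else 0 := by
      intro a b
      rw [hμπ]
      exact trunc_min i j hij (ρ g) (hlow g) (hdiag g) hmin a b
    have hval : μ (π g) i j = ρ g i j := by
      rw [hA, if_neg hij.ne, if_pos ⟨rfl, rfl⟩, zero_add]
    refine ⟨?_, ?_, hval⟩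
    · intro y
      apply hμinj
      rw [map_mul, map_mul]
      ext a b
      obtain ⟨h1, h2⟩ := corner_mul i j (ρ g i j) (μ (π g)) (μ y) hA a b
      rw [h1, h2, hrow, hcol]
      by_cases ha : a = i
      · by_cases hb : b = j
        · simp [ha, hb]
        · have hb' : ¬ j = b := fun e => hb e.symm
          simp [ha, hb, hb']
      · simp [ha]
    · intro y
      show μ (π g * y) i j = μ y i j + μ (π g) i j
      rw [hval, map_mul, (corner_mul i j (ρ g i j) (μ (π g)) (μ y) hA i j).1, hdiagμ]; simp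

/-- (VC) Let `u = ρ.toHomUnits`, `R = u.range`, `y = u.rangeRestrict h`, `μ : R →* Matrix` the coercion
(`(Units.coeHom _).comp R.subtype`), injective, unitriangular, `μ y = ρ h ≠ 1`.  So `UniAt y`, and `y` has infinite
order by `UniAt.polyNil_and`.  If `ρ (h ^ k) = 1` then `μ (y ^ k) = 1`, `y ^ k = 1`
(`isOfFinOrder_iff_pow_eq_one`). -/
lemma rho_pow_ne_one {H : Type*} [Group H] {n : ℕ} (ρ : H →* Matrix (Fin n) (Fin n) ℝ)
    (hlow : ∀ h i j, j < i → ρ h i j = 0) (hdiag : ∀ h i, ρ h i i = 1) (h : H) (hne : ρ h ≠ 1)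
    (k : ℕ) (hk : 0 < k) : ρ (h ^ k) ≠ 1 := by
  intro hk1
  let u : H →* (Matrix (Fin n) (Fin n) ℝ)ˣ := ρ.toHomUnits
  let μ : u.range →* Matrix (Fin n) (Fin n) ℝ := (Units.coeHom _).comp u.range.subtype
  have hμ : ∀ y : u.range, ∃ h' : H, μ y = ρ h' := by
    rintro ⟨y, h', rfl⟩
    exact ⟨h', rfl⟩
  have hμinj : Function.Injective μ := by
    intro a b hab
    exact Subtype.ext (Units.ext hab)
  have hy : μ (u.rangeRestrict h) = ρ h := rfl
  have hU : UniAt (u.rangeRestrict h) := by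
    refine ⟨n, μ, ?_, ?_, ?_⟩
    · intro y i j hij
      obtain ⟨h', hh⟩ := hμ y
      rw [hh]
      exact hlow h' i j hij
    · intro y i
      obtain ⟨h', hh⟩ := hμ y
      rw [hh]
      exact hdiag h' i
    · rw [hy]
      exact hne
  apply hU.polyNil_and.2
  rw [isOfFinOrder_iff_pow_eq_one]
  refine ⟨k, hk, ?_⟩
  apply hμinj
  rw [map_one, ← map_pow]
  exact hk1

section kk

variable {G : Type*} [Group G] (H : Subgroup G) [H.Normal]

/-- (VD) `QuotientGroup.eq_one_iff`, `QuotientGroup.mk_mul`, `QuotientGroup.mk_inv`, `QuotientGroup.out_eq'`. -/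
lemma kk_mem (g : G) (ω : G ⧸ H) :
    (Quotient.out ω)⁻¹ * g * Quotient.out ((g : G ⧸ H)⁻¹ * ω) ∈ H := by
  rw [← QuotientGroup.eq_one_iff]
  simp only [QuotientGroup.mk_mul, QuotientGroup.mk_inv, QuotientGroup.out_eq']
  group

variable {U : Type*} [Group U] (π : H →* U)

/-- the map of Kaloujnine and Krasner, followed by `π` in each coordinate -/
noncomputable def kkFun (g : G) : RegularWreathProduct U (G ⧸ H) :=
  ⟨fun ω => π ⟨(Quotient.out ω)⁻¹ * g * Quotient.out ((g : G ⧸ H)⁻¹ * ω), kk_mem H g ω⟩, (g : G ⧸ H)⟩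

/-- (VE) `RegularWreathProduct.ext`; the element of `H` at `ω` is `(out ω)⁻¹ * 1 * out (1⁻¹ * ω) = 1`
(`Subtype.ext`, `QuotientGroup.mk_one`), `map_one`. -/
lemma kkFun_one : kkFun H π 1 = 1 := by
  apply RegularWreathProduct.ext
  · funext ω
    have h : (⟨(Quotient.out ω)⁻¹ * 1 * Quotient.out (((1 : G) : G ⧸ H)⁻¹ * ω), kk_mem H 1 ω⟩ : H) = 1 := by
      apply Subtype.ext
      simp
    change π _ = 1
    rw [h, map_one]
  · rfl

/-- (VF) `RegularWreathProduct.ext`; at `ω`, with `ω' = (a : G ⧸ H)⁻¹ * ω`: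
`(out ω)⁻¹ * (a * b) * out ((a b)⁻¹ ω) = ((out ω)⁻¹ * a * out ω') * ((out ω')⁻¹ * b * out (b⁻¹ ω'))`
(`Subtype.ext`, `QuotientGroup.mk_mul`, `mul_inv_rev`, `mul_assoc`, `group`), `map_mul`. -/
lemma kkFun_mul (a b : G) : kkFun H π (a * b) = kkFun H π a * kkFun H π b := by
  apply RegularWreathProduct.ext
  · funext ω
    have e : (⟨(Quotient.out ω)⁻¹ * (a * b) * Quotient.out (((a * b : G) : G ⧸ H)⁻¹ * ω),
        kk_mem H (a * b) ω⟩ : H) =
        ⟨(Quotient.out ω)⁻¹ * a * Quotient.out ((a : G ⧸ H)⁻¹ * ω), kk_mem H a ω⟩ *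
        ⟨(Quotient.out ((a : G ⧸ H)⁻¹ * ω))⁻¹ * b *
          Quotient.out ((b : G ⧸ H)⁻¹ * ((a : G ⧸ H)⁻¹ * ω)), kk_mem H b _⟩ := by
      apply Subtype.ext
      simp only [QuotientGroup.mk_mul, mul_inv_rev, Subgroup.coe_mul, mul_assoc]
      group
    show π _ = π _ * π _
    rw [e, map_mul]
    rfl
  · rfl

/-- the homomorphism -/
noncomputable def kk : G →* RegularWreathProduct U (G ⧸ H) where
  toFun := kkFun H π
  map_one' := kkFun_one H π
  map_mul' := kkFun_mul H π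

lemma kk_right (g : G) : (kk H π g).right = (g : G ⧸ H) := rfl

/-- (VG) `← map_pow`; the coordinate of `kk H π (g ^ t)` at `ω` is `π ⟨(out ω)⁻¹ * g ^ t * out ((g ^ t)⁻¹ ω), _⟩`
and `((g ^ t : G) : G ⧸ H) = 1` (`QuotientGroup.mk_pow`), so `(..)⁻¹ * ω = ω`; `congrArg π (Subtype.ext ..)`. -/
lemma kk_pow_left (g : G) (t : ℕ) (ht : (g : G ⧸ H) ^ t = 1) (ω : G ⧸ H)
    (hmem : (Quotient.out ω)⁻¹ * g ^ t * Quotient.out ω ∈ H) :
    ((kk H π g) ^ t).left ω = π ⟨(Quotient.out ω)⁻¹ * g ^ t * Quotient.out ω, hmem⟩ := by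
  rw [← map_pow]
  have h1 : ((g ^ t : G) : G ⧸ H) = 1 := by rw [QuotientGroup.mk_pow, ht]
  show π _ = π _
  apply congrArg π
  apply Subtype.ext
  simp only [h1, inv_one, one_mul]

omit [H.Normal] in
/-- (VH) `g ^ t = c * (c⁻¹ g ^ t c) * c⁻¹ ∈ H`.  If `ρ ⟨c⁻¹ g ^ t c, _⟩ = 1` then
`ρ ⟨g ^ t, _⟩ = ρ ⟨c, _⟩ * 1 * ρ ⟨c, _⟩⁻¹ = ρ 1 = 1` (`map_mul`), and with `m = t * k`,
`⟨g ^ m, _⟩ = ⟨g ^ t, _⟩ ^ k` (`pow_mul`, `Subtype.ext`), so `ρ ⟨g ^ m, _⟩ = 1 ^ k = 1` (`map_pow`). -/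
lemma rho_conj_ne_one {n : ℕ} (ρ : H →* Matrix (Fin n) (Fin n) ℝ) (g : G) (m t : ℕ) (hm : g ^ m ∈ H)
    (hne : ρ ⟨g ^ m, hm⟩ ≠ 1) (htm : t ∣ m) (c : G) (hc : c ∈ H) (hmem : c⁻¹ * g ^ t * c ∈ H) :
    ρ ⟨c⁻¹ * g ^ t * c, hmem⟩ ≠ 1 := by
  intro h1
  apply hne
  obtain ⟨k, rfl⟩ := htm
  have hgt : g ^ t ∈ H := by
    have : g ^ t = c * (c⁻¹ * g ^ t * c) * c⁻¹ := by group
    rw [this]
    exact H.mul_mem (H.mul_mem hc hmem) (H.inv_mem hc)
  have e1 : (⟨g ^ t, hgt⟩ : H) = ⟨c, hc⟩ * ⟨c⁻¹ * g ^ t * c, hmem⟩ * ⟨c, hc⟩⁻¹ := by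
    apply Subtype.ext
    simp only [Subgroup.coe_mul, Subgroup.coe_inv]
    group
  have e2 : ρ ⟨g ^ t, hgt⟩ = 1 := by
    rw [e1, map_mul, map_mul, h1, mul_one, ← map_mul, mul_inv_cancel, map_one]
  have e3 : (⟨g ^ (t * k), hm⟩ : H) = ⟨g ^ t, hgt⟩ ^ k := by
    apply Subtype.ext
    simp only [Subgroup.coe_pow, pow_mul]
  rw [e3, map_pow, e2, one_pow]

/-- (VI) the case of a normal subgroup.  `Ω = G ⧸ H` is finite (`Fintype.ofFinite`), `t = orderOf (g : Ω)`,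
`(g : Ω) ^ t = 1` (`pow_orderOf_eq_one`), so `g ^ t ∈ H` (`QuotientGroup.eq_one_iff`, `QuotientGroup.mk_pow`) and
`hmem ω : (out ω)⁻¹ * g ^ t * out ω ∈ H` by normality (`Subgroup.Normal.conj_mem'` or `conj_mem` with `(out ω)⁻¹`).
`M ω = ρ ⟨_, hmem ω⟩`.  `t ∣ m` (`orderOf_dvd_of_pow_eq_one`, since `(g : Ω) ^ m = 1`), `out 1 ∈ H`
(`QuotientGroup.eq_one_iff`, `QuotientGroup.out_eq'`), so `M 1 ≠ 1` by `rho_conj_ne_one`.
Take `ω₀, i, j` from `exists_min_entry_family M`, then `U, π, vU, β, A, B, d` from `corner_package ρ .. i j`.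
Apply `polyNil_wreath vU .. β A B .. 1 d .. (kk H π g) .. ω₀ ..` (rewrite `kk_right`, `kk_pow_left`), then
`PolyNil.comap (kk H π)`. -/
theorem polyNil_of_normal [H.FiniteIndex] {n : ℕ} (ρ : H →* Matrix (Fin n) (Fin n) ℝ)
    (hlow : ∀ h i j, j < i → ρ h i j = 0) (hdiag : ∀ h i, ρ h i i = 1) (g : G) (m : ℕ)
    (hm : g ^ m ∈ H) (hne : ρ ⟨g ^ m, hm⟩ ≠ 1) : PolyNil g := by
  classical
  haveI : Fintype (G ⧸ H) := Fintype.ofFinite _
  have ht1 : (g : G ⧸ H) ^ orderOf (g : G ⧸ H) = 1 := pow_orderOf_eq_one _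
  have hgt : g ^ orderOf (g : G ⧸ H) ∈ H := by
    rw [← QuotientGroup.eq_one_iff, QuotientGroup.mk_pow]
    exact ht1
  have hmem : ∀ ω : G ⧸ H,
      (Quotient.out ω)⁻¹ * g ^ orderOf (g : G ⧸ H) * Quotient.out ω ∈ H := by
    intro ω
    have := Subgroup.Normal.conj_mem (inferInstance : H.Normal) _ hgt (Quotient.out ω)⁻¹
    simpa using this
  have htm : orderOf (g : G ⧸ H) ∣ m := by
    apply orderOf_dvd_of_pow_eq_one
    rw [← QuotientGroup.mk_pow]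
    exact (QuotientGroup.eq_one_iff _).2 hm
  have hout : Quotient.out (1 : G ⧸ H) ∈ H := by
    rw [← QuotientGroup.eq_one_iff]
    exact QuotientGroup.out_eq' _
  have hM1 : ρ ⟨_, hmem 1⟩ ≠ 1 := rho_conj_ne_one H ρ g m _ hm hne htm _ hout (hmem 1)
  obtain ⟨ω₀, i, j, hij, hne0, hmin⟩ := exists_min_entry_family
    (fun ω : G ⧸ H => ρ ⟨_, hmem ω⟩) (fun ω a b hab => hlow _ a b hab) (fun ω a => hdiag _ a) 1 hM1
  obtain ⟨U, instU, π, vU, β, A, B, d, hG, hsym, hAB, hβ, hlast⟩ :=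
    corner_package ρ hlow hdiag i j hij
  have hpow : ∀ ω, ((kk H π g) ^ orderOf (kk H π g).right).left ω = π ⟨_, hmem ω⟩ := by
    intro ω
    rw [kk_right]
    exact kk_pow_left H π g _ ht1 ω (hmem ω)
  apply PolyNil.comap (kk H π)
  refine polyNil_wreath vU hG hsym β A B hAB 1 d hβ (kk H π g) ?_ ω₀ ?_ ?_
  · intro ω a
    rw [hpow]
    exact (hlast _ (fun a b hab hlt => hmin ω a b hab hlt)).1 a
  · intro a
    rw [hpow]
    exact (hlast _ (fun a b hab hlt => hmin ω₀ a b hab hlt)).2.1 a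
  · rw [hpow, (hlast _ (fun a b hab hlt => hmin ω₀ a b hab hlt)).2.2]
    exact hne0

end kk

end Vale.Agent.P184.PN

namespace Vale.Agent.P184

open PN

/-- (VJ) If `g ^ k = 1`, `k > 0`, then `⟨g ^ m, _⟩ ^ k = 1` (`Subtype.ext`, `← pow_mul`, `mul_comm`, `pow_mul`,
`one_pow`), against `rho_pow_ne_one` (`map_one`). -/
theorem VUniAt.not_isOfFinOrder {G : Type*} [Group G] {g : G} (h : VUniAt g) : ¬ IsOfFinOrder g := by
  obtain ⟨H, n, m, ρ, hm, _, hlow, hdiag, hne⟩ := h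
  intro hfin
  rw [isOfFinOrder_iff_pow_eq_one] at hfin
  obtain ⟨k, hk, hgk⟩ := hfin
  apply rho_pow_ne_one ρ hlow hdiag ⟨g ^ m, hm⟩ hne k hk
  have e : (⟨g ^ m, hm⟩ : H) ^ k = 1 := by
    apply Subtype.ext
    simp only [Subgroup.coe_pow, Subgroup.coe_one]
    rw [← pow_mul, mul_comm, pow_mul, hgk, one_pow]
  rw [e, map_one]

/-- (VK) Let `N = H.normalCore` (`Subgroup.normalCore_le`, `Subgroup.normalCore_normal`, finite index:
`Subgroup.finiteIndex_normalCore`), `ρ' = ρ.comp (Subgroup.inclusion (Subgroup.normalCore_le H))`, `N.index ≠ 0`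
(`Subgroup.FiniteIndex.index_ne_zero`), `k > 0` with `(g ^ m) ^ k ∈ N` from `Subgroup.exists_pow_mem_of_index_ne_zero`, `m' = m * k` (`pow_mul`).
`ρ' ⟨g ^ m', _⟩ = ρ (⟨g ^ m, _⟩ ^ k) ≠ 1` by `rho_pow_ne_one`.  Apply `polyNil_of_normal N ρ'`. -/
theorem VUniAt.polyNil {G : Type*} [Group G] {g : G} (h : VUniAt g) : PolyNil g := by
  obtain ⟨H, n, m, ρ, hm, hfi, hlow, hdiag, hne⟩ := h
  haveI := hfi
  have hN0 : H.normalCore.index ≠ 0 := Subgroup.FiniteIndex.index_ne_zero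
  obtain ⟨k, hk0, hk⟩ := Subgroup.exists_pow_mem_of_index_ne_zero hN0 (g ^ m)
  have hmem : g ^ (m * k) ∈ H.normalCore := by
    rw [pow_mul]
    exact hk.2
  refine polyNil_of_normal H.normalCore
    (ρ.comp (Subgroup.inclusion (Subgroup.normalCore_le H)))
    (fun h i j hij => hlow _ i j hij) (fun h i => hdiag _ i) g (m * k) hmem ?_
  have e : (Subgroup.inclusion (Subgroup.normalCore_le H)) ⟨g ^ (m * k), hmem⟩ =
      (⟨g ^ m, hm⟩ : H) ^ k := by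
    apply Subtype.ext
    simp [pow_mul]
  rw [MonoidHom.comp_apply, e]
  exact rho_pow_ne_one ρ hlow hdiag _ hne k hk0

/-- (VL) `H = ⊤`, `m = 1`, `ρ' = ρ.comp (⊤ : Subgroup G).subtype`, `pow_one`. -/
theorem UniAt.vUniAt {G : Type*} [Group G] {g : G} (h : UniAt g) : VUniAt g := by
  obtain ⟨n, ρ, hlow, hdiag, hne⟩ := h
  refine ⟨⊤, n, 1, ρ.comp (⊤ : Subgroup G).subtype, Subgroup.mem_top _, inferInstance,
    fun h i j hij => hlow _ i j hij, fun h i => hdiag _ i, ?_⟩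
  simpa using hne

theorem VUniDet.allPolyNil {P : Type*} [Group P] (h : VUniDet P) : AllPolyNil P :=
  fun x hx => (h x hx).polyNil

theorem UniDet.vUniDet {P : Type*} [Group P] (h : UniDet P) : VUniDet P :=
  fun x hx => (h x hx).vUniAt

/-- (VM) `x` of infinite order, `H` from `h`, `m > 0` with `x ^ m ∈ H`
(`Subgroup.exists_pow_mem_of_index_ne_zero` with `Subgroup.FiniteIndex.index_ne_zero`); `⟨x ^ m, _⟩ ≠ 1` since `x` has
infinite order (`isOfFinOrder_iff_pow_eq_one`); unfold `ResUni`, `UniAt`. -/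
theorem VirtResUni.vUniDet {P : Type*} [Group P] (h : VirtResUni P) : VUniDet P := by
  obtain ⟨H, hH, hres⟩ := h
  intro x hx
  obtain ⟨m, hm0, hm⟩ := Subgroup.exists_pow_mem_of_index_ne_zero
    (Subgroup.FiniteIndex.index_ne_zero (H := H)) x
  have hne : (⟨x ^ m, hm.2⟩ : H) ≠ 1 := by
    intro h1
    apply hx
    rw [isOfFinOrder_iff_pow_eq_one]
    exact ⟨m, hm0, by simpa using congrArg Subtype.val h1⟩
  obtain ⟨n, ρ, hlow, hdiag, hne'⟩ := hres _ hne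
  exact ⟨H, n, m, ρ, hm.2, hH, hlow, hdiag, hne'⟩

end Vale.Agent.P184
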