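import Vale.Agent.P184.PN.VUni
import Vale.Agent.P184.PN.RelHyp
import Vale.Agent.P184.PN.Nil2

namespace Vale.Agent.P184

open PN

/-- a torsion free group has only one conjugacy class of elements of finite order -/
theorem finTor_of_torsionFree {P : Type*} [Group P] (h : ∀ x : P, x ≠ 1 → ¬ IsOfFinOrder x) :
    FinTor P := by
  unfold FinTor
  apply Set.Finite.subset (Set.finite_singleton (ConjClasses.mk (1 : P)))
  intro C hC
  induction C using Quotient.inductionOn with
  | _ g =>
    have hg : IsOfFinOrder g := hC g ConjClasses.mem_carrier_mk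
    have h1 : g = 1 := by
      by_contra hne
      exact h g hne hg
    rw [h1]
    rfl

/-- a group with a subgroup of finite index which embeds in real unitriangular matrices -/
theorem vUniDet_of_embedding {P : Type*} [Group P] (H : Subgroup P) (n : ℕ)
    (ρ : H →* Matrix (Fin n) (Fin n) ℝ) (hH : H.FiniteIndex)
    (hlow : ∀ h i j, j < i → ρ h i j = 0) (hdiag : ∀ h i, ρ h i i = 1)
    (hinj : Function.Injective ρ) : VUniDet P := by
  apply VirtResUni.vUniDet
  refine ⟨H, hH, fun x hx => ⟨n, ρ, hlow, hdiag, fun h1 => hx (hinj (by rw [h1, map_one]))⟩⟩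

theorem q1_of_all_vUniAt {P : Type*} [Group P] (h : ∀ x : P, x ≠ 1 → VUniAt x) : Q1 P := by
  have h1 : VUniDet P := fun x hx => h x (fun e => hx (by rw [e]; exact IsOfFinOrder.one))
  exact h1.allPolyNil.Q1 (finTor_of_torsionFree fun x hx => (h x hx).not_isOfFinOrder)

end Vale.Agent.P184
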