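import Vale.Agent.P184.PN.Uni
import Vale.Agent.P184.PN.Pcb

/-!
# Regular wreath products with a finite group (rows WA - WU)

`Q = RegularWreathProduct U Ω`, `Ω` a finite group: ` (a * b).left ω = a.left ω * b.left (a.right⁻¹ * ω)`,
` (a * b).right = a.right * b.right`, `a⁻¹.left ω = (a.left (a.right * ω))⁻¹`.
Goal: `polyNil_wreath`.
-/

namespace Vale.Agent.P184.PN

open scoped BigOperators

/-- (WA) The finite rank criterion for a kernel indexed by a finite type.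
Put `θ h = (φ h - φ h⁻¹) / (2 ξ)`.  `φ (x⁻¹ k) = φ k - ξ` (`h1` with `h = x⁻¹ k`), ` (x h)⁻¹ = x⁻¹ h⁻¹` by
`hx`, so `θ (x h) = θ h + 1`; `θ` is odd; `|θ h| ≤ (K / |ξ|) v(h)^d`;
`θ (p⁻¹ q) = ∑ l, (A l p⁻¹ / (2 ξ)) * B l q + ∑ l, (- B l p / (2 ξ)) * A l q⁻¹`.
Apply `polyNilW_of_rank` with `m = Fintype.card (ι ⊕ ι)`, transporting the functions along
`Fintype.equivFin (ι ⊕ ι)` (`Equiv.sum_comp`, `Fintype.sum_sum_type`).  Compare the proof of
`polyNilW_of_corner`. -/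
theorem polyNilW_of_kernel {C : Type*} [Group C] {v : C → ℝ} (hv : Gauge v) (x : C)
    (hx : ∀ y, y * x = x * y) (φ : C → ℝ) (ξ : ℝ) (hξ : ξ ≠ 0) (h1 : ∀ h, φ (x * h) = φ h + ξ)
    {ι : Type*} [Fintype ι] (A B : ι → C → ℝ) (hAB : ∀ p q, φ (p * q) = ∑ l, A l p * B l q)
    (K : ℝ) (d : ℕ) (hb : ∀ h, |φ h| ≤ K * v h ^ d) (hb' : ∀ h, |φ h⁻¹| ≤ K * v h ^ d) :
    PolyNilW v x := by
  have h2 : ∀ k, φ (x⁻¹ * k) = φ k - ξ := by
    intro k
    have := h1 (x⁻¹ * k)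
    rw [mul_inv_cancel_left] at this
    linarith
  have hinv : ∀ h, (x * h)⁻¹ = x⁻¹ * h⁻¹ := by
    intro h
    rw [← hx h, mul_inv_rev]
  let e := Fintype.equivFin (ι ⊕ ι)
  refine polyNilW_of_rank (θ := fun h => (φ h / ξ - φ h⁻¹ / ξ) / 2) hv x hx ?_ ?_
    (K / |ξ|) d ?_ (Fintype.card (ι ⊕ ι))
    (fun z p => Sum.elim (fun l => A l p⁻¹ / (2 * ξ)) (fun l => - B l p / (2 * ξ)) (e.symm z))
    (fun z q => Sum.elim (fun l => B l q) (fun l => A l q⁻¹) (e.symm z)) ?_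
  · intro h
    show (φ (x * h) / ξ - φ (x * h)⁻¹ / ξ) / 2 = (φ h / ξ - φ h⁻¹ / ξ) / 2 + 1
    rw [hinv, h1, h2]
    field_simp
    ring
  · intro h
    show (φ h⁻¹ / ξ - φ h⁻¹⁻¹ / ξ) / 2 = - ((φ h / ξ - φ h⁻¹ / ξ) / 2)
    rw [inv_inv]
    ring
  · intro h
    show |(φ h / ξ - φ h⁻¹ / ξ) / 2| ≤ K / |ξ| * v h ^ d
    have hξ' : 0 < |ξ| := abs_pos.mpr hξ
    have e : (φ h / ξ - φ h⁻¹ / ξ) / 2 = (φ h - φ h⁻¹) / 2 / ξ := by
      field_simp
    rw [e, abs_div, div_mul_eq_mul_div]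
    apply div_le_div_of_nonneg_right _ hξ'.le
    have e1 := hb h
    have e2 := hb' h
    rw [abs_div, abs_two]
    have e3 := abs_sub (φ h) (φ h⁻¹)
    linarith
  · intro p q
    show (φ (p⁻¹ * q) / ξ - φ (p⁻¹ * q)⁻¹ / ξ) / 2 = _
    rw [Equiv.sum_comp e.symm (fun z => Sum.elim (fun l => A l p⁻¹ / (2 * ξ)) (fun l => - B l p / (2 * ξ)) z *
      Sum.elim (fun l => B l q) (fun l => A l q⁻¹) z), Fintype.sum_sum_type]
    simp only [Sum.elim_inl, Sum.elim_inr]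
    rw [mul_inv_rev, inv_inv, hAB, hAB]
    rw [Finset.sum_div, Finset.sum_div, ← Finset.sum_sub_distrib, Finset.sum_div,
      ← Finset.sum_add_distrib]
    refine Finset.sum_congr rfl fun l _ => ?_
    field_simp
    ring

/-- (WB) powers: induction on `k`; `c₀ = v 1` (`v 1 ≤ v 1 * v s` since `1 ≤ v s`, `0 ≤ v 1`),
`c_{k+1} = |K| (1 + c_k)` (`pow_succ`, `v (s^k s) ≤ K (v (s^k) + v s)`). -/
lemma gauge_pow_le {M : Type*} [Monoid M] {v : M → ℝ} (hv : Gauge v) (k : ℕ) :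
    ∃ c : ℝ, 0 ≤ c ∧ ∀ s : M, v (s ^ k) ≤ c * v s := by
  obtain ⟨h1, K, hK⟩ := hv
  induction k with
  | zero =>
    refine ⟨v 1, le_trans zero_le_one (h1 1), fun s => ?_⟩
    rw [pow_zero]
    have := h1 s
    have h0 := h1 1
    nlinarith
  | succ k ih =>
    obtain ⟨c, hc, ih⟩ := ih
    refine ⟨|K| * (1 + c), by positivity, fun s => ?_⟩
    rw [pow_succ]
    have e1 := hK (s ^ k) s
    have e2 := ih s
    have e3 := h1 s
    have e4 := h1 (s ^ k)
    have e5 : K * (v (s ^ k) + v s) ≤ |K| * (v (s ^ k) + v s) :=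
      mul_le_mul_of_nonneg_right (le_abs_self K) (by linarith)
    have e6 : |K| * (v (s ^ k) + v s) ≤ |K| * (c * v s + v s) :=
      mul_le_mul_of_nonneg_left (by linarith) (abs_nonneg K)
    calc v (s ^ k * s) ≤ |K| * (c * v s + v s) := by linarith
      _ = |K| * (1 + c) * v s := by ring

section wreath

variable {U Ω : Type*} [Group U] [Group Ω] [Fintype Ω]

/-- the sum of the gauges of the coordinates -/
noncomputable def vQ (vU : U → ℝ) (p : RegularWreathProduct U Ω) : ℝ := ∑ ω, vU (p.left ω)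

/-- (WC) a coordinate is a term of a sum of nonnegative numbers (`Finset.single_le_sum`). -/
lemma le_vQ {vU : U → ℝ} (h1 : ∀ a, 1 ≤ vU a) (p : RegularWreathProduct U Ω) (ω : Ω) :
    vU (p.left ω) ≤ vQ vU p := by
  unfold vQ
  exact Finset.single_le_sum (f := fun ω => vU (p.left ω))
    (fun i _ => le_trans zero_le_one (h1 _)) (Finset.mem_univ ω)

/-- (WD) `1 ≤ vU (p.left 1) ≤ vQ p`.  With the constant `K` of `vU`:
`vQ (p q) = ∑ ω, vU (p.left ω * q.left (p.right⁻¹ ω)) ≤ K (∑ ω, vU (p.left ω) + ∑ ω, vU (q.left (p.right⁻¹ ω)))`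
and the last sum is `vQ q` (`Equiv.sum_comp (Equiv.mulLeft p.right⁻¹)`). -/
lemma gauge_vQ {vU : U → ℝ} (hU : Gauge vU) : Gauge (vQ (Ω := Ω) vU) := by
  obtain ⟨h1, K, hK⟩ := hU
  refine ⟨fun p => le_trans (h1 (p.left 1)) (le_vQ h1 p 1), K, fun p q => ?_⟩
  have e1 : vQ vU q = ∑ ω, vU (q.left (p.right⁻¹ * ω)) :=
    (Equiv.sum_comp (Equiv.mulLeft p.right⁻¹) (fun ω => vU (q.left ω))).symm
  have e2 : vQ vU (p * q) = ∑ ω, vU (p.left ω * q.left (p.right⁻¹ * ω)) := rfl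
  rw [e2, e1]
  unfold vQ
  rw [← Finset.sum_add_distrib, Finset.mul_sum]
  exact Finset.sum_le_sum (fun ω _ => hK _ _)

/-- (WE) `p⁻¹.left ω = (p.left (p.right ω))⁻¹`, `hs`, `Equiv.sum_comp (Equiv.mulLeft p.right)`. -/
lemma vQ_inv {vU : U → ℝ} (hs : ∀ a, vU a⁻¹ = vU a) (p : RegularWreathProduct U Ω) :
    vQ vU p⁻¹ = vQ vU p := by
  have e1 : vQ vU p = ∑ ω, vU (p.left (p.right * ω)) :=
    (Equiv.sum_comp (Equiv.mulLeft p.right) (fun ω => vU (p.left ω))).symm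
  have e2 : vQ vU p⁻¹ = ∑ ω, vU ((p.left (p.right * ω))⁻¹) := rfl
  rw [e2, e1]
  exact Finset.sum_congr rfl (fun ω _ => hs _)

/-- (WE) ` (p * inl f).left ω = p.left ω * 1`. -/
lemma vQ_mul_inl (vU : U → ℝ) (p : RegularWreathProduct U Ω) (f : Ω) :
    vQ vU (p * RegularWreathProduct.inl f) = vQ vU p := by
  have e2 : vQ vU (p * RegularWreathProduct.inl f) = ∑ ω, vU (p.left ω * 1) := rfl
  rw [e2]
  unfold vQ
  exact Finset.sum_congr rfl (fun ω _ => by rw [mul_one])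

omit [Fintype Ω] in
/-- (WF) `map_pow` for `RegularWreathProduct.rightHom`. -/
lemma wr_pow_right (s : RegularWreathProduct U Ω) (k : ℕ) : (s ^ k).right = s.right ^ k := by
  have := map_pow (RegularWreathProduct.rightHom (D := U) (Q := Ω)) s k
  simpa [RegularWreathProduct.rightHom] using this

omit [Fintype Ω] in
/-- (WF) `pow_add`, the formula for the product, `wr_pow_right`. -/
lemma wr_pow_add_left (s : RegularWreathProduct U Ω) (k t : ℕ) (ω : Ω) :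
    (s ^ (k + t)).left ω = (s ^ k).left ω * (s ^ t).left ((s.right ^ k)⁻¹ * ω) := by
  rw [pow_add]
  simp only [RegularWreathProduct.mul_left, Pi.mul_apply, wr_pow_right]

omit [Fintype Ω] in
/-- (WF) `pow_succ'`. -/
lemma wr_pow_succ_left (s : RegularWreathProduct U Ω) (k : ℕ) (ω : Ω) :
    (s ^ (k + 1)).left ω = s.left ω * (s ^ k).left (s.right⁻¹ * ω) := by
  rw [pow_succ']
  simp only [RegularWreathProduct.mul_left, Pi.mul_apply]

/-- the candidate for the coordinates of a short conjugator -/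
def Dk (s X : RegularWreathProduct U Ω) (k : ℕ) (ω : Ω) : U :=
  (s ^ k).left ω * ((X ^ k).left ω)⁻¹

omit [Fintype Ω] in
/-- (WG) `wr_pow_succ_left` for `s` and for `X`, `mul_inv_rev`. -/
lemma Dk_succ (s X : RegularWreathProduct U Ω) (hr : s.right = X.right) (k : ℕ) (ω : Ω) :
    Dk s X (k + 1) ω = s.left ω * Dk s X k (X.right⁻¹ * ω) * (X.left ω)⁻¹ := by
  unfold Dk
  rw [wr_pow_succ_left, wr_pow_succ_left, hr, mul_inv_rev]
  simp only [mul_assoc]

omit [Fintype Ω] in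
/-- (WG) `wr_pow_add_left` for `s` and for `X`; the two last factors agree by `hst` and cancel. -/
lemma Dk_add (s X : RegularWreathProduct U Ω) (hr : s.right = X.right) (t : ℕ)
    (hst : ∀ ω, (s ^ t).left ω = (X ^ t).left ω) (k : ℕ) (ω : Ω) :
    Dk s X (k + t) ω = Dk s X k ω := by
  unfold Dk
  rw [wr_pow_add_left, wr_pow_add_left, hr, hst, mul_inv_rev]
  simp [mul_assoc]

omit [Fintype Ω] in
/-- (WH) By `pow_eq_pow_iff_modEq`, `k ≡ k' [MOD orderOf X.right]`; by `Dk_add` (induction)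
`Dk (k + j t) = Dk k`; write the larger one of `k, k'` as the smaller one plus a multiple of `t`
(`Nat.ModEq`, `Nat.modEq_iff_dvd'`). -/
lemma Dk_congr (s X : RegularWreathProduct U Ω) (hr : s.right = X.right)
    (hst : ∀ ω, (s ^ orderOf X.right).left ω = (X ^ orderOf X.right).left ω) (k k' : ℕ)
    (hk : X.right ^ k = X.right ^ k') (ω : Ω) : Dk s X k ω = Dk s X k' ω := by
  have hmul : ∀ (j k : ℕ) (ω : Ω), Dk s X (k + j * orderOf X.right) ω = Dk s X k ω := by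
    intro j
    induction j with
    | zero => intro k ω; simp
    | succ j ih =>
      intro k ω
      rw [Nat.succ_mul, ← add_assoc, Dk_add s X hr _ hst, ih]
  have hmod : k ≡ k' [MOD orderOf X.right] := pow_eq_pow_iff_modEq.1 hk
  rcases le_total k k' with h | h
  · obtain ⟨j, hj⟩ := (Nat.modEq_iff_dvd' h).1 hmod
    have : k' = k + j * orderOf X.right := by
      rw [mul_comm j, ← hj]; omega
    rw [this, hmul]
  · obtain ⟨j, hj⟩ := (Nat.modEq_iff_dvd' h).1 hmod.symm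
    have : k = k' + j * orderOf X.right := by
      rw [mul_comm j, ← hj]; omega
    rw [this, hmul]

/-- (WI) representatives of the orbits of left multiplication by `τ`.  Let `r ω` be
`Quotient.out` of the class of `ω` for `QuotientGroup.rightRel (Subgroup.zpowers τ)`
(`QuotientGroup.rightRel_apply`: `a ~ b ↔ b * a⁻¹ ∈ zpowers τ`).  Then `ω * (r ω)⁻¹ ∈ zpowers τ`, so it is
`τ ^ k` with `k < orderOf τ` (`isOfFinOrder_of_finite`, `mem_zpowers_iff_mem_range_orderOf` or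
`IsOfFinOrder.mem_powers_iff_mem_zpowers`, `mem_powers_iff_mem_range_orderOf`); choose such a `k`. -/
lemma exists_orbit_rep (τ : Ω) : ∃ (kk : Ω → ℕ) (r : Ω → Ω),
    (∀ ω, τ ^ kk ω * r ω = ω) ∧ (∀ ω, r (τ⁻¹ * ω) = r ω) ∧ ∀ ω, kk ω < orderOf τ := by
  classical
  let S := QuotientGroup.rightRel (Subgroup.zpowers τ)
  let r : Ω → Ω := fun ω => Quotient.out (Quotient.mk S ω)
  have hr : ∀ ω, ω * (r ω)⁻¹ ∈ Subgroup.zpowers τ := by
    intro ω
    have h1 : S (r ω) ω := Quotient.exact (Quotient.out_eq (Quotient.mk S ω))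
    exact QuotientGroup.rightRel_apply.mp h1
  have hk : ∀ ω, ∃ k, k < orderOf τ ∧ τ ^ k = ω * (r ω)⁻¹ := by
    intro ω
    have h2 := (mem_zpowers_iff_mem_range_orderOf (x := τ) (y := ω * (r ω)⁻¹)).mp (hr ω)
    simp only [Finset.mem_image, Finset.mem_range] at h2
    exact h2
  choose kk hkk using hk
  refine ⟨kk, r, ?_, ?_, fun ω => (hkk ω).1⟩
  · intro ω
    rw [(hkk ω).2]
    group
  · intro ω
    have : Quotient.mk S (τ⁻¹ * ω) = Quotient.mk S ω := by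
      apply Quotient.sound
      show S (τ⁻¹ * ω) ω
      rw [QuotientGroup.rightRel_apply]
      have : ω * (τ⁻¹ * ω)⁻¹ = τ := by group
      rw [this]
      exact Subgroup.mem_zpowers τ
    show Quotient.out (Quotient.mk S (τ⁻¹ * ω)) = Quotient.out (Quotient.mk S ω)
    rw [this]

omit [Fintype Ω] in
/-- (WJ) `s ^ t = b * X ^ t * b⁻¹` (`conj_pow`), `b.right = 1`, ` (X ^ t).right = 1`: the coordinate at `ω` is
`b.left ω * (X ^ t).left ω * (b.left ω)⁻¹`, which is ` (X ^ t).left ω` by `hc`. -/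
lemma conj_pow_left (X b : RegularWreathProduct U Ω) (hb : b.right = 1) (t : ℕ)
    (ht : X.right ^ t = 1) (hc : ∀ ω a, a * (X ^ t).left ω = (X ^ t).left ω * a) (ω : Ω) :
    ((b * X * b⁻¹) ^ t).left ω = (X ^ t).left ω := by
  have hr : (X ^ t).right = 1 := by
    have := map_pow (RegularWreathProduct.rightHom (D := U) (Q := Ω)) X t
    simpa [RegularWreathProduct.rightHom, ht] using this
  rw [conj_pow]
  simp only [RegularWreathProduct.mul_left, RegularWreathProduct.inv_left,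
    RegularWreathProduct.mul_right, hb, hr, inv_one, one_mul, mul_one, Pi.mul_apply, Pi.inv_apply]
  rw [hc ω (b.left ω)]
  simp

/-- (WK) Let `s = b * X * b⁻¹`, `τ = X.right = s.right`, `kk, r` from `exists_orbit_rep τ`,
`b' = ⟨fun ω => Dk s X (kk ω) ω, 1⟩`.  ` (b' * X * b'⁻¹).right = τ` and
` (b' * X * b'⁻¹).left ω = b'.left ω * X.left ω * (b'.left (τ⁻¹ ω))⁻¹`.  Let `ω' = τ⁻¹ ω`.
`τ ^ (kk ω' + 1) * r ω = τ * ω' = ω = τ ^ kk ω * r ω`, so `τ ^ (kk ω' + 1) = τ ^ kk ω` and by `Dk_congr`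
(`conj_pow_left`, `pow_orderOf_eq_one`) and `Dk_succ`:
`b'.left ω = s.left ω * b'.left ω' * (X.left ω)⁻¹`. -/
lemma exists_short_conj (X b : RegularWreathProduct U Ω) (hb : b.right = 1)
    (hc : ∀ ω a, a * (X ^ orderOf X.right).left ω = (X ^ orderOf X.right).left ω * a) :
    ∃ kk : Ω → ℕ, (∀ ω, kk ω < orderOf X.right) ∧
      (⟨fun ω => Dk (b * X * b⁻¹) X (kk ω) ω, 1⟩ : RegularWreathProduct U Ω) * X *
        (⟨fun ω => Dk (b * X * b⁻¹) X (kk ω) ω, 1⟩ : RegularWreathProduct U Ω)⁻¹ = b * X * b⁻¹ := by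
  obtain ⟨kk, r, h1, h2, h3⟩ := exists_orbit_rep X.right
  refine ⟨kk, h3, ?_⟩
  have hr : (b * X * b⁻¹).right = X.right := by
    simp [hb]
  have hst : ∀ ω, ((b * X * b⁻¹) ^ orderOf X.right).left ω = (X ^ orderOf X.right).left ω :=
    fun ω => conj_pow_left X b hb _ (pow_orderOf_eq_one _) hc ω
  have key : ∀ ω, Dk (b * X * b⁻¹) X (kk ω) ω =
      (b * X * b⁻¹).left ω * Dk (b * X * b⁻¹) X (kk (X.right⁻¹ * ω)) (X.right⁻¹ * ω) *
        (X.left ω)⁻¹ := by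
    intro ω
    rw [← Dk_succ _ _ hr]
    apply Dk_congr _ _ hr hst
    have e1 := h1 ω
    have e2 := h1 (X.right⁻¹ * ω)
    rw [h2] at e2
    have e3 : X.right ^ (kk (X.right⁻¹ * ω) + 1) * r ω = ω := by
      rw [pow_succ', mul_assoc, e2, mul_inv_cancel_left]
    exact mul_right_cancel (e1.trans e3.symm)
  apply RegularWreathProduct.ext
  · funext ω
    have hk := key ω
    simp only [RegularWreathProduct.mul_left, RegularWreathProduct.inv_left,
      RegularWreathProduct.mul_right, Pi.mul_apply, Pi.inv_apply, inv_one, one_mul, mul_one] at hk ⊢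
    rw [hk]
    simp [mul_assoc]
  · simp [hb]

/-- (WL) For `k < T`: `vU (Dk s X k ω) ≤ K (vU ((s^k).left ω) + vU ((X^k).left ω)) ≤ K (vQ (s^k) + vQ (X^k))`
(`hs`, `le_vQ`), `vQ (s^k) ≤ c_k vQ s` (`gauge_pow_le`, `gauge_vQ`), `vQ (X^k) ≤ vQ (X^k) * vQ s`.
Take for `c` the sum over `k < T` of `|K| (c_k + vQ (X^k))`. -/
lemma Dk_bound {vU : U → ℝ} (hU : Gauge vU) (hs : ∀ a, vU a⁻¹ = vU a)
    (X : RegularWreathProduct U Ω) (T : ℕ) :
    ∃ c : ℝ, 0 ≤ c ∧ ∀ (s : RegularWreathProduct U Ω) (k : ℕ) (ω : Ω), k < T →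
      vU (Dk s X k ω) ≤ c * vQ vU s := by
  classical
  obtain ⟨h1, K, hK⟩ := hU
  have hQ : Gauge (vQ (Ω := Ω) vU) := gauge_vQ ⟨h1, K, hK⟩
  choose cc hcc0 hcc using fun k => gauge_pow_le hQ k
  have hterm : ∀ k, 0 ≤ |K| * (cc k + vQ vU (X ^ k)) := by
    intro k
    have : 0 ≤ vQ vU (X ^ k) := le_trans zero_le_one (hQ.1 _)
    exact mul_nonneg (abs_nonneg _) (add_nonneg (hcc0 k) this)
  refine ⟨∑ k ∈ Finset.range T, |K| * (cc k + vQ vU (X ^ k)),
    Finset.sum_nonneg (fun k _ => hterm k), ?_⟩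
  intro s k ω hk
  have hs1 : 1 ≤ vQ vU s := hQ.1 s
  have hX0 : 0 ≤ vQ vU (X ^ k) := le_trans zero_le_one (hQ.1 _)
  have a1 : vU (Dk s X k ω) ≤ K * (vU ((s ^ k).left ω) + vU ((X ^ k).left ω)) := by
    have := hK ((s ^ k).left ω) (((X ^ k).left ω)⁻¹)
    rw [hs] at this
    exact this
  have p1 : 0 ≤ vU ((s ^ k).left ω) + vU ((X ^ k).left ω) :=
    add_nonneg (le_trans zero_le_one (h1 _)) (le_trans zero_le_one (h1 _))
  have a2 : K * (vU ((s ^ k).left ω) + vU ((X ^ k).left ω)) ≤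
      |K| * (vU ((s ^ k).left ω) + vU ((X ^ k).left ω)) :=
    mul_le_mul_of_nonneg_right (le_abs_self K) p1
  have a3 : vU ((s ^ k).left ω) ≤ cc k * vQ vU s := le_trans (le_vQ h1 _ ω) (hcc k s)
  have a4 : vU ((X ^ k).left ω) ≤ vQ vU (X ^ k) * vQ vU s := by
    have := le_vQ h1 (X ^ k) ω
    nlinarith
  have a5 : |K| * (vU ((s ^ k).left ω) + vU ((X ^ k).left ω)) ≤
      |K| * (cc k + vQ vU (X ^ k)) * vQ vU s := by
    have : vU ((s ^ k).left ω) + vU ((X ^ k).left ω) ≤ (cc k + vQ vU (X ^ k)) * vQ vU s := by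
      nlinarith
    calc |K| * (vU ((s ^ k).left ω) + vU ((X ^ k).left ω))
        ≤ |K| * ((cc k + vQ vU (X ^ k)) * vQ vU s) :=
          mul_le_mul_of_nonneg_left this (abs_nonneg _)
      _ = |K| * (cc k + vQ vU (X ^ k)) * vQ vU s := by ring
  have a6 : |K| * (cc k + vQ vU (X ^ k)) ≤ ∑ k ∈ Finset.range T, |K| * (cc k + vQ vU (X ^ k)) :=
    Finset.single_le_sum (f := fun k => |K| * (cc k + vQ vU (X ^ k))) (fun k _ => hterm k)
      (Finset.mem_range.mpr hk)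
  calc vU (Dk s X k ω) ≤ |K| * (cc k + vQ vU (X ^ k)) * vQ vU s := le_trans a1 (le_trans a2 a5)
    _ ≤ (∑ k ∈ Finset.range T, |K| * (cc k + vQ vU (X ^ k))) * vQ vU s :=
        mul_le_mul_of_nonneg_right a6 (le_trans zero_le_one hs1)

/-- (WM) the polynomial (here linear) conjugacy bound.  Let `s = q * x * q⁻¹`, `f = q.right`,
`X = inl f * x * (inl f)⁻¹`, `b = q * (inl f)⁻¹`: `b.right = 1`, `s = b * X * b⁻¹`.
`X.right = f * x.right * f⁻¹` has the same order `t` as `x.right` (`(MulAut.conj f).orderOf_eq` or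
`orderOf_injective`), `X ^ t = inl f * x ^ t * (inl f)⁻¹` has the coordinates ` (x ^ t).left (f⁻¹ ω)`, central by `hc`.
`exists_short_conj` gives `b'`; `u = b' * inl f`; `vQ u = vQ b' = ∑ ω, vU (Dk ..) ≤ card Ω * c_f * vQ s`
(`vQ_mul_inl`, `Dk_bound` for `X`, `T = t`).  `K₃ = ∑ f, card Ω * c_f`. -/
lemma wreath_pcb {vU : U → ℝ} (hU : Gauge vU) (hs : ∀ a, vU a⁻¹ = vU a)
    (x : RegularWreathProduct U Ω)
    (hc : ∀ ω a, a * (x ^ orderOf x.right).left ω = (x ^ orderOf x.right).left ω * a) :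
    ∃ K₃ : ℝ, 0 ≤ K₃ ∧ ∀ s, IsConj x s → ∃ u, u * x * u⁻¹ = s ∧ vQ vU u ≤ K₃ * vQ vU s := by
  classical
  have hQ1 : ∀ s : RegularWreathProduct U Ω, 1 ≤ vQ vU s := (gauge_vQ hU).1
  choose c hc0 hcb using fun f : Ω =>
    Dk_bound (Ω := Ω) hU hs (RegularWreathProduct.inl f * x * (RegularWreathProduct.inl f)⁻¹)
      (orderOf x.right)
  refine ⟨∑ f : Ω, (Fintype.card Ω : ℝ) * c f,
    Finset.sum_nonneg fun f _ => mul_nonneg (Nat.cast_nonneg _) (hc0 f), ?_⟩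
  intro s hxs
  obtain ⟨q, hq⟩ := isConj_iff.1 hxs
  set f : Ω := q.right with hf
  set X : RegularWreathProduct U Ω :=
    RegularWreathProduct.inl f * x * (RegularWreathProduct.inl f)⁻¹ with hX
  set b : RegularWreathProduct U Ω := q * (RegularWreathProduct.inl f)⁻¹ with hbdef
  have hb : b.right = 1 := by
    simp [hbdef, hf]
  have hsb : b * X * b⁻¹ = s := by
    rw [← hq, hbdef, hX]
    group
  have hXr : X.right = f * x.right * f⁻¹ := by
    simp [hX]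
  have hord : orderOf X.right = orderOf x.right := by
    rw [hXr]
    exact (MulAut.conj f).orderOf_eq x.right
  have hXpow : ∀ ω, (X ^ orderOf X.right).left ω = (x ^ orderOf x.right).left (f⁻¹ * ω) := by
    intro ω
    rw [hord, hX, conj_pow]
    simp [RegularWreathProduct.mul_left]
  obtain ⟨kk, hkk, hconj⟩ := exists_short_conj X b hb (fun ω a => by rw [hXpow]; exact hc _ a)
  rw [hsb] at hconj
  refine ⟨(⟨fun ω => Dk s X (kk ω) ω, 1⟩ : RegularWreathProduct U Ω) * RegularWreathProduct.inl f,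
    ?_, ?_⟩
  · generalize (⟨fun ω => Dk s X (kk ω) ω, 1⟩ : RegularWreathProduct U Ω) = b' at hconj
    rw [← hconj, hX]
    group
  · rw [vQ_mul_inl]
    have h1 : vQ vU (⟨fun ω => Dk s X (kk ω) ω, 1⟩ : RegularWreathProduct U Ω) ≤
        ∑ _ω : Ω, c f * vQ vU s := by
      unfold vQ
      apply Finset.sum_le_sum
      intro ω _
      exact hcb f s (kk ω) ω (hord ▸ hkk ω)
    have h2 : ∑ _ω : Ω, c f * vQ vU s = ((Fintype.card Ω : ℝ) * c f) * vQ vU s := by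
      rw [Finset.sum_const, Finset.card_univ, nsmul_eq_mul, mul_assoc]
    have h3 : (Fintype.card Ω : ℝ) * c f ≤ ∑ f : Ω, (Fintype.card Ω : ℝ) * c f :=
      Finset.single_le_sum (f := fun f : Ω => (Fintype.card Ω : ℝ) * c f)
        (fun f _ => mul_nonneg (Nat.cast_nonneg _) (hc0 f)) (Finset.mem_univ f)
    calc _ ≤ _ := h1
      _ = _ := h2
      _ ≤ _ := mul_le_mul_of_nonneg_right h3 (by linarith [hQ1 s])

/-- the function `φ h = ∑_{k < t} β ((x ^ k * h).left ω₀)` -/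
noncomputable def phiW (β : U → ℝ) (x : RegularWreathProduct U Ω) (t : ℕ) (ω₀ : Ω)
    (h : RegularWreathProduct U Ω) : ℝ :=
  ∑ k ∈ Finset.range t, β ((x ^ k * h).left ω₀)

omit [Fintype Ω] in
/-- (WN) `x ^ k * (x * h) = x ^ (k + 1) * h`; `Finset.sum_range_succ`, `Finset.sum_range_succ'`:
`φ (x h) = φ h + β ((x ^ t * h).left ω₀) - β (h.left ω₀)`; ` (x ^ t * h).left ω₀ = (x ^ t).left ω₀ * h.left ω₀`
since ` (x ^ t).right = 1` (`wr_pow_right`); `hsh`. -/
lemma phiW_shift (β : U → ℝ) (x : RegularWreathProduct U Ω) (t : ℕ) (ht : x.right ^ t = 1) (ω₀ : Ω)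
    (hsh : ∀ a, β ((x ^ t).left ω₀ * a) = β a + β ((x ^ t).left ω₀))
    (h : RegularWreathProduct U Ω) :
    phiW β x t ω₀ (x * h) = phiW β x t ω₀ h + β ((x ^ t).left ω₀) := by
  unfold phiW
  have e1 : ∀ k, x ^ k * (x * h) = x ^ (k + 1) * h := by
    intro k
    rw [pow_succ, mul_assoc]
  simp only [e1]
  have e2 := Finset.sum_range_succ (fun k => β ((x ^ k * h).left ω₀)) t
  have e3 := Finset.sum_range_succ' (fun k => β ((x ^ k * h).left ω₀)) t
  have e4 : (x ^ t * h).left ω₀ = (x ^ t).left ω₀ * h.left ω₀ := by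
    have : (x ^ t * h).left ω₀ = (x ^ t).left ω₀ * h.left ((x ^ t).right⁻¹ * ω₀) := rfl
    rw [this, wr_pow_right, ht, inv_one, one_mul]
  have e5 : (x ^ 0 * h).left ω₀ = h.left ω₀ := by
    rw [pow_zero, one_mul]
  rw [e4, hsh] at e2
  rw [e5] at e3
  linarith

open Classical in
/-- (WO) ` (x ^ k * (p * q)).left ω₀ = (x ^ k * p).left ω₀ * q.left ((x ^ k * p).right⁻¹ * ω₀)`, `hAB`, and
`B l (q.left ω₁) = ∑ ω', if ω₁ = ω' then B l (q.left ω') else 0`.  Sum over `Fin t` instead of `range t`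
(`Finset.sum_range`), `Fintype.sum_prod_type`. -/
lemma phiW_kernel (β : U → ℝ) {N : ℕ} (A B : Fin N → U → ℝ)
    (hAB : ∀ a b, β (a * b) = ∑ l, A l a * B l b) (x : RegularWreathProduct U Ω) (t : ℕ) (ω₀ : Ω)
    (p q : RegularWreathProduct U Ω) :
    phiW β x t ω₀ (p * q) = ∑ z : (Fin t × Ω) × Fin N,
      (if (x ^ (z.1.1 : ℕ) * p).right⁻¹ * ω₀ = z.1.2 then A z.2 ((x ^ (z.1.1 : ℕ) * p).left ω₀) else 0) *
        B z.2 (q.left z.1.2) := by
  unfold phiW
  rw [Finset.sum_range, Fintype.sum_prod_type, Fintype.sum_prod_type]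
  refine Finset.sum_congr rfl (fun k _ => ?_)
  have e : (x ^ (k : ℕ) * (p * q)).left ω₀ =
      (x ^ (k : ℕ) * p).left ω₀ * q.left ((x ^ (k : ℕ) * p).right⁻¹ * ω₀) := by
    rw [← mul_assoc]
    rfl
  rw [e, hAB, Finset.sum_comm]
  refine Finset.sum_congr rfl (fun l _ => ?_)
  simp only [ite_mul, zero_mul]
  rw [Finset.sum_ite_eq]
  simp

/-- (WP) `|β ((x^k h).left ω₀)| ≤ K₁ vU (..)^d ≤ K₁ vQ (x^k h)^d ≤ K₁ (K (vQ (x^k) + vQ h))^d
≤ K₁ (|K| (vQ (x^k) + 1))^d vQ(h)^d` (`le_vQ`, `gauge_vQ`, `1 ≤ vQ h`; `0 ≤ K₁` follows from `hβ 1`).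
Sum over `k < t`. -/
lemma phiW_bound {vU : U → ℝ} (hU : Gauge vU) (β : U → ℝ) (K₁ : ℝ) (d : ℕ)
    (hβ : ∀ a, |β a| ≤ K₁ * vU a ^ d) (x : RegularWreathProduct U Ω) (t : ℕ) (ω₀ : Ω) :
    ∃ K₂ : ℝ, ∀ h, |phiW β x t ω₀ h| ≤ K₂ * vQ vU h ^ d := by
  classical
  have hQ : Gauge (vQ (Ω := Ω) vU) := gauge_vQ hU
  obtain ⟨hQ1, K, hK⟩ := hQ
  have h1 := hU.1
  have hK1 : 0 ≤ K₁ := by
    have h := hβ 1
    have hp : 0 < vU 1 ^ d := pow_pos (lt_of_lt_of_le zero_lt_one (h1 1)) d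
    by_contra hneg
    push Not at hneg
    have : K₁ * vU 1 ^ d < 0 := mul_neg_of_neg_of_pos hneg hp
    linarith [abs_nonneg (β 1)]
  refine ⟨∑ k ∈ Finset.range t, K₁ * (|K| * (vQ vU (x ^ k) + 1)) ^ d, fun h => ?_⟩
  unfold phiW
  rw [Finset.sum_mul]
  refine le_trans (Finset.abs_sum_le_sum_abs _ _) (Finset.sum_le_sum (fun k _ => ?_))
  have hh1 : 1 ≤ vQ vU h := hQ1 h
  have hx1 : 1 ≤ vQ vU (x ^ k) := hQ1 _
  have b0 : 0 ≤ vU ((x ^ k * h).left ω₀) := le_trans zero_le_one (h1 _)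
  have b1 : vU ((x ^ k * h).left ω₀) ≤ vQ vU (x ^ k * h) := le_vQ h1 _ ω₀
  have b2 : vQ vU (x ^ k * h) ≤ K * (vQ vU (x ^ k) + vQ vU h) := hK _ _
  have b3 : K * (vQ vU (x ^ k) + vQ vU h) ≤ |K| * (vQ vU (x ^ k) + vQ vU h) :=
    mul_le_mul_of_nonneg_right (le_abs_self K) (by linarith)
  have b4 : vQ vU (x ^ k) + vQ vU h ≤ (vQ vU (x ^ k) + 1) * vQ vU h := by nlinarith
  have b5 : vU ((x ^ k * h).left ω₀) ≤ (|K| * (vQ vU (x ^ k) + 1)) * vQ vU h := by
    calc vU ((x ^ k * h).left ω₀) ≤ |K| * (vQ vU (x ^ k) + vQ vU h) := le_trans b1 (le_trans b2 b3)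
      _ ≤ |K| * ((vQ vU (x ^ k) + 1) * vQ vU h) := mul_le_mul_of_nonneg_left b4 (abs_nonneg _)
      _ = (|K| * (vQ vU (x ^ k) + 1)) * vQ vU h := by ring
  calc |β ((x ^ k * h).left ω₀)| ≤ K₁ * vU ((x ^ k * h).left ω₀) ^ d := hβ _
    _ ≤ K₁ * ((|K| * (vQ vU (x ^ k) + 1)) * vQ vU h) ^ d :=
        mul_le_mul_of_nonneg_left (pow_le_pow_left₀ b0 b5 d) hK1
    _ = K₁ * (|K| * (vQ vU (x ^ k) + 1)) ^ d * vQ vU h ^ d := by rw [mul_pow]; ring

/-- (WQ) the theorem.  `v = vQ vU` (`gauge_vQ`), `t = orderOf x.right` (`pow_orderOf_eq_one`).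
On the centralizer `C` of `x` apply `polyNilW_of_kernel` to the restriction of `phiW β x t ω₀`
(`phiW_shift`, `phiW_kernel`, `phiW_bound`, `vQ_inv`; the gauge is the restriction of `v`; elements of `C` commute
with `x`: `Subgroup.mem_centralizer_singleton_iff`).  Choose `Us s` from `wreath_pcb` and apply
`PolyNilW.of_centralizer` with `r = 1`, `K = max K₃ 1` (`vQ_inv` gives `hinv`). -/
theorem polyNil_wreath (vU : U → ℝ) (hU : Gauge vU) (hs : ∀ a, vU a⁻¹ = vU a)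
    (β : U → ℝ) {N : ℕ} (A B : Fin N → U → ℝ) (hAB : ∀ a b, β (a * b) = ∑ l, A l a * B l b)
    (K₁ : ℝ) (d : ℕ) (hβ : ∀ a, |β a| ≤ K₁ * vU a ^ d) (x : RegularWreathProduct U Ω)
    (hc : ∀ ω a, a * (x ^ orderOf x.right).left ω = (x ^ orderOf x.right).left ω * a)
    (ω₀ : Ω)
    (hsh : ∀ a, β ((x ^ orderOf x.right).left ω₀ * a) = β a + β ((x ^ orderOf x.right).left ω₀))
    (hne : β ((x ^ orderOf x.right).left ω₀) ≠ 0) : PolyNil x := by
  classical
  have hv : Gauge (vQ (Ω := Ω) vU) := gauge_vQ hU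
  refine ⟨vQ vU, hv, ?_⟩
  have ht : x.right ^ orderOf x.right = 1 := pow_orderOf_eq_one _
  obtain ⟨K₂, hK₂⟩ := phiW_bound hU β K₁ d hβ x (orderOf x.right) ω₀
  obtain ⟨K₃, hK₃0, hK₃⟩ := wreath_pcb hU hs x hc
  have hgC : Gauge (fun z : Subgroup.centralizer ({x} : Set (RegularWreathProduct U Ω)) =>
      vQ vU (z : RegularWreathProduct U Ω)) := by
    obtain ⟨h1, K, hK⟩ := hv
    exact ⟨fun z => h1 z, K, fun a b => by
      simpa using hK (a : RegularWreathProduct U Ω) (b : RegularWreathProduct U Ω)⟩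
  have H : PolyNilW (fun z : Subgroup.centralizer ({x} : Set (RegularWreathProduct U Ω)) =>
      vQ vU (z : RegularWreathProduct U Ω))
      (⟨x, Subgroup.mem_centralizer_singleton_iff.mpr rfl⟩ :
        Subgroup.centralizer ({x} : Set (RegularWreathProduct U Ω))) := by
    refine polyNilW_of_kernel hgC _ ?_
      (fun z => phiW β x (orderOf x.right) ω₀ (z : RegularWreathProduct U Ω))
      (β ((x ^ orderOf x.right).left ω₀)) hne ?_
      (ι := (Fin (orderOf x.right) × Ω) × Fin N)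
      (fun z p => if (x ^ (z.1.1 : ℕ) * (p : RegularWreathProduct U Ω)).right⁻¹ * ω₀ = z.1.2 then
        A z.2 ((x ^ (z.1.1 : ℕ) * (p : RegularWreathProduct U Ω)).left ω₀) else 0)
      (fun z q => B z.2 ((q : RegularWreathProduct U Ω).left z.1.2)) ?_ K₂ d ?_ ?_
    · intro y
      apply Subtype.ext
      have := Subgroup.mem_centralizer_singleton_iff.mp y.2
      simp only [Subgroup.coe_mul]
      first
        | exact this
        | exact this.symm
    · intro h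
      simp only [Subgroup.coe_mul]
      exact phiW_shift β x (orderOf x.right) ht ω₀ hsh h
    · intro p q
      simp only [Subgroup.coe_mul]
      rw [phiW_kernel β A B hAB x (orderOf x.right) ω₀ p q]
    · intro h
      exact hK₂ h
    · intro h
      have := hK₂ ((h : RegularWreathProduct U Ω)⁻¹)
      rw [vQ_inv hs] at this
      simpa using this
  have hv1 : ∀ y, 1 ≤ vQ (Ω := Ω) vU y := hv.1
  refine PolyNilW.of_centralizer hv
    (fun s => if h : IsConj x s then (hK₃ s h).choose else 1) (max K₃ 1) 1 ?_ ?_ H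
  · intro y
    rw [vQ_inv hs, pow_one]
    have h1 := hv1 y
    have h2 : (1 : ℝ) ≤ max K₃ 1 := le_max_right _ _
    nlinarith
  · intro s hs'
    simp only [dif_pos hs']
    obtain ⟨e1, e2⟩ := (hK₃ s hs').choose_spec
    refine ⟨e1, ?_⟩
    rw [pow_one]
    refine le_trans e2 ?_
    have h1 := hv1 s
    exact mul_le_mul_of_nonneg_right (le_max_left _ _) (by linarith)

end wreath

end Vale.Agent.P184.PN
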