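import Vale.Agent.P184.PN.OmX

/-!
# The functions `YX` (the general form of `Y`)
-/

namespace Vale.Agent.P184.PN

open scoped BigOperators

lemma sum_map_eraseIdx_YX {X : Type*} (f : X → ℝ) (pts : List X) (l : ℕ) (hl : l < pts.length) :
    ((pts.eraseIdx l).map f).sum = (pts.map f).sum - f pts[l] := by
  induction pts generalizing l with
  | nil => simp at hl
  | cons x pts ih =>
    cases l with
    | zero => simp
    | succ l =>
      simp only [List.length_cons, Nat.add_lt_add_iff_right] at hl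
      simp [ih l hl]
      ring

variable {X : Type*} {ι : Type*} [Fintype ι] (A B : ι → X → ℝ) (ct : X → ℝ)

noncomputable def YX (j : ℕ) (pts : List X) : ℝ :=
  OmX A B j [ct] pts - (1 / (2 * (pts.length : ℝ))) *
    ∑ i, ((pts.map (A i)).sum * OmX A B j [B i] pts - (pts.map (B i)).sum * OmX A B j [A i] pts)

/-- (Y1) Stokes.  Each `pts.eraseIdx l` has length `2 j + 2`.  The terms `OmX A B j [ct]` add up to `0`
(`Om_delta`).  ` ((pts.eraseIdx l).map (A i)).sum = (pts.map (A i)).sum - A i pts[l]`; the part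
with the full sum adds up to `0` (`Om_delta`), and by `Om_laplace`
`∑ (-1)^l A i pts[l] * OmX A B j [B i] (pts.eraseIdx l) = (-1)^(j+1) OmX A B j [A i, B i] pts`   (`L = []`),
`∑ (-1)^l B i pts[l] * OmX A B j [A i] (pts.eraseIdx l) = (-1)^(j+2) OmX A B j [A i, B i] pts`   (`L = [A i]`).
So the sum is `- 1/(2 (2j+2)) * ∑ i, 2 (-1)^j OmX A B j [A i, B i] pts`, and
`∑ i, OmX A B j [A i, B i] pts = Om (j+1) [] pts` by definition. -/
lemma YX_delta (j : ℕ) (pts : List X) (h : pts.length = 2 * j + 3) :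
    ∑ l ∈ Finset.range pts.length, (-1 : ℝ) ^ l * YX A B ct j (pts.eraseIdx l) =
      -((-1) ^ j * OmX A B (j + 1) [] pts) / (2 * j + 2) := by
  have hd : ∀ x : X → ℝ,
      ∑ l : Fin pts.length, (-1 : ℝ) ^ (l : ℕ) * OmX A B j [x] (pts.eraseIdx l) = 0 := by
    intro x
    have := OmX_delta A B j [x] pts (by simp [h])
    rwa [Finset.sum_range] at this
  have hA : ∀ i, ∑ l : Fin pts.length, (-1 : ℝ) ^ (l : ℕ) *
      (A i (pts.get l) * OmX A B j [B i] (pts.eraseIdx l)) = (-1) ^ (j + 1) * OmX A B j [A i, B i] pts := by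
    intro i
    simpa using OmX_laplace A B j [] [B i] (A i) pts (by simp [h])
  have hB : ∀ i, ∑ l : Fin pts.length, (-1 : ℝ) ^ (l : ℕ) *
      (B i (pts.get l) * OmX A B j [A i] (pts.eraseIdx l)) = (-1) ^ (j + 2) * OmX A B j [A i, B i] pts := by
    intro i
    simpa using OmX_laplace A B j [A i] [] (B i) pts (by simp [h])
  have hY : ∀ l : Fin pts.length, YX A B ct j (pts.eraseIdx l) = OmX A B j [ct] (pts.eraseIdx l) -
      (1 / (2 * (2 * (j : ℝ) + 2))) * ∑ i,
        (((pts.map (A i)).sum - A i (pts.get l)) * OmX A B j [B i] (pts.eraseIdx l) -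
          ((pts.map (B i)).sum - B i (pts.get l)) * OmX A B j [A i] (pts.eraseIdx l)) := by
    intro l
    have hlen : (pts.eraseIdx l).length = 2 * j + 2 := by
      rw [List.length_eraseIdx_of_lt l.2]; omega
    unfold YX
    rw [hlen]
    push_cast
    congr 2
    refine Finset.sum_congr rfl fun i _ => ?_
    rw [sum_map_eraseIdx_YX _ _ _ l.2, sum_map_eraseIdx_YX _ _ _ l.2]
    rfl
  have hi : ∀ i, ∑ l : Fin pts.length, (-1 : ℝ) ^ (l : ℕ) *
      (((pts.map (A i)).sum - A i (pts.get l)) * OmX A B j [B i] (pts.eraseIdx l) -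
          ((pts.map (B i)).sum - B i (pts.get l)) * OmX A B j [A i] (pts.eraseIdx l)) =
      2 * (-1) ^ j * OmX A B j [A i, B i] pts := by
    intro i
    have : ∀ l : Fin pts.length, (-1 : ℝ) ^ (l : ℕ) *
      (((pts.map (A i)).sum - A i (pts.get l)) * OmX A B j [B i] (pts.eraseIdx l) -
          ((pts.map (B i)).sum - B i (pts.get l)) * OmX A B j [A i] (pts.eraseIdx l)) =
        (pts.map (A i)).sum * ((-1 : ℝ) ^ (l : ℕ) * OmX A B j [B i] (pts.eraseIdx l))
        - (-1 : ℝ) ^ (l : ℕ) * (A i (pts.get l) * OmX A B j [B i] (pts.eraseIdx l))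
        - (pts.map (B i)).sum * ((-1 : ℝ) ^ (l : ℕ) * OmX A B j [A i] (pts.eraseIdx l))
        + (-1 : ℝ) ^ (l : ℕ) * (B i (pts.get l) * OmX A B j [A i] (pts.eraseIdx l)) := by
      intro l; ring
    simp_rw [this]
    rw [Finset.sum_add_distrib, Finset.sum_sub_distrib, Finset.sum_sub_distrib,
      ← Finset.mul_sum, ← Finset.mul_sum, hd, hd, hA, hB]
    ring
  rw [Finset.sum_range]
  simp_rw [hY, mul_sub]
  rw [Finset.sum_sub_distrib, hd]
  have hsw : ∑ l : Fin pts.length, (-1 : ℝ) ^ (l : ℕ) * ((1 / (2 * (2 * (j : ℝ) + 2))) * ∑ i,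
        (((pts.map (A i)).sum - A i (pts.get l)) * OmX A B j [B i] (pts.eraseIdx l) -
          ((pts.map (B i)).sum - B i (pts.get l)) * OmX A B j [A i] (pts.eraseIdx l))) =
      (1 / (2 * (2 * (j : ℝ) + 2))) * ∑ i, ∑ l : Fin pts.length, (-1 : ℝ) ^ (l : ℕ) *
      (((pts.map (A i)).sum - A i (pts.get l)) * OmX A B j [B i] (pts.eraseIdx l) -
          ((pts.map (B i)).sum - B i (pts.get l)) * OmX A B j [A i] (pts.eraseIdx l)) := by
    rw [Finset.sum_comm, Finset.mul_sum]
    refine Finset.sum_congr rfl fun l _ => ?_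
    rw [Finset.mul_sum, Finset.mul_sum, Finset.mul_sum]
    refine Finset.sum_congr rfl fun i _ => ?_
    ring
  rw [hsw]
  simp_rw [hi]
  have hOm : OmX A B (j + 1) [] pts = ∑ i, OmX A B j [A i, B i] pts := by simp [OmX]
  rw [hOm, ← Finset.mul_sum]
  have hj : (2 * (j : ℝ) + 2) ≠ 0 := by positivity
  field_simp
  ring

lemma abs_list_sum_le_YX (f : X → ℝ) (pts : List X) (M : ℝ)
    (h : ∀ p ∈ pts, |f p| ≤ M) : |(pts.map f).sum| ≤ pts.length * M := by
  induction pts with
  | nil => simp
  | cons p l ih =>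
    simp only [List.map_cons, List.sum_cons, List.length_cons, Nat.cast_add, Nat.cast_one]
    have h1 := h p List.mem_cons_self
    have h2 := ih (fun q hq => h q (List.mem_cons_of_mem _ hq))
    calc |f p + (l.map f).sum| ≤ |f p| + |(l.map f).sum| := abs_add_le _ _
      _ ≤ M + l.length * M := add_le_add h1 h2
      _ = (l.length + 1) * M := by ring

/-- (Y6) bound (`abs_Om_le`; `|sum| ≤ length * M`) -/
lemma abs_YX_le (j : ℕ) (pts : List X) (M : ℝ) (hM : 1 ≤ M)
    (hA : ∀ i, ∀ p ∈ pts, |A i p| ≤ M) (hB : ∀ i, ∀ p ∈ pts, |B i p| ≤ M)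
    (hc : ∀ p ∈ pts, |ct p| ≤ M) :
    |YX A B ct j pts| ≤ (1 + (Fintype.card ι : ℝ)) * ((Fintype.card ι : ℝ) ^ j * ((pts.length).factorial * M ^ (pts.length + 1))) := by
  set K : ℝ := (Fintype.card ι : ℝ) ^ j * ((pts.length).factorial * M ^ pts.length) with hK
  have hK0 : 0 ≤ K := by positivity
  have hM0 : 0 ≤ M := by linarith
  have h1 : |OmX A B j [ct] pts| ≤ K :=
    abs_OmX_le A B j [ct] pts M hM hA hB (by
      intro c hcm p hp
      rw [List.mem_singleton.1 hcm]; exact hc p hp)
  have h2 : ∀ i, |OmX A B j [B i] pts| ≤ K := fun i =>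
    abs_OmX_le A B j [B i] pts M hM hA hB (by
      intro c hcm p hp
      rw [List.mem_singleton.1 hcm]; exact hB i p hp)
  have h3 : ∀ i, |OmX A B j [A i] pts| ≤ K := fun i =>
    abs_OmX_le A B j [A i] pts M hM hA hB (by
      intro c hcm p hp
      rw [List.mem_singleton.1 hcm]; exact hA i p hp)
  have h4 : ∀ i, |(pts.map (A i)).sum| ≤ pts.length * M := fun i =>
    abs_list_sum_le_YX (A i) pts M (hA i)
  have h5 : ∀ i, |(pts.map (B i)).sum| ≤ pts.length * M := fun i =>
    abs_list_sum_le_YX (B i) pts M (hB i)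
  have hlen0 : (0 : ℝ) ≤ pts.length := Nat.cast_nonneg _
  have h6 : |∑ i, ((pts.map (A i)).sum * OmX A B j [B i] pts - (pts.map (B i)).sum * OmX A B j [A i] pts)|
      ≤ (Fintype.card ι : ℝ) * (2 * (pts.length * M * K)) := by
    calc |∑ i, ((pts.map (A i)).sum * OmX A B j [B i] pts - (pts.map (B i)).sum * OmX A B j [A i] pts)|
        ≤ ∑ i, |((pts.map (A i)).sum * OmX A B j [B i] pts - (pts.map (B i)).sum * OmX A B j [A i] pts)| :=
          Finset.abs_sum_le_sum_abs _ _
      _ ≤ ∑ _i : ι, 2 * (pts.length * M * K) := by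
          refine Finset.sum_le_sum fun i _ => ?_
          calc |((pts.map (A i)).sum * OmX A B j [B i] pts - (pts.map (B i)).sum * OmX A B j [A i] pts)|
              ≤ |(pts.map (A i)).sum * OmX A B j [B i] pts| + |(pts.map (B i)).sum * OmX A B j [A i] pts| :=
                abs_sub _ _
            _ = |(pts.map (A i)).sum| * |OmX A B j [B i] pts| + |(pts.map (B i)).sum| * |OmX A B j [A i] pts| := by
                rw [abs_mul, abs_mul]
            _ ≤ pts.length * M * K + pts.length * M * K :=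
                add_le_add (mul_le_mul (h4 i) (h2 i) (abs_nonneg _) (by positivity))
                  (mul_le_mul (h5 i) (h3 i) (abs_nonneg _) (by positivity))
            _ = 2 * (pts.length * M * K) := by ring
      _ = (Fintype.card ι : ℝ) * (2 * (pts.length * M * K)) := by
          rw [Finset.sum_const, Finset.card_univ, nsmul_eq_mul]
  have h7 : |(1 / (2 * (pts.length : ℝ))) *
      ∑ i, ((pts.map (A i)).sum * OmX A B j [B i] pts - (pts.map (B i)).sum * OmX A B j [A i] pts)|
      ≤ (Fintype.card ι : ℝ) * (M * K) := by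
    rw [abs_mul]
    rcases Nat.eq_zero_or_pos pts.length with h0 | hpos
    · rw [h0]; simp; positivity
    · have hp : (0 : ℝ) < pts.length := Nat.cast_pos.2 hpos
      rw [abs_of_nonneg (by positivity)]
      calc 1 / (2 * (pts.length : ℝ)) * |∑ i, ((pts.map (A i)).sum * OmX A B j [B i] pts - (pts.map (B i)).sum * OmX A B j [A i] pts)|
          ≤ 1 / (2 * (pts.length : ℝ)) * ((Fintype.card ι : ℝ) * (2 * (pts.length * M * K))) :=
            mul_le_mul_of_nonneg_left h6 (by positivity)
        _ = (Fintype.card ι : ℝ) * (M * K) := by field_simp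
  have h8 : (1 + (Fintype.card ι : ℝ)) * ((Fintype.card ι : ℝ) ^ j * ((pts.length).factorial * M ^ (pts.length + 1)))
      = (1 + (Fintype.card ι : ℝ)) * (M * K) := by
    rw [hK, pow_succ]; ring
  rw [h8]
  unfold YX
  calc |OmX A B j [ct] pts - (1 / (2 * (pts.length : ℝ))) *
      ∑ i, ((pts.map (A i)).sum * OmX A B j [B i] pts - (pts.map (B i)).sum * OmX A B j [A i] pts)|
      ≤ |OmX A B j [ct] pts| + |(1 / (2 * (pts.length : ℝ))) *
      ∑ i, ((pts.map (A i)).sum * OmX A B j [B i] pts - (pts.map (B i)).sum * OmX A B j [A i] pts)| := abs_sub _ _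
    _ ≤ K + (Fintype.card ι : ℝ) * (M * K) := add_le_add h1 h7
    _ ≤ M * K + (Fintype.card ι : ℝ) * (M * K) := by
        have : K ≤ M * K := by nlinarith
        linarith
    _ = (1 + (Fintype.card ι : ℝ)) * (M * K) := by ring


/-! ## New lemmas (rows U5 - U8) -/

/-- (U5) pull-back along a map (`OmX_map`, `List.map_map`, `List.length_map`) -/
lemma YX_map {Z : Type*} (f : Z → X) (j : ℕ) (pts : List Z) :
    YX A B ct j (pts.map f) = YX (fun i => A i ∘ f) (fun i => B i ∘ f) (ct ∘ f) j pts := by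
  unfold YX
  simp only [OmX_map, List.map_map, List.length_map, List.map_cons, List.map_nil]

/-- (U5) two points at which all `A i`, `B i` and `ct` agree (`OmX_rows_eq`) -/
lemma YX_rows_eq (j : ℕ) (pts : List X) (k l : ℕ) (hkl : k < l) (hl : l < pts.length)
    (hA : ∀ i, A i (pts[k]'(hkl.trans hl)) = A i pts[l])
    (hB : ∀ i, B i (pts[k]'(hkl.trans hl)) = B i pts[l])
    (hc : ct (pts[k]'(hkl.trans hl)) = ct pts[l]) : YX A B ct j pts = 0 := by
  have h1 : OmX A B j [ct] pts = 0 :=
    OmX_rows_eq A B j [ct] pts k l hkl hl hA hB (by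
      intro c hcm
      rw [List.mem_singleton.1 hcm]; exact hc)
  have h2 : ∀ i, OmX A B j [B i] pts = 0 := fun i =>
    OmX_rows_eq A B j [B i] pts k l hkl hl hA hB (by
      intro c hcm
      rw [List.mem_singleton.1 hcm]; exact hB i)
  have h3 : ∀ i, OmX A B j [A i] pts = 0 := fun i =>
    OmX_rows_eq A B j [A i] pts k l hkl hl hA hB (by
      intro c hcm
      rw [List.mem_singleton.1 hcm]; exact hA i)
  unfold YX
  simp [h1, h2, h3]

/-- (U6) the prism (as in the proof of `HeisM.Y_prism`): the terms `OmX A B j [A i]`,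
`OmX A B j [B i]` vanish by `OmX_rows_eq` (first and last point), and `OmX_prism`. -/
lemma YX_prism (j : ℕ) (t : ℝ) (p p' : X) (mid : List X) (ha : ∀ i, A i p' = A i p)
    (hb : ∀ i, B i p' = B i p) (hc : ct p' = ct p + t) :
    YX A B ct j (p :: mid ++ [p']) = (-1) ^ j * t * OmX A B j [] (p :: mid) := by
  have hlen : mid.length + 1 < (p :: mid ++ [p']).length := by simp
  have h0 : (p :: mid ++ [p'])[0]'(by simp) = p := by simp
  have h1 : (p :: mid ++ [p'])[mid.length + 1]'hlen = p' := by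
    simp [List.getElem_cons_succ]
  have hz : ∀ c : X → ℝ, c p' = c p → OmX A B j [c] (p :: mid ++ [p']) = 0 := by
    intro c hcp
    refine OmX_rows_eq A B j [c] (p :: mid ++ [p']) 0 (mid.length + 1) (by omega) hlen ?_ ?_ ?_
    · intro i; rw [h0, h1, ha]
    · intro i; rw [h0, h1, hb]
    · intro c' hc'
      rw [List.mem_singleton.1 hc', h0, h1, hcp]
  unfold YX
  rw [OmX_prism A B ct j t p p' mid ha hb hc]
  have : ∑ i, (((p :: mid ++ [p']).map (A i)).sum * OmX A B j [B i] (p :: mid ++ [p']) -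
      ((p :: mid ++ [p']).map (B i)).sum * OmX A B j [A i] (p :: mid ++ [p'])) = 0 := by
    refine Finset.sum_eq_zero fun i _ => ?_
    rw [hz (B i) (hb i), hz (A i) (ha i)]
    ring
  rw [this]
  ring

lemma OmX_single_ind [Fintype X] [DecidableEq X] (j : ℕ) (c : X → ℝ) (pts : List X) :
    OmX A B j [c] pts = ∑ v, c v * OmX A B j [ind v] pts := by
  have h := OmX_col_sum A B j [] [] Finset.univ c (fun v => ind v) pts
  have hc : (fun p => ∑ u, c u * ind u p) = c := by
    funext p
    simp [ind]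
  rw [hc] at h
  simpa using h

lemma OmX_sum_ind [Fintype X] [DecidableEq X] (j : ℕ) (pts : List X) :
    ∑ v, OmX A B j [ind v] pts = 0 := by
  have h := OmX_single_ind A B j (fun _ => 1) pts
  have h2 := OmX_col_const A B j [] [] 1 pts
  simp only [List.nil_append] at h2
  rw [h2] at h
  simpa using h.symm

lemma sum_map_Rz (pts : List X) (v : X) :
    (pts.map fun p => Rz A B ct p v).sum = pts.length * ct v - (pts.map ct).sum -
      (∑ i, ((pts.map (A i)).sum * B i v - A i v * (pts.map (B i)).sum)) / 2 := by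
  induction pts with
  | nil => simp
  | cons p l ih =>
    simp only [List.map_cons, List.sum_cons, List.length_cons, Nat.cast_add, Nat.cast_one, ih]
    unfold Rz
    have : ∑ i, ((A i p + (l.map (A i)).sum) * B i v - A i v * (B i p + (l.map (B i)).sum)) =
        ∑ i, (A i p * B i v - A i v * B i p) +
        ∑ i, ((l.map (A i)).sum * B i v - A i v * (l.map (B i)).sum) := by
      rw [← Finset.sum_add_distrib]
      refine Finset.sum_congr rfl fun i _ => ?_
      ring
    rw [this]
    ring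

/-- (U7) The canonical form.  `B i = fun p => ∑ v, B i v * ind v p`, so
`OmX A B j [B i] pts = ∑ v, B i v * OmX A B j [ind v] pts` (`OmX_col_sum`, `L = R = []`), the same for
`A i` and for `ct`; and `∑ v, OmX A B j [ind v] pts = 0` (`OmX_col_sum`, `OmX_col_const`).  Hence,
with `E v = OmX A B j [ind v] pts`, `N = pts.length`,
`∑ i, ((∑_p A i p) * ∑ v, B i v * E v - (∑_p B i p) * ∑ v, A i v * E v)`
`  = ∑ v, (∑_p ∑ i, (A i p * B i v - A i v * B i p)) * E v`
`  = ∑ v, (∑_p 2 * (ct v - ct p - Rz p v)) * E v = 2 * N * ∑ v, ct v * E v - 2 * ∑ v, (∑_p Rz p v) * E v`.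
If `N = 0` both sides vanish (`OmX_length`). -/
lemma YX_canon [Fintype X] [DecidableEq X] (j : ℕ) (pts : List X) :
    YX A B ct j pts = (1 / (pts.length : ℝ)) *
      ∑ v, (pts.map fun p => Rz A B ct p v).sum * OmX A B j [ind v] pts := by
  rcases Nat.eq_zero_or_pos pts.length with h0 | hpos
  · unfold YX
    rw [OmX_length A B j [ct] pts (by simp [h0]), h0]
    simp
  have hN : (pts.length : ℝ) ≠ 0 := by
    have : (0 : ℝ) < pts.length := Nat.cast_pos.2 hpos
    exact this.ne'
  unfold YX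
  simp_rw [sum_map_Rz]
  have h1 : ∑ v, ((pts.length : ℝ) * ct v - (pts.map ct).sum -
      (∑ i, ((pts.map (A i)).sum * B i v - A i v * (pts.map (B i)).sum)) / 2) *
        OmX A B j [ind v] pts =
      (pts.length : ℝ) * OmX A B j [ct] pts - (pts.map ct).sum * ∑ v, OmX A B j [ind v] pts -
      (∑ i, ((pts.map (A i)).sum * OmX A B j [B i] pts -
        (pts.map (B i)).sum * OmX A B j [A i] pts)) / 2 := by
    rw [OmX_single_ind A B j ct pts]
    have h2 : ∀ i, (pts.map (A i)).sum * OmX A B j [B i] pts -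
        (pts.map (B i)).sum * OmX A B j [A i] pts =
        ∑ v, ((pts.map (A i)).sum * B i v - A i v * (pts.map (B i)).sum) *
          OmX A B j [ind v] pts := by
      intro i
      rw [OmX_single_ind A B j (B i) pts, OmX_single_ind A B j (A i) pts, Finset.mul_sum,
        Finset.mul_sum, ← Finset.sum_sub_distrib]
      refine Finset.sum_congr rfl fun v _ => ?_
      ring
    simp_rw [h2]
    rw [Finset.sum_comm, Finset.mul_sum, Finset.mul_sum, Finset.sum_div, ← Finset.sum_sub_distrib,
      ← Finset.sum_sub_distrib]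
    refine Finset.sum_congr rfl fun v _ => ?_
    rw [← Finset.sum_mul]
    ring
  rw [h1, OmX_sum_ind]
  field_simp
  ring

/-- (U8) `YX` depends only on `Rz` (`YX_canon`, `OmX_gauge`) -/
theorem YX_gauge [Fintype X] [DecidableEq X] {ι' : Type*} [Fintype ι'] (A' B' : ι' → X → ℝ)
    (ct' : X → ℝ) (h : ∀ u v, Rz A B ct u v = Rz A' B' ct' u v) (j : ℕ) (pts : List X) :
    YX A B ct j pts = YX A' B' ct' j pts := by
  rw [YX_canon, YX_canon]
  simp_rw [h]
  congr 1
  refine Finset.sum_congr rfl fun v _ => ?_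
  rw [OmX_gauge A B A' B' ct ct' h]

end Vale.Agent.P184.PN
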